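import Crest.Agent.R69.Mon

/-! # Row 69: the algebraic dichotomy for saturated ideals of `ℤ[X]` -/

set_option autoImplicit false
open MeasureTheory Filter Set Polynomial

noncomputable section
namespace Crest.Agent.R69

namespace Alg

theorem ymon_addChar (ψ : AddChar ℤ[X] ℂ) (hψ : ∀ p, ‖ψ p‖ = 1) (p : ℤ[X]) :
    ymon (fun s => ψ (X ^ s)) p = ψ p := by
  induction p using Polynomial.induction_on' with
  | add p q hp hq =>
    rw [ymon_add (fun s => ne_zero_of_norm_one (hψ _)), hp, hq, AddChar.map_add_eq_mul]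
  | monomial s a =>
    rw [ymon_monomial, ← AddChar.map_zsmul_eq_zpow, ← C_mul_X_pow_eq_monomial, smul_eq_C_mul]

theorem exists_pow_far {z : ℂ} (hz : ‖z‖ = 1) (h1 : z ≠ 1) : ∃ r : ℕ, 1 ≤ ‖1 - z ^ r‖ := by
  by_contra hn
  push Not at hn
  have hre : ∀ r : ℕ, 1 / 2 ≤ (z ^ r).re := by
    intro r
    have h2 : ‖z ^ r‖ = 1 := by rw [norm_pow, hz, one_pow]
    have h3 : ‖1 - z ^ r‖ ^ 2 ≤ 1 := pow_le_one₀ (norm_nonneg _) (hn r).le
    have h4 : ‖z ^ r‖ ^ 2 = 1 := by rw [h2, one_pow]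
    rw [Complex.sq_norm, Complex.normSq_apply] at h3 h4
    simp only [Complex.sub_re, Complex.one_re, Complex.sub_im, Complex.one_im] at h3
    nlinarith
  have hpos : 0 < ‖z - 1‖ := norm_pos_iff.2 (sub_ne_zero.2 h1)
  obtain ⟨R, hR⟩ := exists_nat_gt (2 / ‖z - 1‖)
  have h5 : (R : ℝ) / 2 ≤ ‖∑ r ∈ Finset.range R, z ^ r‖ := by
    refine le_trans ?_ (Complex.re_le_norm _)
    rw [Complex.re_sum]
    calc (R : ℝ) / 2 = ∑ _r ∈ Finset.range R, (1 / 2 : ℝ) := by simp; ring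
      _ ≤ _ := Finset.sum_le_sum fun r _ => hre r
  have h6 : ‖∑ r ∈ Finset.range R, z ^ r‖ * ‖z - 1‖ < 1 := by
    rw [← norm_mul, geom_sum_mul, norm_sub_rev]
    exact hn R
  rw [div_lt_iff₀ hpos] at hR
  nlinarith

/-- `ℚ / ℤ → ℝ / ℤ`. -/
def toR : AddCircle (1 : ℚ) →+ AddCircle (1 : ℝ) :=
  QuotientAddGroup.map _ _ (Rat.castHom ℝ).toAddMonoidHom (by
    rintro _ ⟨n, rfl⟩
    exact ⟨n, by simp⟩)

theorem toR_eq_zero {x : AddCircle (1 : ℚ)} (h : toR x = 0) : x = 0 := by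
  induction x using QuotientAddGroup.induction_on with
  | H q =>
    obtain ⟨n, hn⟩ := (QuotientAddGroup.eq_zero_iff ((q : ℝ))).1 h
    refine (QuotientAddGroup.eq_zero_iff q).2 ⟨n, ?_⟩
    have : ((n : ℚ) : ℝ) = q := by simpa using hn
    simpa using Rat.cast_injective (α := ℝ) this

theorem exists_char (J : AddSubgroup ℤ[X]) {a : ℤ[X]} (ha : a ∉ J) :
    ∃ ψ : AddChar ℤ[X] ℂ, (∀ p, ‖ψ p‖ = 1) ∧ (∀ p ∈ J, ψ p = 1) ∧ ψ a ≠ 1 := by
  obtain ⟨c, hc⟩ := CharacterModule.exists_character_apply_ne_zero_of_ne_zero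
    (a := (a : ℤ[X] ⧸ J)) fun h => ha ((QuotientAddGroup.eq_zero_iff a).1 h)
  refine ⟨⟨fun p => (AddCircle.toCircle (toR (c (p : ℤ[X] ⧸ J))) : ℂ), by simp, fun p q => by
    simp [AddCircle.toCircle_add]⟩, fun p => by simp, fun p hp => ?_, fun h => hc ?_⟩
  · simp [(QuotientAddGroup.eq_zero_iff p).2 hp]
  · refine toR_eq_zero (AddCircle.injective_toCircle one_ne_zero ?_)
    rw [AddCircle.toCircle_zero]
    exact Circle.ext h

theorem homo_of_no_monic (I : Ideal ℤ[X]) (h : ∀ p ∈ I, ¬p.Monic) : Homo (I : Set ℤ[X]) := by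
  refine ⟨0, 0, le_rfl, le_rfl, one_pos, fun t => ?_⟩
  obtain ⟨ψ, h1, h2, h3⟩ := exists_char (I.toAddSubgroup ⊔ (degreeLT ℤ t).toAddSubgroup)
    (a := X ^ t) fun hm => by
      obtain ⟨q, hq, l, hl, hql⟩ := AddSubgroup.mem_sup.1 hm
      refine h q hq ?_
      rw [eq_sub_of_add_eq hql]
      exact monic_X_pow_sub (mem_degreeLT.1 hl)
  obtain ⟨r, hr⟩ := exists_pow_far (h1 _) h3
  refine ⟨fun s => ψ (X ^ s) ^ r, fun s => by rw [norm_pow, h1, one_pow], fun p hp => ?_, hr,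
    fun s hs => ?_⟩
  · change ymon (fun s => ψ (X ^ s) ^ r) p = 1
    rw [ymon_pow, ymon_addChar ψ h1, h2 p (AddSubgroup.mem_sup_left hp), one_pow]
  · beta_reduce
    rw [h2 (X ^ s) (AddSubgroup.mem_sup_right (mem_degreeLT.2 ?_))]
    · simp
    · rw [degree_X_pow]; exact_mod_cast hs

theorem homo_of_root (I : Ideal ℤ[X]) {z : ℂ} (hz : 1 < ‖z‖) (h : ∀ p ∈ I, aeval z p = 0) :
    Homo (I : Set ℤ[X]) := by
  have hz0 : 0 < ‖z‖ := by linarith
  refine ⟨Real.pi, ‖z‖⁻¹, Real.pi_pos.le, by positivity, inv_lt_one_of_one_lt₀ hz, fun t => ?_⟩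
  let ψ : AddChar ℤ[X] ℂ :=
    ⟨fun p => Complex.exp (Complex.I * (Real.pi * (aeval z p / z ^ t).re : ℝ)), by simp,
      fun p q => by simp [add_div, mul_add, Complex.exp_add]⟩
  have hψ : ∀ p, ψ p = Complex.exp (Complex.I * (Real.pi * (aeval z p / z ^ t).re : ℝ)) :=
    fun _ => rfl
  have h1 : ∀ p, ‖ψ p‖ = 1 := fun p => by rw [hψ, Complex.norm_exp_I_mul_ofReal]
  refine ⟨fun s => ψ (X ^ s), fun s => h1 _, fun p hp => ?_, ?_, fun s hs => ?_⟩
  · change ymon (fun s => ψ (X ^ s)) p = 1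
    rw [ymon_addChar ψ h1, hψ, h p hp]
    simp
  · have : z ^ t ≠ 0 := pow_ne_zero _ (norm_pos_iff.1 hz0)
    simp only [hψ, map_pow, aeval_X, div_self this, Complex.one_re, mul_one]
    rw [mul_comm, Complex.exp_pi_mul_I]
    norm_num
  · beta_reduce
    rw [norm_sub_rev, hψ]
    refine (Real.norm_exp_I_mul_ofReal_sub_one_le).trans ?_
    rw [norm_mul, Real.norm_of_nonneg Real.pi_pos.le]
    refine mul_le_mul_of_nonneg_left ((Complex.abs_re_le_norm _).trans (le_of_eq ?_))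
      Real.pi_pos.le
    obtain ⟨d, rfl⟩ := Nat.exists_eq_add_of_le hs.le
    simp only [map_pow, aeval_X, norm_div, norm_pow, Nat.add_sub_cancel_left, pow_add, norm_mul,
      inv_pow]
    field_simp

theorem sat_pow {I : Ideal ℤ[X]} (hI : ∀ p, X * p ∈ I → p ∈ I) (n : ℕ) :
    ∀ p, X ^ n * p ∈ I → p ∈ I := by
  induction n with
  | zero => simp
  | succ n ih => exact fun p hp => ih p (hI _ (by rwa [← mul_assoc, ← pow_succ']))

theorem zero_not_root {I : Ideal ℤ[X]} (hI : ∀ p, X * p ∈ I → p ∈ I) {p₀ : ℤ[X]} (h0 : p₀ ∈ I)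
    (hne : p₀ ≠ 0) (h : ∀ p ∈ I, aeval (0 : ℂ) p = 0) : False := by
  have key : ∀ n : ℕ, ∀ p ∈ I, X ^ n ∣ p := by
    intro n
    induction n with
    | zero => simp
    | succ n ih =>
      intro p hp
      have h1 : X ∣ p := by
        have := h p hp
        rw [← coeff_zero_eq_aeval_zero'] at this
        exact X_dvd_iff.2 (by simpa using this)
      obtain ⟨q, rfl⟩ := h1
      rw [pow_succ']
      exact mul_dvd_mul_left _ (ih q (hI q hp))
  have := natDegree_le_of_dvd (key (p₀.natDegree + 1) p₀ h0) hne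
  simp at this

open IntermediateField in
theorem kronecker {I : Ideal ℤ[X]} {p₀ : ℤ[X]} (h0 : p₀ ∈ I) (hm : p₀.Monic)
    (hle : ∀ z : ℂ, (∀ p ∈ I, aeval z p = 0) → ‖z‖ ≤ 1) {z : ℂ} (hz0 : z ≠ 0)
    (hz : ∀ p ∈ I, aeval z p = 0) : ∃ n, 0 < n ∧ z ^ n = 1 := by
  have hint : IsIntegral ℤ z := ⟨p₀, hm, hz p₀ h0⟩
  let K := ℚ⟮z⟯
  let : NumberField K :=
    { to_charZero := ℚ⟮z⟯.charZero
      to_finiteDimensional := adjoin.finiteDimensional hint.tower_top }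
  let y : K := ⟨z, mem_adjoin_simple_self ℚ z⟩
  suffices ∃ (n : ℕ) (_ : 0 < n), y ^ n = 1 by
    obtain ⟨n, hn₀, hn₁⟩ := this
    exact ⟨n, hn₀, congrArg (algebraMap K ℂ) hn₁⟩
  refine NumberField.Embeddings.pow_eq_one_of_norm_le_one (x := y) K ℂ
    (Subtype.coe_ne_coe.mp hz0) (coe_isIntegral_iff.mp hint) fun φ => hle _ fun p hp => ?_
  have H (ψ : K →+* ℂ) : ψ ((aeval y) p) = (aeval (ψ y)) p := by
    conv_rhs => rw [← Polynomial.map_id (p := p)]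
    exact p.map_aeval_eq_aeval_map (by ext; simp) y
  rw [← H, map_eq_zero_iff _ φ.injective,
    ← map_eq_zero_iff _ (FaithfulSMul.algebraMap_injective ↥K ℂ), H]
  exact hz p hp

theorem clear {I : Ideal ℤ[X]} {f : ℚ[X]} (hf : f ∈ I.map (mapRingHom (algebraMap ℤ ℚ))) :
    ∃ c : ℤ, c ≠ 0 ∧ ∃ p ∈ I, p.map (algebraMap ℤ ℚ) = c • f := by
  induction hf using Submodule.span_induction with
  | mem x hx =>
    obtain ⟨p, hp, rfl⟩ := hx
    exact ⟨1, one_ne_zero, p, hp, by simp⟩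
  | zero => exact ⟨1, one_ne_zero, 0, I.zero_mem, by simp⟩
  | add x y _ _ hx hy =>
    obtain ⟨c, hc, p, hp, h⟩ := hx
    obtain ⟨c', hc', p', hp', h'⟩ := hy
    refine ⟨c * c', mul_ne_zero hc hc', C c' * p + C c * p',
      I.add_mem (I.mul_mem_left _ hp) (I.mul_mem_left _ hp'), ?_⟩
    simp only [Polynomial.map_add, Polynomial.map_mul, h, h', zsmul_eq_mul, eq_intCast,
      Polynomial.map_intCast, Int.cast_mul]
    ring
  | smul r x _ hx =>
    obtain ⟨c, hc, p, hp, h⟩ := hx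
    obtain ⟨b, hb, hr⟩ := IsLocalization.integerNormalization_spec (nonZeroDivisors ℤ) r
    refine ⟨b * c, mul_ne_zero (nonZeroDivisors.ne_zero hb) hc, _ * p,
      I.mul_mem_left (IsLocalization.integerNormalization (nonZeroDivisors ℤ) r) hp, ?_⟩
    simp only [Polynomial.map_mul, h, hr, zsmul_eq_mul, smul_eq_mul, Int.cast_mul]
    ring

theorem exists_smul_mem {I : Ideal ℤ[X]} {p₀ : ℤ[X]} (h0 : p₀ ∈ I) (hne : p₀ ≠ 0)
    (hr : ∀ z : ℂ, (∀ p ∈ I, aeval z p = 0) → ∃ n, 0 < n ∧ z ^ n = 1) :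
    ∃ (m d : ℕ) (c : ℤ), 0 < m ∧ c ≠ 0 ∧ C c * (X ^ m - 1) ^ d ∈ I := by
  classical
  obtain ⟨g, hg⟩ : ∃ g : ℚ[X], I.map (mapRingHom (algebraMap ℤ ℚ)) = Ideal.span {g} :=
    ⟨_, (Ideal.span_singleton_generator _).symm⟩
  have hdvd : ∀ p ∈ I, g ∣ p.map (algebraMap ℤ ℚ) := fun p hp => by
    rw [← Ideal.mem_span_singleton, ← hg]
    exact Ideal.mem_map_of_mem (mapRingHom (algebraMap ℤ ℚ)) hp
  have hinj : Function.Injective (Polynomial.map (algebraMap ℤ ℚ)) :=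
    map_injective _ (algebraMap ℤ ℚ).injective_int
  have hg0 : g ≠ 0 := by
    rintro rfl
    exact hne (hinj (by simpa using hdvd p₀ h0))
  set G := g.map (algebraMap ℚ ℂ) with hG
  have hG0 : G ≠ 0 := Polynomial.map_ne_zero hg0
  have hroot : ∀ z ∈ G.roots, ∃ n, 0 < n ∧ z ^ n = 1 := fun z hz => hr z fun p hp => by
    have h1 : aeval z g = 0 := by
      have := (mem_roots hG0).1 hz
      rwa [IsRoot.def, hG, eval_map_algebraMap] at this
    have h2 := aeval_eq_zero_of_dvd_aeval_eq_zero (hdvd p hp) h1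
    rwa [aeval_map_algebraMap] at h2
  choose! n hn using hroot
  have hm : 0 < ∏ z ∈ G.roots.toFinset, n z :=
    Finset.prod_pos fun z hz => (hn z (Multiset.mem_toFinset.1 hz)).1
  set m := ∏ z ∈ G.roots.toFinset, n z with hmdef
  have hz : ∀ z ∈ G.roots, X - C z ∣ (X ^ m - 1 : ℂ[X]) := fun z hz => by
    obtain ⟨k, hk⟩ : n z ∣ m := Finset.dvd_prod_of_mem _ (Multiset.mem_toFinset.2 hz)
    rw [dvd_iff_isRoot, IsRoot.def]
    simp [hk, pow_mul, (hn z hz).2]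
  have h1 : G ∣ (X ^ m - 1) ^ G.roots.card := by
    have h2 := Multiset.prod_dvd_prod_of_dvd (S := G.roots) (fun z => X - C z)
      (fun _ => (X ^ m - 1 : ℂ[X])) hz
    rw [Multiset.map_const', Multiset.prod_replicate] at h2
    have h3 := C_leadingCoeff_mul_prod_multiset_X_sub_C
      (IsAlgClosed.card_roots_eq_natDegree (p := G))
    conv_lhs => rw [← h3]
    exact (IsUnit.mul_left_dvd (isUnit_C.2 (IsUnit.mk0 _ (leadingCoeff_ne_zero.2 hG0)))).2 h2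
  have h4 : g ∣ (X ^ m - 1) ^ G.roots.card := by
    rw [← map_dvd_map' (algebraMap ℚ ℂ)]
    simpa using h1
  obtain ⟨c, hc, p, hp, h⟩ := clear (I := I) (f := (X ^ m - 1) ^ G.roots.card)
    (by rw [hg, Ideal.mem_span_singleton]; exact h4)
  refine ⟨m, G.roots.card, c, hm, hc, ?_⟩
  have : C c * (X ^ m - 1) ^ G.roots.card = p := hinj (by rw [h]; simp)
  rwa [this]

theorem finite_quot {J : Ideal ℤ[X]} {p₀ : ℤ[X]} (h0 : p₀ ∈ J) (hm : p₀.Monic) {c : ℤ}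
    (hc : c ≠ 0) (hcJ : C c ∈ J) : Finite (ℤ[X] ⧸ J) := by
  have h1 := hm.finite_quotient
  have h2 : Module.Finite ℤ (ℤ[X] ⧸ J) := Module.Finite.of_surjective
    (Ideal.Quotient.factorₐ ℤ ((Ideal.span_singleton_le_iff_mem J).2 h0)).toLinearMap
    (Ideal.Quotient.factor_surjective ((Ideal.span_singleton_le_iff_mem J).2 h0))
  refine Module.finite_of_fg_torsion _ fun x => ⟨⟨c, mem_nonZeroDivisors_of_ne_zero hc⟩, ?_⟩
  obtain ⟨q, rfl⟩ := Ideal.Quotient.mk_surjective x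
  change c • Ideal.Quotient.mk J q = 0
  rw [← map_zsmul, Ideal.Quotient.eq_zero_iff_mem, smul_eq_C_mul]
  exact J.mul_mem_right _ hcJ

end Alg

open Alg in
theorem algStmt : AlgStmt := by
  intro I hI
  by_cases hA : ∀ p ∈ I, ¬p.Monic
  · exact Or.inr (homo_of_no_monic I hA)
  push Not at hA
  obtain ⟨p₀, h0, hm⟩ := hA
  by_cases hB : ∃ z : ℂ, 1 < ‖z‖ ∧ ∀ p ∈ I, aeval z p = 0
  · obtain ⟨z, hz, h⟩ := hB
    exact Or.inr (homo_of_root I hz h)
  left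
  have hle : ∀ z : ℂ, (∀ p ∈ I, aeval z p = 0) → ‖z‖ ≤ 1 := fun z hz =>
    not_lt.1 fun h => hB ⟨z, h, hz⟩
  obtain ⟨m, d, c, hm0, hc, hmem⟩ := exists_smul_mem h0 hm.ne_zero fun z hz =>
    kronecker h0 hm hle (by rintro rfl; exact zero_not_root hI h0 hm.ne_zero hz) hz
  let J : Ideal ℤ[X] := Submodule.comap (LinearMap.mulRight ℤ[X] ((X ^ m - 1) ^ d)) I
  have hJ : ∀ q, q ∈ J ↔ q * (X ^ m - 1) ^ d ∈ I := fun _ => Iff.rfl
  have := finite_quot (J := J) ((hJ _).2 (I.mul_mem_right _ h0)) hm hc ((hJ _).2 hmem)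
  obtain ⟨a, b, hab, h⟩ : ∃ a b : ℕ, a < b ∧
      Ideal.Quotient.mk J (X ^ b) = Ideal.Quotient.mk J (X ^ a) := by
    obtain ⟨a, b, hab, h⟩ :=
      Finite.exists_ne_map_eq_of_infinite fun n : ℕ => Ideal.Quotient.mk J (X ^ n)
    rcases lt_or_gt_of_ne hab with h' | h'
    exacts [⟨a, b, h', h.symm⟩, ⟨b, a, h', h⟩]
  obtain ⟨k, rfl⟩ := Nat.exists_eq_add_of_lt hab
  have h1 : (X ^ (k + 1) - 1) * (X ^ m - 1) ^ d ∈ I := by
    refine sat_pow hI a _ ?_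
    have := (hJ _).1 (Ideal.Quotient.eq.1 h)
    convert this using 1
    ring
  refine ⟨m * (k + 1), d + 1, by positivity, I.mem_of_dvd ?_ h1⟩
  rw [pow_succ' _ d]
  refine mul_dvd_mul ?_ (pow_dvd_pow_of_dvd ?_ d)
  · rw [mul_comm m, pow_mul]; exact sub_one_dvd_pow_sub_one _ _
  · rw [pow_mul]; exact sub_one_dvd_pow_sub_one _ _

theorem finalStmt (hR : RieszStmt) (hV : VdcStmt) : FinalStmt := by
  intro Ω m0 Q _ M ν ξ F η χ hP hZ hξ hlaw hF hF0 hη hC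
  rcases algStmt (relIdeal Q χ (fun s => (hC.uni s).2) fun p => (hC.shift p).1) (fun p hp => by
    rw [mem_relIdeal] at hp ⊢
    rw [mon_X_mul] at hp
    exact (hC.shift p).2 hp) with ⟨m, d, hm, h⟩ | h
  · exact hV Ω m0 Q M ν ξ F η χ hP hξ hlaw hF hF0 hη hC m d hm h
  · exact hR Ω m0 Q M ν ξ F η χ hP hZ hξ hlaw hF hη hC h

end Crest.Agent.R69
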