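import Crest.Agent.R69.Defs

/-! # Row 69: the array exists -/

set_option autoImplicit false
open MeasureTheory ProbabilityTheory Filter Topology Set
open scoped ENNReal

noncomputable section
namespace Crest.Agent.R69
namespace ArrA

/-! ## Iterated ultrafilters -/
section UF
variable {N : Type} (𝒰 : Ultrafilter N)

/-- tensor powers -/
def TT : ℕ → Filter (List N)
  | 0 => pure []
  | k + 1 => Filter.bind (𝒰 : Filter N) fun n => (TT k).map (n :: ·)

lemma bind_const {α : Type} (G : Filter α) : Filter.bind (𝒰 : Filter N) (fun _ => G) = G := by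
  ext s
  rw [Filter.mem_bind']
  by_cases h : s ∈ G
  · simp [h]
  · simp [h]

lemma bind_congr' {α β : Type} {F : Filter α} {m m' : α → Filter β} (h : ∀ᶠ a in F, m a = m' a) :
    Filter.bind F m = Filter.bind F m' := by
  ext s
  rw [Filter.mem_bind', Filter.mem_bind']
  constructor
  · intro hs
    filter_upwards [hs, h] with a ha hb
    simpa [← hb] using ha
  · intro hs
    filter_upwards [hs, h] with a ha hb
    simpa [hb] using ha

lemma TT_add (a b : ℕ) :
    TT 𝒰 (a + b) = Filter.bind (TT 𝒰 a) fun w₁ => (TT 𝒰 b).map (w₁ ++ ·) := by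
  induction a with
  | zero =>
    ext s
    simp [TT]
  | succ a ih =>
    have : a + 1 + b = (a + b) + 1 := by omega
    rw [this, TT, ih, TT]
    ext s
    simp only [Filter.mem_bind', Filter.mem_map]
    rfl

variable {ι : Type} [LinearOrder ι]

/-- iterated ultrafilter along a list of indices -/
def UL (v₀ : ι → N) : List ι → Ultrafilter (ι → N)
  | [] => pure v₀
  | i :: L => 𝒰.bind fun n => (UL v₀ L).map fun v => Function.update v i n

lemma UL_cons (v₀ : ι → N) (i : ι) (L : List ι) :
    (UL 𝒰 v₀ (i :: L) : Filter (ι → N)) =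
      Filter.bind (𝒰 : Filter N) fun n =>
        (UL 𝒰 v₀ L : Filter (ι → N)).map fun v => Function.update v i n := rfl

lemma UL_map (v₀ : ι → N) {l L : List ι} (h : l.Sublist L) (hL : L.Nodup) :
    (UL 𝒰 v₀ L : Filter (ι → N)).map (fun v => l.map v) = TT 𝒰 l.length := by
  induction h with
  | slnil => simp [UL, TT]
  | @cons l L i h ih =>
    rw [List.nodup_cons] at hL
    have hi : i ∉ l := fun hh => hL.1 (h.subset hh)
    have key : ∀ (n : N) (v : ι → N), l.map (Function.update v i n) = l.map v := by
      intro n v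
      refine List.map_congr_left fun j hj => ?_
      exact Function.update_of_ne (by rintro rfl; exact hi hj) _ _
    rw [UL_cons, Filter.map_bind]
    have : (Filter.map (fun v : ι → N => l.map v) ∘ fun n =>
        (UL 𝒰 v₀ L : Filter (ι → N)).map fun v => Function.update v i n) =
        fun _ => TT 𝒰 l.length := by
      funext n
      simp only [Function.comp, Filter.map_map]
      rw [← ih hL.2]
      congr 1
      funext v
      exact key n v
    rw [this, bind_const]
  | @cons_cons l L i h ih =>
    rw [List.nodup_cons] at hL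
    have hi : i ∉ l := fun hh => hL.1 (h.subset hh)
    have key : ∀ (n : N) (v : ι → N), l.map (Function.update v i n) = l.map v := by
      intro n v
      refine List.map_congr_left fun j hj => ?_
      exact Function.update_of_ne (by rintro rfl; exact hi hj) _ _
    rw [UL_cons, Filter.map_bind, List.length_cons, TT]
    congr 1
    funext n
    simp only [Function.comp, Filter.map_map]
    rw [← ih hL.2, Filter.map_map]
    congr 1
    funext v
    simp [key]

/-- the limit ultrafilter -/
def WW (v₀ : ι → N) : Ultrafilter (ι → N) :=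
  (Ultrafilter.of (atTop : Filter (Finset ι))).bind fun F => UL 𝒰 v₀ F.sort

lemma WW_map (v₀ : ι → N) {l : List ι} (hl : l.Pairwise (· < ·)) :
    (WW 𝒰 v₀ : Filter (ι → N)).map (fun v => l.map v) = TT 𝒰 l.length := by
  have h1 : (WW 𝒰 v₀ : Filter (ι → N)) =
      Filter.bind (Ultrafilter.of (atTop : Filter (Finset ι)) : Filter (Finset ι))
        fun F => (UL 𝒰 v₀ F.sort : Filter (ι → N)) := rfl
  rw [h1, Filter.map_bind, ← bind_const (Ultrafilter.of (atTop : Filter (Finset ι)))
    (TT 𝒰 l.length)]
  refine bind_congr' ?_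
  have h2 : ∀ᶠ F in (atTop : Filter (Finset ι)), l.toFinset ≤ F := eventually_ge_atTop _
  filter_upwards [Ultrafilter.of_le _ h2] with F hF
  refine UL_map 𝒰 v₀ ?_ (Finset.sort_nodup _ _)
  refine List.sublist_of_subperm_of_pairwise (r := (· ≤ ·)) ?_ (hl.imp le_of_lt)
    (Finset.pairwise_sort _ _)
  refine List.subperm_of_subset (hl.imp ne_of_lt) fun i hi => ?_
  rw [Finset.mem_sort]
  exact hF (List.mem_toFinset.2 hi)

omit [LinearOrder ι] in
lemma factor {β : Type} [Nonempty β] {g : (ι → N) → β} {l : List ι}
    (hg : ∀ v v', (∀ i ∈ l, v i = v' i) → g v = g v') :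
    ∃ G : List N → β, ∀ v, g v = G (l.map v) := by
  have : g.FactorsThrough fun v => l.map v := by
    intro v v' h
    exact hg v v' fun i hi => List.map_inj_left.1 h i hi
  obtain ⟨e, he⟩ := (Function.factorsThrough_iff g).1 this
  exact ⟨e, fun v => congrFun he v⟩

lemma sort_lt (F : Finset ι) : F.sort.Pairwise (· < ·) := (Finset.sortedLT_sort F).pairwise

/-- renaming invariance -/
lemma WW_ren (v₀ : ι → N) {β : Type} [Nonempty β] {g : (ι → N) → β} {F : Finset ι}
    (hg : ∀ v v', (∀ i ∈ F, v i = v' i) → g v = g v') {σ : ι → ι} (hσ : StrictMonoOn σ F) :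
    (WW 𝒰 v₀ : Filter (ι → N)).map (fun v => g (v ∘ σ)) = (WW 𝒰 v₀ : Filter (ι → N)).map g := by
  obtain ⟨G, hG⟩ := factor (l := F.sort) (g := g) fun v v' h =>
    hg v v' fun i hi => h i ((Finset.mem_sort _).2 hi)
  have hl : (F.sort.map σ).Pairwise (· < ·) := by
    rw [List.pairwise_map]
    refine (sort_lt F).imp_of_mem fun {a b} ha hb hab => ?_
    exact hσ ((Finset.mem_sort _).1 ha) ((Finset.mem_sort _).1 hb) hab
  have e1 : (fun v : ι → N => g (v ∘ σ)) = G ∘ fun v => (F.sort.map σ).map v := by
    funext v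
    simp [hG, List.map_map]
  have e2 : g = G ∘ fun v => F.sort.map v := funext hG
  rw [e1, ← Filter.map_map, WW_map 𝒰 v₀ hl]
  conv_rhs => rw [e2, ← Filter.map_map, WW_map 𝒰 v₀ (sort_lt F)]
  rw [List.length_map]

/-- merging two assignments at `p` -/
def mrg (p : ι) (v₁ v : ι → N) : ι → N := fun i => if i < p then v₁ i else v i

/-- splitting -/
lemma WW_split (v₀ : ι → N) {β : Type} [Nonempty β] {g : (ι → N) → β} {F : Finset ι}
    (hg : ∀ v v', (∀ i ∈ F, v i = v' i) → g v = g v') (p : ι) :
    (WW 𝒰 v₀ : Filter (ι → N)).map g =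
      Filter.bind (WW 𝒰 v₀ : Filter (ι → N)) fun v₁ =>
        (WW 𝒰 v₀ : Filter (ι → N)).map fun v => g (mrg p v₁ v) := by
  set l₁ := (F.filter (· < p)).sort with hl₁
  set l₂ := (F.filter (fun i => ¬ i < p)).sort with hl₂
  have m1 : ∀ i ∈ l₁, i ∈ F ∧ i < p := fun i hi => by
    simpa [hl₁] using hi
  have m2 : ∀ i ∈ l₂, i ∈ F ∧ ¬ i < p := fun i hi => by
    have := (Finset.mem_sort _).1 hi
    exact Finset.mem_filter.1 this
  have hl : (l₁ ++ l₂).Pairwise (· < ·) := by
    rw [List.pairwise_append]
    refine ⟨sort_lt _, sort_lt _, fun a ha b hb => ?_⟩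
    exact (m1 a ha).2.trans_le (not_lt.1 (m2 b hb).2)
  obtain ⟨G, hG⟩ := factor (l := l₁ ++ l₂) (g := g) fun v v' h => hg v v' fun i hi => h i (by
    rw [List.mem_append]
    by_cases hip : i < p
    · left; simp [hl₁, hi, hip]
    · right; rw [hl₂, Finset.mem_sort]; exact Finset.mem_filter.2 ⟨hi, hip⟩)
  have e2 : g = G ∘ fun v => (l₁ ++ l₂).map v := funext hG
  have e3 : ∀ v₁ v : ι → N, g (mrg p v₁ v) = G (l₁.map v₁ ++ l₂.map v) := by
    intro v₁ v
    rw [hG, List.map_append]
    congr 2
    · exact List.map_congr_left fun i hi => by simp [mrg, (m1 i hi).2]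
    · exact List.map_congr_left fun i hi => by simp only [mrg, if_neg (m2 i hi).2]
  conv_lhs => rw [e2, ← Filter.map_map, WW_map 𝒰 v₀ hl, List.length_append, TT_add,
    ← WW_map 𝒰 v₀ (l := l₁) (sort_lt _), ← WW_map 𝒰 v₀ (l := l₂) (sort_lt _)]
  simp only [e3]
  ext s
  simp only [Filter.mem_bind', Filter.mem_map]
  rfl

/-- one index -/
lemma WW_one (v₀ : ι → N) (p : ι) :
    (WW 𝒰 v₀ : Filter (ι → N)).map (fun v => v p) = (𝒰 : Filter N) := by
  have e : (fun v : ι → N => v p) = (fun w : List N => w.headD (v₀ p)) ∘ fun v => [p].map v := by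
    funext v; simp
  rw [e, ← Filter.map_map, WW_map 𝒰 v₀ (List.pairwise_singleton _ _)]
  ext s
  simp only [List.length_singleton, TT, Filter.mem_map, Filter.mem_bind', Filter.mem_pure]
  rfl

end UF

/-! ## The laws -/
section Law
variable {M : ℕ} {N : Type} (ev : N → La →+ ℤ)

def Hs (v : II → N) : (II →₀ La) →+ ℤ := Finsupp.liftAddHom fun i => ev (v i)

def Hv (v : II → N) (y : Pos) : ℤ := y.1 + Hs ev v y.2

def Ph (v : II → N) (x : Sq M) : Om M := fun y => x (Hv ev v y)

lemma measurable_Ph (v : II → N) : Measurable (Ph (M := M) ev v) :=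
  measurable_pi_lambda _ fun _ => measurable_pi_apply _

lemma Hs_single (v : II → N) (p : II) (l : La) : Hs ev v (Finsupp.single p l) = ev (v p) l := by
  simp [Hs]

lemma Hs_congr {v v' : II → N} {w : II →₀ La} (h : ∀ i, w i ≠ 0 → v i = v' i) :
    Hs ev v w = Hs ev v' w := by
  simp only [Hs, Finsupp.liftAddHom_apply]
  refine Finsupp.sum_congr fun i hi => ?_
  rw [h i (Finsupp.mem_support_iff.1 hi)]

lemma Hs_mapDomain (v : II → N) (σ : II → II) (w : II →₀ La) :
    Hs ev v (w.mapDomain σ) = Hs ev (v ∘ σ) w := by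
  induction w using Finsupp.induction_linear with
  | zero => simp
  | add f g hf hg => rw [Finsupp.mapDomain_add, map_add, map_add, hf, hg]
  | single a b => rw [Finsupp.mapDomain_single, Hs_single, Hs_single]; rfl

lemma Hv_clp (p : II) (v₁ v : II → N) (y : Pos) :
    Hv ev v (clp p (Hs ev v₁) y) = Hv ev (mrg p v₁ v) y := by
  classical
  obtain ⟨t, w⟩ := y
  simp only [Hv, clp]
  rw [add_assoc]
  congr 1
  induction w using Finsupp.induction_linear with
  | zero => simp [Finsupp.filter_zero]
  | add f g hf hg =>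
    rw [Finsupp.filter_add, Finsupp.filter_add, map_add, map_add, map_add, ← hf, ← hg]; ring
  | single a b =>
    by_cases h : a < p
    · rw [Finsupp.filter_single_of_pos (fun x => x < p) h,
        Finsupp.filter_single_of_neg (fun x => p ≤ x) (not_le.2 h)]
      simp [Hs_single, mrg, h]
    · rw [Finsupp.filter_single_of_neg (fun x => x < p) h,
        Finsupp.filter_single_of_pos (fun x => p ≤ x) (not_lt.1 h)]
      simp [Hs_single, mrg, h]

lemma continuous_pull (ρ : Pos → Pos) : Continuous (pull (M := M) ρ) :=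
  continuous_pi fun _ => continuous_apply _

lemma continuous_xs : Continuous (xs (M := M)) :=
  continuous_pi fun _ => continuous_apply _

/-- sets of a finite cylinder σ-algebra -/
lemma exists_eq_preimage {W : Finset Pos} {A : Set (Om M)} (hA : MeasurableSet[sg M W] A) :
    ∃ B : Set (W → Al M), A = (fun (ω : Om M) (y : W) => ω y) ⁻¹' B := by
  have hle : sg M W ≤ MeasurableSpace.comap (fun (ω : Om M) (y : W) => ω y) ⊤ := by
    refine iSup₂_le fun y hy => ?_
    rintro s ⟨t, -, rfl⟩
    exact ⟨{b | b ⟨y, hy⟩ ∈ t}, trivial, rfl⟩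
  obtain ⟨B, -, hB⟩ := hle A hA
  exact ⟨B, hB.symm⟩

lemma isClopen_pre (W : Finset Pos) (B : Set (W → Al M)) :
    IsClopen ((fun (ω : Om M) (y : W) => ω y) ⁻¹' B) :=
  (isClopen_discrete B).preimage (continuous_pi fun _ => continuous_apply _)

variable (ν : Measure (Sq M)) [IsProbabilityMeasure ν]

def law (v : II → N) : ProbabilityMeasure (Om M) :=
  ⟨ν.map (Ph ev v), Measure.isProbabilityMeasure_map (measurable_Ph ev v).aemeasurable⟩

lemma law_coe (v : II → N) : (law ev ν v : Measure (Om M)) = ν.map (Ph ev v) := rfl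

lemma law_apply (v : II → N) {A : Set (Om M)} (hA : IsClopen A) :
    (law ev ν v : Measure (Om M)) A = ν (Ph ev v ⁻¹' A) :=
  Measure.map_apply (measurable_Ph ev v) hA.isOpen.measurableSet

/-- the finite set of indices -/
def fidx (W : Finset Pos) : Finset II := W.biUnion fun x => x.2.support

lemma law_dep (W : Finset Pos) (B : Set (W → Al M)) (v v' : II → N)
    (h : ∀ i ∈ fidx W, v i = v' i) :
    (law ev ν v : Measure (Om M)) ((fun (ω : Om M) (y : W) => ω y) ⁻¹' B) =
      (law ev ν v' : Measure (Om M)) ((fun (ω : Om M) (y : W) => ω y) ⁻¹' B) := by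
  rw [law_apply ev ν v (isClopen_pre W B), law_apply ev ν v' (isClopen_pre W B)]
  congr 1
  ext x
  have : (fun y : W => Ph ev v x y) = fun y : W => Ph ev v' x y := by
    funext y
    simp only [Ph, Hv]
    rw [Hs_congr ev (v := v) (v' := v') fun i hi =>
      h i (Finset.mem_biUnion.2 ⟨y, y.2, Finsupp.mem_support_iff.2 hi⟩)]
  simp only [mem_preimage, this]

end Law

end ArrA

open ArrA in
theorem arrStmt : ArrStmt := by
  intro M ν hν N 𝒰 ev
  have := hν.prob
  obtain ⟨n₀⟩ : Nonempty N := 𝒰.neBot.nonempty
  set W := WW 𝒰 (fun _ : II => n₀) with hW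
  obtain ⟨P, -, hP⟩ := isCompact_univ.ultrafilter_le_nhds (W.map (law ev ν)) (by simp)
  have hP' : Tendsto (law ev ν) W (𝓝 P) := hP
  have hcl : ∀ A : Set (Om M), IsClopen A →
      Tendsto (fun v => (law ev ν v : Measure (Om M)) A) W (𝓝 ((P : Measure (Om M)) A)) := by
    intro A hA
    exact ProbabilityMeasure.tendsto_measure_of_null_frontier_of_tendsto' hP'
      (by simp [hA.frontier_eq])
  refine ⟨P, ⟨P.2, fun γ => ?_, fun F σ hσ A hA => ?_, fun F p ε hε => ?_, ?_⟩, ?_⟩
  · -- invariance
    refine ⟨(continuous_pull _).measurable, ?_⟩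
    have h1 := ProbabilityMeasure.tendsto_map_of_tendsto_of_continuous _ _ hP'
      (continuous_pull (M := M) (· + γ))
    have h2 : (fun v => (law ev ν v).map (continuous_pull (M := M) (· + γ)).measurable.aemeasurable)
        = law ev ν := by
      funext v
      apply Subtype.ext
      change Measure.map _ (ν.map (Ph ev v)) = ν.map (Ph ev v)
      rw [Measure.map_map (continuous_pull _).measurable (measurable_Ph ev v)]
      have e : pull (· + γ) ∘ Ph (M := M) ev v = Ph ev v ∘ sh (Hv ev v γ) := by
        funext x y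
        simp only [Function.comp, pull, Ph, sh, Hv, Prod.fst_add, Prod.snd_add, map_add]
        congr 1; ring
      rw [e, ← Measure.map_map (measurable_Ph ev v) (hν.inv _).measurable, (hν.inv _).map_eq]
    rw [h2] at h1
    have h3 := tendsto_nhds_unique h1 hP'
    exact congrArg Subtype.val h3
  · -- contractability
    obtain ⟨B, rfl⟩ := exists_eq_preimage hA
    set A := (fun (ω : Om M) (y : F) => ω y) ⁻¹' B with hAdef
    have hA' : IsClopen A := isClopen_pre F B
    have h1 := hcl _ (hA'.preimage (continuous_pull (mv σ)))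
    have h2 := hcl _ hA'
    have e : (fun v => (law ev ν v : Measure (Om M)) (pull (mv σ) ⁻¹' A)) =
        fun v => (law ev ν (v ∘ σ) : Measure (Om M)) A := by
      funext v
      rw [law_apply ev ν _ hA', law_apply ev ν _ (hA'.preimage (continuous_pull (mv σ)))]
      congr 1
      rw [← preimage_comp]
      congr 1
      funext x y
      simp only [Function.comp, pull, Ph, Hv, mv, Hs_mapDomain]
    rw [e] at h1
    have hσ' : StrictMonoOn σ (fidx F) := hσ.mono fun i hi => by
      obtain ⟨x, hx, hi⟩ := Finset.mem_biUnion.1 (Finset.mem_coe.1 hi)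
      exact ⟨x, hx, Finsupp.mem_support_iff.1 hi⟩
    have h3 := WW_ren 𝒰 (fun _ : II => n₀)
      (g := fun v => (law ev ν v : Measure (Om M)) A) (law_dep ev ν F B) hσ'
    unfold Tendsto at h1 h2
    rw [← hW] at h3
    rw [h3] at h1
    exact tendsto_nhds_unique (f := fun v => (law ev ν v : Measure (Om M)) A)
      (l := (W : Filter (II → N))) h1 h2
  · -- Fubini property
    have key : ∀ B : Set (F → Al M), ∀ᶠ v₁ in (W : Filter (II → N)),
        |(P : Measure (Om M)).real (pull (clp p (Hs ev v₁)) ⁻¹'
            ((fun (ω : Om M) (y : F) => ω y) ⁻¹' B)) -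
          (P : Measure (Om M)).real ((fun (ω : Om M) (y : F) => ω y) ⁻¹' B)| ≤ ε := by
      intro B
      set A := (fun (ω : Om M) (y : F) => ω y) ⁻¹' B with hAdef
      have hA' : IsClopen A := isClopen_pre F B
      have hr : ∀ A : Set (Om M), IsClopen A →
          Tendsto (fun v => (law ev ν v : Measure (Om M)).real A) W
            (𝓝 ((P : Measure (Om M)).real A)) := fun A hA =>
        (ENNReal.tendsto_toReal (measure_ne_top _ _)).comp (hcl A hA)
      have h2 := hr _ hA'
      have h3 := WW_split 𝒰 (fun _ : II => n₀)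
        (g := fun v => (law ev ν v : Measure (Om M)).real A) (F := fidx F)
        (fun v v' h => by simp only [Measure.real]; rw [law_dep ev ν F B v v' h]) p
      rw [← hW] at h3
      have h4 : {r : ℝ | |r - (P : Measure (Om M)).real A| ≤ ε} ∈
          𝓝 ((P : Measure (Om M)).real A) := by
        have := Metric.closedBall_mem_nhds ((P : Measure (Om M)).real A) hε
        simpa [Metric.closedBall, Real.dist_eq] using this
      have h5 := h2 h4
      rw [h3, Filter.mem_bind'] at h5
      filter_upwards [h5] with v₁ hv₁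
      have h6 := hr _ (hA'.preimage (continuous_pull (clp p (Hs ev v₁))))
      have e : (fun v => (law ev ν v : Measure (Om M)).real (pull (clp p (Hs ev v₁)) ⁻¹' A)) =
          fun v => (law ev ν (mrg p v₁ v) : Measure (Om M)).real A := by
        funext v
        simp only [Measure.real]
        rw [law_apply ev ν _ hA', law_apply ev ν _ (hA'.preimage (continuous_pull _))]
        congr 2
        rw [← preimage_comp]
        congr 1
        funext x y
        simp only [Function.comp, pull, Ph, Hv_clp]
      rw [e] at h6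
      have hc : IsClosed {r : ℝ | |r - (P : Measure (Om M)).real A| ≤ ε} :=
        isClosed_le (by fun_prop) continuous_const
      exact hc.mem_of_tendsto h6 hv₁
    obtain ⟨v₁, hv₁⟩ := (eventually_all.2 key).exists
    refine ⟨Hs ev v₁, fun A hA => ?_⟩
    obtain ⟨B, rfl⟩ := exists_eq_preimage hA
    exact hv₁ B
  · -- law at the origin
    have h1 := ProbabilityMeasure.tendsto_map_of_tendsto_of_continuous _ _ hP'
      (continuous_xs (M := M))
    have h2 : (fun v => (law ev ν v).map (continuous_xs (M := M)).measurable.aemeasurable)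
        = fun _ => (⟨ν, hν.prob⟩ : ProbabilityMeasure (Sq M)) := by
      funext v
      apply Subtype.ext
      change Measure.map _ (ν.map (Ph ev v)) = ν
      rw [Measure.map_map continuous_xs.measurable (measurable_Ph ev v)]
      have e : xs ∘ Ph (M := M) ev v = id := by
        funext x y
        simp [xs, Ph, Hv]
      rw [e, Measure.map_id]
    rw [h2] at h1
    have h3 := tendsto_nhds_unique h1 tendsto_const_nhds
    exact congrArg Subtype.val h3
  · intro p k t l F
    have hc : Continuous fun ω : Om M => F (fun i => ω (t i, Finsupp.single p (l i))) :=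
      continuous_of_discreteTopology.comp (continuous_pi fun _ => continuous_apply _)
    have h1 := ProbabilityMeasure.tendsto_iff_forall_integral_tendsto.1 hP'
      (BoundedContinuousFunction.mkOfCompact ⟨_, hc⟩)
    simp only [BoundedContinuousFunction.mkOfCompact_apply, ContinuousMap.coe_mk] at h1
    have e : (fun v => ∫ ω, F (fun i => ω (t i, Finsupp.single p (l i)))
        ∂(law ev ν v : Measure (Om M))) =
        (fun n => ∫ x, F (fun i => x (t i + ev n (l i))) ∂ν) ∘ fun v : II → N => v p := by
      funext v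
      rw [law_coe, integral_map (measurable_Ph ev v).aemeasurable hc.aestronglyMeasurable]
      simp [Ph, Hv, Hs_single]
    rw [e] at h1
    rw [← WW_one 𝒰 (fun _ : II => n₀) p]
    exact h1

end Crest.Agent.R69
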