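import Crest.Agent.R69.Defs

/-! # Row 69: `Main0` from the array and the induction step -/

set_option autoImplicit false
open MeasureTheory ProbabilityTheory Filter Topology Set

noncomputable section
namespace Crest.Agent.R69
namespace Asm0

variable {M : ℕ}

/-- the limit clause of `ArrStmt` -/
def Lim (ν : Measure (Sq M)) (P : Measure (Om M)) {N : Type} (𝒰 : Ultrafilter N)
    (ev : N → La →+ ℤ) : Prop :=
  ∀ (p : II) (k : ℕ) (t : Fin k → ℤ) (l : Fin k → La) (F : (Fin k → Al M) → ℝ),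
    Tendsto (fun n => ∫ x, F (fun i => x (t i + ev n (l i))) ∂ν) 𝒰
      (𝓝 (∫ ω, F (fun i => ω (t i, Finsupp.single p (l i))) ∂P))

lemma Lim.fintype {ν : Measure (Sq M)} {P : Measure (Om M)} {N : Type} {𝒰 : Ultrafilter N}
    {ev : N → La →+ ℤ} (h : Lim ν P 𝒰 ev) (p : II) {ι : Type} [Fintype ι] (t : ι → ℤ)
    (l : ι → La) (F : (ι → Al M) → ℝ) :
    Tendsto (fun n => ∫ x, F (fun i => x (t i + ev n (l i))) ∂ν) 𝒰
      (𝓝 (∫ ω, F (fun i => ω (t i, Finsupp.single p (l i))) ∂P)) := by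
  let e := Fintype.equivFin ι
  have := h p _ (t ∘ e.symm) (l ∘ e.symm) (fun y => F (fun i => y (e i)))
  simpa using this

lemma Lim.set {ν : Measure (Sq M)} {P : Measure (Om M)} {N : Type} {𝒰 : Ultrafilter N}
    {ev : N → La →+ ℤ} (h : Lim ν P 𝒰 ev) (p : II) {ι : Type} [Fintype ι] (t : ι → ℤ)
    (l : ι → La) (C : Set (ι → Al M)) :
    Tendsto (fun n => ν.real {x | (fun i => x (t i + ev n (l i))) ∈ C}) 𝒰
      (𝓝 (P.real {ω | (fun i => ω (t i, Finsupp.single p (l i))) ∈ C})) := by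
  have hC : MeasurableSet C := MeasurableSet.of_discrete
  have := h.fintype p t l (C.indicator 1)
  have e1 : ∀ n, ∫ x, C.indicator (1 : (ι → Al M) → ℝ) (fun i => x (t i + ev n (l i))) ∂ν
      = ν.real {x | (fun i => x (t i + ev n (l i))) ∈ C} := by
    intro n
    rw [← integral_indicator_one]
    · rfl
    · exact (measurable_pi_lambda _ fun i => measurable_pi_apply _) hC
  have e2 : ∫ ω, C.indicator (1 : (ι → Al M) → ℝ)
      (fun i => ω (t i, Finsupp.single p (l i))) ∂P
      = P.real {ω | (fun i => ω (t i, Finsupp.single p (l i))) ∈ C} := by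
    rw [← integral_indicator_one]
    · rfl
    · exact (measurable_pi_lambda _ fun i => measurable_pi_apply _) hC
  simpa only [e1, e2] using this

lemma key {ν : Measure (Sq M)} {P : Measure (Om M)} {N : Type} {𝒰 : Ultrafilter N}
    {ev : N → La →+ ℤ} (hν : Proc ν) (h : Lim ν P 𝒰 ev) (p : II) (d : La)
    (hd : Tendsto (fun n => ev n d) 𝒰 cofinite) (t₁ t₂ : Finset Pos) (B₁ B₂ : Pos → Set (Al M))
    (h₁ : ∀ x ∈ t₁, x.2 = 0) (h₂ : ∀ x ∈ t₂, x.2 = Finsupp.single p d) :
    P.real ({ω | ∀ x ∈ t₁, ω x ∈ B₁ x} ∩ {ω | ∀ x ∈ t₂, ω x ∈ B₂ x}) =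
      ν.real {y | ∀ x ∈ t₁, y x.1 ∈ B₁ x} * ν.real {y | ∀ x ∈ t₂, y x.1 ∈ B₂ x} := by
  have hm : ∀ (t : Finset Pos) (B : Pos → Set (Al M)),
      MeasurableSet {y : Sq M | ∀ x ∈ t, y x.1 ∈ B x} := by
    intro t B
    have : {y : Sq M | ∀ x ∈ t, y x.1 ∈ B x} = ⋂ x ∈ t, (fun y : Sq M => y x.1) ⁻¹' B x := by
      ext y; simp
    rw [this]
    exact Finset.measurableSet_biInter _ fun x _ =>
      measurable_pi_apply _ MeasurableSet.of_discrete
  have l1 := (hν.mix _ _ (hm t₁ B₁) (hm t₂ B₂)).comp hd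
  have l2 := h.set p (ι := t₁ ⊕ t₂) (Sum.elim (fun x => x.1.1) (fun x => x.1.1))
    (Sum.elim (fun _ => 0) (fun _ => d))
    {z | (∀ i : t₁, z (Sum.inl i) ∈ B₁ i) ∧ ∀ j : t₂, z (Sum.inr j) ∈ B₂ j}
  have e1 : {ω : Om M | (fun i : t₁ ⊕ t₂ => ω (Sum.elim (fun x => x.1.1) (fun x => x.1.1) i,
      Finsupp.single p (Sum.elim (fun _ => (0 : La)) (fun _ => d) i))) ∈
      {z : t₁ ⊕ t₂ → Al M | (∀ i : t₁, z (Sum.inl i) ∈ B₁ i) ∧ ∀ j : t₂, z (Sum.inr j) ∈ B₂ j}} =
      {ω | ∀ x ∈ t₁, ω x ∈ B₁ x} ∩ {ω | ∀ x ∈ t₂, ω x ∈ B₂ x} := by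
    ext ω
    have a1 : ∀ i : t₁, ((i : Pos).1, Finsupp.single p (0 : La)) = (i : Pos) := fun i =>
      Prod.ext rfl (by rw [Finsupp.single_zero, h₁ i i.2])
    have a2 : ∀ i : t₂, ((i : Pos).1, Finsupp.single p d) = (i : Pos) := fun i =>
      Prod.ext rfl (h₂ i i.2).symm
    simp only [mem_ofPred_eq, Sum.elim_inl, Sum.elim_inr, a1, a2, mem_inter_iff]
    simp only [Subtype.forall]
  rw [e1] at l2
  refine tendsto_nhds_unique l2 (l1.congr fun n => ?_)
  simp only [Function.comp_apply]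
  congr 1
  ext y
  simp [sh]

lemma indep_one {ν : Measure (Sq M)} {P : Measure (Om M)} [IsProbabilityMeasure P] {N : Type}
    {𝒰 : Ultrafilter N} {ev : N → La →+ ℤ} (hν : Proc ν) (h : Lim ν P 𝒰 ev) (p : II) (d : La)
    (hd : Tendsto (fun n => ev n d) 𝒰 cofinite) :
    Indep (sg M X0) (sg M (One p {d})) P := by
  have := hν.prob
  let m : Pos → MeasurableSpace (Om M) := fun i =>
    MeasurableSpace.comap (fun σ : Om M => σ i) inferInstance
  have hpi : ∀ S : Set Pos, IsPiSystem (piiUnionInter (fun n => {s | MeasurableSet[m n] s}) S) :=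
    fun S => isPiSystem_piiUnionInter _ (fun x => @MeasurableSpace.isPiSystem_measurableSet _ (m x)) S
  refine IndepSets.indep cylinderEvents_le_pi cylinderEvents_le_pi (hpi X0) (hpi (One p {d}))
    (generateFrom_piiUnionInter_measurableSet m _).symm
    (generateFrom_piiUnionInter_measurableSet m _).symm ?_
  rw [IndepSets_iff]
  rintro _ _ ⟨t₁, ht₁, f₁, hf₁, rfl⟩ ⟨t₂, ht₂, f₂, hf₂, rfl⟩
  have ex : ∀ (t : Finset Pos) (f : Pos → Set (Om M)), (∀ x ∈ t, MeasurableSet[m x] (f x)) →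
      ∃ B : Pos → Set (Al M), (⋂ x ∈ t, f x) = {ω | ∀ x ∈ t, ω x ∈ B x} := by
    intro t f hf
    have : ∀ x, ∃ B : Set (Al M), x ∈ t → (fun σ : Om M => σ x) ⁻¹' B = f x := by
      intro x
      by_cases hx : x ∈ t
      · obtain ⟨B, -, hB⟩ := hf x hx
        exact ⟨B, fun _ => hB⟩
      · exact ⟨univ, fun h => absurd h hx⟩
    choose B hB using this
    refine ⟨B, ?_⟩
    ext ω
    simp only [mem_iInter, mem_ofPred_eq]
    refine forall₂_congr fun x hx => ?_
    rw [← hB x hx]; rfl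
  obtain ⟨B₁, e₁⟩ := ex t₁ f₁ hf₁
  obtain ⟨B₂, e₂⟩ := ex t₂ f₂ hf₂
  rw [e₁, e₂]
  have h₁ : ∀ x ∈ t₁, x.2 = 0 := fun x hx => ht₁ hx
  have h₂ : ∀ x ∈ t₂, x.2 = Finsupp.single p d := fun x hx => by
    obtain ⟨d', hd', e⟩ := ht₂ hx
    rw [Finset.mem_singleton.1 hd'] at e
    exact e
  have k12 := key hν h p d hd t₁ t₂ B₁ B₂ h₁ h₂
  have k1 := key hν h p d hd t₁ ∅ B₁ B₂ h₁ (by simp)
  have k2 := key hν h p d hd ∅ t₂ B₁ B₂ (by simp) h₂
  simp only [Finset.notMem_empty, IsEmpty.forall_iff, implies_true, ofPred_true, inter_univ,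
    univ_inter, probReal_univ, mul_one, one_mul] at k1 k2
  rw [← k1, ← k2] at k12
  rw [← ENNReal.toReal_eq_toReal_iff' (measure_ne_top _ _)
    (ENNReal.mul_ne_top (measure_ne_top _ _) (measure_ne_top _ _)), ENNReal.toReal_mul]
  exact k12

lemma si_one {ν : Measure (Sq M)} {P : Measure (Om M)} [IsProbabilityMeasure P] {N : Type}
    {𝒰 : Ultrafilter N} {ev : N → La →+ ℤ} (hν : Proc ν) (h : Lim ν P 𝒰 ev) :
    SI P (fun l => Tendsto (fun n => ev n l) 𝒰 cofinite) 1 := by
  intro p D hD hc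
  rcases Finset.card_le_one_iff_subset_singleton.1 hc with ⟨d, hd⟩
  rcases Finset.subset_singleton_iff.1 hd with rfl | rfl
  · have : sg M (One p ∅) = ⊥ := by
      simp [sg, One, cylinderEvents]
    rw [this]
    exact indep_bot_right _
  · exact indep_one hν h p d (hD.1 d (by simp))

lemma infOK {N : Type} (𝒰 : Ultrafilter N) (ev : N → La →+ ℤ) :
    InfOK (fun l => Tendsto (fun n => ev n l) 𝒰 cofinite) := by
  constructor
  · intro h
    have : ∀ᶠ n in (𝒰 : Filter N), ev n 0 ∈ ({0} : Set ℤ)ᶜ :=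
      h (Set.finite_singleton (0 : ℤ)).compl_mem_cofinite
    obtain ⟨n, hn⟩ := this.exists
    simp at hn
  · intro l h
    have := (neg_injective (G := ℤ)).tendsto_cofinite.comp h
    refine this.congr fun n => ?_
    simp

lemma prod_eq {ν : Measure (Sq M)} {P : Measure (Om M)} (hP : Arr ν P) {Inf : La → Prop}
    (hs : ∀ s, 1 ≤ s → SI P Inf s) (p : II) {k : ℕ} (g : Fin k → Al M → ℝ) (e : Fin k → La)
    (he : ∀ a b, a ≠ b → Inf (e a - e b)) (T : Finset (Fin k)) :
    ∫ ω, ∏ a ∈ T, g a (ω (0, Finsupp.single p (e a))) ∂P = ∏ a ∈ T, ∫ x, g a (x 0) ∂ν := by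
  classical
  have := hP.prob
  have hg : ∀ a, Measurable (g a) := fun a => Measurable.of_discrete
  have mall : ∀ (T : Finset (Fin k)) (x : Fin k → Pos),
      Measurable fun ω : Om M => ∏ a ∈ T, g a (ω (x a)) := fun T x =>
    Finset.measurable_prod _ fun a _ => (hg a).comp (measurable_pi_apply _)
  have tr : ∀ (T : Finset (Fin k)) (c : La),
      ∫ ω, ∏ a ∈ T, g a (ω (0, Finsupp.single p (e a))) ∂P =
        ∫ ω, ∏ a ∈ T, g a (ω (0, Finsupp.single p (e a - c))) ∂P := by
    intro T c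
    have hmp := hP.inv (0, -Finsupp.single p c)
    conv_lhs => rw [← hmp.map_eq]
    rw [integral_map hmp.measurable.aemeasurable (mall T _).aestronglyMeasurable]
    refine integral_congr_ae (Eventually.of_forall fun ω => ?_)
    simp only [pull, Prod.mk_add_mk, add_zero, Finsupp.single_sub, sub_eq_add_neg,
      Finsupp.single_add, Finsupp.single_neg]
  induction T using Finset.induction_on with
  | empty => simp
  | insert a T ha ih =>
    rw [tr _ (e a), Finset.prod_insert ha, ← ih, tr T (e a)]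
    simp only [Finset.prod_insert ha, sub_self, Finsupp.single_zero]
    have hI := hs (T.card + 1) (by omega) p (T.image fun b => e b - e a) ?_
      (Finset.card_image_le.trans (by omega))
    · have m1 : Measurable[sg M X0] fun ω : Om M => g a (ω (0, 0)) :=
        (hg a).comp (measurable_cylinderEvent_apply (X := fun _ : Pos => Al M)
          (show ((0, 0) : Pos) ∈ X0 from rfl))
      have m2 : Measurable[sg M (One p (T.image fun b => e b - e a))]
          fun ω : Om M => ∏ b ∈ T, g b (ω (0, Finsupp.single p (e b - e a))) :=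
        Finset.measurable_prod _ fun b hb => (hg b).comp
          (measurable_cylinderEvent_apply (X := fun _ : Pos => Al M)
            (show ((0, Finsupp.single p (e b - e a)) : Pos) ∈ One p (T.image fun b => e b - e a)
              from ⟨_, Finset.mem_image_of_mem _ hb, rfl⟩))
      have hF : IndepFun (fun ω : Om M => g a (ω (0, 0)))
          (fun ω : Om M => ∏ b ∈ T, g b (ω (0, Finsupp.single p (e b - e a)))) P := by
        rw [IndepFun_iff_Indep]
        exact indep_of_indep_of_le_right (indep_of_indep_of_le_left hI m1.comap_le) m2.comap_le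
      rw [hF.integral_fun_mul_eq_mul_integral
        (m1.mono cylinderEvents_le_pi le_rfl).aestronglyMeasurable
        (mall T _).aestronglyMeasurable]
      congr 1
      have hx : Measurable (xs : Om M → Sq M) :=
        measurable_pi_lambda _ fun t => measurable_pi_apply _
      have hy : Measurable fun x : Sq M => g a (x 0) := (hg a).comp (measurable_pi_apply 0)
      rw [← hP.law, integral_map hx.aemeasurable hy.aestronglyMeasurable]
      rfl
    · constructor
      · intro d hd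
        obtain ⟨b, hb, rfl⟩ := Finset.mem_image.1 hd
        exact he b a fun h => ha (h ▸ hb)
      · intro d hd d' hd' hne
        obtain ⟨b, hb, rfl⟩ := Finset.mem_image.1 hd
        obtain ⟨b', hb', rfl⟩ := Finset.mem_image.1 hd'
        rw [sub_sub_sub_cancel_right]
        exact he b b' fun h => hne (by rw [h])

end Asm0

open Asm0 in
theorem asm0 (hA : ArrStmt) (hS : StepStmt) : Main0 := by
  intro M ν hν hZ k g N 𝒰 s hs
  let s' : ℕ → N → ℤ := fun a n => if h : a < k then s ⟨a, h⟩ n else 0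
  let ev : N → La →+ ℤ := fun n => Finsupp.liftAddHom fun a => AddMonoidHom.mulRight (s' a n)
  let e : Fin k → La := fun a => Finsupp.single (a : ℕ) 1
  have hev : ∀ n a, ev n (e a) = s a n := by
    intro n a
    simp [ev, e, s']
  obtain ⟨P, hP, hL⟩ := hA M ν hν N 𝒰 ev
  have := hP.prob
  have hsi : ∀ j, 1 ≤ j → SI P (fun l => Tendsto (fun n => ev n l) 𝒰 cofinite) j := by
    intro j hj
    induction j, hj using Nat.le_induction with
    | base => exact si_one hν hL
    | succ j hj ih => exact hS M ν P _ hν hZ hP (infOK 𝒰 ev) j hj ih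
  have he : ∀ a b, a ≠ b → Tendsto (fun n => ev n (e a - e b)) 𝒰 cofinite := by
    intro a b hab
    simp only [map_sub, hev]
    rw [Int.cofinite_eq]
    rcases lt_or_gt_of_ne hab with h | h
    · refine ((tendsto_neg_atTop_atBot.comp (hs a b h)).congr fun n => ?_).mono_right le_sup_left
      simp
    · exact (hs b a h).mono_right le_sup_right
  have := hL (toLex (0, 0)) k (fun _ => 0) e (fun y => ∏ a, g a (y a))
  rw [prod_eq hP hsi _ g e he Finset.univ] at this
  simpa only [hev, zero_add] using this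

end Crest.Agent.R69
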