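import Crest.Agent.R69.L2

/-! # Conditional independence, independence, characters -/

set_option autoImplicit false
open MeasureTheory ProbabilityTheory Filter Set Topology
open scoped ENNReal InnerProductSpace ComplexConjugate

noncomputable section
namespace Crest.Agent.R69

variable {Ω : Type} {m a a' b b' c U U' S S' S'' T : MeasurableSpace Ω} {m0 : MeasurableSpace Ω}
  {Q : Measure Ω}

/-! ### `CI` -/

theorem CI.of_mem (hS : S ≤ m0) (hS' : S' ≤ m0) (hSS : L2 Q S ≤ L2 Q S')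
    (h : ∀ v ∈ L2 Q U, Pr Q S' v ∈ L2 Q S) : CI Q U S S' := fun v hv => by
  rw [← Pr_Pr_of_ge hS hS' hSS v, Pr_eq_self hS (h v hv)]

theorem CI.mem (h : CI Q U S S') {v : Lp ℂ 2 Q} (hv : v ∈ L2 Q U) : Pr Q S' v ∈ L2 Q S := by
  rw [h v hv]; exact Pr_mem v

theorem isClosed_comap_L2 (hS : S ≤ m0) (A : Lp ℂ 2 Q →L[ℂ] Lp ℂ 2 Q) :
    IsClosed (((L2 Q S).comap A.toLinearMap : Submodule ℂ (Lp ℂ 2 Q)) : Set (Lp ℂ 2 Q)) :=
  (isClosed_L2 hS).preimage A.continuous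

theorem CI.of_piSystem [IsFiniteMeasure Q] (hU : U ≤ m0) {𝒮 : Set (Set Ω)}
    (hpi : IsPiSystem 𝒮) (hgen : U = MeasurableSpace.generateFrom 𝒮) (huniv : univ ∈ 𝒮)
    (h : ∀ A ∈ 𝒮, Pr Q S' (tl Q (A.indicator fun _ => (1 : ℂ))) =
      Pr Q S (tl Q (A.indicator fun _ => (1 : ℂ)))) : CI Q U S S' := fun _ hv =>
  L2_le_of_piSystem hU hpi hgen huniv (isClosed_eqLocus (Pr Q S') (Pr Q S)) h hv

theorem CI.of_bdd [IsFiniteMeasure Q] (hU : U ≤ m0) (hS : S ≤ m0) (hS' : S' ≤ m0)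
    (hSS : L2 Q S ≤ L2 Q S') (h : ∀ u, Bdd U u → Pr Q S' (tl Q u) ∈ L2 Q S) : CI Q U S S' :=
  CI.of_mem hS hS' hSS fun _ hv => L2_le_of_bdd hU (isClosed_comap_L2 hS (Pr Q S')) h hv

theorem CI.of_sup [IsFiniteMeasure Q] (ha : a ≤ m0) (hb : b ≤ m0) (hS : S ≤ m0) (hS' : S' ≤ m0)
    (hSS : L2 Q S ≤ L2 Q S')
    (h : ∀ u v, Bdd a u → Bdd b v → Pr Q S' (tl Q fun ω => u ω * v ω) ∈ L2 Q S) :
    CI Q (a ⊔ b) S S' :=
  CI.of_mem hS hS' hSS fun _ hv => L2_sup_le ha hb (isClosed_comap_L2 hS (Pr Q S')) h hv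

theorem CI.mono_left (h : CI Q U S S') (hU : L2 Q U' ≤ L2 Q U) : CI Q U' S S' :=
  fun v hv => h v (hU hv)

/-- shrink the conditioning algebra `S'` to `S''` with `S ≤ S'' ≤ S'` -/
theorem CI.mono_right (h : CI Q U S S') (hS' : S' ≤ m0) (hS'' : S'' ≤ m0)
    (h1 : L2 Q S ≤ L2 Q S'') (h2 : L2 Q S'' ≤ L2 Q S') : CI Q U S S'' := fun v hv => by
  rw [← Pr_Pr_of_ge hS'' hS' h2 v, h v hv, Pr_Pr_of_le hS'' h1]

/-- enlarge the middle algebra `S` to `T` with `S ≤ T ≤ S'` -/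
theorem CI.mono_mid (h : CI Q U S S') (hS' : S' ≤ m0) (hT : T ≤ m0)
    (h1 : L2 Q S ≤ L2 Q T) (h2 : L2 Q T ≤ L2 Q S') : CI Q U T S' := fun v hv => by
  rw [h v hv, h.mono_right hS' hT h1 h2 v hv]

theorem CI.sup_self [IsFiniteMeasure Q] (h : CI Q U S S') (hU : U ≤ m0) (hS : S ≤ m0)
    (hS' : S' ≤ m0) (hSS : L2 Q S ≤ L2 Q S') : CI Q (S ⊔ U) S S' :=
  CI.of_sup hS hU hS hS' hSS fun u v hu hv => by
    rw [← Mop_tl (hu.mono hS) ((hv.mono hU).memLp 2), Pr_Mop hS' (hu.mono hS) (hSS hu.tl_mem)]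
    exact Mop_mem (hu.mono hS) hu.tl_mem (h.mem hv.tl_mem)

/-- operator form: `Pr S' ∘ Pr U = Pr S` when `S ≤ U` -/
theorem CI.Pr_Pr (h : CI Q U S S') (hU : U ≤ m0) (hS : S ≤ m0) (hSU : L2 Q S ≤ L2 Q U)
    (v : Lp ℂ 2 Q) : Pr Q S' (Pr Q U v) = Pr Q S v := by
  rw [h _ (Pr_mem v), Pr_Pr_of_ge hS hU hSU]

/-- operator form, adjoint: `Pr U ∘ Pr S' = Pr S` when `S ≤ U` -/
theorem CI.Pr_Pr' (h : CI Q U S S') (hU : U ≤ m0) (hS : S ≤ m0) (hSU : L2 Q S ≤ L2 Q U)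
    (v : Lp ℂ 2 Q) : Pr Q U (Pr Q S' v) = Pr Q S v :=
  ext_inner_left ℂ fun w => by
    rw [← inner_Pr_left, ← inner_Pr_left, h.Pr_Pr hU hS hSU, inner_Pr_left]

/-- symmetry of conditional independence -/
theorem CI.symm [IsFiniteMeasure Q] (h : CI Q U S S') (hU : U ≤ m0) (hS : S ≤ m0)
    (hS' : S' ≤ m0) (hSS : L2 Q S ≤ L2 Q S') : CI Q S' S (S ⊔ U) := fun v hv => by
  rw [← (h.sup_self hU hS hS' hSS).Pr_Pr' (sup_le hS hU) hS (L2_mono le_sup_left) v,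
    Pr_eq_self hS' hv]

/-- if `U` is independent of `S'` given `S`, and `S ≤ T ≤ S'`, adding `U` to `T` does not change
conditional expectations of `S'`-measurable functions -/
theorem CI.graphoid [IsFiniteMeasure Q] (h : CI Q U S S') (hU : U ≤ m0) (hT : T ≤ m0)
    (hS' : S' ≤ m0) (h1 : L2 Q S ≤ L2 Q T) (h2 : L2 Q T ≤ L2 Q S') : CI Q S' T (T ⊔ U) :=
  (h.mono_mid hS' hT h1 h2).symm hU hT hS' h2

theorem CI.congr (h : CI Q U S S') (hS : S ≤ m0) (hS' : S' ≤ m0) (hT : T ≤ m0) (hS'' : S'' ≤ m0)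
    (h1 : L2 Q S = L2 Q T) (h2 : L2 Q S' = L2 Q S'') : CI Q U T S'' := fun v hv => by
  rw [← Pr_congr hS hT h1, ← Pr_congr hS' hS'' h2, h v hv]

/-! ### independence -/

theorem indepFun_of_indep {f g : Ω → ℂ} (h : Indep a b Q) (hf : Measurable[a] f)
    (hg : Measurable[b] g) : IndepFun f g Q :=
  (IndepFun_iff_Indep f g Q).2 (indep_of_indep_of_le h hf.comap_le hg.comap_le)

theorem integral_mul_of_indep {f g : Ω → ℂ} (h : Indep a b Q) (ha : a ≤ m0) (hb : b ≤ m0)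
    (hf : Measurable[a] f) (hg : Measurable[b] g) :
    ∫ ω, f ω * g ω ∂Q = (∫ ω, f ω ∂Q) * ∫ ω, g ω ∂Q :=
  (indepFun_of_indep h hf hg).integral_fun_mul_eq_mul_integral
    (hf.mono ha le_rfl).aestronglyMeasurable (hg.mono hb le_rfl).aestronglyMeasurable

theorem Pr_of_indep [IsProbabilityMeasure Q] (h : Indep a b Q) (ha : a ≤ m0) (hb : b ≤ m0)
    {v : Lp ℂ 2 Q} (hv : v ∈ L2 Q a) : Pr Q b v = tl Q fun _ => ∫ ω, v ω ∂Q := by
  obtain ⟨u, h1, h2, h3, rfl⟩ := exists_rep hv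
  refine (tl_eq_of_ae_eq ?_).symm
  rw [integral_congr_ae h3]
  exact ((coe_Pr_tl hb h2).trans (condExp_indep_eq ha hb h1.stronglyMeasurable h)).symm

theorem CI.of_indep [IsProbabilityMeasure Q] (h : Indep a b Q) (ha : a ≤ m0) (hb : b ≤ m0) :
    CI Q a ⊥ b := fun v hv => by rw [Pr_of_indep h ha hb hv, Pr_bot]

theorem CI.indep [IsProbabilityMeasure Q] (h : CI Q a ⊥ b) (ha : a ≤ m0) (hb : b ≤ m0) :
    Indep a b Q := by
  rw [Indep_iff]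
  intro A B hA hB
  have h1 := h _ (Bdd.indicator hA).tl_mem
  have h2 : ⟪tl Q (B.indicator fun _ => (1 : ℂ)), tl Q (A.indicator fun _ => (1 : ℂ))⟫_ℂ =
      ⟪tl Q (B.indicator fun _ => (1 : ℂ)), Pr Q ⊥ (tl Q (A.indicator fun _ => (1 : ℂ)))⟫_ℂ := by
    rw [← h1, inner_Pr_of_mem hb (Bdd.indicator hB).tl_mem]
  have hA' := (Bdd.indicator (ha _ hA)).coe_tl (Q := Q)
  rw [Pr_bot, inner_tl_indicator (hb _ hB), inner_tl_indicator (hb _ hB), integral_congr_ae hA',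
    integral_congr_ae (ae_restrict_of_ae hA'),
    integral_congr_ae (ae_restrict_of_ae (Bdd.const (m := m0) _).coe_tl),
    setIntegral_indicator (ha _ hA), integral_indicator (ha _ hA)] at h2
  simp only [integral_const, MeasurableSet.univ, measureReal_restrict_apply, univ_inter,
    Complex.real_smul, mul_one] at h2
  have h3 : Q.real (A ∩ B) = Q.real A * Q.real B := by
    rw [inter_comm, mul_comm]; exact_mod_cast h2
  rw [← ENNReal.toReal_eq_toReal_iff' (measure_ne_top _ _)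
    (ENNReal.mul_ne_top (measure_ne_top _ _) (measure_ne_top _ _)), ENNReal.toReal_mul]
  exact h3

theorem indep_iff_CI [IsProbabilityMeasure Q] (ha : a ≤ m0) (hb : b ≤ m0) :
    Indep a b Q ↔ CI Q a ⊥ b := ⟨fun h => CI.of_indep h ha hb, fun h => h.indep ha hb⟩

/-- independence from orthogonality of centred functions -/
theorem indep_of_Pr_eq_zero [IsProbabilityMeasure Q] (ha : a ≤ m0) (hb : b ≤ m0)
    (h : ∀ u, Bdd a u → ∫ ω, u ω ∂Q = 0 → Pr Q b (tl Q u) = 0) : Indep a b Q := by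
  refine CI.indep (CI.of_bdd ha bot_le hb (L2_mono bot_le) fun u hu => ?_) ha hb
  have hu0 := hu.mono ha
  have h1 := h _ (hu.sub (Bdd.const (∫ ω, u ω ∂Q))) (by
    rw [integral_sub hu0.integrable (integrable_const _)]; simp)
  rw [tl_sub (hu0.memLp 2) (memLp_const _), map_sub, sub_eq_zero] at h1
  rw [h1, Pr_eq_self hb (Bdd.const _).tl_mem]
  exact (Bdd.const _).tl_mem

theorem Pr_eq_zero_of_indep [IsProbabilityMeasure Q] (h : Indep a b Q) (ha : a ≤ m0) (hb : b ≤ m0)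
    {u : Ω → ℂ} (hu : Bdd a u) (h0 : ∫ ω, u ω ∂Q = 0) : Pr Q b (tl Q u) = 0 := by
  rw [Pr_of_indep h ha hb hu.tl_mem, integral_congr_ae (hu.mono ha).coe_tl, h0, tl_zero]

theorem indep_of_L2_le [IsProbabilityMeasure Q] (h : Indep a b Q) (ha : a ≤ m0) (hb : b ≤ m0)
    (ha' : a' ≤ m0) (hb' : b' ≤ m0) (h1 : L2 Q a' ≤ L2 Q a) (h2 : L2 Q b' ≤ L2 Q b) :
    Indep a' b' Q :=
  (((CI.of_indep h ha hb).mono_left h1).mono_right hb hb' (L2_mono bot_le) h2).indep ha' hb'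

theorem indep_sup_right [IsProbabilityMeasure Q] (ha : a ≤ m0) (hb : b ≤ m0) (hc : c ≤ m0)
    (h1 : Indep a b Q) (h2 : Indep (a ⊔ b) c Q) : Indep a (b ⊔ c) Q := by
  refine IndepSets.indep ha (sup_le hb hc) (@MeasurableSpace.isPiSystem_measurableSet Ω a)
    isPiSystem_rect (@MeasurableSpace.generateFrom_measurableSet Ω a).symm
    sup_eq_generateFrom_rect ?_
  rw [IndepSets_iff]
  rintro A _ hA ⟨B, C, hB, hC, rfl⟩
  rw [Indep_iff] at h1 h2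
  have hA' : MeasurableSet[a ⊔ b] A := (le_sup_left : a ≤ a ⊔ b) _ hA
  have hB' : MeasurableSet[a ⊔ b] B := (le_sup_right : b ≤ a ⊔ b) _ hB
  rw [← inter_assoc, h2 _ _ (hA'.inter hB') hC, h1 _ _ hA hB, h2 _ _ hB' hC, mul_assoc]

/-- adding an independent σ-algebra `c` to `a` changes nothing for `b`-measurable functions,
when `a ≤ b` mod null sets -/
theorem CI.of_indep_sup [IsProbabilityMeasure Q] (h : Indep c b Q) (ha : a ≤ m0) (hb : b ≤ m0)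
    (hc : c ≤ m0) (hab : L2 Q a ≤ L2 Q b) : CI Q b a (a ⊔ c) :=
  (CI.of_indep h hc hb).graphoid hc ha hb (L2_mono bot_le) hab

/-! ### `RR` -/

theorem RR_apply (v : Lp ℂ 2 Q) : RR Q a b c v = Pr Q a (Pr Q (b ⊔ c) v) := rfl

theorem RR_mem (v : Lp ℂ 2 Q) : RR Q a b c v ∈ L2 Q a := Pr_mem _

theorem norm_RR_le (v : Lp ℂ 2 Q) : ‖RR Q a b c v‖ ≤ ‖v‖ := (norm_Pr_le _).trans (norm_Pr_le _)

theorem inner_RR_left (ha : a ≤ m0) {v w : Lp ℂ 2 Q} (hv : v ∈ L2 Q a) (hw : w ∈ L2 Q a) :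
    ⟪RR Q a b c v, w⟫_ℂ = ⟪v, RR Q a b c w⟫_ℂ := by
  rw [RR_apply, RR_apply, inner_Pr_of_mem' ha hw, inner_Pr_of_mem ha hv, inner_Pr_left]

theorem inner_self_RR (ha : a ≤ m0) {v : Lp ℂ 2 Q} (hv : v ∈ L2 Q a) :
    ⟪v, RR Q a b c v⟫_ℂ = ((‖Pr Q (b ⊔ c) v‖ ^ 2 : ℝ) : ℂ) := by
  rw [RR_apply, inner_Pr_of_mem ha hv, inner_self_Pr]

theorem norm_RR_sq_le (ha : a ≤ m0) {v : Lp ℂ 2 Q} (hv : v ∈ L2 Q a) :
    ‖RR Q a b c v‖ ^ 2 ≤ (⟪v, RR Q a b c v⟫_ℂ).re := by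
  rw [inner_self_RR ha hv, Complex.ofReal_re]
  exact pow_le_pow_left₀ (norm_nonneg _) (norm_Pr_le _) 2

theorem RR_eq_zero_iff (ha : a ≤ m0) {v : Lp ℂ 2 Q} (hv : v ∈ L2 Q a) :
    RR Q a b c v = 0 ↔ Pr Q (b ⊔ c) v = 0 := by
  refine ⟨fun h => ?_, fun h => by rw [RR_apply, h, map_zero]⟩
  have := inner_self_RR (b := b) (c := c) ha hv
  rw [h, inner_zero_right] at this
  have h2 : ‖Pr Q (b ⊔ c) v‖ ^ 2 = 0 := by exact_mod_cast this.symm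
  exact norm_eq_zero.1 (pow_eq_zero_iff two_ne_zero |>.1 h2)

theorem RR_eq_self_iff (ha : a ≤ m0) (hb : b ≤ m0) (hc : c ≤ m0) {v : Lp ℂ 2 Q}
    (hv : v ∈ L2 Q a) : RR Q a b c v = v ↔ v ∈ L2 Q (b ⊔ c) := by
  refine ⟨fun h => mem_L2_of_norm_Pr (sup_le hb hc) ?_, fun h => ?_⟩
  · calc ‖v‖ = ‖Pr Q a (Pr Q (b ⊔ c) v)‖ := by rw [← RR_apply, h]
      _ ≤ _ := norm_Pr_le _
  · rw [RR_apply, Pr_eq_self (sup_le hb hc) h, Pr_eq_self ha hv]

/-! ### characters -/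

theorem Gam.mono {c' : MeasurableSpace Ω} {χ : Ω → ℂ} (h : Gam Q a b c χ) (ha : a ≤ a')
    (hb : b ≤ b') (hc : c ≤ c') : Gam Q a' b' c' χ := by
  obtain ⟨h0, χ₁, χ₂, h1, h2, h3⟩ := h
  exact ⟨h0.mono ha, χ₁, χ₂, h1.mono hb, h2.mono hc, h3⟩

theorem Gam.const {z : ℂ} (hz : ‖z‖ = 1) : Gam Q a b c fun _ => z :=
  ⟨Uni.const hz, fun _ => z, fun _ => 1, Uni.const hz, Uni.const norm_one,
    .of_forall fun _ => (mul_one z).symm⟩

theorem Gam.mul {χ ψ : Ω → ℂ} (h : Gam Q a b c χ) (h' : Gam Q a b c ψ) :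
    Gam Q a b c fun ω => χ ω * ψ ω := by
  obtain ⟨h0, χ₁, χ₂, h1, h2, h3⟩ := h
  obtain ⟨k0, ψ₁, ψ₂, k1, k2, k3⟩ := h'
  refine ⟨h0.mul k0, _, _, h1.mul k1, h2.mul k2, ?_⟩
  filter_upwards [h3, k3] with ω e1 e2
  rw [e1, e2]; ring

theorem Gam.conj {χ : Ω → ℂ} (h : Gam Q a b c χ) : Gam Q a b c fun ω => conj (χ ω) := by
  obtain ⟨h0, χ₁, χ₂, h1, h2, h3⟩ := h
  refine ⟨h0.conj, _, _, h1.conj, h2.conj, ?_⟩
  filter_upwards [h3] with ω e1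
  rw [e1, map_mul]

theorem Gam.of_ae_eq_mul {χ χ' : Ω → ℂ} {z : ℂ} (h : Gam Q a b c χ) (h' : Uni a χ')
    (hz : ‖z‖ = 1) (he : χ' =ᵐ[Q] fun ω => z * χ ω) : Gam Q a b c χ' := by
  obtain ⟨-, χ₁, χ₂, h1, h2, h3⟩ := (Gam.const (Q := Q) (a := a) (b := b) (c := c) hz).mul h
  exact ⟨h', χ₁, χ₂, h1, h2, he.trans h3⟩

theorem Gam.zpow {χ : Ω → ℂ} (h : Gam Q a b c χ) (n : ℤ) : Gam Q a b c fun ω => χ ω ^ n := by
  have hn : ∀ k : ℕ, Gam Q a b c fun ω => χ ω ^ k := fun k => by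
    induction k with
    | zero => simpa using Gam.const norm_one
    | succ k ih => simpa only [pow_succ] using ih.mul h
  cases n with
  | ofNat k => simpa using hn k
  | negSucc k =>
    have := (hn (k + 1)).conj
    convert this using 2 with ω
    rw [zpow_negSucc, inv_eq_conj_of_norm_one (by rw [norm_pow, h.1.2, one_pow])]

theorem Gam.mon {χ : ℕ → Ω → ℂ} (p : Polynomial ℤ) (h : ∀ s ∈ p.support, Gam Q a b c (χ s)) :
    Gam Q a b c (mon χ p) := by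
  classical
  have : ∀ A : Finset ℕ, (∀ s ∈ A, Gam Q a b c (χ s)) →
      Gam Q a b c fun ω => ∏ s ∈ A, χ s ω ^ p.coeff s := by
    intro A hA
    induction A using Finset.induction_on with
    | empty => simpa using Gam.const norm_one
    | insert i A hi ih =>
      simp only [Finset.prod_insert hi]
      exact ((hA i (Finset.mem_insert_self _ _)).zpow _).mul
        (ih fun j hj => hA j (Finset.mem_insert_of_mem hj))
  exact this _ h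

theorem Gam.tl_mem [IsFiniteMeasure Q] {χ : Ω → ℂ} (h : Gam Q a b c χ) : tl Q χ ∈ L2 Q (b ⊔ c) := by
  obtain ⟨-, χ₁, χ₂, h1, h2, h3⟩ := h
  rw [tl_congr h3]
  exact ((h1.bdd.mono le_sup_left).mul (h2.bdd.mono le_sup_right)).tl_mem

theorem Gam.RR_eq [IsFiniteMeasure Q] {χ : Ω → ℂ} (h : Gam Q a b c χ) (ha : a ≤ m0) (hb : b ≤ m0)
    (hc : c ≤ m0) : RR Q a b c (tl Q χ) = tl Q χ :=
  (RR_eq_self_iff ha hb hc h.1.bdd.tl_mem).2 h.tl_mem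

/-- a unimodular function whose mean is unimodular is a.e. constant -/
theorem Uni.ae_eq_integral [IsProbabilityMeasure Q] {u : Ω → ℂ} (hu : Uni m0 u)
    (h : ‖∫ ω, u ω ∂Q‖ = 1) : u =ᵐ[Q] fun _ => ∫ ω, u ω ∂Q := by
  have h1 : tl Q u ∈ L2 Q ⊥ := by
    refine mem_L2_of_norm_Pr bot_le ?_
    rw [Pr_bot, integral_congr_ae hu.bdd.coe_tl, hu.norm_tl, (Uni.const h).norm_tl]
  have h2 := Pr_eq_self bot_le h1
  rw [Pr_bot, integral_congr_ae hu.bdd.coe_tl] at h2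
  exact ae_eq_of_tl_eq (hu.bdd.memLp 2) (memLp_const _) h2.symm

theorem Gam.isC_or [IsProbabilityMeasure Q] {χ : Ω → ℂ} (h : Gam Q a b c χ) (ha : a ≤ m0)
    (hb : b ≤ m0) (hc : c ≤ m0) (hab : Indep a b Q) (hac : Indep a c Q) (hbc : Indep b c Q) :
    IsC Q χ ∨ ∫ ω, χ ω ∂Q = 0 := by
  obtain ⟨h0, χ₁, χ₂, h1, h2, h3⟩ := h
  by_cases hz : ∫ ω, χ ω ∂Q = 0
  · exact Or.inr hz
  left
  have e1 : ∫ ω, χ ω ∂Q = (∫ ω, χ₁ ω ∂Q) * ∫ ω, χ₂ ω ∂Q := by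
    rw [integral_congr_ae h3, integral_mul_of_indep hbc hb hc h1.1 h2.1]
  have e2 : ∫ ω, χ₁ ω ∂Q = (∫ ω, χ ω ∂Q) * conj (∫ ω, χ₂ ω ∂Q) := by
    rw [← integral_conj, ← integral_mul_of_indep hac ha hc h0.1 h2.conj.1]
    refine integral_congr_ae ?_
    filter_upwards [h3] with ω e
    rw [e, mul_assoc, mul_conj_of_norm_one (h2.2 ω), mul_one]
  have e3 : ∫ ω, χ₂ ω ∂Q = (∫ ω, χ ω ∂Q) * conj (∫ ω, χ₁ ω ∂Q) := by
    rw [← integral_conj, ← integral_mul_of_indep hab ha hb h0.1 h1.conj.1]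
    refine integral_congr_ae ?_
    filter_upwards [h3] with ω e
    rw [e, mul_comm (χ₁ ω), mul_assoc, mul_conj_of_norm_one (h1.2 ω), mul_one]
  have n1 := congrArg norm e1
  have n2 := congrArg norm e2
  have n3 := congrArg norm e3
  simp only [norm_mul, RCLike.norm_conj] at n1 n2 n3
  have hpos : 0 < ‖∫ ω, χ ω ∂Q‖ := norm_pos_iff.2 hz
  set x := ‖∫ ω, χ ω ∂Q‖
  set y := ‖∫ ω, χ₁ ω ∂Q‖
  set z := ‖∫ ω, χ₂ ω ∂Q‖
  have hy : y ≠ 0 := by rintro h; rw [h, zero_mul] at n1; exact hpos.ne' n1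
  have hx : x * x = 1 := by
    have : y * (x * x) = y * 1 := by rw [mul_one]; nth_rewrite 2 [n2]; rw [n3]; ring
    exact mul_left_cancel₀ hy this
  have hx1 : x = 1 := by nlinarith
  exact ⟨_, (h0.mono ha).ae_eq_integral hx1⟩

/-- two non-orthogonal characters are proportional -/
theorem Gam.ae_eq_mul_of_ne_zero [IsProbabilityMeasure Q] {χ χ' : Ω → ℂ} (h : Gam Q a b c χ)
    (h' : Gam Q a b c χ') (ha : a ≤ m0) (hb : b ≤ m0) (hc : c ≤ m0) (hab : Indep a b Q)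
    (hac : Indep a c Q) (hbc : Indep b c Q) (hne : ⟪tl Q χ, tl Q χ'⟫_ℂ ≠ 0) :
    ∃ z : ℂ, ‖z‖ = 1 ∧ χ' =ᵐ[Q] fun ω => z * χ ω := by
  rw [inner_tl ((h.1.mono ha).bdd.memLp 2) ((h'.1.mono ha).bdd.memLp 2)] at hne
  obtain ⟨z, hz⟩ := ((h.conj.mul h').isC_or ha hb hc hab hac hbc).resolve_right hne
  obtain ⟨ω₀, hω₀⟩ := hz.exists
  refine ⟨z, (congrArg norm hω₀).symm.trans ((h.conj.mul h').1.2 ω₀), ?_⟩
  filter_upwards [hz] with ω e
  rw [← e, mul_comm, ← mul_assoc, mul_conj_of_norm_one (h.1.2 ω), one_mul]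

/-! ### grids -/

theorem Grid.transpose {n : Fin 3 → Fin 3 → MeasurableSpace Ω} (h : Grid Q n) :
    Grid Q fun α β => n β α := ⟨fun α β => h.le β α, h.h2, h.h1⟩

theorem DGrid.transpose {n : Fin 3 → Fin 3 → MeasurableSpace Ω} (h : DGrid Q n) :
    DGrid Q fun α β => n β α := ⟨fun α β => h.le β α, h.det2, h.det1, h.ind2, h.ind1⟩

theorem Grid.indep1 [IsProbabilityMeasure Q] {n : Fin 3 → Fin 3 → MeasurableSpace Ω} (h : Grid Q n)
    {α α' : Fin 3} (hα : α ≠ α') : Indep (⨆ β, n α β) (⨆ β, n α' β) Q := by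
  have := h.h1 α α' hα ∅
  simp only [Finset.notMem_empty, iSup_false, iSup_bot, bot_sup_eq] at this
  exact this.indep (iSup_le fun _ => h.le _ _) (iSup_le fun _ => h.le _ _)

theorem Grid.indep_cells1 [IsProbabilityMeasure Q] {n : Fin 3 → Fin 3 → MeasurableSpace Ω}
    (h : Grid Q n) {α α' : Fin 3} (hα : α ≠ α') (β β' : Fin 3) : Indep (n α β) (n α' β') Q :=
  indep_of_indep_of_le (h.indep1 hα) (le_iSup (n α) β) (le_iSup (n α') β')

theorem Grid.indep_cells2 [IsProbabilityMeasure Q] {n : Fin 3 → Fin 3 → MeasurableSpace Ω}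
    (h : Grid Q n) {β β' : Fin 3} (hβ : β ≠ β') (α α' : Fin 3) : Indep (n α β) (n α' β') Q :=
  h.transpose.indep_cells1 hβ α α'

theorem GamSpan_mono {n n' : Fin 3 → Fin 3 → MeasurableSpace Ω} (h : ∀ α β, n α β ≤ n' α β) :
    GamSpan Q n ≤ GamSpan Q n' := by
  refine Submodule.topologicalClosure_mono (Submodule.span_mono ?_)
  rintro _ ⟨χ, h1, h2, rfl⟩
  exact ⟨χ, h1.mono (h _ _) (h _ _) (h _ _), h2.mono (h _ _) (h _ _) (h _ _), rfl⟩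

/-- a continuous linear functional vanishing on the common characters vanishes on `GamSpan` -/
theorem GamSpan_le {n : Fin 3 → Fin 3 → MeasurableSpace Ω} {K : Submodule ℂ (Lp ℂ 2 Q)}
    (hK : IsClosed (K : Set (Lp ℂ 2 Q)))
    (h : ∀ χ, Gam Q (n 0 0) (n 1 0) (n 2 0) χ → Gam Q (n 0 0) (n 0 1) (n 0 2) χ → tl Q χ ∈ K) :
    GamSpan Q n ≤ K := by
  refine Submodule.topologicalClosure_minimal _ (Submodule.span_le.2 ?_) hK
  rintro _ ⟨χ, h1, h2, rfl⟩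
  exact h χ h1 h2

/-! ### vectors with constant off-diagonal Gram matrix -/

theorem norm_sum_smul_sq_le {H ι : Type*} [NormedAddCommGroup H] [InnerProductSpace ℂ H]
    (s : Finset ι) (v : ι → H) (w : ι → ℝ) {γ C : ℝ} (hw : ∑ i ∈ s, w i = 0)
    (hv : ∀ i ∈ s, ‖v i‖ ≤ C) (hγ : |γ| ≤ C ^ 2)
    (hg : ∀ i ∈ s, ∀ j ∈ s, i ≠ j → (⟪v i, v j⟫_ℂ).re = γ) :
    ‖∑ i ∈ s, (w i : ℂ) • v i‖ ^ 2 ≤ 2 * C ^ 2 * ∑ i ∈ s, w i ^ 2 := by
  classical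
  have h1 : ‖∑ i ∈ s, (w i : ℂ) • v i‖ ^ 2 =
      ∑ i ∈ s, ∑ j ∈ s, w i * w j * (⟪v i, v j⟫_ℂ).re := by
    rw [@norm_sq_eq_re_inner ℂ, sum_inner, map_sum]
    refine Finset.sum_congr rfl fun i _ => ?_
    rw [inner_sum, map_sum]
    refine Finset.sum_congr rfl fun j _ => ?_
    rw [inner_smul_left, inner_smul_right]
    simp [mul_assoc]
  have h2 : ∀ i ∈ s, ∑ j ∈ s, w i * w j * (⟪v i, v j⟫_ℂ).re =
      w i * γ * ∑ j ∈ s, w j + w i ^ 2 * (‖v i‖ ^ 2 - γ) := by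
    intro i hi
    rw [← Finset.add_sum_erase s _ hi, ← Finset.add_sum_erase s w hi, mul_add, Finset.mul_sum,
      Finset.sum_congr rfl (fun j hj => by
        rw [hg i hi j (Finset.mem_of_mem_erase hj) (Finset.ne_of_mem_erase hj).symm])]
    have : (⟪v i, v i⟫_ℂ).re = ‖v i‖ ^ 2 := (@norm_sq_eq_re_inner ℂ _ _ _ _ (v i)).symm
    rw [this, Finset.sum_congr rfl (fun j _ => show w i * w j * γ = w i * γ * w j by ring)]
    ring
  rw [h1, Finset.sum_congr rfl h2, Finset.mul_sum]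
  refine Finset.sum_le_sum fun i hi => ?_
  rw [hw, mul_zero, zero_add, mul_comm]
  refine mul_le_mul_of_nonneg_right ?_ (sq_nonneg _)
  have := pow_le_pow_left₀ (norm_nonneg _) (hv i hi) 2
  have := neg_abs_le γ
  linarith

end Crest.Agent.R69
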