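import Crest.Agent.R69.Defs

/-! # Monomials in unimodular functions -/

set_option autoImplicit false
open MeasureTheory Filter Set Polynomial
open scoped ComplexConjugate

noncomputable section
namespace Crest.Agent.R69

/-- `∏ y_s ^ p_s` for a sequence of numbers -/
def ymon (y : ℕ → ℂ) (p : ℤ[X]) : ℂ := ∏ s ∈ p.support, y s ^ p.coeff s

theorem ymon_eq_of_subset (y : ℕ → ℂ) (p : ℤ[X]) {A : Finset ℕ} (hA : p.support ⊆ A) :
    ymon y p = ∏ s ∈ A, y s ^ p.coeff s := by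
  unfold ymon
  refine Finset.prod_subset hA fun s _ hs => ?_
  rw [notMem_support_iff.1 hs, zpow_zero]

@[simp] theorem ymon_zero (y : ℕ → ℂ) : ymon y 0 = 1 := by simp [ymon]

theorem ymon_add {y : ℕ → ℂ} (hy : ∀ s, y s ≠ 0) (p q : ℤ[X]) :
    ymon y (p + q) = ymon y p * ymon y q := by
  classical
  rw [ymon_eq_of_subset y (p + q) (A := p.support ∪ q.support) support_add,
    ymon_eq_of_subset y p (A := p.support ∪ q.support) Finset.subset_union_left,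
    ymon_eq_of_subset y q (A := p.support ∪ q.support) Finset.subset_union_right,
    ← Finset.prod_mul_distrib]
  exact Finset.prod_congr rfl fun s _ => by rw [coeff_add, zpow_add₀ (hy s)]

theorem ymon_neg (y : ℕ → ℂ) (p : ℤ[X]) : ymon y (-p) = (ymon y p)⁻¹ := by
  simp [ymon, Finset.prod_inv_distrib]

theorem ymon_monomial (y : ℕ → ℂ) (s : ℕ) (a : ℤ) : ymon y (monomial s a) = y s ^ a := by
  rw [ymon_eq_of_subset y _ (A := {s}) (support_monomial_subset s a)]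
  simp

theorem ymon_X_pow (y : ℕ → ℂ) (s : ℕ) : ymon y (X ^ s) = y s := by
  rw [← monomial_one_right_eq_X_pow, ymon_monomial, zpow_one]

theorem ymon_X_mul (y : ℕ → ℂ) (p : ℤ[X]) : ymon y (X * p) = ymon (fun t => y (t + 1)) p := by
  have h : (X * p).support ⊆ p.support.map ⟨Nat.succ, Nat.succ_injective⟩ := by
    intro s hs
    rw [mem_support_iff] at hs
    cases s with
    | zero => simp at hs
    | succ s =>
      rw [coeff_X_mul] at hs
      exact Finset.mem_map.2 ⟨s, mem_support_iff.2 hs, rfl⟩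
  rw [ymon_eq_of_subset y _ h, Finset.prod_map]
  exact Finset.prod_congr rfl fun s _ => by simp [coeff_X_mul]

theorem norm_ymon {y : ℕ → ℂ} (hy : ∀ s, ‖y s‖ = 1) (p : ℤ[X]) : ‖ymon y p‖ = 1 := by
  simp [ymon, norm_prod, norm_zpow, hy]

theorem ymon_mul (y z : ℕ → ℂ) (p : ℤ[X]) :
    ymon (fun s => y s * z s) p = ymon y p * ymon z p := by
  simp [ymon, mul_zpow, Finset.prod_mul_distrib]

theorem ymon_pow (y : ℕ → ℂ) (p : ℤ[X]) (l : ℕ) :
    ymon (fun s => y s ^ l) p = ymon y p ^ l := by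
  induction l with
  | zero => simp [ymon]
  | succ l ih => simp only [pow_succ]; rw [ymon_mul, ih]

variable {Ω : Type}

theorem mon_eq_ymon (χ : ℕ → Ω → ℂ) (p : ℤ[X]) (ω : Ω) : mon χ p ω = ymon (fun s => χ s ω) p := rfl

theorem ne_zero_of_norm_one {z : ℂ} (h : ‖z‖ = 1) : z ≠ 0 := by
  rintro rfl; simp at h

theorem inv_eq_conj_of_norm_one {z : ℂ} (h : ‖z‖ = 1) : z⁻¹ = conj z := by
  rw [Complex.inv_def, Complex.normSq_eq_norm_sq, h]; simp

theorem mul_conj_of_norm_one {z : ℂ} (h : ‖z‖ = 1) : z * conj z = 1 := by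
  rw [← inv_eq_conj_of_norm_one h, mul_inv_cancel₀ (ne_zero_of_norm_one h)]

@[simp] theorem mon_zero (χ : ℕ → Ω → ℂ) (ω : Ω) : mon χ 0 ω = 1 := ymon_zero _

theorem mon_add {χ : ℕ → Ω → ℂ} (h : ∀ s ω, ‖χ s ω‖ = 1) (p q : ℤ[X]) (ω : Ω) :
    mon χ (p + q) ω = mon χ p ω * mon χ q ω :=
  ymon_add (fun s => ne_zero_of_norm_one (h s ω)) p q

theorem norm_mon {χ : ℕ → Ω → ℂ} (h : ∀ s ω, ‖χ s ω‖ = 1) (p : ℤ[X]) (ω : Ω) :
    ‖mon χ p ω‖ = 1 := norm_ymon (fun s => h s ω) p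

theorem mon_neg {χ : ℕ → Ω → ℂ} (h : ∀ s ω, ‖χ s ω‖ = 1) (p : ℤ[X]) (ω : Ω) :
    mon χ (-p) ω = conj (mon χ p ω) := by
  rw [← inv_eq_conj_of_norm_one (norm_mon h p ω)]; exact ymon_neg _ p

theorem mon_sub {χ : ℕ → Ω → ℂ} (h : ∀ s ω, ‖χ s ω‖ = 1) (p q : ℤ[X]) (ω : Ω) :
    mon χ (p - q) ω = mon χ p ω * conj (mon χ q ω) := by
  rw [sub_eq_add_neg, mon_add h, mon_neg h]

theorem mon_monomial (χ : ℕ → Ω → ℂ) (s : ℕ) (a : ℤ) (ω : Ω) :
    mon χ (monomial s a) ω = χ s ω ^ a := ymon_monomial _ s a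

theorem mon_X_pow (χ : ℕ → Ω → ℂ) (s : ℕ) (ω : Ω) : mon χ (X ^ s) ω = χ s ω := ymon_X_pow _ s

theorem mon_X_mul (χ : ℕ → Ω → ℂ) (p : ℤ[X]) : mon χ (X * p) = mon (fun t => χ (t + 1)) p :=
  funext fun ω => ymon_X_mul (fun s => χ s ω) p

theorem measurable_mon {m : MeasurableSpace Ω} {χ : ℕ → Ω → ℂ} (p : ℤ[X])
    (h : ∀ s ∈ p.support, Measurable[m] (χ s)) : Measurable[m] (mon χ p) := by
  unfold mon
  exact Finset.measurable_prod _ fun s hs => (h s hs).pow_const _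

theorem Uni.mon {m : MeasurableSpace Ω} {χ : ℕ → Ω → ℂ} (h : ∀ s, Uni m (χ s)) (p : ℤ[X]) :
    Uni m (mon χ p) :=
  ⟨measurable_mon p fun s _ => (h s).1, norm_mon (fun s => (h s).2) p⟩

variable {m0 : MeasurableSpace Ω} {Q : Measure Ω}

theorem IsC.mul {f g : Ω → ℂ} (hf : IsC Q f) (hg : IsC Q g) : IsC Q fun ω => f ω * g ω := by
  obtain ⟨a, ha⟩ := hf; obtain ⟨b, hb⟩ := hg
  exact ⟨a * b, by filter_upwards [ha, hb] with ω h1 h2; rw [h1, h2]⟩

theorem IsC.conj {f : Ω → ℂ} (hf : IsC Q f) : IsC Q fun ω => conj (f ω) := by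
  obtain ⟨a, ha⟩ := hf
  exact ⟨starRingEnd ℂ a, by filter_upwards [ha] with ω h1; rw [h1]⟩

theorem IsC.congr {f g : Ω → ℂ} (hf : IsC Q f) (h : f =ᵐ[Q] g) : IsC Q g := by
  obtain ⟨a, ha⟩ := hf
  exact ⟨a, h.symm.trans ha⟩

theorem isC_mon_zero (χ : ℕ → Ω → ℂ) : IsC Q (mon χ 0) := ⟨1, .of_forall fun ω => mon_zero χ ω⟩

theorem IsC.mon_add {χ : ℕ → Ω → ℂ} (h : ∀ s ω, ‖χ s ω‖ = 1) {p q : ℤ[X]}
    (hp : IsC Q (mon χ p)) (hq : IsC Q (mon χ q)) : IsC Q (mon χ (p + q)) :=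
  (hp.mul hq).congr (.of_forall fun ω => (R69.mon_add h p q ω).symm)

theorem IsC.mon_neg {χ : ℕ → Ω → ℂ} (h : ∀ s ω, ‖χ s ω‖ = 1) {p : ℤ[X]}
    (hp : IsC Q (mon χ p)) : IsC Q (mon χ (-p)) :=
  hp.conj.congr (.of_forall fun ω => (R69.mon_neg h p ω).symm)

/-- The relations of a shift-invariant family form an ideal. -/
def relIdeal (Q : Measure Ω) (χ : ℕ → Ω → ℂ) (h : ∀ s ω, ‖χ s ω‖ = 1)
    (hs : ∀ p : ℤ[X], IsC Q (mon χ p) → IsC Q (mon (fun t => χ (t + 1)) p)) : Ideal ℤ[X] where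
  carrier := {p | IsC Q (mon χ p)}
  zero_mem' := isC_mon_zero χ
  add_mem' := fun hp hq => IsC.mon_add h hp hq
  smul_mem' := by
    intro c p hp
    have hX : ∀ q, IsC Q (mon χ q) → IsC Q (mon χ (X * q)) := fun q hq => by
      rw [mon_X_mul]; exact hs q hq
    have hz : ∀ (a : ℤ) q, IsC Q (mon χ q) → IsC Q (mon χ (a • q)) := fun a q hq => by
      induction a using Int.induction_on with
      | zero => simpa using isC_mon_zero χ
      | succ n ih => rw [add_smul, one_smul]; exact IsC.mon_add h ih hq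
      | pred n ih => rw [sub_smul, one_smul, sub_eq_add_neg]; exact IsC.mon_add h ih (hq.mon_neg h)
    change IsC Q (mon χ (c * p))
    induction c using Polynomial.induction_on with
    | C a => rw [← smul_eq_C_mul]; exact hz a p hp
    | add c d hc hd => rw [add_mul]; exact IsC.mon_add h hc hd
    | monomial n a ih =>
      have : C a * X ^ (n + 1) * p = X * (C a * X ^ n * p) := by ring
      rw [this]; exact hX _ ih

theorem mem_relIdeal {χ : ℕ → Ω → ℂ} {h : ∀ s ω, ‖χ s ω‖ = 1}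
    {hs : ∀ p : ℤ[X], IsC Q (mon χ p) → IsC Q (mon (fun t => χ (t + 1)) p)} {p : ℤ[X]} :
    p ∈ relIdeal Q χ h hs ↔ IsC Q (mon χ p) := Iff.rfl

end Crest.Agent.R69
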