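import Crest.Agent.R69.CI
import Crest.Agent.R69.Mon

/-! # Row 69: the chain of characters -/

set_option autoImplicit false
open MeasureTheory ProbabilityTheory Filter Topology Set Polynomial
open scoped ComplexConjugate

noncomputable section
namespace Crest.Agent.R69
namespace ChainA

variable {M : ℕ}

theorem sg_mono' {S S' : Set Pos} (h : S ⊆ S') : sg M S ≤ sg M S' := cylinderEvents_mono h

theorem sg_le' (S : Set Pos) : sg M S ≤ (inferInstance : MeasurableSpace (Om M)) :=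
  cylinderEvents_le_pi

/-- sets of positions that do not depend on the time coordinate -/
def TI (S : Set Pos) : Prop := ∀ x x' : Pos, x'.2 = x.2 → x ∈ S → x' ∈ S

theorem ti_GG (C : Option Bool) : TI (GG C) := fun x x' h hx => by
  intro i hi; rw [h] at hi; exact hx i hi

theorem ti_cell0 (C : Option Bool) : TI (cell0 C) := fun x x' h hx =>
  ⟨ti_GG C x x' h hx.1, fun i hi => by rw [h]; exact hx.2 i hi⟩

theorem ti_cell1 (C : Option Bool) (j : ℚ) (A : Finset La) : TI (cell1 C j A) := fun x x' h hx =>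
  ⟨ti_GG C x x' h hx.1, by rw [h]; exact hx.2.1, fun i hi hj => by rw [h]; exact hx.2.2 i hi hj⟩

theorem meas_tsh {S : Set Pos} (hS : TI S) : Measurable[sg M S, sg M S] (tsh (M := M)) := by
  rw [measurable_cylinderEvents_iff]
  intro x hx
  exact measurable_cylinderEvent_apply (X := fun _ : Pos => Al M)
    (hS x (x + ((1 : ℤ), (0 : II →₀ La))) (by simp) hx)

/-- `Q₂` is the image of `Q₁` under `T` on the half `b`. -/
structure Tr (Q₁ Q₂ : Measure (Om M)) (T : Om M → Om M) (b : Bool) : Prop where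
  meas : ∀ S, TI S → Measurable[sg M S, sg M S] T
  meas' : Measurable T
  eq : ∀ A, MeasurableSet[sg M (GG (some b))] A → Q₂ A = Q₁ (T ⁻¹' A)

variable {Q₁ Q₂ : Measure (Om M)} {T : Om M → Om M} {b : Bool}

theorem Tr.ae_eq (h : Tr Q₁ Q₂ T b) {g g' : Om M → ℂ} (hg : Measurable[sg M (GG (some b))] g)
    (hg' : Measurable[sg M (GG (some b))] g') :
    g =ᵐ[Q₂] g' ↔ (fun ω => g (T ω)) =ᵐ[Q₁] fun ω => g' (T ω) := by
  unfold EventuallyEq
  rw [ae_iff, ae_iff, h.eq {a | ¬ g a = g' a}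
    (@measurableSet_eq_fun _ _ (sg M (GG (some b))) _ _ _ _ hg hg').compl]
  rfl

theorem Tr.integral (h : Tr Q₁ Q₂ T b) {g : Om M → ℂ} (hg : Measurable[sg M (GG (some b))] g) :
    ∫ ω, g ω ∂Q₂ = ∫ ω, g (T ω) ∂Q₁ := by
  have hg' : Measurable g := hg.mono (sg_le' _) le_rfl
  have h1 : Q₂.map g = Q₁.map (fun ω => g (T ω)) := by
    ext A hA
    rw [Measure.map_apply hg' hA, Measure.map_apply (f := fun ω => g (T ω)) (hg'.comp h.meas') hA, h.eq _ (hg hA)]
    rfl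
  have h2 := integral_map (μ := Q₂) (f := fun z : ℂ => z) hg'.aemeasurable aestronglyMeasurable_id
  have h3 := integral_map (μ := Q₁) (f := fun z : ℂ => z) (φ := fun ω => g (T ω))
    (hg'.comp h.meas').aemeasurable aestronglyMeasurable_id
  rw [← h2, ← h3, h1]

theorem Tr.isC (h : Tr Q₁ Q₂ T b) {g : Om M → ℂ} (hg : Measurable[sg M (GG (some b))] g) :
    IsC Q₂ g ↔ IsC Q₁ fun ω => g (T ω) :=
  exists_congr fun _ => h.ae_eq hg measurable_const

theorem Tr.uni (h : Tr Q₁ Q₂ T b) {S : Set Pos} (hS : TI S) {g : Om M → ℂ} (hg : Uni (sg M S) g) :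
    Uni (sg M S) fun ω => g (T ω) := ⟨hg.1.comp (h.meas S hS), fun _ => hg.2 _⟩

theorem Tr.gj (h : Tr Q₁ Q₂ T b) {Lab : Fin 3 → Finset La} {j : ℚ} {χ : Om M → ℂ}
    (hχ : Gj Q₂ Lab (some b) j χ) : Gj Q₁ Lab (some b) j fun ω => χ (T ω) := by
  obtain ⟨h0, χ₁, χ₂, h1, h2, h3⟩ := hχ
  refine ⟨h.uni (ti_cell0 _) h0, _, _, h.uni (ti_cell1 _ _ _) h1, h.uni (ti_cell1 _ _ _) h2, ?_⟩
  exact (h.ae_eq (h0.1.mono (sg_mono' fun x hx => hx.1) le_rfl)
    ((h1.1.mono (sg_mono' fun x hx => hx.1) le_rfl).mul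
      (h2.1.mono (sg_mono' fun x hx => hx.1) le_rfl))).1 h3

theorem Tr.ss (h : Tr Q₁ Q₂ T b) {Lab : Fin 3 → Finset La} {s : Bool → ℕ → ℚ} {b' : Bool}
    {f : Om M → ℂ} {η : ℝ} {χ : Om M → ℂ} (hf : Measurable[sg M X0] f)
    (hχ : SS Q₂ Lab s (some b) b' f η χ) :
    SS Q₁ Lab s (some b) b' (fun ω => f (T ω)) η fun ω => χ (T ω) := by
  obtain ⟨h0, h1, h2⟩ := hχ
  refine ⟨h.uni (ti_cell0 _) h0, ?_, fun η' hη => (h2 η' hη).mono fun n hn => hn.trans ?_⟩
  · have hX : X0 ⊆ GG (some b) := fun x hx i hi => absurd (by rw [show x.2 = 0 from hx]; rfl) hi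
    rwa [h.integral (g := fun ω => f ω * conj (χ ω)) ((hf.mono (sg_mono' hX) le_rfl).mul
      ((h0.mono (sg_mono' fun x hx => hx.1)).conj.1))] at h1
  · exact Nat.cast_le.2 (Set.ncard_le_ncard (fun i hi => ⟨hi.1, h.gj hi.2⟩)
      ((Set.finite_lt_nat (2 ^ n)).subset fun i hi => hi.1))

theorem isC_mon_congr {Q : Measure (Om M)} {χ χ' : ℕ → Om M → ℂ} {c : ℕ → ℂ}
    (hc : ∀ t, ‖c t‖ = 1) (h : ∀ t, χ' t =ᵐ[Q] fun ω => c t * χ t ω) (p : ℤ[X]) :
    IsC Q (mon χ' p) ↔ IsC Q (mon χ p) := by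
  have h1 : mon χ' p =ᵐ[Q] fun ω => ymon c p * mon χ p ω := by
    filter_upwards [ae_all_iff.2 h] with ω hω
    rw [mon_eq_ymon, mon_eq_ymon, ← ymon_mul]
    congr 1
    funext t; exact hω t
  have h0 := ne_zero_of_norm_one (norm_ymon hc p)
  constructor
  · rintro ⟨a, ha⟩
    refine ⟨(ymon c p)⁻¹ * a, ?_⟩
    filter_upwards [ha, h1] with ω h2 h3
    rw [← h2, h3, inv_mul_cancel_left₀ h0]
  · rintro ⟨a, ha⟩
    refine ⟨ymon c p * a, ?_⟩
    filter_upwards [ha, h1] with ω h2 h3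
    rw [h3, h2]

theorem bdd_f {F : Sq M → ℂ} (hF : Bdd inferInstance F) (t : ℤ) :
    Bdd (sg M X0) fun ω => F (sh t (xs ω)) := by
  obtain ⟨h1, C, hC⟩ := hF
  refine ⟨h1.comp ?_, C, fun _ => hC _⟩
  refine @measurable_pi_lambda _ _ _ (sg M X0) _ _ fun u => ?_
  exact measurable_cylinderEvent_apply (X := fun _ : Pos => Al M) (i := (u + t, 0)) rfl

theorem sh_xs_tsh (t : ℕ) (ω : Om M) : sh t (xs (tsh ω)) = sh ((t + 1 : ℕ) : ℤ) (xs ω) := by
  funext u
  simp [sh, xs, tsh, pull, add_assoc]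

end ChainA

open ChainA in
theorem chainStmt (hS : StrStmt) : ChainStmt := by
  intro M ν Lab s Q Q' F hL hs hQ hQ' hF hN h1 h2
  classical
  obtain ⟨a1, a2, a3⟩ := hS M ν Lab s Q hL hs hQ
  obtain ⟨_, b2, _⟩ := hS M ν Lab s Q' hL hs hQ'
  have t1 : Tr Q Q' tsh false := ⟨fun S hS => meas_tsh hS,
    measurable_pi_lambda _ fun x => measurable_pi_apply _, h1⟩
  have t2 : Tr Q' Q id true := ⟨fun S _ => measurable_id, measurable_id, fun A hA => (h2 A hA).symm⟩
  have hb0 := bdd_f hF 0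
  have e0 : (fun ω : Om M => F (sh 0 (xs ω))) = fun ω => F (xs ω) := by
    funext ω; congr 1; funext u; simp [sh]
  obtain ⟨η, hη, χ₀, h0⟩ := a1 _ (e0 ▸ hb0) hN
  refine ⟨η, hη, ?_⟩
  have step : ∀ (t : ℕ) (χ : {χ // SS Q Lab s (some false) false
      (fun ω => F (sh (t : ℕ) (xs ω))) η χ}), ∃ (χ' χ'' : Om M → ℂ) (c c' : ℂ),
      SS Q Lab s (some false) false (fun ω => F (sh ((t + 1 : ℕ) : ℤ) (xs ω))) η
        (fun ω => χ'' (tsh ω)) ∧ Uni (sg M (cell0 (some true))) χ' ∧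
        Uni (sg M (cell0 (some false))) χ'' ∧ ‖c‖ = 1 ∧ ‖c'‖ = 1 ∧
        (χ' =ᵐ[Q] fun ω => c * χ.1 ω) ∧ χ'' =ᵐ[Q'] fun ω => c' * χ' ω := by
    intro t χ
    obtain ⟨χ', c, hc, h3, h4⟩ := a2 _ η false true χ.1 (bdd_f hF t) hη χ.2
    have h5 := t2.ss (bdd_f hF t).1 h3
    obtain ⟨χ'', c', hc', h6, h7⟩ := b2 _ η true false _ (bdd_f hF t) hη h5
    have h8 := t1.ss (bdd_f hF t).1 h6
    simp only [sh_xs_tsh] at h8
    exact ⟨χ', χ'', c, c', h8, h3.1, h6.1, hc, hc', h4, h7⟩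
  choose χ' χ'' c c' k1 k2 k3 k4 k5 k6 k7 using step
  let seq : (t : ℕ) → {χ // SS Q Lab s (some false) false
      (fun ω => F (sh (t : ℕ) (xs ω))) η χ} :=
    fun t => Nat.rec ⟨χ₀, by simpa only [Nat.cast_zero, e0] using h0⟩
      (fun t x => ⟨fun ω => χ'' t x (tsh ω), k1 t x⟩) t
  refine ⟨fun t => (seq t).1, fun t => (seq t).2.1.mono (sg_le' _), fun t => (seq t).2.2.1,
    fun p => ?_, fun N => ?_⟩
  · rw [← isC_mon_congr (fun t => k4 t (seq t)) (fun t => k6 t (seq t)) p,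
      t2.isC (measurable_mon p fun t _ => (k2 t (seq t)).1.mono (sg_mono' fun x hx => hx.1) le_rfl)]
    simp only [id]
    rw [← isC_mon_congr (fun t => k5 t (seq t)) (fun t => k7 t (seq t)) p,
      t1.isC (measurable_mon p fun t _ => (k3 t (seq t)).1.mono (sg_mono' fun x hx => hx.1) le_rfl)]
    rfl
  · obtain ⟨n, hn⟩ := ((eventually_all_finset (Finset.range N)).2
      fun t _ => (seq t).2.2.2 (η / 2) (by linarith)).exists
    set A : ℕ → Finset ℕ := fun i => (Finset.range N).filter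
      (fun t => Gj Q Lab (some false) (s false (2 ^ n + i)) (seq t).1) with hA
    have hsum : ∑ _i ∈ Finset.range (2 ^ n), η * N / 2 ≤
        ∑ i ∈ Finset.range (2 ^ n), ((A i).card : ℝ) := by
      have e1 : ∀ t, (Set.ncard {i | i < 2 ^ n ∧
          Gj Q Lab (some false) (s false (2 ^ n + i)) (seq t).1} : ℝ) =
          ∑ i ∈ Finset.range (2 ^ n),
            if Gj Q Lab (some false) (s false (2 ^ n + i)) (seq t).1 then (1 : ℝ) else 0 := by
        intro t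
        rw [Finset.sum_boole, ← Set.ncard_coe_finset]
        congr 2
        ext i; simp
      have e2 : ∀ i, ((A i).card : ℝ) = ∑ t ∈ Finset.range N,
          if Gj Q Lab (some false) (s false (2 ^ n + i)) (seq t).1 then (1 : ℝ) else 0 := by
        intro i; rw [Finset.sum_boole]
      simp only [e2]
      rw [Finset.sum_comm]
      refine le_trans (le_of_eq ?_) (Finset.sum_le_sum fun t ht => (hn t ht).trans (e1 t).le)
      simp only [Finset.sum_const, Finset.card_range, nsmul_eq_mul]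
      push_cast; ring
    obtain ⟨i, _, hi⟩ := Finset.exists_le_of_sum_le (by simp) hsum
    refine ⟨A i, Finset.filter_subset _ _, hi, fun p hp => ?_⟩
    exact a3 (some false) _ (hs.side false _) _
      (Gam.mon p fun t ht => (Finset.mem_filter.1 (hp ht)).2)

end Crest.Agent.R69
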