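import Crest.Agent.R69.CI

/-! # Row 69: the convolution operators of a deterministic grid commute -/

set_option autoImplicit false
open MeasureTheory ProbabilityTheory Filter Set Topology
open scoped ENNReal InnerProductSpace ComplexConjugate

noncomputable section
namespace Crest.Agent.R69
namespace CommA

variable {Ω : Type} {a b : MeasurableSpace Ω} {m0 : MeasurableSpace Ω} {Q : Measure Ω}

theorem KK_apply (u u' : Ω → ℂ) (z : Lp ℂ 2 Q) :
    KK Q a b u u' z = Pr Q a (Mop Q u (Pr Q b (Mop Q u' (Pr Q a z)))) := rfl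

theorem KK_Pr (u u' : Ω → ℂ) (z : Lp ℂ 2 Q) : KK Q a b u u' (Pr Q a z) = KK Q a b u u' z := by
  rw [KK_apply, KK_apply, Pr_Pr]

theorem Pr_KK (u u' : Ω → ℂ) (z : Lp ℂ 2 Q) : Pr Q a (KK Q a b u u' z) = KK Q a b u u' z := by
  rw [KK_apply, Pr_Pr]

theorem inner_KK_right {u u' : Ω → ℂ} (hu : Bdd m0 u) (hu' : Bdd m0 u') (x y : Lp ℂ 2 Q) :
    ⟪x, KK Q a b u u' y⟫_ℂ =
      ⟪KK Q a b (fun ω => conj (u' ω)) (fun ω => conj (u ω)) x, y⟫_ℂ := by
  rw [KK_apply, KK_apply, ← inner_Pr_left, inner_Mop_right hu, ← inner_Pr_left,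
    inner_Mop_right hu', ← inner_Pr_left]

theorem exists_bdd_KK [IsFiniteMeasure Q] (ha : a ≤ m0) (hb : b ≤ m0) {u u' g : Ω → ℂ}
    (hu : Bdd m0 u) (hu' : Bdd m0 u') (hg : Bdd a g) :
    ∃ g', Bdd a g' ∧ KK Q a b u u' (tl Q g) = tl Q g' := by
  obtain ⟨g₁, h1, e1⟩ := exists_bdd_Pr (Q := Q) hb (hu'.mul (hg.mono ha))
  obtain ⟨g₂, h2, e2⟩ := exists_bdd_Pr (Q := Q) ha (hu.mul (h1.mono hb))
  refine ⟨g₂, h2, ?_⟩
  rw [KK_apply, Pr_eq_self ha hg.tl_mem, Mop_tl hu' ((hg.mono ha).memLp 2), e1,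
    Mop_tl hu ((h1.mono hb).memLp 2), e2]

/-- the partner lemma -/
theorem partner [IsProbabilityMeasure Q] {n : Fin 3 → Fin 3 → MeasurableSpace Ω} (h : DGrid Q n)
    {α σ : Fin 3} (hα : α ≠ 0) (hσ : σ ≠ 0) (hασ : α ≠ σ) {u u' w : Ω → ℂ}
    (hu : Bdd (n 0 2) u) (hu' : Bdd (n 0 2) u') (hw : Bdd (n σ 0) w) {g : Lp ℂ 2 Q}
    (hg : g ∈ L2 Q (n α 0)) :
    KK Q (n 0 0) (n 0 1) u u' (Pr Q (n 0 0) (Mop Q w g)) =
      Pr Q (n 0 0) (Mop Q w (KK Q (n α 0) (n α 1 ⊔ n σ 2) u u' g)) := by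
  have le := h.le
  have hu0 := hu.mono (le 0 2)
  have hu0' := hu'.mono (le 0 2)
  have hw0 := hw.mono (le σ 0)
  have lR : ∀ β, (⨆ a, n a β) ≤ m0 := fun β => iSup_le fun _ => le _ _
  have cR : ∀ a β, n a β ≤ ⨆ a, n a β := fun a β => le_iSup (fun a => n a β) a
  have cL : ∀ a β, n a β ≤ ⨆ β, n a β := fun a β => le_iSup (n a) β
  have lA : n α 1 ⊔ n σ 2 ≤ m0 := sup_le (le _ _) (le _ _)
  have lG : (n α 1 ⊔ n σ 2) ⊔ n 0 2 ≤ m0 := sup_le lA (le _ _)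
  have lH : (n α 1 ⊔ n σ 2) ⊔ n σ 0 ≤ m0 := sup_le lA (le _ _)
  have lr : n α 0 ⊔ n σ 0 ≤ m0 := sup_le (le _ _) (le _ _)
  -- (i)
  have iG : Indep (n σ 0) ((n α 1 ⊔ n σ 2) ⊔ n 0 2) Q := by
    have h1 : Indep (n σ 0) (n α 0 ⊔ ⨆ a, n a 2) Q :=
      indep_sup_right (le _ _) (le _ _) (lR 2)
        (indep_of_indep_of_le (h.ind1 σ α hασ.symm) (cL _ _) (cL _ _))
        (indep_of_indep_of_le (h.ind2 0 2 (by decide)) (sup_le (cR _ _) (cR _ _)) le_rfl)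
    have l1 : n α 0 ⊔ ⨆ a, n a 2 ≤ m0 := sup_le (le _ _) (lR 2)
    refine indep_of_L2_le h1 (le _ _) l1 (le _ _) lG le_rfl ?_
    refine L2_sup_le_L2 lA (le _ _) l1 (L2_sup_le_L2 (le _ _) (le _ _) l1 ?_ ?_) ?_
    · exact (h.det2 α 1 0 2 (by decide) (by decide) (by decide)).trans
        (L2_mono (sup_le_sup_left (cR _ _) _))
    · exact L2_mono ((cR _ _).trans le_sup_right)
    · exact L2_mono ((cR _ _).trans le_sup_right)
  have aG : L2 Q (n α 0) ≤ L2 Q ((n α 1 ⊔ n σ 2) ⊔ n 0 2) := by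
    refine (h.det2 α 0 1 2 (by decide) (by decide) (by decide)).trans
      (L2_sup_le_L2 (le _ _) (le _ _) lG (L2_mono (le_sup_left.trans le_sup_left)) ?_)
    exact (h.det1 2 α σ 0 hασ hα hσ).trans (L2_mono (sup_le_sup_right le_sup_right _))
  -- (ii)
  have iH : Indep (n 0 2) ((n α 1 ⊔ n σ 2) ⊔ n σ 0) Q := by
    have h1 : Indep (n 0 2) (n σ 2 ⊔ ⨆ a, n a 1) Q :=
      indep_sup_right (le _ _) (le _ _) (lR 1)
        (indep_of_indep_of_le (h.ind1 0 σ hσ.symm) (cL _ _) (cL _ _))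
        (indep_of_indep_of_le (h.ind2 2 1 (by decide)) (sup_le (cR _ _) (cR _ _)) le_rfl)
    have l1 : n σ 2 ⊔ ⨆ a, n a 1 ≤ m0 := sup_le (le _ _) (lR 1)
    refine indep_of_L2_le h1 (le _ _) l1 (le _ _) lH le_rfl ?_
    refine L2_sup_le_L2 lA (le _ _) l1 (L2_sup_le_L2 (le _ _) (le _ _) l1 ?_ ?_) ?_
    · exact L2_mono ((cR _ _).trans le_sup_right)
    · exact L2_mono le_sup_left
    · exact (h.det2 σ 0 2 1 (by decide) (by decide) (by decide)).trans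
        (L2_mono (sup_le_sup_left (cR _ _) _))
  have bH : L2 Q (n 0 1) ≤ L2 Q ((n α 1 ⊔ n σ 2) ⊔ n σ 0) := by
    refine (h.det1 1 0 α σ hα.symm hσ.symm hασ).trans
      (L2_sup_le_L2 (le _ _) (le _ _) lH (L2_mono (le_sup_left.trans le_sup_left)) ?_)
    exact (h.det2 σ 1 2 0 (by decide) (by decide) (by decide)).trans
      (L2_mono (sup_le_sup_right le_sup_right _))
  -- (iii)
  have ir : Indep (n 0 2) (n α 0 ⊔ n σ 0) Q :=
    indep_of_indep_of_le (h.ind2 2 0 (by decide)) (cR _ _) (sup_le (cR _ _) (cR _ _))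
  have br : L2 Q (n 0 0) ≤ L2 Q (n α 0 ⊔ n σ 0) := h.det1 0 0 α σ hα.symm hσ.symm hασ
  have c1 := CI.of_indep_sup iG lA lG (le _ _) (L2_mono le_sup_left)
  have c2 := CI.of_indep_sup iG (le α 0) lG (le _ _) aG
  have c3 := CI.of_indep_sup iH (le 0 1) lH (le _ _) bH
  have c4 := CI.of_indep_sup ir (le 0 0) lr (le _ _) br
  have uG : tl Q u ∈ L2 Q ((n α 1 ⊔ n σ 2) ⊔ n 0 2) := (hu.mono le_sup_right).tl_mem
  have uG' : tl Q u' ∈ L2 Q ((n α 1 ⊔ n σ 2) ⊔ n 0 2) := (hu'.mono le_sup_right).tl_mem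
  have l12 : n 0 1 ⊔ n 0 2 ≤ m0 := sup_le (le _ _) (le _ _)
  have l02 : n 0 0 ⊔ n 0 2 ≤ m0 := sup_le (le _ _) (le _ _)
  have wg : Mop Q w g ∈ L2 Q (n α 0 ⊔ n σ 0) :=
    Mop_mem hw0 (hw.mono le_sup_right).tl_mem (L2_mono le_sup_left hg)
  symm
  calc Pr Q (n 0 0) (Mop Q w (KK Q (n α 0) (n α 1 ⊔ n σ 2) u u' g))
      = Pr Q (n 0 0) (Mop Q w (Pr Q (n α 0 ⊔ n σ 0)
          (Mop Q u (Pr Q (n α 1 ⊔ n σ 2) (Mop Q u' g))))) := by
        rw [KK_apply, Pr_eq_self (le _ _) hg,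
          c2 _ (Mop_mem hu0 uG (L2_mono le_sup_left (Pr_mem _)))]
    _ = Pr Q (n 0 0) (Mop Q u (Mop Q w (Pr Q (n α 1 ⊔ n σ 2) (Mop Q u' g)))) := by
        rw [← Pr_Mop lr hw0 (hw.mono le_sup_right).tl_mem, Pr_Pr_of_ge (le _ _) lr br,
          Mop_comm hw0 hu0]
    _ = Pr Q (n 0 0) (Mop Q u (Pr Q ((n α 1 ⊔ n σ 2) ⊔ n σ 0) (Mop Q u' (Mop Q w g)))) := by
        rw [← c1 _ (Mop_mem hu0' uG' (aG hg)), ← Pr_Mop lH hw0 (hw.mono le_sup_right).tl_mem,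
          Mop_comm hw0 hu0']
    _ = Pr Q (n 0 0) (Mop Q u (Pr Q (n 0 1) (Mop Q u' (Mop Q w g)))) := by
        rw [← Pr_Pr_of_ge (le 0 0) l12 (h.det2 0 0 1 2 (by decide) (by decide) (by decide)),
          Pr_Mop l12 hu0 (hu.mono le_sup_right).tl_mem, c3.Pr_Pr lH (le _ _) bH]
    _ = _ := by
        rw [KK_apply, Pr_Pr,
          ← Pr_Pr_of_ge (le 0 1) l02 (h.det2 0 1 0 2 (by decide) (by decide) (by decide))
            (Mop Q u' (Mop Q w g)),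
          Pr_Mop l02 hu0' (hu'.mono le_sup_right).tl_mem, c4 _ wg]

end CommA

open CommA in
theorem commStmt : CommStmt := by
  intro Ω m0 Q _ n h u u' hu hu'
  have le := h.le
  have hu0 := hu.mono (le 0 2)
  have hu0' := hu'.mono (le 0 2)
  refine ⟨fun v v' hv hv' => ?_, fun v v' hv hv' => ?_⟩
  · have hv0 := hv.mono (le 0 2)
    have hv0' := hv'.mono (le 0 2)
    ext1 f
    have key := eq_on_L2_sup (Q := Q) (le 1 0) (le 2 0)
      (S := KK Q (n 0 0) (n 0 1) u u' ∘L KK Q (n 0 0) (n 0 1) v v' ∘L Pr Q (n 0 0))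
      (T := KK Q (n 0 0) (n 0 1) v v' ∘L KK Q (n 0 0) (n 0 1) u u' ∘L Pr Q (n 0 0))
      (fun g w hg hw => by
        have hg0 := hg.mono (le _ _)
        have hw0 := hw.mono (le _ _)
        obtain ⟨g', hg', eg⟩ := exists_bdd_KK (Q := Q) (b := n 1 1 ⊔ n 2 2) (le 1 0)
          (sup_le (le _ _) (le _ _)) hu0 hu0' hg
        obtain ⟨w', hw', ew⟩ := exists_bdd_KK (Q := Q) (b := n 2 1 ⊔ n 1 2) (le 2 0)
          (sup_le (le _ _) (le _ _)) hv0 hv0' hw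
        have hg0' := hg'.mono (le _ _)
        have hw0' := hw'.mono (le _ _)
        simp only [ContinuousLinearMap.comp_apply]
        rw [← Mop_tl hg0 (hw0.memLp 2),
          partner h (α := 2) (σ := 1) (by decide) (by decide) (by decide) hv hv' hg hw.tl_mem, ew,
          Mop_tl_comm hg0 hw0',
          partner h (α := 1) (σ := 2) (by decide) (by decide) (by decide) hu hu' hw' hg.tl_mem, eg,
          Mop_tl_comm hg0 hw0,
          partner h (α := 1) (σ := 2) (by decide) (by decide) (by decide) hu hu' hw hg.tl_mem, eg,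
          Mop_tl_comm hw0 hg0',
          partner h (α := 2) (σ := 1) (by decide) (by decide) (by decide) hv hv' hg' hw.tl_mem, ew,
          Mop_tl_comm hw0' hg0'])
      (h.det1 0 0 1 2 (by decide) (by decide) (by decide) (Pr_mem f))
    simp only [ContinuousLinearMap.comp_apply, KK_Pr] at key
    exact key
  · have hv0 := hv.mono (le 2 0)
    have hv0' := hv'.mono (le 2 0)
    ext1 f
    change KK Q (n 0 0) (n 0 1) u u' (KK Q (n 0 0) (n 1 0) v v' f) =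
      KK Q (n 0 0) (n 1 0) v v' (KK Q (n 0 0) (n 0 1) u u' f)
    have key : Pr Q (n 1 0) (Mop Q v' (Pr Q (n 0 0) (KK Q (n 0 0) (n 0 1) u u' f))) =
        KK Q (n 1 0) (n 1 1 ⊔ n 2 2) u u' (Pr Q (n 1 0) (Mop Q v' (Pr Q (n 0 0) f))) := by
      refine ext_inner_left ℂ fun z => ?_
      rw [← inner_Pr_left, inner_Mop_right hv0', ← inner_Pr_left, inner_KK_right hu0 hu0',
        partner h (α := 1) (σ := 2) (by decide) (by decide) (by decide) hu'.conj hu.conj hv'.conj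
          (Pr_mem z), KK_Pr, inner_KK_right hu0 hu0', ← inner_Pr_left, Pr_KK,
        inner_Mop_right hv0', ← inner_Pr_left]
    rw [KK_apply v v' f, partner h (α := 1) (σ := 2) (by decide) (by decide) (by decide) hu hu' hv
      (Pr_mem _), KK_apply v v', key]

end Crest.Agent.R69
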