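import Crest.Agent.R69.CI

/-! # Cylinders, moves, composition operators, colourings, cells -/

set_option autoImplicit false
open MeasureTheory ProbabilityTheory Filter Set Topology
open scoped ENNReal InnerProductSpace ComplexConjugate

noncomputable section
namespace Crest.Agent.R69

/-! ### composition with a measure preserving map -/
section cmp
variable {Ω : Type} {m a b : MeasurableSpace Ω} {m0 : MeasurableSpace Ω} {Q : Measure Ω}
  {Θ : Ω → Ω}

/-- composition with a measure preserving map -/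
def cmp (hΘ : MeasurePreserving Θ Q Q) : Lp ℂ 2 Q →ₗᵢ[ℂ] Lp ℂ 2 Q :=
  Lp.compMeasurePreservingₗᵢ ℂ Θ hΘ

theorem coe_cmp (hΘ : MeasurePreserving Θ Q Q) (v : Lp ℂ 2 Q) : cmp hΘ v =ᵐ[Q] fun ω => v (Θ ω) :=
  Lp.coeFn_compMeasurePreserving v hΘ

theorem cmp_tl (hΘ : MeasurePreserving Θ Q Q) {u : Ω → ℂ} (hu : MemLp u 2 Q) :
    cmp hΘ (tl Q u) = tl Q fun ω => u (Θ ω) :=
  (tl_eq_of_ae_eq ((coe_cmp hΘ _).trans
    (hΘ.quasiMeasurePreserving.ae_eq_comp (coe_tl hu))).symm).symm

theorem Bdd.comp_comap {u : Ω → ℂ} (hu : Bdd m u) (Θ : Ω → Ω) :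
    Bdd (m.comap Θ) fun ω => u (Θ ω) := by
  obtain ⟨h1, C, hC⟩ := hu
  exact ⟨h1.comp (Measurable.of_comap_le le_rfl), C, fun ω => hC _⟩

theorem cmp_mem (hΘ : MeasurePreserving Θ Q Q) {v : Lp ℂ 2 Q} (hv : v ∈ L2 Q m) :
    cmp hΘ v ∈ L2 Q (m.comap Θ) := by
  obtain ⟨u, h1, h2, -, rfl⟩ := exists_rep hv
  rw [cmp_tl hΘ h2]
  exact tl_mem_L2
    (h1.comp (Measurable.of_comap_le le_rfl)).stronglyMeasurable.aestronglyMeasurable

theorem comap_le_of_mp (hΘ : MeasurePreserving Θ Q Q) (hm : m ≤ m0) : m.comap Θ ≤ m0 :=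
  (MeasurableSpace.comap_mono hm).trans hΘ.measurable.comap_le

/-- conditional expectations commute with measure preserving maps -/
theorem Pr_cmp [IsFiniteMeasure Q] (hΘ : MeasurePreserving Θ Q Q) (hm : m ≤ m0) (v : Lp ℂ 2 Q) :
    Pr Q (m.comap Θ) (cmp hΘ v) = cmp hΘ (Pr Q m v) := by
  have hm' := comap_le_of_mp hΘ hm
  have h0 : Pr Q (m.comap Θ) (cmp hΘ v - cmp hΘ (Pr Q m v)) = 0 := by
    refine (Pr_eq_zero_iff hm').2 fun z hz =>
      (Submodule.mem_orthogonal_singleton_iff_inner_left).1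
      (L2_le_of_indicator hm' (K := (ℂ ∙ _)ᗮ) (Submodule.isClosed_orthogonal _) ?_ hz)
    rintro _ ⟨A, hA, rfl⟩
    refine Submodule.mem_orthogonal_singleton_iff_inner_left.2 ?_
    have : tl Q ((Θ ⁻¹' A).indicator fun _ => (1 : ℂ)) =
        cmp hΘ (tl Q (A.indicator fun _ => (1 : ℂ))) := by
      rw [cmp_tl hΘ ((Bdd.indicator (hm _ hA)).memLp 2)]; rfl
    rw [this, ← map_sub, LinearIsometry.inner_map_map, inner_sub_right,
      inner_Pr_of_mem hm (Bdd.indicator hA).tl_mem, sub_self]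
  rw [map_sub, Pr_eq_self hm' (cmp_mem hΘ (Pr_mem v)), sub_eq_zero] at h0
  exact h0

theorem indep_of_comap (hΘ : MeasurePreserving Θ Q Q) (ha : a ≤ m0) (hb : b ≤ m0)
    (h : Indep (a.comap Θ) (b.comap Θ) Q) : Indep a b Q := by
  rw [Indep_iff] at h ⊢
  intro A B hA hB
  rw [← hΘ.measure_preimage (ha _ hA).nullMeasurableSet,
    ← hΘ.measure_preimage (hb _ hB).nullMeasurableSet,
    ← hΘ.measure_preimage ((ha _ hA).inter (hb _ hB)).nullMeasurableSet, preimage_inter]
  exact h _ _ ⟨A, hA, rfl⟩ ⟨B, hB, rfl⟩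

theorem indep_comap (hΘ : MeasurePreserving Θ Q Q) (ha : a ≤ m0) (hb : b ≤ m0)
    (h : Indep a b Q) : Indep (a.comap Θ) (b.comap Θ) Q := by
  rw [Indep_iff] at h ⊢
  rintro _ _ ⟨A, hA, rfl⟩ ⟨B, hB, rfl⟩
  rw [← preimage_inter, hΘ.measure_preimage (ha _ hA).nullMeasurableSet,
    hΘ.measure_preimage (hb _ hB).nullMeasurableSet,
    hΘ.measure_preimage ((ha _ hA).inter (hb _ hB)).nullMeasurableSet]
  exact h _ _ hA hB

end cmp

variable {M : ℕ} {S S' T U W : Set Pos}

/-! ### `sg` -/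

theorem sg_le (S : Set Pos) : sg M S ≤ (inferInstance : MeasurableSpace (Om M)) :=
  cylinderEvents_le_pi

theorem sg_mono (h : S ⊆ T) : sg M S ≤ sg M T := cylinderEvents_mono h

theorem L2_sg_mono {Q : Measure (Om M)} (h : S ⊆ T) : L2 Q (sg M S) ≤ L2 Q (sg M T) :=
  L2_mono (sg_mono h)

theorem sg_union (S T : Set Pos) : sg M (S ∪ T) = sg M S ⊔ sg M T := iSup_union

theorem sg_iUnion {ι : Sort*} (S : ι → Set Pos) : sg M (⋃ i, S i) = ⨆ i, sg M (S i) :=
  iSup_iUnion _ _

theorem sg_empty : sg M ∅ = ⊥ := iSup_emptyset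

theorem sg_univ : sg M univ = (inferInstance : MeasurableSpace (Om M)) := cylinderEvents_univ

theorem measurable_eval {x : Pos} (hx : x ∈ S) : Measurable[sg M S] fun ω : Om M => ω x :=
  measurable_cylinderEvent_apply (X := fun _ : Pos => Al M) hx

theorem comap_pull_sg (ρ : Pos → Pos) (S : Set Pos) :
    (sg M S).comap (pull ρ) = sg M (ρ '' S) := by
  simp only [sg, cylinderEvents, MeasurableSpace.comap_iSup, MeasurableSpace.comap_comp,
    iSup_image]
  rfl

theorem measurable_pull {ρ : Pos → Pos} (h : ∀ x ∈ S, ρ x ∈ S') :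
    Measurable[sg M S', sg M S] (pull ρ) := by
  refine Measurable.of_comap_le ?_
  rw [comap_pull_sg]; exact sg_mono (image_subset_iff.2 h)

theorem measurable_pull' (ρ : Pos → Pos) : Measurable (pull ρ : Om M → Om M) :=
  measurable_pi_lambda _ fun _ => measurable_pi_apply _

theorem continuous_pull (ρ : Pos → Pos) : Continuous (pull ρ : Om M → Om M) :=
  continuous_pi fun _ => continuous_apply _

theorem pull_pull (ρ ρ' : Pos → Pos) (ω : Om M) : pull ρ (pull ρ' ω) = pull (ρ' ∘ ρ) ω := rfl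

theorem Bdd.comp_pull {ρ : Pos → Pos} {u : Om M → ℂ} (hu : Bdd (sg M S) u)
    (h : ∀ x ∈ S, ρ x ∈ S') : Bdd (sg M S') fun ω => u (pull ρ ω) := by
  obtain ⟨h1, C, hC⟩ := hu
  exact ⟨h1.comp (measurable_pull h), C, fun _ => hC _⟩

theorem mem_iff_of_sg {A : Set (Om M)} (hA : MeasurableSet[sg M S] A) {ω ω' : Om M}
    (h : ∀ x ∈ S, ω x = ω' x) : ω ∈ A ↔ ω' ∈ A := by
  let m' : MeasurableSpace (Om M) :=
    { MeasurableSet' := fun A => ω ∈ A ↔ ω' ∈ A
      measurableSet_empty := Iff.rfl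
      measurableSet_compl := fun _ h => not_congr h
      measurableSet_iUnion := fun f hf => by simp only [mem_iUnion]; exact exists_congr hf }
  have : sg M S ≤ m' := by
    refine iSup₂_le fun x hx => ?_
    rintro _ ⟨B, -, rfl⟩
    change ω x ∈ B ↔ ω' x ∈ B
    rw [h x hx]
  exact this _ hA

theorem dependsOn_of_sg {β : Type*} [MeasurableSpace β] [MeasurableSingletonClass β]
    {f : Om M → β} (hf : Measurable[sg M S] f) {ω ω' : Om M} (h : ∀ x ∈ S, ω x = ω' x) :
    f ω = f ω' :=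
  (mem_iff_of_sg (hf (measurableSet_singleton (f ω'))) h).2 rfl

/-! ### finite cylinders -/

def cyl (W : Finset Pos) (a : Om M) : Set (Om M) := {ω | ∀ x ∈ W, ω x = a x}

def cyls (M : ℕ) (S : Set Pos) : Set (Set (Om M)) :=
  {A | ∃ (W : Finset Pos) (a : Om M), ↑W ⊆ S ∧ A = cyl W a}

theorem measurableSet_cyl {W : Finset Pos} (h : ↑W ⊆ S) (a : Om M) :
    MeasurableSet[sg M S] (cyl W a) := by
  have : cyl W a = ⋂ x ∈ W, (fun ω : Om M => ω x) ⁻¹' {a x} := by ext; simp [cyl]
  rw [this]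
  exact Finset.measurableSet_biInter _ fun x hx =>
    measurable_eval (h hx) (measurableSet_singleton _)

theorem measurableSet_of_mem_cyls {A : Set (Om M)} (h : A ∈ cyls M S) :
    MeasurableSet[sg M S] A := by
  obtain ⟨W, a, hW, rfl⟩ := h; exact measurableSet_cyl hW a

theorem isPiSystem_cyls : IsPiSystem (cyls M S) := by
  classical
  rintro _ ⟨W, a, hW, rfl⟩ _ ⟨W', a', hW', rfl⟩ ⟨ω, h1, h2⟩
  refine ⟨W ∪ W', ω, by rw [Finset.coe_union]; exact union_subset hW hW', ?_⟩
  ext z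
  simp only [cyl, mem_inter_iff, mem_ofPred_eq, Finset.mem_union]
  constructor
  · rintro ⟨e1, e2⟩ x (hx | hx)
    · rw [e1 x hx, h1 x hx]
    · rw [e2 x hx, h2 x hx]
  · intro e
    exact ⟨fun x hx => by rw [e x (Or.inl hx), h1 x hx], fun x hx => by rw [e x (Or.inr hx), h2 x hx]⟩

theorem univ_mem_cyls : univ ∈ cyls M S := ⟨∅, fun _ => 0, by simp, by ext; simp [cyl]⟩

theorem sg_eq_generateFrom : sg M S = MeasurableSpace.generateFrom (cyls M S) := by
  refine le_antisymm (iSup₂_le fun x hx => ?_)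
    (MeasurableSpace.generateFrom_le fun A hA => measurableSet_of_mem_cyls hA)
  rintro _ ⟨B, -, rfl⟩
  have : (fun ω : Om M => ω x) ⁻¹' B = ⋃ b ∈ B, cyl {x} (fun _ => b) := by ext; simp [cyl]
  rw [this]
  exact MeasurableSet.biUnion (to_countable B) fun b _ =>
    MeasurableSpace.measurableSet_generateFrom ⟨{x}, _, by simpa using hx, rfl⟩

theorem countable_cyls : (cyls M S).Countable := by
  classical
  refine (countable_range fun p : (W : Finset Pos) × (W → Al M) =>
    cyl p.1 fun x => if h : x ∈ p.1 then p.2 ⟨x, h⟩ else 0).mono ?_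
  rintro _ ⟨W, a, -, rfl⟩
  refine ⟨⟨W, fun x => a x⟩, ?_⟩
  ext ω
  simp only [cyl, mem_ofPred_eq]
  exact forall₂_congr fun x hx => by rw [dif_pos hx]

theorem isClopen_cyl (W : Finset Pos) (a : Om M) : IsClopen (cyl W a) := by
  have : cyl W a = ⋂ x ∈ W, (fun ω : Om M => ω x) ⁻¹' {a x} := by ext; simp [cyl]
  rw [this]
  exact isClopen_biInter_finset fun x _ => (isClopen_discrete _).preimage (continuous_apply x)

theorem indep_of_cyls {P : Measure (Om M)} [IsProbabilityMeasure P]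
    (h : ∀ (W W' : Finset Pos) (a a' : Om M), ↑W ⊆ S → ↑W' ⊆ T →
      P (cyl W a ∩ cyl W' a') = P (cyl W a) * P (cyl W' a')) : Indep (sg M S) (sg M T) P := by
  refine IndepSets.indep (sg_le _) (sg_le _) isPiSystem_cyls isPiSystem_cyls sg_eq_generateFrom
    sg_eq_generateFrom ?_
  rw [IndepSets_iff]
  rintro _ _ ⟨W, a, hW, rfl⟩ ⟨W', a', hW', rfl⟩
  exact h W W' a a' hW hW'

/-- two finite measures agreeing on the cylinders of `S` agree on `sg S` -/
theorem eq_on_sg_of_cyls {P Q : Measure (Om M)} [IsFiniteMeasure P]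
    (h : ∀ A ∈ cyls M S, P A = Q A) {A : Set (Om M)} (hA : MeasurableSet[sg M S] A) : P A = Q A := by
  have h1 : P.trim (sg_le S) = Q.trim (sg_le S) := by
    refine ext_of_generate_finite (cyls M S) sg_eq_generateFrom isPiSystem_cyls (fun A hA => ?_) ?_
    · rw [trim_measurableSet_eq _ (measurableSet_of_mem_cyls hA),
        trim_measurableSet_eq _ (measurableSet_of_mem_cyls hA), h A hA]
    · rw [trim_measurableSet_eq _ .univ, trim_measurableSet_eq _ .univ, h _ univ_mem_cyls]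
  rw [← trim_measurableSet_eq (sg_le S) hA, h1, trim_measurableSet_eq _ hA]

/-- orthogonality to `sg S` can be tested on finite subsets of `S` -/
theorem Pr_sg_eq_zero_of_finite {Q : Measure (Om M)} [IsFiniteMeasure Q] {v : Lp ℂ 2 Q}
    (h : ∀ W : Finset Pos, ↑W ⊆ S → Pr Q (sg M W) v = 0) : Pr Q (sg M S) v = 0 :=
  (Pr_eq_zero_iff (sg_le S)).2 fun _ hz => (Submodule.mem_orthogonal_singleton_iff_inner_left).1
    (L2_le_of_piSystem (sg_le S) isPiSystem_cyls sg_eq_generateFrom univ_mem_cyls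
      (K := (ℂ ∙ v)ᗮ) (Submodule.isClosed_orthogonal _) (by
        rintro _ ⟨W, a, hW, rfl⟩
        exact Submodule.mem_orthogonal_singleton_iff_inner_left.2
          ((Pr_eq_zero_iff (sg_le _)).1 (h W hW) _
            (Bdd.indicator (measurableSet_cyl subset_rfl a)).tl_mem)) hz)

/-! ### `Pres` -/
variable {P : Measure (Om M)}

theorem Pres.mono {ρ : Pos → Pos} (h : Pres P W ρ) (hS : S ⊆ W) : Pres P S ρ :=
  fun A hA => h A (sg_mono hS _ hA)

theorem Pres.of_mp {ρ : Pos → Pos} (h : MeasurePreserving (pull ρ) P P) (W : Set Pos) :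
    Pres P W ρ := fun _ hA => h.measure_preimage (sg_le W _ hA).nullMeasurableSet

theorem Pres.comp {ρ ρ' : Pos → Pos} (h : Pres P W ρ) (h' : Pres P S ρ') (hS : ∀ x ∈ W, ρ x ∈ S) :
    Pres P W (ρ' ∘ ρ) := fun A hA => by
  rw [← h A hA, ← h' _ (measurable_pull hS hA)]; rfl

theorem Pres.congr {ρ ρ' : Pos → Pos} (h : Pres P W ρ) (he : ∀ x ∈ W, ρ x = ρ' x) :
    Pres P W ρ' := fun A hA => by
  rw [← h A hA]
  congr 1
  ext ω
  exact mem_iff_of_sg hA fun x hx => by simp only [pull, he x hx]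

theorem Pres.map_trim {ρ : Pos → Pos} (h : Pres P W ρ) :
    (P.map (pull ρ)).trim (sg_le W) = P.trim (sg_le W) := by
  refine @Measure.ext _ (sg M W) _ _ fun A hA => ?_
  rw [trim_measurableSet_eq _ hA, trim_measurableSet_eq _ hA,
    Measure.map_apply (measurable_pull' ρ) (sg_le W _ hA), h A hA]

theorem Pres.integral {E : Type*} [NormedAddCommGroup E] [NormedSpace ℝ E] {ρ : Pos → Pos}
    (h : Pres P W ρ) {φ : Om M → E} (hφ : StronglyMeasurable[sg M W] φ) :
    ∫ ω, φ (pull ρ ω) ∂P = ∫ ω, φ ω ∂P := by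
  rw [← integral_map (measurable_pull' ρ).aemeasurable
    (hφ.mono (sg_le W)).aestronglyMeasurable, integral_trim (sg_le W) hφ,
    integral_trim (sg_le W) hφ, h.map_trim]

theorem mp_of_pres [IsFiniteMeasure P] {ρ : Pos → Pos} (h : ∀ W : Finset Pos, Pres P W ρ) :
    MeasurePreserving (pull ρ) P P := by
  refine ⟨measurable_pull' ρ, Measure.ext fun A hA => ?_⟩
  refine eq_on_sg_of_cyls (S := univ) ?_ (sg_univ (M := M) ▸ hA)
  rintro _ ⟨W, a, -, rfl⟩
  rw [Measure.map_apply (measurable_pull' ρ) (sg_le W _ (measurableSet_cyl subset_rfl a))]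
  exact h W _ (measurableSet_cyl subset_rfl a)

theorem Arr.mp_mv {ν : Measure (Sq M)} (h : Arr ν P) {σ : II → II} (hσ : StrictMono σ) :
    MeasurePreserving (pull (mv σ)) P P :=
  have := h.prob
  mp_of_pres fun W => h.con W σ (hσ.strictMonoOn _)

/-! ### indices and moves -/

theorem finite_idx (W : Finset Pos) : (idx (W : Set Pos)).Finite := by
  refine (W.finite_toSet.biUnion fun x _ => x.2.support.finite_toSet).subset ?_
  rintro i ⟨x, hx, hi⟩
  exact mem_biUnion hx (Finsupp.mem_support_iff.2 hi)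

theorem support_subset_idx {x : Pos} (hx : x ∈ W) : ↑x.2.support ⊆ idx W :=
  fun _ hi => ⟨x, hx, Finsupp.mem_support_iff.1 hi⟩

@[simp] theorem mv_fst (σ : II → II) (x : Pos) : (mv σ x).1 = x.1 := rfl

theorem mv_apply {σ : II → II} {F : Set II} (hσ : InjOn σ F) {x : Pos} (hx : ↑x.2.support ⊆ F)
    {i : II} (hi : i ∈ F) : (mv σ x).2 (σ i) = x.2 i :=
  Finsupp.mapDomain_apply' F x.2 hx hσ hi

theorem mv_apply_of_injective {σ : II → II} (hσ : Function.Injective σ) (x : Pos) (i : II) :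
    (mv σ x).2 (σ i) = x.2 i := Finsupp.mapDomain_apply hσ _ _

theorem exists_of_mv_ne_zero {σ : II → II} {x : Pos} {z : II} (h : (mv σ x).2 z ≠ 0) :
    ∃ i, x.2 i ≠ 0 ∧ σ i = z := by
  classical
  have := Finsupp.mapDomain_support (Finsupp.mem_support_iff.2 h)
  obtain ⟨i, hi, rfl⟩ := Finset.mem_image.1 this
  exact ⟨i, Finsupp.mem_support_iff.1 hi, rfl⟩

theorem mv_eq_self {σ : II → II} {x : Pos} (h : ∀ i, x.2 i ≠ 0 → σ i = i) : mv σ x = x := by
  refine Prod.ext rfl ?_
  change x.2.mapDomain σ = x.2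
  rw [Finsupp.mapDomain_congr (g := id) fun i hi => h i (Finsupp.mem_support_iff.1 hi),
    Finsupp.mapDomain_id]

theorem mv_mv (σ τ : II → II) (x : Pos) : mv σ (mv τ x) = mv (σ ∘ τ) x :=
  Prod.ext rfl Finsupp.mapDomain_comp.symm

theorem mv_id (x : Pos) : mv id x = x := mv_eq_self fun _ _ => rfl

theorem clp_snd_apply (p : II) (h : (II →₀ La) →+ ℤ) (x : Pos) (i : II) :
    (clp p h x).2 i = if p ≤ i then x.2 i else 0 := by
  simp [clp, Finsupp.filter_apply]

/-! ### the origin process and the time shift -/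

theorem measurable_xs : Measurable[sg M X0] (xs : Om M → Sq M) :=
  @measurable_pi_lambda _ _ _ (sg M X0) _ _ fun t => measurable_eval (show ((t, 0) : Pos) ∈ X0 from rfl)

theorem measurable_xs' : Measurable (xs : Om M → Sq M) := measurable_xs.mono (sg_le _) le_rfl

theorem sg_X0 : sg M X0 = (inferInstance : MeasurableSpace (Sq M)).comap xs := by
  refine le_antisymm (iSup₂_le fun x hx => ?_) measurable_xs.comap_le
  obtain ⟨t, w⟩ := x
  obtain rfl : w = 0 := hx
  exact ((measurable_pi_apply t).comp (Measurable.of_comap_le (f := (xs : Om M → Sq M))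
    le_rfl)).comap_le

theorem measurable_sh (h : ℤ) : Measurable (sh h : Sq M → Sq M) :=
  measurable_pi_lambda _ fun _ => measurable_pi_apply _

theorem sh_sh (h k : ℤ) (x : Sq M) : sh h (sh k x) = sh (h + k) x := by
  ext t; simp [sh, add_assoc]

@[simp] theorem sh_zero (x : Sq M) : sh 0 x = x := by ext t; simp [sh]

theorem xs_tsh (ω : Om M) : xs (tsh ω) = sh 1 (xs ω) := by
  ext t; simp [xs, tsh, pull, sh]

theorem Bdd.comp_xs {F : Sq M → ℂ} (hF : Bdd inferInstance F) :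
    Bdd (sg M X0) fun ω => F (xs ω) := by
  obtain ⟨h1, C, hC⟩ := hF
  exact ⟨h1.comp measurable_xs, C, fun _ => hC _⟩

theorem Bdd.comp_sh {F : Sq M → ℂ} (hF : Bdd inferInstance F) (t : ℤ) :
    Bdd inferInstance fun x => F (sh t x) := by
  obtain ⟨h1, C, hC⟩ := hF
  exact ⟨h1.comp (measurable_sh t), C, fun _ => hC _⟩

theorem Arr.mp_tsh {ν : Measure (Sq M)} (h : Arr ν P) : MeasurePreserving tsh P P := h.inv _

/-- sets of positions defined by the label coordinate are invariant under the time shift -/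
theorem measurable_tsh (h : ∀ x y : Pos, x.2 = y.2 → x ∈ S → y ∈ S) :
    Measurable[sg M S, sg M S] tsh := measurable_pull fun x hx => h x _ (by simp) hx

theorem comap_tsh_sg (h : ∀ x y : Pos, x.2 = y.2 → x ∈ S → y ∈ S) :
    (sg M S).comap tsh = sg M S := by
  refine (comap_pull_sg _ S).trans (congrArg _ (Subset.antisymm ?_ fun x hx => ?_))
  · rintro _ ⟨x, hx, rfl⟩; exact h x _ (by simp) hx
  · exact ⟨x - (1, 0), h x _ (by simp) hx, by simp⟩

/-! ### colourings, sequences, automorphisms -/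

theorem exists_Dn : ∃ col, Dn col := by
  classical
  obtain ⟨e, he⟩ := exists_surjective_nat (Finset La × ℚ × ℚ)
  have hex : ∀ (n : ℕ) (s : Finset ℚ), ∃ r : ℚ, r ∉ s ∧ r ≠ 0 ∧
      ((e n).2.1 < (e n).2.2 → (e n).2.1 < r ∧ r < (e n).2.2) := by
    intro n s
    by_cases h : (e n).2.1 < (e n).2.2
    · obtain ⟨r, hr, hr'⟩ := (Ioo_infinite h).exists_notMem_finset (insert 0 s)
      rw [Finset.mem_insert, not_or] at hr'
      exact ⟨r, hr'.2, hr'.1, fun _ => hr⟩
    · obtain ⟨r, hr⟩ := Infinite.exists_notMem_finset (insert 0 s)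
      rw [Finset.mem_insert, not_or] at hr
      exact ⟨r, hr.2, hr.1, fun h' => absurd h' h⟩
  choose f hf using hex
  let G : ℕ → Finset ℚ := fun n => Nat.rec ∅ (fun n s => insert (f n s) s) n
  have hG : Monotone G := monotone_nat_of_le_succ fun n => Finset.subset_insert _ _
  let r : ℕ → ℚ := fun n => f n (G n)
  have hr : Function.Injective r := by
    refine Function.Injective.of_lt_imp_ne fun a b hab h => (hf b (G b)).1 ?_
    have : r a ∈ G b := hG (Nat.succ_le_of_lt hab) (Finset.mem_insert_self _ _)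
    rwa [h] at this
  refine ⟨fun q => (e (Function.invFun r q)).1, fun D a b hab => ?_⟩
  obtain ⟨n, hn⟩ := he (D, a, b)
  have h1 := (hf n (G n)).2
  rw [hn] at h1
  exact ⟨r n, (h1.2 hab).1, (h1.2 hab).2, h1.1, by
    simp only [Function.leftInverse_invFun hr n, hn]⟩

theorem exists_Sqs : ∃ s, Sqs s := by
  have hd : Dense (range ((↑) : ℚ → ℝ)) := Rat.denseRange_cast
  obtain ⟨u, hu1, hu2, hu3⟩ := hd.exists_seq_strictMono_tendsto (√2)
  obtain ⟨v, hv1, hv2, hv3⟩ := hd.exists_seq_strictAnti_tendsto (√2)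
  choose a ha using fun n => (hu2 n).2
  choose b hb using fun n => (hv2 n).2
  refine ⟨fun c => cond c b a, fun c => ?_, fun c n => ?_, fun c => ?_⟩
  · cases c
    · exact fun i j h => hu1.injective (by rw [← ha, ← ha]; exact congrArg _ h)
    · exact fun i j h => hv1.injective (by rw [← hb, ← hb]; exact congrArg _ h)
  · cases c
    · change ((a n : ℚ) : ℝ) < √2
      rw [ha]; exact (hu2 n).1
    · change √2 < ((b n : ℚ) : ℝ)
      rw [hb]; exact (hv2 n).1
  · cases c
    · simpa only [cond_false, ha] using hu3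
    · simpa only [cond_true, hb] using hv3

open Order Order.PartialIso in
/-- a finite strictly monotone partial map of `ℚ` extends to an automorphism -/
theorem exists_orderIso_extend (F : Finset ℚ) (g : ℚ → ℚ) (hg : StrictMonoOn g F) :
    ∃ e : ℚ ≃o ℚ, ∀ q ∈ F, e q = g q := by
  classical
  let p0 : PartialIso ℚ ℚ := ⟨F.image fun q => (q, g q), by
    intro p hp q hq
    obtain ⟨a, ha, rfl⟩ := Finset.mem_image.1 hp
    obtain ⟨b, hb, rfl⟩ := Finset.mem_image.1 hq
    exact (hg.cmp_map_eq ha hb).symm⟩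
  let to_cofinal : ℚ ⊕ ℚ → Cofinal (PartialIso ℚ ℚ) := fun p ↦
    Sum.recOn p (definedAtLeft ℚ) (definedAtRight ℚ)
  let I : Order.Ideal (PartialIso ℚ ℚ) := idealOfCofinals p0 to_cofinal
  let A a := funOfIdeal a I (cofinal_meets_idealOfCofinals _ to_cofinal (Sum.inl a))
  let B b := invOfIdeal b I (cofinal_meets_idealOfCofinals _ to_cofinal (Sum.inr b))
  refine ⟨OrderIso.ofCmpEqCmp (fun a ↦ (A a).val) (fun b ↦ (B b).val) fun a b ↦ ?_, fun q hq => ?_⟩
  · rcases (A a).prop with ⟨f, hf, ha⟩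
    rcases (B b).prop with ⟨g, hg, hb⟩
    rcases I.directed _ hf _ hg with ⟨m, _, fm, gm⟩
    exact m.prop (a, _) (fm ha) (_, b) (gm hb)
  · change (A q).val = g q
    rcases (A q).prop with ⟨f, hf, ha⟩
    rcases I.directed _ hf _ (mem_idealOfCofinals p0 to_cofinal) with ⟨m, _, fm, gm⟩
    have := m.prop (q, _) (fm ha) (q, g q) (gm (Finset.mem_image.2 ⟨q, hq, rfl⟩))
    rw [cmp_self_eq_eq] at this
    exact (cmp_eq_eq_iff _ _).1 this.symm

/-! ### active indices, hats, cells -/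

theorem Act_act (q : ℚ) : Act (act q) := rfl

theorem act_injective : Function.Injective act := fun _ _ h =>
  congrArg (fun i : II => (ofLex i).1) h

theorem Act.eq_act {i : II} (h : Act i) : i = act (ofLex i).1 :=
  Prod.ext rfl h

theorem hat_of_Act {Inf : La → Prop} {col : ℚ → Finset La} {s : ℕ} {i : II} (h : Act i) :
    hat Inf col s i = ∅ := if_neg fun h' => h'.1 h

theorem hat_eq {Inf : La → Prop} {col : ℚ → Finset La} {s : ℕ} {i : II} (h : ¬ Act i)
    (h1 : Adm Inf (col (ofLex i).2)) (h2 : (col (ofLex i).2).card ≤ s) :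
    hat Inf col s i = col (ofLex i).2 := if_pos ⟨h, h1, h2⟩

theorem adm_empty (Inf : La → Prop) : Adm Inf ∅ := ⟨by simp, by simp⟩

theorem Adm.mono {Inf : La → Prop} {D D' : Finset La} (h : Adm Inf D) (h' : D' ⊆ D) : Adm Inf D' :=
  ⟨fun d hd => h.1 d (h' hd), fun d hd d' hd' => h.2 d (h' hd) d' (h' hd')⟩

theorem Adm.zero_notMem {Inf : La → Prop} (hI : InfOK Inf) {D : Finset La} (h : Adm Inf D) :
    0 ∉ D := fun h0 => hI.zero (h.1 0 h0)

theorem hat_ok (Inf : La → Prop) (col : ℚ → Finset La) (s : ℕ) (i : II) :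
    Adm Inf (hat Inf col s i) ∧ (hat Inf col s i).card ≤ s := by
  unfold hat
  split_ifs with h
  · exact h.2
  · exact ⟨adm_empty _, by simp⟩

/-- every class accumulates from below, inside the block, at every index -/
theorem Dn.exists_below {col : ℚ → Finset La} (h : Dn col) (D : Finset La) {a i : II} (ha : a < i) :
    ∃ z : II, a < z ∧ z < i ∧ (ofLex z).1 = (ofLex i).1 ∧ ¬ Act z ∧ col (ofLex z).2 = D := by
  rcases Prod.Lex.lt_iff.1 ha with h1 | ⟨h1, h2⟩
  · obtain ⟨r, -, e2, e3, e4⟩ := h D ((ofLex i).2 - 1) (ofLex i).2 (by linarith)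
    exact ⟨toLex ((ofLex i).1, r), Prod.Lex.lt_iff.2 (Or.inl h1),
      Prod.Lex.lt_iff.2 (Or.inr ⟨rfl, e2⟩), rfl, e3, e4⟩
  · obtain ⟨r, e1, e2, e3, e4⟩ := h D _ _ h2
    exact ⟨toLex ((ofLex i).1, r), Prod.Lex.lt_iff.2 (Or.inr ⟨h1, e1⟩),
      Prod.Lex.lt_iff.2 (Or.inr ⟨rfl, e2⟩), rfl, e3, e4⟩

theorem mem_sd_of_fst_eq {C : Option Bool} {i z : II} (h : (ofLex z).1 = (ofLex i).1)
    (hi : i ∈ sd C) : z ∈ sd C := by
  rcases C with _ | _ | _
  · trivial
  · change (((ofLex z).1 : ℚ) : ℝ) < √2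
    rw [h]; exact hi
  · change √2 < (((ofLex z).1 : ℚ) : ℝ)
    rw [h]; exact hi

theorem mem_sd_or (i : II) : i ∈ sd (some false) ∨ i ∈ sd (some true) :=
  lt_or_gt_of_ne (irrational_sqrt_two.ne_rat _).symm

theorem not_mem_sd_both {i : II} (h : i ∈ sd (some false)) (h' : i ∈ sd (some true)) : False :=
  lt_asymm (show (((ofLex i).1 : ℚ) : ℝ) < √2 from h) h'

theorem GG_none : GG none = univ := eq_univ_of_forall fun _ _ _ => trivial

theorem GG_subset_none (C : Option Bool) : GG C ⊆ GG none := fun _ _ _ _ => trivial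

theorem X0_subset_cell0 (C : Option Bool) : X0 ⊆ cell0 C := fun x hx => by
  have : x.2 = 0 := hx
  exact ⟨fun i hi => absurd (by rw [this]; rfl) hi, fun i _ => by rw [this]; rfl⟩

theorem cell0_subset_GG (C : Option Bool) : cell0 C ⊆ GG C := fun _ h => h.1
theorem cell1_subset_GG (C : Option Bool) (j : ℚ) (A : Finset La) : cell1 C j A ⊆ GG C :=
  fun _ h => h.1
theorem cell2_subset_GG (C : Option Bool) (j m : ℚ) (A B : Finset La) : cell2 C j m A B ⊆ GG C :=
  fun _ h => h.1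
theorem X0_subset_GG (C : Option Bool) : X0 ⊆ GG C :=
  (X0_subset_cell0 C).trans (cell0_subset_GG C)

theorem cell0_subset_none (C : Option Bool) : cell0 C ⊆ cell0 none :=
  fun _ h => ⟨GG_subset_none C h.1, h.2⟩
theorem cell1_subset_none (C : Option Bool) (j : ℚ) (A : Finset La) :
    cell1 C j A ⊆ cell1 none j A := fun _ h => ⟨GG_subset_none C h.1, h.2⟩
theorem oth_subset_none (Lab : Fin 3 → Finset La) (C : Option Bool) (j : ℚ) :
    oth Lab C j ⊆ oth Lab none j :=
  union_subset_union (cell1_subset_none _ _ _) (cell1_subset_none _ _ _)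

theorem cell1_zero (C : Option Bool) (j : ℚ) : cell1 C j {0} = cell0 C := by
  ext x
  refine and_congr_right fun _ => ⟨fun h i hi => ?_, fun h => ⟨?_, fun i hi _ => h i hi⟩⟩
  · by_cases e : i = act j
    · rw [e]; exact Finset.mem_singleton.1 h.1
    · exact h.2 i hi e
  · exact Finset.mem_singleton.2 (h _ (Act_act j))

theorem cell2_comm (C : Option Bool) (j m : ℚ) (A B : Finset La) :
    cell2 C j m A B = cell2 C m j B A := by
  ext x
  exact and_congr_right fun _ => ⟨fun h => ⟨h.2.1, h.1, fun i a b c => h.2.2 i a c b⟩,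
    fun h => ⟨h.2.1, h.1, fun i a b c => h.2.2 i a c b⟩⟩

theorem cell2_zero_right (C : Option Bool) {j m : ℚ} (h : j ≠ m) (A : Finset La) :
    cell2 C j m A {0} = cell1 C j A := by
  ext x
  refine and_congr_right fun _ => and_congr_right fun _ =>
    ⟨fun h' i hi hj => ?_, fun h' => ⟨?_, fun i hi hj _ => h' i hi hj⟩⟩
  · by_cases e : i = act m
    · rw [e]; exact Finset.mem_singleton.1 h'.1
    · exact h'.2 i hi hj e
  · exact Finset.mem_singleton.2 (h' _ (Act_act m) fun e => h (act_injective e).symm)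

theorem cell2_zero_left (C : Option Bool) {j m : ℚ} (h : j ≠ m) (B : Finset La) :
    cell2 C j m {0} B = cell1 C m B := by
  rw [cell2_comm, cell2_zero_right C h.symm]

theorem cell2_zero_zero (C : Option Bool) {j m : ℚ} (h : j ≠ m) :
    cell2 C j m {0} {0} = cell0 C := by rw [cell2_zero_right C h, cell1_zero]

theorem exists_act_ne {s : Bool → ℕ → ℚ} (hs : Sqs s) (C : Option Bool) (j : ℚ) :
    ∃ m, j ≠ m ∧ act m ∈ sd C := by
  have key : ∀ b, ∃ m, j ≠ m ∧ act m ∈ sd (some b) := fun b => by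
    by_cases h : j = s b 0
    · exact ⟨s b 1, fun e => absurd (hs.inj b (h.symm.trans e)) (by decide), hs.side b 1⟩
    · exact ⟨s b 0, h, hs.side b 0⟩
  rcases C with _ | b
  · obtain ⟨m, h, -⟩ := key false
    exact ⟨m, h, trivial⟩
  · exact key b

end Crest.Agent.R69
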