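import Mathlib

/-! # Row 69 (Rokhlin: mixing implies mixing of all orders) -- definitions and interface

Overview of the proof: see the docstrings of the `…Stmt` propositions and the subtasks `R69-*`.
Everything lives in `Type`; only the last reduction (`Red0`) is universe polymorphic. -/

set_option autoImplicit false
open MeasureTheory ProbabilityTheory Filter Topology Set Polynomial
open scoped ENNReal InnerProductSpace ComplexConjugate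

noncomputable section
namespace Crest.Agent.R69

/-! ## 1. `L²` vocabulary -/
section L2
variable {Ω : Type} {m0 : MeasurableSpace Ω}

/-- `L²(m)` inside `L²(Q)`. -/
abbrev L2 (Q : Measure Ω) (m : MeasurableSpace Ω) : Submodule ℂ (Lp ℂ 2 Q) :=
  @lpMeas Ω ℂ ℂ _ _ _ m m0 2 Q

open Classical in
/-- Conditional expectation on `m` as an orthogonal projection of `L²(Q)`. -/
def Pr (Q : Measure Ω) (m : MeasurableSpace Ω) : Lp ℂ 2 Q →L[ℂ] Lp ℂ 2 Q :=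
  if h : m ≤ m0 then (L2 Q m).subtypeL ∘L condExpL2 ℂ ℂ h else 0

open Classical in
/-- Multiplication by a bounded function on `L²(Q)`. -/
def Mop (Q : Measure Ω) (u : Ω → ℂ) : Lp ℂ 2 Q →L[ℂ] Lp ℂ 2 Q :=
  if h : MemLp u ∞ Q then (ContinuousLinearMap.mul ℂ ℂ).holderL Q ∞ 2 2 (h.toLp u) else 0

open Classical in
/-- The class of a function in `L²(Q)`. -/
def tl (Q : Measure Ω) (u : Ω → ℂ) : Lp ℂ 2 Q :=
  if h : MemLp u 2 Q then h.toLp u else 0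

/-- Bounded `m`-measurable complex functions. -/
def Bdd (m : MeasurableSpace Ω) (u : Ω → ℂ) : Prop :=
  Measurable[m] u ∧ ∃ C : ℝ, ∀ ω, ‖u ω‖ ≤ C

/-- Unimodular `m`-measurable functions. -/
def Uni (m : MeasurableSpace Ω) (u : Ω → ℂ) : Prop :=
  Measurable[m] u ∧ ∀ ω, ‖u ω‖ = 1

/-- `U` is conditionally independent of `S'` given `S` (always used with `S ≤ S'`). -/
def CI (Q : Measure Ω) (U S S' : MeasurableSpace Ω) : Prop :=
  ∀ v ∈ L2 Q U, Pr Q S' v = Pr Q S v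

/-- a.e. constant -/
def IsC (Q : Measure Ω) (g : Ω → ℂ) : Prop := ∃ c : ℂ, g =ᵐ[Q] fun _ => c

/-- "characters": unimodular `a`-measurable functions that are products of a unimodular
`b`-measurable and a unimodular `c`-measurable function. -/
def Gam (Q : Measure Ω) (a b c : MeasurableSpace Ω) (χ : Ω → ℂ) : Prop :=
  Uni a χ ∧ ∃ χ₁ χ₂ : Ω → ℂ, Uni b χ₁ ∧ Uni c χ₂ ∧ χ =ᵐ[Q] fun ω => χ₁ ω * χ₂ ω

/-- `E[E[· | b ⊔ c] | a]`. -/
def RR (Q : Measure Ω) (a b c : MeasurableSpace Ω) : Lp ℂ 2 Q →L[ℂ] Lp ℂ 2 Q :=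
  Pr Q a ∘L Pr Q (b ⊔ c)

/-- closed span of the functions that are characters in both directions of a `3 × 3` grid. -/
def GamSpan (Q : Measure Ω) (n : Fin 3 → Fin 3 → MeasurableSpace Ω) : Submodule ℂ (Lp ℂ 2 Q) :=
  (Submodule.span ℂ {v | ∃ χ, Gam Q (n 0 0) (n 1 0) (n 2 0) χ ∧ Gam Q (n 0 0) (n 0 1) (n 0 2) χ ∧
    v = tl Q χ}).topologicalClosure

/-- Line `α` (cells `n α β`, all `β`) is conditionally independent of the cross lines in `B` and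
of the parallel line `α'`, given its own cells in `B`. -/
def H1 (Q : Measure Ω) (n : Fin 3 → Fin 3 → MeasurableSpace Ω) : Prop :=
  ∀ α α' : Fin 3, α ≠ α' → ∀ B : Finset (Fin 3),
    CI Q (⨆ β, n α β) (⨆ β ∈ B, n α β) ((⨆ β ∈ B, ⨆ a, n a β) ⊔ ⨆ β, n α' β)

structure Grid (Q : Measure Ω) (n : Fin 3 → Fin 3 → MeasurableSpace Ω) : Prop where
  le : ∀ α β, n α β ≤ m0
  h1 : H1 Q n
  h2 : H1 Q fun α β => n β α

/-- Three pairwise independent σ-algebras, each determined (mod null sets) by the other two. -/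
structure Tri (Q : Measure Ω) (a b c : MeasurableSpace Ω) : Prop where
  le_a : a ≤ m0
  le_b : b ≤ m0
  le_c : c ≤ m0
  ab : Indep a b Q
  ac : Indep a c Q
  bc : Indep b c Q
  det_a : L2 Q a ≤ L2 Q (b ⊔ c)
  det_b : L2 Q b ≤ L2 Q (a ⊔ c)
  det_c : L2 Q c ≤ L2 Q (a ⊔ b)

/-- Deterministic grid: each cell is determined by the two others of its line (both directions),
and any two parallel lines are independent. -/
structure DGrid (Q : Measure Ω) (n : Fin 3 → Fin 3 → MeasurableSpace Ω) : Prop where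
  le : ∀ α β, n α β ≤ m0
  det1 : ∀ β α α' α'', α ≠ α' → α ≠ α'' → α' ≠ α'' → L2 Q (n α β) ≤ L2 Q (n α' β ⊔ n α'' β)
  det2 : ∀ α β β' β'', β ≠ β' → β ≠ β'' → β' ≠ β'' → L2 Q (n α β) ≤ L2 Q (n α β' ⊔ n α β'')
  ind1 : ∀ α α', α ≠ α' → Indep (⨆ β, n α β) (⨆ β, n α' β) Q
  ind2 : ∀ β β', β ≠ β' → Indep (⨆ α, n α β) (⨆ α, n α β') Q

/-- the "convolution" operators -/
def KK (Q : Measure Ω) (a b : MeasurableSpace Ω) (u u' : Ω → ℂ) : Lp ℂ 2 Q →L[ℂ] Lp ℂ 2 Q :=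
  Pr Q a ∘L Mop Q u ∘L Pr Q b ∘L Mop Q u' ∘L Pr Q a

/-- the monomial `∏ χ_s ^ p_s` -/
def mon (χ : ℕ → Ω → ℂ) (p : ℤ[X]) (ω : Ω) : ℂ := ∏ s ∈ p.support, χ s ω ^ p.coeff s

end L2

/-- Joint eigenvectors of a commuting `*`-closed family of compact operators span a dense space. -/
def JEStmt : Prop :=
  ∀ (H : Type) [NormedAddCommGroup H] [InnerProductSpace ℂ H] [CompleteSpace H]
    (𝒦 : Set (H →L[ℂ] H)), (∀ K ∈ 𝒦, IsCompactOperator K) →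
    (∀ K ∈ 𝒦, ContinuousLinearMap.adjoint K ∈ 𝒦) → (∀ K ∈ 𝒦, ∀ K' ∈ 𝒦, Commute K K') →
    (Submodule.span ℂ {v : H | ∀ K ∈ 𝒦, ∃ z : ℂ, K v = z • v}).topologicalClosure = ⊤

def TriStmt : Prop :=
  ∀ (Ω : Type) (m0 : MeasurableSpace Ω) (Q : Measure[m0] Ω) [IsProbabilityMeasure Q]
    (a b c : MeasurableSpace Ω), Tri Q a b c →
    (∀ u u', Bdd c u → Bdd c u' → IsCompactOperator (KK Q a b u u')) ∧
    ∀ e ∈ L2 Q a, (∀ u u', Bdd c u → Bdd c u' → ∃ z : ℂ, KK Q a b u u' e = z • e) →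
      e = 0 ∨ ∃ (z : ℂ) (χ : Ω → ℂ), Gam Q a b c χ ∧ e = z • tl Q χ

def CommStmt : Prop :=
  ∀ (Ω : Type) (m0 : MeasurableSpace Ω) (Q : Measure[m0] Ω) [IsProbabilityMeasure Q]
    (n : Fin 3 → Fin 3 → MeasurableSpace Ω), DGrid Q n →
    ∀ u u', Bdd (n 0 2) u → Bdd (n 0 2) u' →
      (∀ v v', Bdd (n 0 2) v → Bdd (n 0 2) v' →
        Commute (KK Q (n 0 0) (n 0 1) u u') (KK Q (n 0 0) (n 0 1) v v')) ∧
      (∀ v v', Bdd (n 2 0) v → Bdd (n 2 0) v' →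
        Commute (KK Q (n 0 0) (n 0 1) u u') (KK Q (n 0 0) (n 1 0) v v'))

def GridStmt : Prop :=
  ∀ (Ω : Type) (m0 : MeasurableSpace Ω) (Q : Measure[m0] Ω) [IsProbabilityMeasure Q]
    (n : Fin 3 → Fin 3 → MeasurableSpace Ω), DGrid Q n → L2 Q (n 0 0) ≤ GamSpan Q n

def PairStmt : Prop :=
  ∀ (Ω : Type) (m0 : MeasurableSpace Ω) (Q : Measure[m0] Ω) [IsProbabilityMeasure Q]
    (n : Fin 3 → Fin 3 → MeasurableSpace Ω), Grid Q n →
    ∀ f ∈ L2 Q (n 0 0),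
      RR Q (n 0 0) (n 0 1) (n 0 2) (RR Q (n 0 0) (n 1 0) (n 2 0) f) ∈ GamSpan Q n

/-! ## 2. Stationary processes -/

abbrev Al (M : ℕ) := Fin (M + 1)
abbrev Sq (M : ℕ) := ℤ → Al M

def sh {M : ℕ} (h : ℤ) (x : Sq M) : Sq M := fun t => x (t + h)

structure Proc {M : ℕ} (ν : Measure (Sq M)) : Prop where
  prob : IsProbabilityMeasure ν
  inv : ∀ h, MeasurePreserving (sh h) ν ν
  mix : ∀ A B : Set (Sq M), MeasurableSet A → MeasurableSet B →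
    Tendsto (fun h : ℤ => ν.real (A ∩ sh h ⁻¹' B)) cofinite (𝓝 (ν.real A * ν.real B))

/-- zero entropy, covering form -/
def ZE {M : ℕ} (ν : Measure (Sq M)) : Prop :=
  ∀ ε : ℝ, 0 < ε → ∀ᶠ N : ℕ in atTop, ∃ 𝒜 : Finset (Fin N → Al M),
    (𝒜.card : ℝ) ≤ Real.exp (ε * N) ∧
      1 - ε ≤ ν.real {x | (fun i : Fin N => x ((i : ℕ) : ℤ)) ∈ 𝒜}

/-- multiple mixing along ultrafilters, for functions of one coordinate -/
def MM {M : ℕ} (ν : Measure (Sq M)) : Prop :=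
  ∀ (k : ℕ) (g : Fin k → Al M → ℝ) (N : Type) (𝒰 : Ultrafilter N) (s : Fin k → N → ℤ),
    (∀ a b, a < b → Tendsto (fun n => s b n - s a n) 𝒰 atTop) →
    Tendsto (fun n => ∫ x, ∏ a, g a (x (s a n)) ∂ν) 𝒰 (𝓝 (∏ a, ∫ x, g a (x 0) ∂ν))

def Main0 : Prop := ∀ (M : ℕ) (ν : Measure (Sq M)), Proc ν → ZE ν → MM ν
def Main1 : Prop := ∀ (M : ℕ) (ν : Measure (Sq M)), Proc ν → MM ν

/-- A finite-valued function of the remote past generates a process of zero entropy. -/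
def EntStmt : Prop :=
  ∀ (M M' : ℕ) (ν : Measure (Sq M)) [IsProbabilityMeasure ν],
    (∀ h, MeasurePreserving (sh h) ν ν) → ∀ q : Sq M → Al M', Measurable q →
    (∀ n : ℕ, ∃ q' : Sq M → Al M',
      Measurable[cylinderEvents (X := fun _ : ℤ => Al M) (Iic (-(n : ℤ)))] q' ∧ q =ᵐ[ν] q') →
    ZE (ν.map fun x t => q (sh t x))

/-! ## 3. The final contradiction -/

/-- `F` depends on finitely many coordinates and is bounded by `1`. -/
def Win {M : ℕ} (F : Sq M → ℂ) : Prop :=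
  Measurable F ∧ (∃ w : ℕ, DependsOn F (Icc (-(w : ℤ)) w)) ∧ ∀ x, ‖F x‖ ≤ 1

structure Chain {Ω : Type} {m0 : MeasurableSpace Ω} {M : ℕ} (Q : Measure Ω) (ξ : Ω → Sq M)
    (F : Sq M → ℂ) (η : ℝ) (χ : ℕ → Ω → ℂ) : Prop where
  uni : ∀ t, Uni m0 (χ t)
  corr : ∀ t : ℕ, η ≤ ‖∫ ω, F (sh t (ξ ω)) * conj (χ t ω) ∂Q‖
  shift : ∀ p : ℤ[X], IsC Q (mon χ p) ↔ IsC Q (mon (fun t => χ (t + 1)) p)
  dens : ∀ N : ℕ, ∃ A : Finset ℕ, A ⊆ Finset.range N ∧ η * N / 2 ≤ A.card ∧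
    ∀ p : ℤ[X], p.support ⊆ A → IsC Q (mon χ p) ∨ ∫ ω, mon χ p ω ∂Q = 0

/-- one-sided homoclinic characters -/
def Homo (𝓘 : Set ℤ[X]) : Prop :=
  ∃ C r : ℝ, 0 ≤ C ∧ 0 ≤ r ∧ r < 1 ∧ ∀ t : ℕ, ∃ y : ℕ → ℂ, (∀ s, ‖y s‖ = 1) ∧
    (∀ p ∈ 𝓘, ∏ s ∈ p.support, y s ^ p.coeff s = 1) ∧ 1 ≤ ‖1 - y t‖ ∧
    ∀ s < t, ‖1 - y s‖ ≤ C * r ^ (t - s)

def AlgStmt : Prop :=
  ∀ 𝓘 : Ideal ℤ[X], (∀ p, X * p ∈ 𝓘 → p ∈ 𝓘) →
    (∃ m d : ℕ, 0 < m ∧ (X ^ m - 1) ^ d ∈ 𝓘) ∨ Homo (𝓘 : Set ℤ[X])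

def RieszStmt : Prop :=
  ∀ (Ω : Type) (m0 : MeasurableSpace Ω) (Q : Measure[m0] Ω) [IsProbabilityMeasure Q] (M : ℕ)
    (ν : Measure (Sq M)) (ξ : Ω → Sq M) (F : Sq M → ℂ) (η : ℝ) (χ : ℕ → Ω → ℂ),
    Proc ν → ZE ν → Measurable ξ → Q.map ξ = ν → Win F → 0 < η → Chain Q ξ F η χ →
    ¬ Homo {p | IsC Q (mon χ p)}

def VdcStmt : Prop :=
  ∀ (Ω : Type) (m0 : MeasurableSpace Ω) (Q : Measure[m0] Ω) [IsProbabilityMeasure Q] (M : ℕ)
    (ν : Measure (Sq M)) (ξ : Ω → Sq M) (F : Sq M → ℂ) (η : ℝ) (χ : ℕ → Ω → ℂ),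
    Proc ν → Measurable ξ → Q.map ξ = ν → Win F → ∫ x, F x ∂ν = 0 → 0 < η → Chain Q ξ F η χ →
    ∀ m d : ℕ, 0 < m → ¬ IsC Q (mon χ ((X ^ m - 1) ^ d))

def FinalStmt : Prop :=
  ∀ (Ω : Type) (m0 : MeasurableSpace Ω) (Q : Measure[m0] Ω) [IsProbabilityMeasure Q] (M : ℕ)
    (ν : Measure (Sq M)) (ξ : Ω → Sq M) (F : Sq M → ℂ) (η : ℝ) (χ : ℕ → Ω → ℂ),
    Proc ν → ZE ν → Measurable ξ → Q.map ξ = ν → Win F → ∫ x, F x ∂ν = 0 → 0 < η →
    ¬ Chain Q ξ F η χ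

/-! ## 4. The array -/

/-- labels -/
abbrev La := ℕ →₀ ℤ
/-- indices -/
abbrev II := ℚ ×ₗ ℚ
/-- positions -/
abbrev Pos := ℤ × (II →₀ La)
abbrev Om (M : ℕ) := Pos → Al M

instance : Countable II := inferInstanceAs (Countable (ℚ × ℚ))

/-- the σ-algebra generated by the coordinates in `S` -/
abbrev sg (M : ℕ) (S : Set Pos) : MeasurableSpace (Om M) :=
  cylinderEvents (X := fun _ : Pos => Al M) S

def pull {M : ℕ} (ρ : Pos → Pos) (ω : Om M) : Om M := fun x => ω (ρ x)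

/-- `ρ` preserves the law of the coordinates in `W` -/
def Pres {M : ℕ} (P : Measure (Om M)) (W : Set Pos) (ρ : Pos → Pos) : Prop :=
  ∀ A, MeasurableSet[sg M W] A → P (pull ρ ⁻¹' A) = P A

/-- indices used by `W` -/
def idx (W : Set Pos) : Set II := {i | ∃ x ∈ W, x.2 i ≠ 0}

/-- move the indices -/
def mv (σ : II → II) (x : Pos) : Pos := (x.1, x.2.mapDomain σ)

open Classical in
/-- collapse the indices below `p` into the time coordinate -/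
def clp (p : II) (h : (II →₀ La) →+ ℤ) (x : Pos) : Pos :=
  (x.1 + h (x.2.filter (· < p)), x.2.filter (p ≤ ·))

/-- the process at the origin -/
def xs {M : ℕ} (ω : Om M) : Sq M := fun t => ω (t, 0)

/-- time shift -/
def tsh {M : ℕ} (ω : Om M) : Om M := pull (· + ((1 : ℤ), (0 : II →₀ La))) ω

structure Arr {M : ℕ} (ν : Measure (Sq M)) (P : Measure (Om M)) : Prop where
  prob : IsProbabilityMeasure P
  inv : ∀ γ : Pos, MeasurePreserving (pull (· + γ)) P P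
  con : ∀ (W : Finset Pos) (σ : II → II), StrictMonoOn σ (idx W) → Pres P W (mv σ)
  fub : ∀ (W : Finset Pos) (p : II) (ε : ℝ), 0 < ε → ∃ h : (II →₀ La) →+ ℤ,
    ∀ A, MeasurableSet[sg M W] A → |P.real (pull (clp p h) ⁻¹' A) - P.real A| ≤ ε
  law : P.map xs = ν

/-- The array exists; at one index its law is the ultralimit of the laws of the process. -/
def ArrStmt : Prop :=
  ∀ (M : ℕ) (ν : Measure (Sq M)), Proc ν → ∀ (N : Type) (𝒰 : Ultrafilter N) (ev : N → La →+ ℤ),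
    ∃ P : Measure (Om M), Arr ν P ∧
      ∀ (p : II) (k : ℕ) (t : Fin k → ℤ) (l : Fin k → La) (F : (Fin k → Al M) → ℝ),
        Tendsto (fun n => ∫ x, F (fun i => x (t i + ev n (l i))) ∂ν) 𝒰
          (𝓝 (∫ ω, F (fun i => ω (t i, Finsupp.single p (l i))) ∂P))

/-- `Inf l`: the label `l` is "infinitely large". -/
structure InfOK (Inf : La → Prop) : Prop where
  zero : ¬ Inf 0
  neg : ∀ l, Inf l → Inf (-l)

/-- `D ∪ {0}` has pairwise infinite differences -/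
def Adm (Inf : La → Prop) (D : Finset La) : Prop :=
  (∀ d ∈ D, Inf d) ∧ ∀ d ∈ D, ∀ d' ∈ D, d ≠ d' → Inf (d - d')

def X0 : Set Pos := {x | x.2 = 0}
def One (p : II) (D : Finset La) : Set Pos := {x | ∃ d ∈ D, x.2 = Finsupp.single p d}
/-- the base of a hat assignment -/
def Wb (η : II → Finset La) : Set Pos := {x | ∃ i, x.2 i ∈ η i}

/-- `(s+1)`-fold independence at one index -/
def SI {M : ℕ} (P : Measure (Om M)) (Inf : La → Prop) (s : ℕ) : Prop :=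
  ∀ (p : II) (D : Finset La), Adm Inf D → D.card ≤ s → Indep (sg M X0) (sg M (One p D)) P

def Link {M : ℕ} (P : Measure (Om M)) (Inf : La → Prop) (s : ℕ) : Prop :=
  ∀ η : II → Finset La, (∀ i, Adm Inf (η i) ∧ (η i).card ≤ s) →
    Indep (sg M X0) (sg M (Wb η)) P

/-- Lemma E. -/
def LEStmt : Prop :=
  ∀ (M : ℕ) (P : Measure (Om M)) [IsProbabilityMeasure P] (U S S' : Set Pos), S ⊆ S' →
    (∀ W₀ W₁ : Finset Pos, ↑W₀ ⊆ U → ↑W₁ ⊆ S' → ∃ ρ : Pos → Pos, Pres P (↑W₀ ∪ ↑W₁) ρ ∧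
      (∀ x ∈ W₀, ρ x = x) ∧ ∀ x ∈ W₁, ρ x ∈ S) →
    CI P (sg M U) (sg M S) (sg M S')

/-- Lemma E for the move "label `d + l` at `i` becomes label `d` at `i` and label `l` at a fresh
index `z ∈ T` just below `i`". -/
def MV1Stmt : Prop :=
  ∀ (M : ℕ) (ν : Measure (Sq M)) (P : Measure (Om M)), Arr ν P →
    ∀ (i : II) (d : La) (T : Set II), (∀ a < i, ∃ z ∈ T, a < z ∧ z < i) →
    ∀ U S S' : Set Pos, S ⊆ S' → (∀ x ∈ U, x.2 i = d) →
    (∀ z ∈ T, z < i → ∀ y ∈ S', y.2 z = 0 → ∀ y' : Pos, y'.1 = y.1 → y'.2 i = d →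
      y'.2 z = y.2 i - d → (∀ a, a ≠ i → a ≠ z → y'.2 a = y.2 a) → y' ∈ S) →
    CI P (sg M U) (sg M S) (sg M S')

def FubStmt : Prop :=
  ∀ (M : ℕ) (ν : Measure (Sq M)) (P : Measure (Om M)), Arr ν P →
    ∀ (U V U' V' : Set Pos), Indep (sg M U') (sg M V') P →
    (∀ W₀ W₁ : Finset Pos, ↑W₀ ⊆ U → ↑W₁ ⊆ V → ∃ p : II, ∀ h,
      (∀ x ∈ W₀, clp p h x ∈ U') ∧ ∀ x ∈ W₁, clp p h x ∈ V') →
    Indep (sg M U) (sg M V) P

def LinkStmt : Prop :=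
  ∀ (M : ℕ) (ν : Measure (Sq M)) (P : Measure (Om M)) (Inf : La → Prop), Arr ν P → InfOK Inf →
    ∀ s, SI P Inf s → Link P Inf s

/-! ## 5. Hats, sides, cells -/

/-- every class of labels is taken densely, away from `0` -/
def Dn (col : ℚ → Finset La) : Prop :=
  ∀ (D : Finset La) (a b : ℚ), a < b → ∃ r, a < r ∧ r < b ∧ r ≠ 0 ∧ col r = D

/-- active indices -/
def act (q : ℚ) : II := toLex (q, 0)
def Act (i : II) : Prop := (ofLex i).2 = 0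

open Classical in
def hat (Inf : La → Prop) (col : ℚ → Finset La) (s : ℕ) (i : II) : Finset La :=
  if ¬ Act i ∧ Adm Inf (col (ofLex i).2) ∧ (col (ofLex i).2).card ≤ s then col (ofLex i).2 else ∅

/-- the two halves of the index set (`none`: everything) -/
def sd : Option Bool → Set II
  | none => univ
  | some false => {i | (((ofLex i).1 : ℚ) : ℝ) < √2}
  | some true => {i | √2 < (((ofLex i).1 : ℚ) : ℝ)}

structure Sqs (s : Bool → ℕ → ℚ) : Prop where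
  inj : ∀ b, Function.Injective (s b)
  side : ∀ b n, act (s b n) ∈ sd (some b)
  lim : ∀ b, Tendsto (fun n => (s b n : ℝ)) atTop (𝓝 √2)

/-- positions supported in `sd C` -/
def GG (C : Option Bool) : Set Pos := {x | ∀ i, x.2 i ≠ 0 → i ∈ sd C}
def cell0 (C : Option Bool) : Set Pos := {x | x ∈ GG C ∧ ∀ i, Act i → x.2 i = 0}
def cell1 (C : Option Bool) (j : ℚ) (A : Finset La) : Set Pos :=
  {x | x ∈ GG C ∧ x.2 (act j) ∈ A ∧ ∀ i, Act i → i ≠ act j → x.2 i = 0}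
def cell2 (C : Option Bool) (j m : ℚ) (A B : Finset La) : Set Pos :=
  {x | x ∈ GG C ∧ x.2 (act j) ∈ A ∧ x.2 (act m) ∈ B ∧
    ∀ i, Act i → i ≠ act j → i ≠ act m → x.2 i = 0}

structure LabOK (Inf : La → Prop) (s : ℕ) (Lab : Fin 3 → Finset La) : Prop where
  l0 : Lab 0 = {0}
  l1 : (Lab 1).card = 1
  l2 : (Lab 2).card ≤ s
  disj : Disjoint (Lab 1) (Lab 2)
  adm : Adm Inf (Lab 1 ∪ Lab 2)

/-- the averaging operator of the active index `j` -/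
def Rj {M : ℕ} (Q : Measure (Om M)) (Lab : Fin 3 → Finset La) (C : Option Bool) (j : ℚ) :
    Lp ℂ 2 Q →L[ℂ] Lp ℂ 2 Q :=
  RR Q (sg M (cell0 C)) (sg M (cell1 C j (Lab 1))) (sg M (cell1 C j (Lab 2)))

/-- the characters of the active index `j` -/
def Gj {M : ℕ} (Q : Measure (Om M)) (Lab : Fin 3 → Finset La) (C : Option Bool) (j : ℚ)
    (χ : Om M → ℂ) : Prop :=
  Gam Q (sg M (cell0 C)) (sg M (cell1 C j (Lab 1))) (sg M (cell1 C j (Lab 2))) χ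

/-- block averages -/
def AA {M : ℕ} (Q : Measure (Om M)) (Lab : Fin 3 → Finset La) (s : Bool → ℕ → ℚ) (b : Bool)
    (n : ℕ) : Lp ℂ 2 Q →L[ℂ] Lp ℂ 2 Q :=
  ((2 : ℂ) ^ n)⁻¹ • ∑ i ∈ Finset.range (2 ^ n), Rj Q Lab none (s b (2 ^ n + i))

def LLNp {M : ℕ} (Q : Measure (Om M)) (Lab : Fin 3 → Finset La) (s : Bool → ℕ → ℚ) : Prop :=
  ∀ u ∈ L2 Q (sg M (cell0 none)), ∃ v, ∀ b, Tendsto (fun n => AA Q Lab s b n u) atTop (𝓝 v)

def NN {M : ℕ} (Q : Measure (Om M)) (Lab : Fin 3 → Finset La) (s : Bool → ℕ → ℚ)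
    (f : Om M → ℂ) : Prop :=
  ¬ Tendsto (fun n => ⟪tl Q f, AA Q Lab s false n (tl Q f)⟫_ℂ) atTop (𝓝 0)

/-- the "others" of the active index `j` -/
def oth (Lab : Fin 3 → Finset La) (C : Option Bool) (j : ℚ) : Set Pos :=
  cell1 C j (Lab 1) ∪ cell1 C j (Lab 2)

structure Good {M : ℕ} (ν : Measure (Sq M)) (Lab : Fin 3 → Finset La) (s : Bool → ℕ → ℚ)
    (Q : Measure (Om M)) : Prop where
  prob : IsProbabilityMeasure Q
  law : Q.map xs = ν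
  grid : ∀ C j m, j ≠ m → act j ∈ sd C → act m ∈ sd C →
    Grid Q fun α β => sg M (cell2 C j m (Lab α) (Lab β))
  agree1 : ∀ b j, act j ∈ sd (some b) →
    CI Q (sg M (cell0 (some b))) (sg M (oth Lab (some b) j)) (sg M (oth Lab none j))
  agree2 : ∀ b j, act j ∈ sd (some b) →
    CI Q (sg M (oth Lab (some b) j)) (sg M (cell0 (some b))) (sg M (cell0 none))
  lln : LLNp Q Lab s

/-- grid property relative to the base -/
def Hyp1Stmt : Prop :=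
  ∀ (M : ℕ) (ν : Measure (Sq M)) (P : Measure (Om M)) (Inf : La → Prop) (col : ℚ → Finset La)
    (s : ℕ) (Lab : Fin 3 → Finset La), Arr ν P → InfOK Inf → Dn col → 1 ≤ s → LabOK Inf s Lab →
    ∀ C j m, j ≠ m → act j ∈ sd C → act m ∈ sd C → ∀ α α' : Fin 3, α ≠ α' → ∀ B : Finset (Fin 3),
      CI P (sg M (⋃ β, cell2 C j m (Lab α) (Lab β)))
        (sg M (Wb (hat Inf col s) ∪ ⋃ β ∈ B, cell2 C j m (Lab α) (Lab β)))
        (sg M (Wb (hat Inf col s) ∪ ((⋃ β ∈ B, ⋃ a, cell2 C j m (Lab a) (Lab β)) ∪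
          ⋃ β, cell2 C j m (Lab α') (Lab β))))

/-- the two halves see the same thing, and their bases are independent -/
def Hyp2Stmt : Prop :=
  ∀ (M : ℕ) (ν : Measure (Sq M)) (P : Measure (Om M)) (Inf : La → Prop) (col : ℚ → Finset La)
    (s : ℕ) (Lab : Fin 3 → Finset La), Arr ν P → InfOK Inf → Dn col →
    (∀ b j, act j ∈ sd (some b) →
      CI P (sg M (cell0 (some b))) (sg M (Wb (hat Inf col s) ∪ oth Lab (some b) j))
        (sg M (Wb (hat Inf col s) ∪ oth Lab none j)) ∧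
      CI P (sg M (oth Lab (some b) j)) (sg M (Wb (hat Inf col s) ∪ cell0 (some b)))
        (sg M (Wb (hat Inf col s) ∪ cell0 none))) ∧
    (∀ b, CI P (sg M (GG (some b))) (sg M (Wb (hat Inf col s) ∩ GG (some b)))
      (sg M (Wb (hat Inf col s)))) ∧
    (Link P Inf s → Indep (sg M (Wb (hat Inf col s) ∩ GG (some false)))
      (sg M (Wb (hat Inf col s) ∩ GG (some true))) P)

/-! ## 6. Fibres over the base -/

/-- the fibre measure over the coordinates in `W` -/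
def fib {M : ℕ} (P : Measure (Om M)) [IsFiniteMeasure P] (W : Set Pos) (ω : Om M) :
    Measure (Om M) := condExpKernel P (sg M W) ω

instance {M : ℕ} (P : Measure (Om M)) [IsFiniteMeasure P] (W : Set Pos) (ω : Om M) :
    IsProbabilityMeasure (fib P W ω) := by
  unfold fib; infer_instance

def TLStmt : Prop :=
  ∀ (M : ℕ) (P : Measure (Om M)) [IsProbabilityMeasure P] (W : Set Pos),
    (∀ (φ : Om M → ℂ) (S : Set Pos), Bdd inferInstance φ → ∃ h, Bdd (sg M (W ∪ S)) h ∧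
      Pr P (sg M (W ∪ S)) (tl P φ) = tl P h ∧
      ∀ᵐ ω ∂P, Pr (fib P W ω) (sg M S) (tl (fib P W ω) φ) = tl (fib P W ω) h) ∧
    (∀ U S S' : Set Pos, CI P (sg M U) (sg M (W ∪ S)) (sg M (W ∪ S')) →
      ∀ᵐ ω ∂P, CI (fib P W ω) (sg M U) (sg M S) (sg M S')) ∧
    (Indep (sg M X0) (sg M W) P → ∀ᵐ ω ∂P, (fib P W ω).map xs = P.map xs)

def LLNStmt : Prop :=
  ∀ (M : ℕ) (ν : Measure (Sq M)) (P : Measure (Om M)) [IsProbabilityMeasure P] (Inf : La → Prop)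
    (col : ℚ → Finset La) (s : ℕ) (Lab : Fin 3 → Finset La) (sq : Bool → ℕ → ℚ), Arr ν P → Sqs sq →
    (∀ᵐ ω ∂P, LLNp (fib P (Wb (hat Inf col s)) ω) Lab sq) ∧
    ∀ F : Sq M → ℂ, Bdd inferInstance F →
      (∀ᵐ ω ∂P, ¬ NN (fib P (Wb (hat Inf col s)) ω) Lab sq fun ω' => F (xs ω')) →
      ∀ j, Pr P (sg M (Wb (hat Inf col s) ∪ oth Lab none j)) (tl P fun ω' => F (xs ω')) = 0

def DescStmt : Prop :=
  ∀ (M : ℕ) (ν : Measure (Sq M)) (P : Measure (Om M)) [IsProbabilityMeasure P]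
    (η : II → Finset La), Arr ν P →
    (∀ b, CI P (sg M (GG (some b))) (sg M (Wb η ∩ GG (some b))) (sg M (Wb η))) →
    Indep (sg M (Wb η ∩ GG (some false))) (sg M (Wb η ∩ GG (some true))) P →
    ∀ Gd Nn : Measure (Om M) → Prop, (∀ᵐ ω ∂P, Gd (fib P (Wb η) ω)) →
      ¬ (∀ᵐ ω ∂P, ¬ Nn (fib P (Wb η) ω)) →
      ∃ Q Q' : Measure (Om M), Gd Q ∧ Gd Q' ∧ Nn Q ∧
        (∀ A, MeasurableSet[sg M (GG (some false))] A → Q' A = Q (tsh ⁻¹' A)) ∧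
        ∀ A, MeasurableSet[sg M (GG (some true))] A → Q' A = Q A

/-- the large frequent characters seen by the half `C`, counted along the sequence `s b` -/
def SS {M : ℕ} (Q : Measure (Om M)) (Lab : Fin 3 → Finset La) (s : Bool → ℕ → ℚ) (C : Option Bool)
    (b : Bool) (f : Om M → ℂ) (η : ℝ) (χ : Om M → ℂ) : Prop :=
  Uni (sg M (cell0 C)) χ ∧ η ≤ ‖∫ ω, f ω * conj (χ ω) ∂Q‖ ∧
    ∀ η' < η, ∀ᶠ n : ℕ in atTop,
      η' * 2 ^ n ≤ (Set.ncard {i | i < 2 ^ n ∧ Gj Q Lab C (s b (2 ^ n + i)) χ} : ℝ)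

/-- structure of a good fibre -/
def StrStmt : Prop :=
  ∀ (M : ℕ) (ν : Measure (Sq M)) (Lab : Fin 3 → Finset La) (s : Bool → ℕ → ℚ)
    (Q : Measure (Om M)), Lab 0 = {0} → Sqs s → Good ν Lab s Q →
    (∀ (f : Om M → ℂ), Bdd (sg M X0) f → NN Q Lab s f →
      ∃ η, 0 < η ∧ ∃ χ, SS Q Lab s (some false) false f η χ) ∧
    (∀ (f : Om M → ℂ) (η : ℝ) (b b' : Bool) (χ : Om M → ℂ), Bdd (sg M X0) f → 0 < η →
      SS Q Lab s (some b) b f η χ → ∃ (χ' : Om M → ℂ) (c : ℂ), ‖c‖ = 1 ∧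
        SS Q Lab s (some b') b' f η χ' ∧ χ' =ᵐ[Q] fun ω => c * χ ω) ∧
    ∀ (C : Option Bool) (j : ℚ), act j ∈ sd C → ∀ χ, Gj Q Lab C j χ →
      IsC Q χ ∨ ∫ ω, χ ω ∂Q = 0

def ChainStmt : Prop :=
  ∀ (M : ℕ) (ν : Measure (Sq M)) (Lab : Fin 3 → Finset La) (s : Bool → ℕ → ℚ)
    (Q Q' : Measure (Om M)) (F : Sq M → ℂ), Lab 0 = {0} → Sqs s → Good ν Lab s Q →
    Good ν Lab s Q' → Bdd inferInstance F → (NN Q Lab s fun ω => F (xs ω)) →
    (∀ A, MeasurableSet[sg M (GG (some false))] A → Q' A = Q (tsh ⁻¹' A)) →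
    (∀ A, MeasurableSet[sg M (GG (some true))] A → Q' A = Q A) →
    ∃ η, 0 < η ∧ ∃ χ, Chain Q xs F η χ

def StepStmt : Prop :=
  ∀ (M : ℕ) (ν : Measure (Sq M)) (P : Measure (Om M)) (Inf : La → Prop), Proc ν → ZE ν →
    Arr ν P → InfOK Inf → ∀ s, 1 ≤ s → SI P Inf s → SI P Inf (s + 1)

end Crest.Agent.R69
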