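import Crest.Agent.R69.Cyl

/-! # Row 69: descent through two independent bases -/

set_option autoImplicit false
open MeasureTheory ProbabilityTheory Filter Set Topology
open scoped ENNReal

noncomputable section
namespace Crest.Agent.R69
namespace Desc

variable {M : ℕ}

open Classical in
/-- forget the coordinates outside `W` -/
def rs (W : Set Pos) (ω : Om M) : Om M := fun x => if x ∈ W then ω x else 0

theorem continuous_rs (W : Set Pos) : Continuous (rs (M := M) W) := by
  refine continuous_pi fun x => ?_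
  unfold rs
  by_cases h : x ∈ W
  · simp only [h, if_true]; exact continuous_apply x
  · simp only [h, if_false]; exact continuous_const

theorem measurable_rs (W : Set Pos) : Measurable[sg M W] (rs (M := M) W) := by
  refine @measurable_pi_lambda _ _ _ (sg M W) _ _ fun x => ?_
  unfold rs
  by_cases h : x ∈ W
  · simp only [h, if_true]; exact measurable_eval h
  · simp only [h, if_false]; exact measurable_const

theorem eq_of_rs {W : Set Pos} {ω ω' : Om M} (h : rs W ω = rs W ω') : ∀ x ∈ W, ω x = ω' x := by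
  intro x hx
  have := congrFun h x
  simpa [rs, hx] using this

/-- sets of positions that do not depend on the time coordinate -/
def TI (S : Set Pos) : Prop := ∀ x x' : Pos, x'.2 = x.2 → x ∈ S → x' ∈ S

theorem ti_GG (C : Option Bool) : TI (GG C) := fun x x' h hx => by
  intro i hi; rw [h] at hi; exact hx i hi

theorem ti_Wb (η : II → Finset La) (C : Option Bool) : TI (Wb η ∩ GG C) := fun x x' h hx =>
  ⟨by obtain ⟨i, hi⟩ := hx.1; exact ⟨i, by rw [h]; exact hi⟩, ti_GG C x x' h hx.2⟩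

theorem comap_tsh {S : Set Pos} (hS : TI S) : (sg M S).comap tsh = sg M S := by
  have h := comap_pull_sg (M := M) (· + ((1 : ℤ), (0 : II →₀ La))) S
  have e : (· + ((1 : ℤ), (0 : II →₀ La))) '' S = S := by
    ext x
    constructor
    · rintro ⟨y, hy, rfl⟩
      exact hS y _ (by simp) hy
    · intro hx
      exact ⟨x - (1, 0), hS x _ (by simp) hx, by simp⟩
  rw [e] at h
  exact h

theorem meas_tsh {S : Set Pos} (hS : TI S) : Measurable[sg M S, sg M S] (tsh (M := M)) :=
  Measurable.of_comap_le (comap_tsh hS).le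

theorem fib_eq {P : Measure (Om M)} [IsProbabilityMeasure P] {U S W : Set Pos}
    (hCI : CI P (sg M U) (sg M S) (sg M W)) {A : Set (Om M)} (hA : MeasurableSet[sg M U] A)
    {h : Om M → ℂ} (hh : Bdd (sg M S) h)
    (he : Pr P (sg M S) (tl P (A.indicator fun _ => (1 : ℂ))) = tl P h) :
    ∀ᵐ ω ∂P, (((fib P W ω).real A : ℝ) : ℂ) = h ω := by
  have hA' : MeasurableSet A := sg_le U _ hA
  have hb : Bdd inferInstance (A.indicator fun _ => (1 : ℂ)) := Bdd.indicator hA'
  have h1 := hCI _ (Bdd.indicator hA).tl_mem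
  rw [he] at h1
  have h2 := coe_Pr_tl (Q := P) (sg_le W) (hb.memLp 2)
  rw [h1] at h2
  filter_upwards [h2, (hh.mono (sg_le S)).coe_tl (Q := P),
    condExp_ae_eq_integral_condExpKernel (μ := P) (sg_le W) hb.integrable] with ω e1 e2 e3
  rw [← e2, e1, e3, integral_indicator_const _ hA']
  simp [fib]

theorem glue {P : Measure (Om M)} [IsProbabilityMeasure P] {β : Type} [TopologicalSpace β]
    [T2Space β] [MeasurableSpace β] [BorelSpace β] {π ψ : Om M → β}
    (hπ : Continuous π) (hψ : Measurable ψ) (he : P.map π = P.map ψ) {G N : Om M → Prop}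
    (hG : ∀ᵐ ω ∂P, G ω) (hN : ¬ ∀ᵐ ω ∂P, ¬ N ω) :
    ∃ ω ω', G ω ∧ G ω' ∧ N ω ∧ π ω' = ψ ω := by
  rw [ae_iff] at hG hN
  simp only [not_not] at hN
  set Z := toMeasurable P {ω | ¬ G ω} with hZ
  have hZm : MeasurableSet Z := measurableSet_toMeasurable _ _
  have hZ0 : P Z = 0 := by rw [hZ, measure_toMeasurable, hG]
  have hZG : ∀ ω, ω ∉ Z → G ω := fun ω hω => by
    by_contra h
    exact hω (subset_toMeasurable _ _ h)
  obtain ⟨K, hK1, hK2, hK3⟩ := hZm.compl.exists_isCompact_sdiff_lt (μ := P) (measure_ne_top _ _) hN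
  have hE : MeasurableSet (π '' K) := (hK2.image hπ).isClosed.measurableSet
  by_contra hcon
  have h1 : {ω | N ω} ⊆ Z ∪ ψ ⁻¹' (π '' K)ᶜ := by
    intro ω hω
    by_cases hz : ω ∈ Z
    · exact Or.inl hz
    · refine Or.inr ?_
      rintro ⟨ω', h2, h3⟩
      exact hcon ⟨ω, ω', hZG ω hz, hZG ω' (hK1 h2), hω, h3⟩
  have h2 : π ⁻¹' (π '' K)ᶜ ⊆ Z ∪ (Zᶜ \ K) := by
    intro ω hω
    by_cases hz : ω ∈ Z
    · exact Or.inl hz
    · exact Or.inr ⟨hz, fun hk => hω ⟨ω, hk, rfl⟩⟩
  have h3 : P (ψ ⁻¹' (π '' K)ᶜ) = P (π ⁻¹' (π '' K)ᶜ) := by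
    rw [← Measure.map_apply hψ hE.compl, ← Measure.map_apply hπ.measurable hE.compl, he]
  have h4 := (measure_mono h1).trans (measure_union_le (μ := P) _ _)
  have h5 := (measure_mono h2).trans (measure_union_le (μ := P) _ _)
  rw [hZ0, zero_add] at h4 h5
  exact absurd (h4.trans (h3.le.trans h5)) (not_le.2 hK3)

end Desc

open Desc in
theorem descStmt : DescStmt := by
  intro M ν P _ η hA hCI hI Gd Nn hG hN
  have hmp : MeasurePreserving (tsh (M := M)) P P := hA.inv _
  have hh : ∀ (b : Bool) (A : Set (Om M)), ∃ h : Om M → ℂ, MeasurableSet A →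
      Bdd (sg M (Wb η ∩ GG (some b))) h ∧
      Pr P (sg M (Wb η ∩ GG (some b))) (tl P (A.indicator fun _ => (1 : ℂ))) = tl P h := by
    intro b A
    by_cases hm : MeasurableSet A
    · obtain ⟨h, h1⟩ := exists_bdd_Pr (Q := P) (sg_le (Wb η ∩ GG (some b))) (Bdd.indicator hm)
      exact ⟨h, fun _ => h1⟩
    · exact ⟨0, fun h => absurd h hm⟩
  choose h hh using hh
  have hm : ∀ {S : Set Pos} {A : Set (Om M)}, A ∈ cyls M S → MeasurableSet A :=
    fun hA => sg_le _ _ (measurableSet_of_mem_cyls hA)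
  have e1 : ∀ b, ∀ᵐ ω ∂P, ∀ A ∈ cyls M (GG (some b)),
      (((fib P (Wb η) ω).real A : ℝ) : ℂ) = h b A ω := fun b =>
    (ae_ball_iff countable_cyls).2 fun A hA =>
      fib_eq (hCI b) (measurableSet_of_mem_cyls hA) (hh b A (hm hA)).1 (hh b A (hm hA)).2
  have e2 : ∀ᵐ ω ∂P, ∀ A ∈ cyls M (GG (some false)),
      (((fib P (Wb η) ω).real (tsh ⁻¹' A) : ℝ) : ℂ) = h false A (tsh ω) := by
    refine (ae_ball_iff countable_cyls).2 fun A hA => ?_
    obtain ⟨a1, a2⟩ := hh false A (hm hA)
    refine fib_eq (hCI false) (meas_tsh (ti_GG _) (measurableSet_of_mem_cyls hA))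
      (h := fun ω => h false A (tsh ω)) ⟨a1.1.comp (meas_tsh (ti_Wb η _)), ?_⟩ ?_
    · obtain ⟨C, hC⟩ := a1.2
      exact ⟨C, fun _ => hC _⟩
    · have b1 := Pr_cmp hmp (sg_le (Wb η ∩ GG (some false)))
        (tl P (A.indicator fun _ => (1 : ℂ)))
      rw [comap_tsh (ti_Wb η _), a2, cmp_tl hmp ((Bdd.indicator (hm hA)).memLp 2),
        cmp_tl hmp ((a1.mono (sg_le _)).memLp 2)] at b1
      exact b1
  have m0 := measurable_rs (M := M) (Wb η ∩ GG (some false))
  have m1 := measurable_rs (M := M) (Wb η ∩ GG (some true))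
  have m0' : Measurable[sg M (Wb η ∩ GG (some false))]
      fun ω : Om M => rs (Wb η ∩ GG (some false)) (tsh ω) := m0.comp (meas_tsh (ti_Wb η _))
  have ind : ∀ {f g : Om M → Om M}, Measurable[sg M (Wb η ∩ GG (some false))] f →
      Measurable[sg M (Wb η ∩ GG (some true))] g → IndepFun f g P := fun hf hg =>
    indep_of_indep_of_le_right (indep_of_indep_of_le_left hI hf.comap_le) hg.comap_le
  have hmap : P.map (fun ω => (rs (Wb η ∩ GG (some false)) ω, rs (Wb η ∩ GG (some true)) ω)) =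
      P.map (fun ω => (rs (Wb η ∩ GG (some false)) (tsh ω), rs (Wb η ∩ GG (some true)) ω)) := by
    rw [(indepFun_iff_map_prod_eq_prod_map_map (m0.mono (sg_le _) le_rfl).aemeasurable
        (m1.mono (sg_le _) le_rfl).aemeasurable).1 (ind m0 m1),
      (indepFun_iff_map_prod_eq_prod_map_map (m0'.mono (sg_le _) le_rfl).aemeasurable
        (m1.mono (sg_le _) le_rfl).aemeasurable).1 (ind m0' m1)]
    congr 1
    have := Measure.map_map (μ := P) (m0.mono (sg_le _) le_rfl) hmp.measurable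
    rw [hmp.map_eq] at this
    exact this
  obtain ⟨ω, ω', ⟨g1, g2, g3, g4⟩, ⟨g1', g2', g3', _⟩, hn, he⟩ := glue
    ((continuous_rs _).prodMk (continuous_rs _))
    ((m0'.mono (sg_le _) le_rfl).prodMk (m1.mono (sg_le _) le_rfl)) hmap
    (hG.and ((e1 false).and ((e1 true).and e2))) hN
  obtain ⟨he0, he1⟩ := Prod.ext_iff.1 he
  refine ⟨_, _, g1, g1', hn, fun A hA => ?_, fun A hA => ?_⟩
  · rw [← Measure.map_apply hmp.measurable (sg_le _ _ hA)]
    refine eq_on_sg_of_cyls (fun B hB => ?_) hA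
    rw [Measure.map_apply hmp.measurable (hm hB), ← measureReal_eq_measureReal_iff]
    have := (g2' B hB).trans ((dependsOn_of_sg (hh false B (hm hB)).1.1 (eq_of_rs he0)).trans
      (g4 B hB).symm)
    exact_mod_cast this
  · refine eq_on_sg_of_cyls (fun B hB => ?_) hA
    rw [← measureReal_eq_measureReal_iff]
    have := (g3' B hB).trans ((dependsOn_of_sg (hh true B (hm hB)).1.1 (eq_of_rs he1)).trans
      (g3 B hB).symm)
    exact_mod_cast this

end Crest.Agent.R69
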