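import Crest.Agent.R69.Defs

/-! # Row 69: a finite-valued function of the remote past generates a zero entropy process -/

set_option autoImplicit false
open MeasureTheory Filter Topology Set
open scoped symmDiff ENNReal

noncomputable section
namespace Crest.Agent.R69
namespace Ent

section gen
variable {Ω : Type} [MeasurableSpace Ω] (ν : Measure Ω) [IsProbabilityMeasure ν]

/-- The probability of a value. -/
def pv {A : Type} (ξ : Ω → A) (a : A) : ℝ := ν.real (ξ ⁻¹' {a})

/-- Shannon entropy. -/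
def H {A : Type} (ξ : Ω → A) : ℝ := ∫ ω, -Real.log (pv ν ξ (ξ ω)) ∂ν

variable {ν}

lemma pv_nonneg {A : Type} (ξ : Ω → A) (a : A) : 0 ≤ pv ν ξ a := measureReal_nonneg

lemma pv_le_one {A : Type} (ξ : Ω → A) (a : A) : pv ν ξ a ≤ 1 := measureReal_le_one

lemma H_congr {A B : Type} {ξ : Ω → A} {ζ : Ω → B} (h : ∀ ω ω', ξ ω' = ξ ω ↔ ζ ω' = ζ ω) :
    H ν ξ = H ν ζ := by
  unfold H
  congr 1
  funext ω
  have : ξ ⁻¹' {ξ ω} = ζ ⁻¹' {ζ ω} := by ext ω'; simpa using h ω ω'
  rw [pv, pv, this]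

variable {A B C : Type} [Fintype A] [MeasurableSpace A] [MeasurableSingletonClass A]
  [Fintype B] [MeasurableSpace B] [MeasurableSingletonClass B]
  [Fintype C] [MeasurableSpace C] [MeasurableSingletonClass C]
  {ξ : Ω → A} {ζ : Ω → B}

lemma int_comp (hξ : Measurable ξ) (f : A → ℝ) : Integrable (fun ω => f (ξ ω)) ν :=
  (integrable_map_measure (measurable_of_finite f).aestronglyMeasurable hξ.aemeasurable).1
    Integrable.of_finite

lemma integral_comp (hξ : Measurable ξ) (f : A → ℝ) :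
    ∫ ω, f (ξ ω) ∂ν = ∑ a, pv ν ξ a * f a := by
  rw [← integral_map hξ.aemeasurable (measurable_of_finite f).aestronglyMeasurable,
    integral_fintype Integrable.of_finite]
  refine Finset.sum_congr rfl fun a _ => ?_
  rw [smul_eq_mul, map_measureReal_apply hξ (measurableSet_singleton a), pv]

lemma sum_pv (hξ : Measurable ξ) : ∑ a, pv ν ξ a = 1 := by
  simpa using (integral_comp (ν := ν) hξ fun _ => 1).symm

lemma ae_pv_pos (ξ : Ω → A) : ∀ᵐ ω ∂ν, 0 < pv ν ξ (ξ ω) := by
  have : ∀ᵐ ω ∂ν, ∀ a, ξ ω = a → 0 < pv ν ξ a := by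
    rw [ae_all_iff]
    intro a
    rcases (pv_nonneg (ν := ν) ξ a).eq_or_lt with h | h
    · have h0 : ν (ξ ⁻¹' {a}) = 0 := by
        rw [← measureReal_eq_zero_iff]; exact h.symm
      filter_upwards [measure_eq_zero_iff_ae_notMem.1 h0] with ω hω h'
      exact absurd h' hω
    · exact Eventually.of_forall fun _ _ => h
  filter_upwards [this] with ω hω using hω _ rfl

lemma int_log (hξ : Measurable ξ) : Integrable (fun ω => -Real.log (pv ν ξ (ξ ω))) ν :=
  int_comp hξ fun a => -Real.log (pv ν ξ a)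

lemma H_mono (hξ : Measurable ξ) (hζ : Measurable ζ) (h : ∀ ω ω', ξ ω' = ξ ω → ζ ω' = ζ ω) :
    H ν ζ ≤ H ν ξ := by
  refine integral_mono_ae (int_log hζ) (int_log hξ) ?_
  filter_upwards [ae_pv_pos (ν := ν) ξ] with ω hω
  refine neg_le_neg (Real.log_le_log hω ?_)
  exact measureReal_mono fun ω' hω' => h ω ω' hω'

lemma H_comp (hξ : Measurable ξ) {T : Ω → Ω} (hT : MeasurePreserving T ν ν) :
    H ν (fun ω => ξ (T ω)) = H ν ξ := by
  have h : ∀ a, pv ν (fun ω => ξ (T ω)) a = pv ν ξ a := fun a =>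
    hT.measureReal_preimage (hξ (measurableSet_singleton a)).nullMeasurableSet
  have h2 : Measurable fun ω => ξ (T ω) := hξ.comp hT.measurable
  rw [H, H, integral_comp h2 fun a => -Real.log (pv ν _ a),
    integral_comp hξ fun a => -Real.log (pv ν _ a)]
  simp only [h]

lemma gibbs (hξ : Measurable ξ) (hζ : Measurable ζ) (k : B → A → ℝ) (k0 : ∀ b a, 0 ≤ k b a)
    (k1 : ∀ b, ∑ a, k b a ≤ 1) (kp : ∀ᵐ ω ∂ν, 0 < k (ζ ω) (ξ ω)) :
    H ν (fun ω => (ξ ω, ζ ω)) - H ν ζ ≤ ∫ ω, -Real.log (k (ζ ω) (ξ ω)) ∂ν := by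
  set π : Ω → A × B := fun ω => (ξ ω, ζ ω) with hπ
  have mπ : Measurable π := hξ.prodMk hζ
  set F : A × B → ℝ := fun z => k z.2 z.1 * pv ν ζ z.2 / pv ν π z with hF
  have ik : Integrable (fun ω => -Real.log (k (ζ ω) (ξ ω))) ν :=
    int_comp mπ fun z => -Real.log (k z.2 z.1)
  have h1 : ∫ ω, F (π ω) ∂ν ≤ 1 := by
    rw [integral_comp mπ]
    calc ∑ z, pv ν π z * F z ≤ ∑ z : A × B, pv ν ζ z.2 * k z.2 z.1 := by
          refine Finset.sum_le_sum fun z _ => ?_
          rcases (pv_nonneg (ν := ν) π z).eq_or_lt with h | h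
          · rw [← h, zero_mul]; exact mul_nonneg (pv_nonneg _ _) (k0 _ _)
          · simp only [hF]; field_simp; exact le_rfl
      _ = ∑ b, pv ν ζ b * ∑ a, k b a := by
          rw [Fintype.sum_prod_type_right]; simp only [Finset.mul_sum]
      _ ≤ ∑ b, pv ν ζ b := Finset.sum_le_sum fun b _ =>
          mul_le_of_le_one_right (pv_nonneg _ _) (k1 b)
      _ = 1 := sum_pv hζ
  have h2 : ∫ ω, (-Real.log (pv ν π (π ω)) - -Real.log (pv ν ζ (ζ ω)) -
      -Real.log (k (ζ ω) (ξ ω))) ∂ν ≤ ∫ ω, (F (π ω) - 1) ∂ν := by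
    refine integral_mono_ae (((int_log mπ).sub (int_log hζ)).sub ik)
      ((int_comp mπ F).sub (integrable_const _)) ?_
    filter_upwards [ae_pv_pos (ν := ν) π, ae_pv_pos (ν := ν) ζ, kp] with ω h1 h2 h3
    have := Real.log_le_sub_one_of_pos (x := F (π ω)) (div_pos (mul_pos h3 h2) h1)
    simp only [hF] at this ⊢
    rw [Real.log_div (mul_pos h3 h2).ne' h1.ne', Real.log_mul h3.ne' h2.ne'] at this
    linarith
  have i2 : Integrable (fun ω => -Real.log (pv ν π (π ω)) - -Real.log (pv ν ζ (ζ ω))) ν :=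
    (int_log mπ).sub (int_log hζ)
  rw [integral_sub i2 ik, integral_sub (int_log mπ) (int_log hζ),
    integral_sub (int_comp mπ F) (integrable_const _)] at h2
  simp only [integral_const, probReal_univ, smul_eq_mul, mul_one] at h2
  unfold H
  linarith

lemma sum_pv_pair (hξ : Measurable ξ) (hζ : Measurable ζ) (b : B) :
    ∑ a, pv ν (fun ω => (ξ ω, ζ ω)) (a, b) = pv ν ζ b := by
  classical
  have h1 := integral_comp (ν := ν) (hξ.prodMk hζ) fun z => if z.2 = b then (1 : ℝ) else 0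
  have h2 := integral_comp (ν := ν) hζ fun z => if z = b then (1 : ℝ) else 0
  rw [h2, Fintype.sum_prod_type] at h1
  simpa using h1.symm

lemma submod (hξ : Measurable ξ) (hζ : Measurable ζ) (r : B → C) :
    H ν (fun ω => (ξ ω, ζ ω)) - H ν ζ ≤
      H ν (fun ω => (ξ ω, r (ζ ω))) - H ν (fun ω => r (ζ ω)) := by
  set η : Ω → C := fun ω => r (ζ ω) with hη
  have mη : Measurable η := (measurable_of_finite r).comp hζ
  set π : Ω → A × C := fun ω => (ξ ω, η ω) with hπ
  have mπ : Measurable π := hξ.prodMk mη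
  refine (gibbs hξ hζ (fun b a => pv ν π (a, r b) / pv ν η (r b))
    (fun b a => div_nonneg (pv_nonneg _ _) (pv_nonneg _ _)) (fun b => ?_) ?_).trans (le_of_eq ?_)
  · rw [← Finset.sum_div, sum_pv_pair hξ mη]
    exact div_self_le_one _
  · filter_upwards [ae_pv_pos (ν := ν) π, ae_pv_pos (ν := ν) η] with ω h1 h2
    exact div_pos h1 h2
  · rw [H, H, ← integral_sub (int_log mπ) (int_log mη)]
    refine integral_congr_ae ?_
    filter_upwards [ae_pv_pos (ν := ν) π, ae_pv_pos (ν := ν) η] with ω h1 h2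
    rw [Real.log_div h1.ne' h2.ne']
    ring

lemma fano (A : Type) [Fintype A] [Nonempty A] [MeasurableSpace A] [MeasurableSingletonClass A]
    {ε : ℝ} (hε : 0 < ε) : ∃ δ > 0, ∀ (B : Type) [Fintype B] [MeasurableSpace B]
      [MeasurableSingletonClass B] (ξ G : Ω → A) (ζ : Ω → B), Measurable ξ → Measurable ζ →
      G.FactorsThrough ζ → ν.real {ω | ξ ω ≠ G ω} ≤ δ →
      H ν (fun ω => (ξ ω, ζ ω)) - H ν ζ ≤ ε := by
  classical
  set e := 1 - Real.exp (-(ε / 2)) with he
  have e0 : 0 < e := by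
    have : Real.exp (-(ε / 2)) < 1 := Real.exp_lt_one_iff.2 (by linarith)
    linarith
  have e1 : 1 - e = Real.exp (-(ε / 2)) := by rw [he]; ring
  have hA : (1 : ℝ) ≤ Fintype.card A := by exact_mod_cast Fintype.card_pos
  set c := e / Fintype.card A with hc
  have c0 : 0 < c := div_pos e0 (by linarith)
  set L := |Real.log c| + 1 with hL
  have L0 : 0 < L := by positivity
  refine ⟨ε / (2 * L), by positivity, fun B _ _ _ ξ G ζ hξ hζ hG hδ => ?_⟩
  set g : B → A := Function.extend ζ G fun _ => Classical.arbitrary A with hg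
  have hg' : ∀ ω, g (ζ ω) = G ω := fun ω => hG.extend_apply _ ω
  have hk : ∀ b a, 0 < (if a = g b then 1 - e else 0) + c := fun b a => by
    split_ifs
    · rw [e1]; positivity
    · linarith
  refine (gibbs hξ hζ (fun b a => (if a = g b then 1 - e else 0) + c) (fun b a => (hk b a).le)
    (fun b => ?_) (Eventually.of_forall fun ω => hk _ _)).trans ?_
  · rw [Finset.sum_add_distrib]
    simp only [Finset.sum_ite_eq', Finset.mem_univ, if_true, Finset.sum_const, Finset.card_univ,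
      nsmul_eq_mul, hc]
    rw [mul_div_cancel₀ _ (by linarith)]
    linarith
  · have mπ := hξ.prodMk hζ
    have hm : MeasurableSet {ω | ξ ω ≠ G ω} := by
      have : {ω | ξ ω ≠ G ω} = (fun ω => (ξ ω, ζ ω)) ⁻¹' {z | z.1 ≠ g z.2} := by
        ext ω; simp [hg']
      rw [this]; exact mπ (Set.toFinite _).measurableSet
    calc _ ≤ ∫ ω, (ε / 2 + {ω | ξ ω ≠ G ω}.indicator (fun _ => L) ω) ∂ν := by
          refine integral_mono (int_comp mπ fun z => -Real.log ((if z.1 = g z.2 then 1 - e else 0)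
            + c)) ((integrable_const _).add ((integrable_const _).indicator hm)) fun ω => ?_
          simp only [hg']
          by_cases h : ξ ω = G ω
          · rw [if_pos h, indicator_of_notMem (by simpa using h), e1]
            have := Real.log_le_log (Real.exp_pos (-(ε / 2))) (le_add_of_nonneg_right c0.le)
            rw [Real.log_exp] at this
            linarith
          · rw [if_neg h, indicator_of_mem (by simpa using h), zero_add]
            have := neg_le_abs (Real.log c)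
            linarith
      _ = ε / 2 + ν.real {ω | ξ ω ≠ G ω} * L := by
          rw [integral_add (integrable_const _) ((integrable_const _).indicator hm),
            integral_indicator_const _ hm]
          simp
      _ ≤ ε / 2 + ε / (2 * L) * L := by gcongr
      _ = ε := by field_simp; ring

lemma cover (hξ : Measurable ξ) {L : ℝ} (hL : 0 < L) : ∃ 𝒜 : Finset A,
    (𝒜.card : ℝ) ≤ Real.exp L ∧ 1 - H ν ξ / L ≤ ν.real {ω | ξ ω ∈ 𝒜} := by
  classical
  refine ⟨Finset.univ.filter fun a => Real.exp (-L) ≤ pv ν ξ a, ?_, ?_⟩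
  · have h1 : ∑ a ∈ Finset.univ.filter fun a => Real.exp (-L) ≤ pv ν ξ a, Real.exp (-L) ≤ 1 :=
      calc _ ≤ ∑ a ∈ Finset.univ.filter fun a => Real.exp (-L) ≤ pv ν ξ a, pv ν ξ a :=
            Finset.sum_le_sum fun a ha => (Finset.mem_filter.1 ha).2
        _ ≤ ∑ a, pv ν ξ a :=
            Finset.sum_le_sum_of_subset_of_nonneg (Finset.filter_subset _ _)
              fun a _ _ => pv_nonneg _ _
        _ = 1 := sum_pv hξ
    rw [Finset.sum_const, nsmul_eq_mul] at h1
    have h2 := mul_le_mul_of_nonneg_right h1 (Real.exp_pos L).le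
    rwa [mul_assoc, ← Real.exp_add, neg_add_cancel, Real.exp_zero, mul_one, one_mul] at h2
  · set 𝒜 := Finset.univ.filter fun a => Real.exp (-L) ≤ pv ν ξ a with h𝒜
    have h1 : ν.real {ω | ξ ω ∈ 𝒜} = ∑ a, pv ν ξ a * if a ∈ 𝒜 then 1 else 0 := by
      rw [← integral_comp hξ fun a => if a ∈ 𝒜 then (1 : ℝ) else 0]
      have hm : MeasurableSet {ω | ξ ω ∈ 𝒜} := hξ 𝒜.measurableSet
      rw [← integral_indicator_one hm]
      congr 1
      funext ω
      simp [indicator]
    have h2 : L * (1 - ν.real {ω | ξ ω ∈ 𝒜}) ≤ H ν ξ := by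
      rw [h1, H, integral_comp hξ fun a => -Real.log (pv ν ξ a), ← sum_pv (ν := ν) hξ,
        ← Finset.sum_sub_distrib, Finset.mul_sum]
      refine Finset.sum_le_sum fun a _ => ?_
      rw [sum_pv hξ]
      have h0 := pv_nonneg (ν := ν) ξ a
      split_ifs with h
      · have := Real.log_nonpos h0 (pv_le_one ξ a)
        nlinarith
      · rcases h0.eq_or_lt with h0 | h0
        · simp [← h0]
        · have h3 : pv ν ξ a ≤ Real.exp (-L) := by
            by_contra h4
            exact h (Finset.mem_filter.2 ⟨Finset.mem_univ _, (not_le.1 h4).le⟩)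
          have := Real.log_le_log h0 h3
          rw [Real.log_exp] at this
          nlinarith
    rw [sub_le_iff_le_add, ← sub_le_iff_le_add', le_div_iff₀' hL]
    exact h2

end gen

section setf
variable {Ω : Type} [MeasurableSpace Ω] (ν : Measure Ω) [IsProbabilityMeasure ν]
  {J A : Type} [DecidableEq J] [Fintype A] [MeasurableSpace A] [MeasurableSingletonClass A]
  (Z : J → Ω → A)

/-- The word on `S`. -/
def wd (S : Finset J) (ω : Ω) : S → A := fun j => Z j ω

/-- The entropy of the variables in `S`. -/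
def hs (S : Finset J) : ℝ := H ν (wd Z S)

variable {ν Z}

lemma wd_eq {S : Finset J} {ω ω' : Ω} : wd Z S ω' = wd Z S ω ↔ ∀ j ∈ S, Z j ω' = Z j ω := by
  simp [wd, funext_iff]

lemma wd_meas (hZ : ∀ j, Measurable (Z j)) (S : Finset J) : Measurable (wd Z S) :=
  measurable_pi_lambda _ fun j => hZ j

lemma hs_pair (S T : Finset J) : H ν (fun ω => (wd Z S ω, wd Z T ω)) = hs ν Z (S ∪ T) :=
  H_congr fun ω ω' => by
    simp only [Prod.mk.injEq, wd_eq, Finset.mem_union]
    exact ⟨fun h j hj => hj.elim (h.1 j) (h.2 j),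
      fun h => ⟨fun j hj => h j (Or.inl hj), fun j hj => h j (Or.inr hj)⟩⟩

lemma hs_mono (hZ : ∀ j, Measurable (Z j)) {S T : Finset J} (h : S ⊆ T) : hs ν Z S ≤ hs ν Z T :=
  H_mono (wd_meas hZ T) (wd_meas hZ S) fun ω ω' => by
    simp only [wd_eq]; exact fun h' j hj => h' j (h hj)

lemma hs_submod (hZ : ∀ j, Measurable (Z j)) (S : Finset J) {R T : Finset J} (h : R ⊆ T) :
    hs ν Z (S ∪ T) - hs ν Z T ≤ hs ν Z (S ∪ R) - hs ν Z R := by
  have := submod (ν := ν) (wd_meas hZ S) (wd_meas hZ T)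
    fun (w : T → A) (j : R) => w ⟨j, h j.2⟩
  rw [← hs_pair, ← hs_pair]
  exact this

lemma hs_sum (hZ : ∀ j, Measurable (Z j)) (S T : Finset J) :
    hs ν Z (S ∪ T) - hs ν Z T ≤ ∑ j ∈ S, (hs ν Z ({j} ∪ T) - hs ν Z T) := by
  induction S using Finset.induction_on with
  | empty => simp
  | insert j S hj ih =>
    rw [Finset.sum_insert hj]
    have h1 := hs_submod (ν := ν) hZ {j} (Finset.subset_union_right (s₁ := S) (s₂ := T))
    have h2 : insert j S ∪ T = {j} ∪ (S ∪ T) := by ext; simp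
    rw [h2]
    linarith

lemma hs_shift (hZ : ∀ j, Measurable (Z j)) (σ : J → J) {T : Ω → Ω}
    (hT : MeasurePreserving T ν ν) (hσ : ∀ j ω, Z (σ j) ω = Z j (T ω)) (S : Finset J) :
    hs ν Z (S.image σ) = hs ν Z S := by
  rw [hs, hs, ← H_comp (wd_meas hZ S) hT]
  refine H_congr fun ω ω' => ?_
  simp only [wd_eq, Finset.forall_mem_image, hσ]

end setf

section approx
variable {M : ℕ} (ν : Measure (Sq M)) [IsProbabilityMeasure ν]

/-- Finite-dimensional cylinders with coordinates in `S`. -/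
def Cyl (M : ℕ) (S : Set ℤ) : Set (Set (Sq M)) :=
  {C | ∃ W : Finset ℤ, ↑W ⊆ S ∧ ∀ x y : Sq M, (∀ t ∈ W, x t = y t) → (x ∈ C ↔ y ∈ C)}

lemma cyl_ring (S : Set ℤ) : IsSetRing (Cyl M S) := by
  refine ⟨⟨∅, by simp, by simp⟩, ?_, ?_⟩
  · rintro s t ⟨W, hW, h⟩ ⟨W', hW', h'⟩
    refine ⟨W ∪ W', by simp [hW, hW'], fun x y hxy => ?_⟩
    simp only [mem_union, h x y fun t ht => hxy t (Finset.mem_union_left _ ht),
      h' x y fun t ht => hxy t (Finset.mem_union_right _ ht)]
  · rintro s t ⟨W, hW, h⟩ ⟨W', hW', h'⟩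
    refine ⟨W ∪ W', by simp [hW, hW'], fun x y hxy => ?_⟩
    simp only [Set.mem_sdiff, h x y fun t ht => hxy t (Finset.mem_union_left _ ht),
      h' x y fun t ht => hxy t (Finset.mem_union_right _ ht)]

lemma cyl_gen (S : Set ℤ) :
    cylinderEvents (X := fun _ : ℤ => Al M) S = MeasurableSpace.generateFrom (Cyl M S) := by
  refine le_antisymm (iSup₂_le fun t ht => ?_) (MeasurableSpace.generateFrom_le ?_)
  · rintro _ ⟨s, -, rfl⟩
    refine MeasurableSpace.measurableSet_generateFrom ⟨{t}, by simpa using ht, fun x y h => ?_⟩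
    simp [h t (Finset.mem_singleton_self t)]
  · rintro C ⟨W, hW, h⟩
    have hm : Measurable[cylinderEvents (X := fun _ : ℤ => Al M) S]
        fun (x : Sq M) (t : W) => x t :=
      @measurable_pi_lambda _ _ _ (cylinderEvents (X := fun _ : ℤ => Al M) S) _ _
        fun t => measurable_cylinderEvent_apply (hW t.2)
    have : C = (fun (x : Sq M) (t : W) => x t) ⁻¹' ((fun (x : Sq M) (t : W) => x t) '' C) := by
      ext x
      refine ⟨fun hx => ⟨x, hx, rfl⟩, ?_⟩
      rintro ⟨y, hy, hxy⟩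
      exact (h y x fun t ht => congrFun hxy ⟨t, ht⟩).1 hy
    rw [this]
    exact hm (Set.toFinite _).measurableSet

lemma approx {A : Type} [Fintype A] [Nonempty A] [MeasurableSpace A] [MeasurableSingletonClass A]
    (S : Set ℤ) {f : Sq M → A} (hf : Measurable[cylinderEvents (X := fun _ : ℤ => Al M) S] f)
    {δ : ℝ} (hδ : 0 < δ) : ∃ (W : Finset ℤ) (G : Sq M → A), ↑W ⊆ S ∧
      (∀ x y : Sq M, (∀ t ∈ W, x t = y t) → G x = G y) ∧ ν.real {x | f x ≠ G x} ≤ δ := by
  classical
  have hA : (0 : ℝ) < Fintype.card A := by exact_mod_cast Fintype.card_pos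
  have h1 : ∀ a : A, ∃ C ∈ Cyl M S, ν.real (C ∆ (f ⁻¹' {a})) ≤ δ / Fintype.card A := by
    intro a
    have hle : cylinderEvents (X := fun _ : ℤ => Al M) S ≤ MeasurableSpace.pi :=
      cylinderEvents_le_pi
    obtain ⟨C, hC, h⟩ := @exists_measure_symmDiff_lt_of_generateFrom_isSetRing _
      (cylinderEvents (X := fun _ : ℤ => Al M) S) (ν.trim hle) _ _ (cyl_ring S)
      ⟨{univ}, countable_singleton _, singleton_subset_iff.2 ⟨∅, by simp, by simp⟩, by simp⟩
      (cyl_gen S) _ (hf (measurableSet_singleton a)) (ENNReal.ofReal (δ / Fintype.card A))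
      (ENNReal.ofReal_pos.2 (div_pos hδ hA))
    exact ⟨C, hC, ENNReal.toReal_le_of_le_ofReal (div_pos hδ hA).le ((le_trim hle).trans h.le)⟩
  choose C hC hCδ using h1
  choose W hW hCW using hC
  refine ⟨Finset.univ.biUnion W, fun x => Classical.epsilon fun a => x ∈ C a, ?_, ?_, ?_⟩
  · intro t ht
    obtain ⟨a, -, ha⟩ := Finset.mem_biUnion.1 ht
    exact hW a ha
  · intro x y h
    have : (fun a => x ∈ C a) = fun a => y ∈ C a := funext fun a =>
      propext (hCW a x y fun t ht => h t (Finset.mem_biUnion.2 ⟨a, Finset.mem_univ _, ht⟩))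
    simp only [this]
  · calc _ ≤ ν.real (⋃ a, C a ∆ (f ⁻¹' {a})) := by
          refine measureReal_mono fun x hx => ?_
          by_contra hn
          simp only [mem_iUnion, not_exists, mem_symmDiff, mem_preimage, mem_singleton_iff,
            not_or, not_and, not_not] at hn
          exact hx ((hn _).1 (Classical.epsilon_spec (p := fun a => x ∈ C a) ⟨_, (hn _).2 rfl⟩))
      _ ≤ ∑ a, ν.real (C a ∆ (f ⁻¹' {a})) := measureReal_iUnion_fintype_le _
      _ ≤ ∑ a : A, δ / Fintype.card A := Finset.sum_le_sum fun a _ => hCδ a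
      _ = δ := by
          rw [Finset.sum_const, Finset.card_univ, nsmul_eq_mul]; field_simp

end approx

section main
variable {M M' : ℕ} {ν : Measure (Sq M)} [IsProbabilityMeasure ν] {q : Sq M → Al M'}

lemma sh_meas (h : ℤ) : Measurable (sh h : Sq M → Sq M) :=
  measurable_pi_lambda _ fun t => measurable_pi_apply (t + h)

lemma sh_sh (t h : ℤ) (x : Sq M) : sh t (sh h x) = sh (t + h) x := by
  funext u; simp [sh, add_assoc]

/-- The two processes as one family of variables. -/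
def ZZ (q : Sq M → Al M') (j : ℤ × Bool) (x : Sq M) : Al M × Al M' :=
  if j.2 then (0, q (sh j.1 x)) else (x j.1, 0)

lemma ZZ_meas (hq : Measurable q) (j : ℤ × Bool) : Measurable (ZZ q j) := by
  unfold ZZ
  split_ifs
  · exact measurable_const.prodMk (hq.comp (sh_meas _))
  · exact (measurable_pi_apply _).prodMk measurable_const

/-- Coordinates of the first process. -/
def PP (W : Finset ℤ) : Finset (ℤ × Bool) := W ×ˢ {false}

/-- Coordinates of the second process. -/
def QQ (W : Finset ℤ) : Finset (ℤ × Bool) := W ×ˢ {true}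

lemma PP_mono {W W' : Finset ℤ} (h : W ⊆ W') : PP W ⊆ PP W' :=
  Finset.product_subset_product_left h

lemma PP_union (W W' : Finset ℤ) : PP W ∪ PP W' = PP (W ∪ W') := (Finset.union_product ..).symm

lemma shift_inv (hq : Measurable q) (hν : ∀ h, MeasurePreserving (sh h) ν ν) (h : ℤ)
    (S : Finset (ℤ × Bool)) :
    hs ν (ZZ q) (S.image fun j => (j.1 + h, j.2)) = hs ν (ZZ q) S :=
  hs_shift (ZZ_meas hq) _ (hν h) (fun j x => by simp only [ZZ, sh_sh]; rfl) S

lemma PP_image (W : Finset ℤ) (h : ℤ) :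
    (PP W).image (fun j => (j.1 + h, j.2)) = PP (W.image (· + h)) := by
  ext ⟨t, b⟩
  simp only [PP, Finset.mem_image, Finset.mem_product, Finset.mem_singleton, Prod.exists,
    Prod.mk.injEq]
  constructor
  · rintro ⟨a, c, ⟨h1, rfl⟩, h2, rfl⟩; exact ⟨⟨a, h1, h2⟩, rfl⟩
  · rintro ⟨⟨a, h1, h2⟩, rfl⟩; exact ⟨a, false, ⟨h1, rfl⟩, h2, rfl⟩

lemma cond_small (hq : Measurable q) (t : ℤ) (S : Set ℤ) {f : Sq M → Al M'}
    (hf : Measurable[cylinderEvents (X := fun _ : ℤ => Al M) S] f)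
    (hfq : (fun x => q (sh t x)) =ᵐ[ν] f) {ε : ℝ} (hε : 0 < ε) : ∃ W : Finset ℤ, ↑W ⊆ S ∧
      hs ν (ZZ q) ({(t, true)} ∪ PP W) - hs ν (ZZ q) (PP W) ≤ ε := by
  obtain ⟨δ, δ0, hδ⟩ := fano (ν := ν) (Al M') hε
  obtain ⟨W, G, hW, hG, hfG⟩ := approx ν S hf δ0
  refine ⟨W, hW, ?_⟩
  have := hδ _ (fun x => q (sh t x)) G (wd (ZZ q) (PP W)) (hq.comp (sh_meas _))
    (wd_meas (ZZ_meas hq) _) (fun x y hxy => hG x y fun u hu => ?_) ?_
  · rw [← hs_pair]
    refine le_trans (le_of_eq ?_) this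
    congr 1
    refine H_congr fun x y => ?_
    simp [wd_eq, ZZ]
  · have := wd_eq.1 hxy (u, false) (by simpa [PP] using hu)
    simpa [ZZ] using this
  · refine le_trans (le_of_eq (measureReal_congr ?_)) hfG
    filter_upwards [hfq] with x hx
    change (q (sh t x) ≠ G x) = (f x ≠ G x)
    rw [hx]

lemma ent_small (hq : Measurable q) (hν : ∀ h, MeasurePreserving (sh h) ν ν)
    (ht : ∀ n : ℕ, ∃ q' : Sq M → Al M',
      Measurable[cylinderEvents (X := fun _ : ℤ => Al M) (Iic (-(n : ℤ)))] q' ∧ q =ᵐ[ν] q')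
    {ε : ℝ} (hε : 0 < ε) : ∃ C : ℝ, ∀ N : ℕ, hs ν (ZZ q) (QQ (Finset.Ico 0 N)) ≤ C + 2 * ε * N := by
  have hZ := ZZ_meas hq
  set a : ℤ → ℤ → ℝ := fun u v => hs ν (ZZ q) (PP (Finset.Ico u v)) with ha
  have a_sh : ∀ u v h, a (u + h) (v + h) = a u v := fun u v h => by
    simp only [ha]
    rw [← shift_inv hq hν h (PP (Finset.Ico u v)), PP_image, Finset.image_add_right_Ico]
  have a_mono : ∀ u v u' v', u' ≤ u → v ≤ v' → a u v ≤ a u' v' := fun u v u' v' h h' =>
    hs_mono hZ (PP_mono (Finset.Ico_subset_Ico h h'))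
  set d : ℕ → ℝ := fun n => a 0 (n + 1) - a 0 n with hd
  have d0 : ∀ n, 0 ≤ d n := fun n => sub_nonneg.2 (a_mono _ _ _ _ le_rfl (by omega))
  have d_anti : Antitone d := antitone_nat_of_succ_le fun n => by
    have h1 := hs_submod (ν := ν) hZ (PP {(n : ℤ) + 1})
      (PP_mono (Finset.Ico_subset_Ico (zero_le_one' ℤ) (le_refl ((n : ℤ) + 1))))
    have h2 : ∀ u : ℤ, u ≤ n + 1 → ({(n : ℤ) + 1} ∪ Finset.Ico u (n + 1) : Finset ℤ) =
        Finset.Ico u (n + 1 + 1) := fun u hu => by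
      ext; simp only [Finset.mem_union, Finset.mem_singleton, Finset.mem_Ico]; omega
    rw [PP_union, PP_union, h2 0 (by omega), h2 1 (by omega)] at h1
    have h3 := a_sh 0 (n + 1) 1
    have h4 := a_sh 0 n 1
    simp only [hd, ha, zero_add, Nat.cast_add, Nat.cast_one] at h3 h4 ⊢
    linarith
  have tele : ∀ K n : ℕ, a 0 (K + n) - a 0 K = ∑ i ∈ Finset.range n, d (K + i) := fun K n => by
    induction n with
    | zero => simp
    | succ n ih =>
      rw [Finset.sum_range_succ, ← ih]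
      simp only [hd, Nat.cast_add, Nat.cast_one, add_assoc]
      ring
  have hb : BddBelow (range d) := ⟨0, by rintro _ ⟨n, rfl⟩; exact d0 n⟩
  set D := ⨅ n, d n with hD
  have D_le : ∀ n, D ≤ d n := ciInf_le hb
  obtain ⟨K0, hK0⟩ : ∃ K0, d K0 < D + ε := exists_lt_of_ciInf_lt (lt_add_of_pos_right _ hε)
  have upper : ∀ n : ℕ, a 0 n ≤ a 0 K0 + n * (D + ε) := fun n => by
    have h1 := a_mono 0 n 0 (K0 + n) le_rfl (by omega)
    have h2 : ∑ i ∈ Finset.range n, d (K0 + i) ≤ ∑ i ∈ Finset.range n, (D + ε) :=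
      Finset.sum_le_sum fun i _ => (d_anti (Nat.le_add_right _ _)).trans hK0.le
    rw [Finset.sum_const, Finset.card_range, nsmul_eq_mul, ← tele] at h2
    linarith
  have lower : ∀ K n : ℕ, n * D ≤ a 0 (K + n) - a 0 K := fun K n => by
    have h2 : ∑ i ∈ Finset.range n, D ≤ ∑ i ∈ Finset.range n, d (K + i) :=
      Finset.sum_le_sum fun i _ => D_le _
    rwa [Finset.sum_const, Finset.card_range, nsmul_eq_mul, ← tele] at h2
  have bdd : ∀ W : Finset ℤ, ∃ m : ℕ, ∀ t ∈ W, -(m : ℤ) ≤ t ∧ t < m := fun W => by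
    refine ⟨W.sup Int.natAbs + 1, fun t ht => ?_⟩
    have := Finset.le_sup (f := Int.natAbs) ht
    omega
  have sumQ : ∀ (N : ℕ) (T : Finset (ℤ × Bool)) (c : ℝ), (∀ t : ℤ, 0 ≤ t → t < N →
      hs ν (ZZ q) ({(t, true)} ∪ T) - hs ν (ZZ q) T ≤ c) →
      hs ν (ZZ q) (QQ (Finset.Ico 0 N) ∪ T) - hs ν (ZZ q) T ≤ N * c := fun N T c h => by
    refine (hs_sum hZ _ _).trans ?_
    refine (Finset.sum_le_card_nsmul _ _ c ?_).trans (le_of_eq (by simp [QQ]))
    rintro ⟨t, b⟩ hj
    simp only [QQ, Finset.mem_product, Finset.mem_Ico, Finset.mem_singleton] at hj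
    obtain ⟨hj, rfl⟩ := hj
    exact h t hj.1 hj.2
  obtain ⟨W0, -, hW0⟩ := cond_small (ν := ν) hq 0 univ (f := fun x => q (sh 0 x))
    (by rw [cylinderEvents_univ]; exact hq.comp (sh_meas _)) EventuallyEq.rfl hε
  obtain ⟨m, hm⟩ := bdd W0
  refine ⟨a 0 K0 + 2 * m * (D + ε) + 1, fun N => ?_⟩
  have up : hs ν (ZZ q) (PP (Finset.Ico 0 N) ∪ QQ (Finset.Ico 0 N)) ≤
      a 0 (N + 2 * m : ℕ) + N * ε := by
    have h1 := sumQ N (PP (Finset.Ico (-m) (N + m))) ε fun t h0 hN => by
      refine (hs_submod hZ _ (R := PP (W0.image (· + t))) (PP_mono ?_)).trans ?_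
      · intro u hu
        obtain ⟨v, hv, rfl⟩ := Finset.mem_image.1 hu
        have := hm v hv
        simp only [Finset.mem_Ico]; omega
      · rw [← shift_inv hq hν t, ← shift_inv hq hν t (PP W0), Finset.image_union, PP_image,
          Finset.image_singleton, zero_add] at hW0
        exact hW0
    have h2 := a_sh (-m) (N + m) m
    have h3 : hs ν (ZZ q) (PP (Finset.Ico 0 N) ∪ QQ (Finset.Ico 0 N)) ≤
        hs ν (ZZ q) (QQ (Finset.Ico 0 N) ∪ PP (Finset.Ico (-m) (N + m))) := by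
      rw [Finset.union_comm]
      exact hs_mono hZ (Finset.union_subset_union_right
        (PP_mono (Finset.Ico_subset_Ico (by omega) (by omega))))
    have h4 : (N : ℤ) + m + m = (N + 2 * m : ℕ) := by push_cast; ring
    rw [neg_add_cancel, h4] at h2
    simp only [ha] at h2 ⊢
    linarith
  have past : ∀ t : ℕ, ∃ W : Finset ℤ, ↑W ⊆ Iic (-1 : ℤ) ∧
      hs ν (ZZ q) ({((t : ℤ), true)} ∪ PP W) - hs ν (ZZ q) (PP W) ≤ 1 / (N + 1) := fun t => by
    obtain ⟨q', hq', hqq⟩ := ht (t + 1)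
    refine cond_small hq t _ (f := fun x => q' (sh t x)) (hq'.comp ?_)
      ((hν t).quasiMeasurePreserving.ae_eq_comp hqq) (by positivity)
    refine (@measurable_cylinderEvents_iff _ _ _ (cylinderEvents (Iic (-1 : ℤ))) ..).2 ?_
    intro i hi
    refine measurable_cylinderEvent_apply (i := i + t) ?_
    simp only [mem_Iic, Nat.cast_add, Nat.cast_one] at hi ⊢
    omega
  choose W hW hWe using past
  obtain ⟨K, hK⟩ := bdd ((Finset.range N).biUnion W)
  have lo : hs ν (ZZ q) (QQ (Finset.Ico 0 N) ∪ PP (Finset.Ico (-K) 0)) - a (-K) 0 ≤ 1 := by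
    refine (sumQ N _ (1 / (N + 1)) fun t h0 hN => ?_).trans ?_
    · lift t to ℕ using h0
      refine (hs_submod hZ _ (R := PP (W t)) (PP_mono fun u hu => ?_)).trans (hWe t)
      have h1 := hK u (Finset.mem_biUnion.2 ⟨t, Finset.mem_range.2 (by omega), hu⟩)
      have h2 : u ≤ -1 := hW t hu
      simp only [Finset.mem_Ico]; omega
    · rw [mul_one_div, div_le_one (by positivity)]; linarith
  have h1 := hs_submod (ν := ν) hZ (PP (Finset.Ico 0 N))
    (Finset.subset_union_left (s₁ := QQ (Finset.Ico 0 N)) (s₂ := PP (Finset.Ico (-K) 0)))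
  have h2 : a (-K) N ≤ hs ν (ZZ q) (PP (Finset.Ico 0 N) ∪
      (QQ (Finset.Ico 0 N) ∪ PP (Finset.Ico (-K) 0))) := by
    refine hs_mono hZ ?_
    rw [Finset.union_comm (QQ _), ← Finset.union_assoc, PP_union]
    refine (PP_mono fun u => ?_).trans Finset.subset_union_left
    simp only [Finset.mem_union, Finset.mem_Ico]; omega
  have h3 := a_sh (-K) N K
  have h4 := a_sh (-K) 0 K
  have h5 := lower K N
  have h6 := upper (N + 2 * m)
  rw [neg_add_cancel, add_comm] at h3
  rw [neg_add_cancel, zero_add] at h4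
  push_cast at h6 up
  nlinarith

end main

end Ent

open Ent in
theorem entStmt : EntStmt := by
  intro M M' ν _ hν q hq ht ε hε
  obtain ⟨C, hC⟩ := ent_small hq hν ht (ε := ε ^ 2 / 4) (by positivity)
  have hΦ : Measurable fun (x : Sq M) (t : ℤ) => q (sh t x) :=
    measurable_pi_lambda _ fun t => hq.comp (sh_meas t)
  filter_upwards [(tendsto_natCast_atTop_atTop (R := ℝ)).eventually_ge_atTop (2 * C / ε ^ 2),
    eventually_gt_atTop 0] with N hN hN0
  have hN1 : (0 : ℝ) < N := by exact_mod_cast hN0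
  have hξ : Measurable fun (x : Sq M) (i : Fin N) => q (sh ((i : ℕ) : ℤ) x) :=
    measurable_pi_lambda _ fun t => hq.comp (sh_meas _)
  obtain ⟨𝒜, h1, h2⟩ := cover (ν := ν) hξ (L := ε * N) (by positivity)
  refine ⟨𝒜, h1, ?_⟩
  have hm : Measurable fun (x : Sq M') (i : Fin N) => x ((i : ℕ) : ℤ) :=
    measurable_pi_lambda _ fun t => measurable_pi_apply _
  refine le_trans ?_ (h2.trans (map_measureReal_apply hΦ (hm 𝒜.measurableSet)).ge)
  have h3 : H ν (fun (x : Sq M) (i : Fin N) => q (sh ((i : ℕ) : ℤ) x)) =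
      hs ν (ZZ q) (QQ (Finset.Ico 0 N)) := by
    refine H_congr fun x y => ?_
    rw [wd_eq, funext_iff]
    simp only [QQ, ZZ, Finset.mem_product, Finset.mem_Ico, Finset.mem_singleton, Prod.forall]
    constructor
    · rintro h t b ⟨⟨h0, h1⟩, rfl⟩
      lift t to ℕ using h0
      simpa using h ⟨t, by omega⟩
    · intro h i
      simpa using h i true ⟨⟨by omega, by omega⟩, rfl⟩
  have h4 := hC N
  rw [div_le_iff₀ (by positivity)] at hN
  rw [h3, sub_le_sub_iff_left, div_le_iff₀ (by positivity)]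
  nlinarith

end Crest.Agent.R69
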