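import Crest.Agent.R69.Defs

/-! # Row 69: joint eigenvectors and the deterministic grid -/

set_option autoImplicit false
open MeasureTheory ProbabilityTheory Filter Topology Set
open scoped ENNReal InnerProductSpace ComplexConjugate

noncomputable section
namespace Crest.Agent.R69

namespace GridAux

section JE
variable {H : Type} [NormedAddCommGroup H] [InnerProductSpace ℂ H]

/-- A commuting family has a joint eigenvector in a nonzero finite-dimensional invariant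
subspace. -/
theorem fd_joint (𝒦 : Set (H →L[ℂ] H)) (hc : ∀ K ∈ 𝒦, ∀ K' ∈ 𝒦, Commute K K') (n : ℕ) :
    ∀ F : Submodule ℂ H, FiniteDimensional ℂ F → Module.finrank ℂ F ≤ n → F ≠ ⊥ →
      (∀ K ∈ 𝒦, ∀ v ∈ F, K v ∈ F) → ∃ v ∈ F, v ≠ 0 ∧ ∀ K ∈ 𝒦, ∃ z : ℂ, K v = z • v := by
  induction n with
  | zero =>
    intro F _ hn hF _
    exact absurd (Submodule.finrank_eq_zero.1 (Nat.le_zero.1 hn)) hF
  | succ n ih =>
    intro F _ hn hF hinv
    by_cases hs : ∀ K ∈ 𝒦, ∃ z : ℂ, ∀ v ∈ F, K v = z • v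
    · obtain ⟨v, hv, hv0⟩ := (Submodule.ne_bot_iff F).1 hF
      exact ⟨v, hv, hv0, fun K hK => (hs K hK).imp fun z hz => hz v hv⟩
    push Not at hs
    obtain ⟨K, hK, hs⟩ := hs
    have : Nontrivial F := Submodule.nontrivial_iff_ne_bot.2 hF
    obtain ⟨μ, hμ⟩ := Module.End.exists_eigenvalue
      ((K : H →ₗ[ℂ] H).restrict (p := F) (q := F) (hinv K hK))
    obtain ⟨w, hw⟩ := hμ.exists_hasEigenvector
    have hw1 : K (w : H) = μ • (w : H) := congrArg Subtype.val hw.apply_eq_smul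
    set F' : Submodule ℂ H := F ⊓ Module.End.eigenspace (K : H →ₗ[ℂ] H) μ with hF'
    have hmem : ∀ v, v ∈ F' ↔ v ∈ F ∧ K v = μ • v := fun v => by
      rw [hF', Submodule.mem_inf, Module.End.mem_eigenspace_iff]; rfl
    have hlt : F' < F := by
      refine lt_of_le_of_ne inf_le_left fun h => ?_
      obtain ⟨v, hv, hv'⟩ := hs μ
      exact hv' ((hmem v).1 (h ▸ hv)).2
    have hfd : FiniteDimensional ℂ F' := Submodule.finiteDimensional_of_le hlt.le
    obtain ⟨v, hv, hv'⟩ := ih F' hfd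
      (Nat.lt_succ_iff.1 ((Submodule.finrank_lt_finrank_of_lt hlt).trans_le hn))
      ((Submodule.ne_bot_iff _).2 ⟨w, (hmem _).2 ⟨w.2, hw1⟩, fun h => hw.2 (Subtype.ext h)⟩)
      fun K' hK' v hv => by
        rw [hmem] at hv ⊢
        refine ⟨hinv K' hK' v hv.1, ?_⟩
        have := congrArg (fun T : H →L[ℂ] H => T v) (hc K hK K' hK').eq
        simp only [ContinuousLinearMap.mul_apply] at this
        rw [this, hv.2, map_smul]
    exact ⟨v, hlt.le hv, hv'⟩

end JE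

section L2
variable {Ω : Type} {m0 : MeasurableSpace Ω} {Q : Measure Ω}

theorem Pr_apply {m : MeasurableSpace Ω} (h : m ≤ m0) (f : Lp ℂ 2 Q) :
    Pr Q m f = (condExpL2 ℂ ℂ h f : Lp ℂ 2 Q) := by
  simp [Pr, h]

theorem Pr_mem {m : MeasurableSpace Ω} (h : m ≤ m0) (f : Lp ℂ 2 Q) : Pr Q m f ∈ L2 Q m := by
  rw [Pr_apply h]; exact Subtype.property _

theorem Pr_of_mem {m : MeasurableSpace Ω} (h : m ≤ m0) {f : Lp ℂ 2 Q} (hf : f ∈ L2 Q m) :
    Pr Q m f = f := by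
  rw [Pr_apply h]
  refine ext_inner_right ℂ fun g => ?_
  rw [inner_condExpL2_left_eq_right, ← inner_conj_symm,
    inner_condExpL2_eq_inner_fun h g f (mem_lpMeas_iff_aestronglyMeasurable.1 hf), inner_conj_symm]

theorem Pr_Pr {m : MeasurableSpace Ω} (h : m ≤ m0) (f : Lp ℂ 2 Q) :
    Pr Q m (Pr Q m f) = Pr Q m f := Pr_of_mem h (Pr_mem h f)

theorem Pr_adjoint {m : MeasurableSpace Ω} (h : m ≤ m0) :
    ContinuousLinearMap.adjoint (Pr Q m) = Pr Q m := by
  symm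
  rw [ContinuousLinearMap.eq_adjoint_iff]
  intro f g
  rw [Pr_apply h, Pr_apply h, inner_condExpL2_left_eq_right]

theorem memLp_of_bdd {m : MeasurableSpace Ω} (h : m ≤ m0) {u : Ω → ℂ} (hu : Bdd m u) :
    MemLp u ∞ Q := by
  obtain ⟨hm, C, hC⟩ := hu
  exact memLp_top_of_bound (hm.mono h le_rfl).aestronglyMeasurable C (Eventually.of_forall hC)

theorem bdd_conj {m : MeasurableSpace Ω} {u : Ω → ℂ} (hu : Bdd m u) :
    Bdd m fun ω => conj (u ω) := by
  obtain ⟨hm, C, hC⟩ := hu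
  exact ⟨Complex.continuous_conj.measurable.comp hm, C, fun ω => by simpa using hC ω⟩

theorem Mop_coeFn {u : Ω → ℂ} (hu : MemLp u ∞ Q) (f : Lp ℂ 2 Q) :
    Mop Q u f =ᵐ[Q] fun ω => u ω * f ω := by
  have h1 := (ContinuousLinearMap.mul ℂ ℂ).coeFn_holder (r := 2) (hu.toLp u) f
  have h2 : Mop Q u f = (ContinuousLinearMap.mul ℂ ℂ).holder 2 (hu.toLp u) f := by
    simp only [Mop, hu, dif_pos]; rfl
  rw [h2]
  filter_upwards [h1, hu.coeFn_toLp] with ω a b
  rw [a, b]; rfl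

theorem Mop_adjoint {m : MeasurableSpace Ω} (h : m ≤ m0) {u : Ω → ℂ} (hu : Bdd m u) :
    ContinuousLinearMap.adjoint (Mop Q u) = Mop Q fun ω => conj (u ω) := by
  symm
  rw [ContinuousLinearMap.eq_adjoint_iff]
  intro f g
  rw [L2.inner_def, L2.inner_def]
  refine integral_congr_ae ?_
  filter_upwards [Mop_coeFn (memLp_of_bdd h (bdd_conj hu)) f, Mop_coeFn (memLp_of_bdd h hu) g]
    with ω a b
  rw [a, b]
  simp only [RCLike.inner_apply, map_mul, Complex.conj_conj]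
  ring

theorem KK_adjoint {a b c : MeasurableSpace Ω} (ha : a ≤ m0) (hb : b ≤ m0) (hc : c ≤ m0)
    {u u' : Ω → ℂ} (hu : Bdd c u) (hu' : Bdd c u') :
    ContinuousLinearMap.adjoint (KK Q a b u u') =
      KK Q a b (fun ω => conj (u' ω)) fun ω => conj (u ω) := by
  simp only [KK, ContinuousLinearMap.adjoint_comp, Pr_adjoint ha, Pr_adjoint hb,
    Mop_adjoint hc hu, Mop_adjoint hc hu', ContinuousLinearMap.comp_assoc]

theorem KK_Pr {a b : MeasurableSpace Ω} (ha : a ≤ m0) {u u' : Ω → ℂ} {v : Lp ℂ 2 Q} {z : ℂ}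
    (h : KK Q a b u u' v = z • v) : KK Q a b u u' (Pr Q a v) = z • Pr Q a v := by
  have h1 : KK Q a b u u' (Pr Q a v) = Pr Q a (KK Q a b u u' v) := by
    simp only [KK, ContinuousLinearMap.comp_apply, Pr_Pr ha]
  rw [h1, h, map_smul]

theorem tl_coeFn [IsProbabilityMeasure Q] {m : MeasurableSpace Ω} (h : m ≤ m0) {u : Ω → ℂ}
    (hu : Uni m u) : tl Q u =ᵐ[Q] u := by
  have h1 : MemLp u 2 Q :=
    (memLp_of_bdd h ⟨hu.1, 1, fun ω => (hu.2 ω).le⟩).mono_exponent le_top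
  simp only [tl, h1, dif_pos]
  exact h1.coeFn_toLp

theorem gam_of_eq [IsProbabilityMeasure Q] {a b c : MeasurableSpace Ω} (ha : a ≤ m0)
    {χ χ' : Ω → ℂ} {z z' : ℂ} (hz : z ≠ 0) (h : Uni a χ) (h' : Gam Q a b c χ')
    (e : z • tl Q χ = z' • tl Q χ') : Gam Q a b c χ := by
  obtain ⟨h1, χ₁, χ₂, h2, h3, h4⟩ := h'
  have hae : ∀ᵐ ω ∂Q, χ ω = z⁻¹ * z' * χ' ω := by
    have e1 := Lp.coeFn_smul z (tl Q χ)
    have e2 := Lp.coeFn_smul z' (tl Q χ')
    rw [e] at e1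
    filter_upwards [e1, e2, tl_coeFn ha h, tl_coeFn ha h1] with ω a1 a2 a3 a4
    rw [a2] at a1
    simp only [Pi.smul_apply, smul_eq_mul, a3, a4] at a1
    rw [mul_assoc, a1, ← mul_assoc, inv_mul_cancel₀ hz, one_mul]
  have hn : ‖z⁻¹ * z'‖ = 1 := by
    obtain ⟨ω, hω⟩ := hae.exists
    have := congrArg norm hω
    rw [norm_mul _ (χ' ω), h.2, h1.2, mul_one] at this
    exact this.symm
  refine ⟨h, fun ω => z⁻¹ * z' * χ₁ ω, χ₂, ⟨h2.1.const_mul _, fun ω => ?_⟩, h3, ?_⟩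
  · rw [norm_mul _ (χ₁ ω), hn, h2.2, mul_one]
  · filter_upwards [hae, h4] with ω a1 a2
    rw [a1, a2, mul_assoc _ (χ₁ ω)]

theorem dgrid_swap {n : Fin 3 → Fin 3 → MeasurableSpace Ω} (h : DGrid Q n) :
    DGrid Q fun a b => n b a :=
  ⟨fun a b => h.le b a, fun b a a' a'' => h.det2 b a a' a'', fun a b b' b'' => h.det1 a b b' b'',
    h.ind2, h.ind1⟩

theorem tri_row {n : Fin 3 → Fin 3 → MeasurableSpace Ω} (h : DGrid Q n) :
    Tri Q (n 0 0) (n 0 1) (n 0 2) := by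
  have key : ∀ β β', β ≠ β' → Indep (n 0 β) (n 0 β') Q := fun β β' hβ =>
    indep_of_indep_of_le_right
      (indep_of_indep_of_le_left (h.ind2 β β' hβ) (le_iSup (fun α => n α β) 0))
      (le_iSup (fun α => n α β') 0)
  exact ⟨h.le _ _, h.le _ _, h.le _ _, key _ _ (by decide), key _ _ (by decide),
    key _ _ (by decide), h.det2 _ _ _ _ (by decide) (by decide) (by decide),
    h.det2 _ _ _ _ (by decide) (by decide) (by decide),
    h.det2 _ _ _ _ (by decide) (by decide) (by decide)⟩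

end L2

end GridAux

open GridAux in
theorem jeStmt : JEStmt := by
  intro H _ _ _ 𝒦 hcpt hadj hcomm
  set E := Submodule.span ℂ {v : H | ∀ K ∈ 𝒦, ∃ z : ℂ, K v = z • v} with hE
  rw [Submodule.topologicalClosure_eq_top_iff]
  by_contra hne
  have hEinv : ∀ K ∈ 𝒦, ∀ u ∈ E, K u ∈ E := by
    intro K hK u hu
    have : E ≤ E.comap (K : H →ₗ[ℂ] H) := Submodule.span_le.2 fun v hv => by
      obtain ⟨z, hz⟩ := hv K hK
      change K v ∈ E
      rw [hz]
      exact E.smul_mem _ (Submodule.subset_span hv)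
    exact this hu
  have hGinv : ∀ K ∈ 𝒦, ∀ v ∈ Eᗮ, K v ∈ Eᗮ := by
    intro K hK v hv
    rw [Submodule.mem_orthogonal] at hv ⊢
    intro u hu
    rw [← ContinuousLinearMap.adjoint_inner_left]
    exact hv _ (hEinv _ (hadj K hK) u hu)
  have hno : ∀ v ∈ Eᗮ, (∀ K ∈ 𝒦, ∃ z : ℂ, K v = z • v) → v = 0 := fun v hv h =>
    inner_self_eq_zero.1 ((Submodule.mem_orthogonal _ _).1 hv v (Submodule.subset_span h))
  set π : H →L[ℂ] H := Eᗮ.starProjection with hπ
  have hπm : ∀ v, π v ∈ Eᗮ := fun v => Submodule.starProjection_apply_mem _ v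
  have hπv : ∀ v ∈ Eᗮ, π v = v := fun v hv => Submodule.starProjection_eq_self_iff.2 hv
  -- symmetric compact operators commuting with the family vanish on `Eᗮ`
  have key : ∀ S : H →L[ℂ] H, IsCompactOperator S → ContinuousLinearMap.adjoint S = S →
      (∀ K ∈ 𝒦, Commute S K) → (∀ v ∈ Eᗮ, S v ∈ Eᗮ) → ∀ v ∈ Eᗮ, S v = 0 := by
    intro S hS hSa hSc hSi
    have hc : IsCompactOperator (π ∘L S ∘L π) := (hS.comp_clm π).clm_comp π
    have hsym : (π ∘L S ∘L π : H →L[ℂ] H).IsSymmetric := by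
      rw [← ContinuousLinearMap.isSelfAdjoint_iff_isSymmetric, ContinuousLinearMap.isSelfAdjoint_iff']
      have : ContinuousLinearMap.adjoint π = π :=
        ContinuousLinearMap.isSelfAdjoint_iff'.1 (isSelfAdjoint_starProjection _)
      simp only [ContinuousLinearMap.adjoint_comp, this, hSa, ContinuousLinearMap.comp_assoc]
    have hT : ∀ v ∈ Eᗮ, (π ∘L S ∘L π) v = S v := fun v hv => by
      simp only [ContinuousLinearMap.comp_apply, hπv v hv, hπv _ (hSi v hv)]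
    have h0 : π ∘L S ∘L π = 0 := by
      rw [← ContinuousLinearMap.eq_zero_of_forall_hasEigenvalue_eq_zero hc hsym]
      intro μ hμ
      by_contra hμ0
      have hfd := ContinuousLinearMap.finite_dimensional_eigenspace hc μ hμ0
      have hmem : ∀ v, v ∈ Module.End.eigenspace (π ∘L S ∘L π).toLinearMap μ ↔
          v ∈ Eᗮ ∧ S v = μ • v := by
        intro v
        rw [Module.End.mem_eigenspace_iff]
        constructor
        · intro h
          have h1 : (π ∘L S ∘L π) v = μ • v := h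
          have h2 : v ∈ Eᗮ := by
            rw [← Submodule.smul_mem_iff _ hμ0, ← h1]
            exact hπm _
          exact ⟨h2, by rw [← hT v h2, h1]⟩
        · rintro ⟨h1, h2⟩
          exact (hT v h1).trans h2
      obtain ⟨v, hv, hv0, hv'⟩ := fd_joint 𝒦 hcomm _ _ hfd le_rfl hμ fun K hK v hv => by
        rw [hmem] at hv ⊢
        refine ⟨hGinv K hK v hv.1, ?_⟩
        have := congrArg (fun T : H →L[ℂ] H => T v) (hSc K hK).eq
        simp only [ContinuousLinearMap.mul_apply] at this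
        rw [this, hv.2, map_smul]
      exact hv0 (hno v ((hmem v).1 hv).1 hv')
    intro v hv
    rw [← hT v hv, h0]; rfl
  obtain ⟨v, hv, hv0⟩ := (Submodule.ne_bot_iff _).1 hne
  refine hv0 (hno v hv fun K hK => ⟨0, ?_⟩)
  have hK' := hadj K hK
  have h1 := key (K + ContinuousLinearMap.adjoint K) ((hcpt K hK).add (hcpt _ hK'))
    (by simp [add_comm]) (fun K' h => (hcomm K hK K' h).add_left (hcomm _ hK' K' h))
    (fun w hw => add_mem (hGinv K hK w hw) (hGinv _ hK' w hw)) v hv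
  have h2 := key (Complex.I • (K - ContinuousLinearMap.adjoint K))
    (((hcpt K hK).sub (hcpt _ hK')).smul Complex.I)
    (by rw [map_smulₛₗ, map_sub, ContinuousLinearMap.adjoint_adjoint, Complex.conj_I, neg_smul,
      ← smul_neg, neg_sub])
    (fun K' h => ((hcomm K hK K' h).sub_left (hcomm _ hK' K' h)).smul_left _)
    (fun w hw => Submodule.smul_mem _ _ (sub_mem (hGinv K hK w hw) (hGinv _ hK' w hw))) v hv
  simp only [ContinuousLinearMap.add_apply, ContinuousLinearMap.smul_apply,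
    ContinuousLinearMap.sub_apply, smul_eq_zero, Complex.I_ne_zero, false_or, sub_eq_zero] at h1 h2
  rw [← h2, ← two_smul ℂ, smul_eq_zero] at h1
  simpa using h1

open GridAux in
theorem gridStmt (hT : TriStmt) (hC : CommStmt) : GridStmt := by
  intro Ω m0 Q _ n hn f hf
  have t1 := hT Ω m0 Q _ _ _ (tri_row hn)
  have t2 := hT Ω m0 Q _ _ _ (tri_row (dgrid_swap hn))
  have c1 := hC Ω m0 Q n hn
  have c2 := hC Ω m0 Q _ (dgrid_swap hn)
  set 𝒦 : Set (Lp ℂ 2 Q →L[ℂ] Lp ℂ 2 Q) :=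
    {K | ∃ u u', Bdd (n 0 2) u ∧ Bdd (n 0 2) u' ∧ K = KK Q (n 0 0) (n 0 1) u u'} ∪
    {K | ∃ u u', Bdd (n 2 0) u ∧ Bdd (n 2 0) u' ∧ K = KK Q (n 0 0) (n 1 0) u u'} with h𝒦
  have hJ := jeStmt (Lp ℂ 2 Q) 𝒦
    (by
      rintro _ (⟨u, u', hu, hu', rfl⟩ | ⟨u, u', hu, hu', rfl⟩)
      exacts [t1.1 u u' hu hu', t2.1 u u' hu hu'])
    (by
      rintro _ (⟨u, u', hu, hu', rfl⟩ | ⟨u, u', hu, hu', rfl⟩)
      · exact Or.inl ⟨_, _, bdd_conj hu', bdd_conj hu,
          KK_adjoint (hn.le _ _) (hn.le _ _) (hn.le _ _) hu hu'⟩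
      · exact Or.inr ⟨_, _, bdd_conj hu', bdd_conj hu,
          KK_adjoint (hn.le _ _) (hn.le _ _) (hn.le _ _) hu hu'⟩)
    (by
      rintro _ (⟨u, u', hu, hu', rfl⟩ | ⟨u, u', hu, hu', rfl⟩) _
        (⟨v, v', hv, hv', rfl⟩ | ⟨v, v', hv, hv', rfl⟩)
      · exact (c1 u u' hu hu').1 v v' hv hv'
      · exact (c1 u u' hu hu').2 v v' hv hv'
      · exact (c2 u u' hu hu').2 v v' hv hv'
      · exact (c2 u u' hu hu').1 v v' hv hv')
  have hle : (Submodule.span ℂ {v : Lp ℂ 2 Q | ∀ K ∈ 𝒦, ∃ z : ℂ, K v = z • v}).topologicalClosure ≤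
      (GamSpan Q n).comap (Pr Q (n 0 0) : Lp ℂ 2 Q →ₗ[ℂ] Lp ℂ 2 Q) := by
    refine Submodule.topologicalClosure_minimal _ (Submodule.span_le.2 fun v hv => ?_)
      ((Submodule.isClosed_topologicalClosure _).preimage (Pr Q (n 0 0)).continuous)
    change Pr Q (n 0 0) v ∈ GamSpan Q n
    have e1 := t1.2 _ (Pr_mem (hn.le 0 0) v) fun u u' hu hu' =>
      (hv _ (Or.inl ⟨u, u', hu, hu', rfl⟩)).imp fun z hz => KK_Pr (hn.le 0 0) hz
    have e2 := t2.2 _ (Pr_mem (hn.le 0 0) v) fun u u' hu hu' =>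
      (hv _ (Or.inr ⟨u, u', hu, hu', rfl⟩)).imp fun z hz => KK_Pr (hn.le 0 0) hz
    by_cases h0 : Pr Q (n 0 0) v = 0
    · rw [h0]; exact zero_mem _
    obtain ⟨z, χ, hχ, he⟩ := e1.resolve_left h0
    obtain ⟨z', χ', hχ', he'⟩ := e2.resolve_left h0
    have hz : z ≠ 0 := fun h => h0 (by rw [he, h, zero_smul])
    rw [he]
    exact Submodule.smul_mem _ _ (Submodule.le_topologicalClosure _ (Submodule.subset_span
      ⟨χ, gam_of_eq (hn.le 0 0) hz hχ.1 hχ' (he.symm.trans he'), hχ, rfl⟩))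
  rw [hJ] at hle
  have := hle (Submodule.mem_top (x := f))
  rw [← Pr_of_mem (hn.le 0 0) hf]
  exact this

end Crest.Agent.R69
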