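import Crest.Agent.R69.Cyl

/-! # The grid property relative to the base -/

set_option autoImplicit false
open MeasureTheory ProbabilityTheory Filter Set Topology
open scoped ENNReal InnerProductSpace ComplexConjugate

noncomputable section
namespace Crest.Agent.R69
namespace Hyp1

variable {M : ℕ} {ν : Measure (Sq M)} {P : Measure (Om M)} {Inf : La → Prop}
  {col : ℚ → Finset La} {s : ℕ} {C : Option Bool} {j m : ℚ} {L B : Finset La}

/-- pairwise infinite differences -/
def PD (Inf : La → Prop) (L : Finset La) : Prop := ∀ a ∈ L, ∀ a' ∈ L, a ≠ a' → Inf (a - a')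

theorem cell2_mono {A A' B B' : Finset La} (h : A ⊆ A') (h' : B ⊆ B') :
    cell2 C j m A B ⊆ cell2 C j m A' B' := fun _ hx => ⟨hx.1, h hx.2.1, h' hx.2.2.1, hx.2.2.2⟩

theorem single (h1 : MV1Stmt) (hA : Arr ν P) (hI : InfOK Inf) (hc : Dn col) (hL : PD Inf L)
    (hjm : j ≠ m) (hj : act j ∈ sd C) {a : La} (ha : a ∈ L) {A' : Finset La} (hA' : A' ⊆ L)
    (haA : a ∉ A') (hcard : A'.card ≤ s) :
    CI P (sg M (cell2 C j m {a} L)) (sg M (Wb (hat Inf col s) ∪ cell2 C j m {a} B))
      (sg M (Wb (hat Inf col s) ∪ (cell2 C j m L B ∪ cell2 C j m A' L))) := by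
  classical
  have hadm : Adm Inf (A'.image (· - a)) := by
    refine ⟨fun d hd => ?_, fun d hd d' hd' hne => ?_⟩
    · obtain ⟨b, hb, rfl⟩ := Finset.mem_image.1 hd
      exact hL b (hA' hb) a ha fun e => haA (e ▸ hb)
    · obtain ⟨b, hb, rfl⟩ := Finset.mem_image.1 hd
      obtain ⟨b', hb', rfl⟩ := Finset.mem_image.1 hd'
      rw [sub_sub_sub_cancel_right]
      exact hL b (hA' hb) b' (hA' hb') fun e => hne (by rw [e])
  refine h1 M ν P hA (act j) a
    {z | (ofLex z).1 = j ∧ ¬ Act z ∧ col (ofLex z).2 = A'.image (· - a)} (fun b hb => ?_) _ _ _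
    (union_subset_union_right _ ((cell2_mono (Finset.singleton_subset_iff.2 ha) subset_rfl).trans
      subset_union_left)) (fun x hx => Finset.mem_singleton.1 hx.2.1) ?_
  · obtain ⟨z, e1, e2, e3, e4, e5⟩ := hc.exists_below (A'.image (· - a)) hb
    exact ⟨z, ⟨e3, e4, e5⟩, e1, e2⟩
  rintro z ⟨z1, z2, z3⟩ - y hy hyz y' - e1 e2 e3
  have hz : hat Inf col s z = A'.image (· - a) := by
    rw [hat_eq z2 (z3 ▸ hadm) (z3 ▸ Finset.card_image_le.trans hcard), z3]
  have hmz : act m ≠ z := fun e => z2 (e ▸ Act_act m)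
  have hmj : act m ≠ act j := fun e => hjm (act_injective e).symm
  rcases hy with ⟨i, hi⟩ | hy | hy
  · refine Or.inl ⟨i, ?_⟩
    rw [e3 i (fun e => by rw [e, hat_of_Act (Act_act j)] at hi; simp at hi) fun e => by
      rw [e, hyz] at hi; exact (hat_ok Inf col s z).1.zero_notMem hI hi]
    exact hi
  · refine Or.inr ⟨fun i hi => ?_, Finset.mem_singleton.2 e1, by rw [e3 _ hmj hmz]; exact hy.2.2.1,
      fun i hi hij him => ?_⟩
    · by_cases f1 : i = act j
      · rw [f1]; exact hj
      by_cases f2 : i = z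
      · rw [f2]; exact mem_sd_of_fst_eq (i := act j) z1 hj
      · rw [e3 i f1 f2] at hi; exact hy.1 i hi
    · rw [e3 i hij fun e => z2 (e ▸ hi)]; exact hy.2.2.2 i hi hij him
  · exact Or.inl ⟨z, by rw [hz, e2]; exact Finset.mem_image_of_mem _ hy.2.1⟩

theorem multi (h1 : MV1Stmt) (hA : Arr ν P) (hI : InfOK Inf) (hc : Dn col) (hL : PD Inf L)
    (hjm : j ≠ m) (hj : act j ∈ sd C) (A : Finset La) : ∀ A' : Finset La, A ⊆ L → A' ⊆ L →
    Disjoint A A' → A.card + A'.card ≤ s + 1 →
    CI P (sg M (cell2 C j m A L)) (sg M (Wb (hat Inf col s) ∪ cell2 C j m A B))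
      (sg M (Wb (hat Inf col s) ∪ (cell2 C j m L B ∪ cell2 C j m A' L))) := by
  classical
  have := hA.prob
  induction A using Finset.induction_on with
  | empty =>
    intro A' _ _ _ _ v hv
    have : cell2 C j m ∅ L = ∅ := eq_empty_of_forall_notMem fun x hx => by simpa using hx.2.1
    rw [this, sg_empty] at hv
    rw [Pr_eq_self (sg_le _) (L2_mono bot_le hv), Pr_eq_self (sg_le _) (L2_mono bot_le hv)]
  | insert a A ha ih =>
    intro A' hAL hA'L hd hcard
    rw [Finset.card_insert_of_notMem ha] at hcard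
    have haL : a ∈ L := hAL (Finset.mem_insert_self _ _)
    have hAL' : A ⊆ L := (Finset.subset_insert _ _).trans hAL
    have hd' := Finset.disjoint_insert_left.1 hd
    have e : cell2 C j m (insert a A) L = cell2 C j m {a} L ∪ cell2 C j m A L := by
      ext x
      simp only [cell2, mem_union, mem_ofPred_eq, Finset.mem_insert, Finset.mem_singleton]
      tauto
    have c1 := single (B := B) (s := s) h1 hA hI hc hL hjm hj haL (A' := A' ∪ A)
      (Finset.union_subset hA'L hAL') (by simp [ha, hd'.1])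
      ((Finset.card_union_le _ _).trans (by omega))
    have c2 := ih A' hAL' hA'L hd'.2 (by omega)
    rw [e, sg_union]
    refine CI.of_sup (sg_le _) (sg_le _) (sg_le _) (sg_le _) (L2_sg_mono
      (union_subset_union_right _ ((cell2_mono hAL subset_rfl).trans subset_union_left))) ?_
    intro u v hu hv
    have hu0 := hu.mono (sg_le _)
    have hv0 := hv.mono (sg_le _)
    obtain ⟨u', hu', e1⟩ := exists_bdd_Pr (Q := P)
      (sg_le (Wb (hat Inf col s) ∪ cell2 C j m {a} B)) hu0
    have hu'0 := hu'.mono (sg_le _)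
    have s1 : Wb (hat Inf col s) ∪ (cell2 C j m L B ∪ cell2 C j m A' L) ⊆
        Wb (hat Inf col s) ∪ (cell2 C j m L B ∪ cell2 C j m (A' ∪ A) L) :=
      union_subset_union_right _ (union_subset_union_right _
        (cell2_mono Finset.subset_union_left subset_rfl))
    have s2 : cell2 C j m A L ⊆ Wb (hat Inf col s) ∪ (cell2 C j m L B ∪ cell2 C j m (A' ∪ A) L) :=
      (cell2_mono Finset.subset_union_right subset_rfl).trans
        (subset_union_right.trans subset_union_right)
    have s3 : Wb (hat Inf col s) ∪ cell2 C j m {a} B ⊆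
        Wb (hat Inf col s) ∪ (cell2 C j m L B ∪ cell2 C j m A' L) :=
      union_subset_union_right _ ((cell2_mono (Finset.singleton_subset_iff.2 haL) subset_rfl).trans
        subset_union_left)
    rw [← Pr_Pr_of_ge (sg_le _) (sg_le _) (L2_sg_mono s1), ← Mop_tl hu0 (hv0.memLp 2),
      Mop_tl_comm hu0 hv0, Pr_Mop (sg_le _) hv0 (hv.mono (sg_mono s2)).tl_mem, c1 _ hu.tl_mem, e1,
      Mop_tl_comm hv0 hu'0, Pr_Mop (sg_le _) hu'0 (hu'.mono (sg_mono s3)).tl_mem]
    refine Mop_mem hu'0 (hu'.mono (sg_mono (union_subset_union_right _ (cell2_mono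
      (Finset.singleton_subset_iff.2 (Finset.mem_insert_self _ _)) subset_rfl)))).tl_mem ?_
    exact L2_sg_mono (union_subset_union_right _ (cell2_mono (Finset.subset_insert _ _) subset_rfl))
      (c2.mem hv.tl_mem)

end Hyp1

open Hyp1 in
theorem hyp1Stmt (h1 : MV1Stmt) : Hyp1Stmt := by
  classical
  intro M ν P Inf col s Lab hA hI hc hs hL C j m hjm hj _ α α' hα B
  let L : Finset La := Finset.univ.biUnion Lab
  have hsub : ∀ β, Lab β ⊆ L := fun β => Finset.subset_biUnion_of_mem Lab (Finset.mem_univ β)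
  have hmem : ∀ a ∈ L, a = 0 ∨ a ∈ Lab 1 ∪ Lab 2 := by
    intro a ha
    obtain ⟨β, -, hβ⟩ := Finset.mem_biUnion.1 ha
    fin_cases β
    · left; have : a ∈ Lab 0 := hβ; rw [hL.l0] at this; exact Finset.mem_singleton.1 this
    · exact Or.inr (Finset.mem_union_left _ hβ)
    · exact Or.inr (Finset.mem_union_right _ hβ)
  have hPD : PD Inf L := by
    intro a ha a' ha' hne
    rcases hmem a ha with rfl | h <;> rcases hmem a' ha' with rfl | h'
    · exact absurd rfl hne
    · rw [zero_sub]; exact hI.neg _ (hL.adm.1 _ h')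
    · rw [sub_zero]; exact hL.adm.1 _ h
    · exact hL.adm.2 _ h _ h' hne
  have h0 := hL.adm.zero_notMem hI
  rw [Finset.mem_union, not_or] at h0
  have c0 : (Lab 0).card = 1 := by rw [hL.l0]; rfl
  have d01 : Disjoint (Lab 0) (Lab 1) := by rw [hL.l0]; simpa using h0.1
  have d02 : Disjoint (Lab 0) (Lab 2) := by rw [hL.l0]; simpa using h0.2
  have c1 := hL.l1
  have c2 := hL.l2
  have hdc : Disjoint (Lab α) (Lab α') ∧ (Lab α).card + (Lab α').card ≤ s + 1 := by
    fin_cases α <;> fin_cases α' <;>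
      first
      | exact absurd rfl hα
      | (refine ⟨?_, ?_⟩
         · first | exact d01 | exact d02 | exact hL.disj | exact d01.symm | exact d02.symm
                 | exact hL.disj.symm
         · simp only [Fin.zero_eta, Fin.mk_one, Fin.reduceFinMk, Fin.isValue]; omega)
  have e1 : ∀ A, ⋃ β, cell2 C j m A (Lab β) = cell2 C j m A L := fun A => by
    ext x
    simp only [cell2, mem_iUnion, mem_ofPred_eq, L, Finset.mem_biUnion, Finset.mem_univ, true_and]
    tauto
  have e2 : ∀ A, ⋃ β ∈ B, cell2 C j m A (Lab β) = cell2 C j m A (B.biUnion Lab) := fun A => by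
    ext x
    simp only [cell2, mem_iUnion, mem_ofPred_eq, Finset.mem_biUnion, exists_prop]
    tauto
  have e3 : ⋃ β ∈ B, ⋃ a, cell2 C j m (Lab a) (Lab β) = cell2 C j m L (B.biUnion Lab) := by
    ext x
    simp only [cell2, mem_iUnion, mem_ofPred_eq, L, Finset.mem_biUnion, Finset.mem_univ, true_and,
      exists_prop]
    tauto
  rw [e1, e1, e2, e3]
  exact multi h1 hA hI hc hPD hjm hj _ _ (hsub α) (hsub α') hdc.1 hdc.2

end Crest.Agent.R69
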