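import Crest.Agent.R69.Cyl

/-! # The two halves see the same thing, and their bases are independent -/

set_option autoImplicit false
open MeasureTheory ProbabilityTheory Filter Set Topology
open scoped ENNReal InnerProductSpace ComplexConjugate

noncomputable section
namespace Crest.Agent.R69
namespace Hyp2Aux

theorem exists_block {col : ℚ → Finset La} (hcol : Dn col) (G : Finset II) :
    ∀ r1 r2 : ℚ, r1 < r2 → ∃ τ : II → ℚ, StrictMonoOn τ G ∧
      ∀ i ∈ G, r1 < τ i ∧ τ i < r2 ∧ τ i ≠ 0 ∧ col (τ i) = col (ofLex i).2 := by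
  classical
  induction G using Finset.induction_on_max with
  | empty => exact fun _ _ _ => ⟨fun _ => 0, fun i hi => absurd hi (by simp), by simp⟩
  | insert a s ha ih =>
    intro r1 r2 h
    obtain ⟨τ, h1, h2⟩ := ih r1 ((r1 + r2) / 2) (by linarith)
    obtain ⟨r, e1, e2, e3, e4⟩ := hcol (col (ofLex a).2) ((r1 + r2) / 2) r2 (by linarith)
    have hu : ∀ i ∈ s, Function.update τ a r i = τ i := fun i hi =>
      Function.update_of_ne (ha i hi).ne _ _
    refine ⟨Function.update τ a r, fun i hi k hk hik => ?_, fun i hi => ?_⟩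
    · rcases Finset.mem_insert.1 (Finset.mem_coe.1 hi) with rfl | hi'
      · rcases Finset.mem_insert.1 (Finset.mem_coe.1 hk) with rfl | hk'
        · exact absurd hik (lt_irrefl _)
        · exact absurd hik (ha k hk').not_gt
      · rcases Finset.mem_insert.1 (Finset.mem_coe.1 hk) with rfl | hk'
        · rw [hu i hi', Function.update_self]
          exact (h2 i hi').2.1.trans e1
        · rw [hu i hi', hu k hk']
          exact h1 hi' hk' hik
    · rcases Finset.mem_insert.1 hi with rfl | hi'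
      · rw [Function.update_self]
        exact ⟨by linarith, e2, e3, e4⟩
      · rw [hu i hi']
        obtain ⟨a1, a2, a3, a4⟩ := h2 i hi'
        exact ⟨a1, by linarith, a3, a4⟩

theorem exists_q_false (G : Finset II) :
    ∃ q : ℚ, (q : ℝ) < √2 ∧ ∀ i ∈ G, i ∈ sd (some false) → (ofLex i).1 < q := by
  classical
  induction G using Finset.induction_on with
  | empty =>
    obtain ⟨q, hq⟩ := exists_rat_lt (√2 : ℝ)
    exact ⟨q, hq, by simp⟩
  | insert a s _ ih =>
    obtain ⟨q, h1, h2⟩ := ih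
    by_cases ha : a ∈ sd (some false)
    · obtain ⟨q', e1, e2⟩ := exists_rat_btwn (show (((ofLex a).1 : ℚ) : ℝ) < √2 from ha)
      refine ⟨max q q', by push_cast; exact max_lt h1 e2, fun i hi hi' => ?_⟩
      rcases Finset.mem_insert.1 hi with rfl | hi
      · exact lt_max_of_lt_right (by exact_mod_cast e1)
      · exact lt_max_of_lt_left (h2 i hi hi')
    · refine ⟨q, h1, fun i hi hi' => ?_⟩
      rcases Finset.mem_insert.1 hi with rfl | hi
      · exact absurd hi' ha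
      · exact h2 i hi hi'

theorem exists_q_true (G : Finset II) :
    ∃ q : ℚ, √2 < (q : ℝ) ∧ ∀ i ∈ G, i ∈ sd (some true) → q < (ofLex i).1 := by
  classical
  induction G using Finset.induction_on with
  | empty =>
    obtain ⟨q, hq⟩ := exists_rat_gt (√2 : ℝ)
    exact ⟨q, hq, by simp⟩
  | insert a s _ ih =>
    obtain ⟨q, h1, h2⟩ := ih
    by_cases ha : a ∈ sd (some true)
    · obtain ⟨q', e1, e2⟩ := exists_rat_btwn (show √2 < (((ofLex a).1 : ℚ) : ℝ) from ha)
      refine ⟨min q q', by push_cast; exact lt_min h1 e1, fun i hi hi' => ?_⟩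
      rcases Finset.mem_insert.1 hi with rfl | hi
      · exact min_lt_of_right_lt (by exact_mod_cast e2)
      · exact min_lt_of_left_lt (h2 i hi hi')
    · refine ⟨q, h1, fun i hi hi' => ?_⟩
      rcases Finset.mem_insert.1 hi with rfl | hi
      · exact absurd hi' ha
      · exact h2 i hi hi'

theorem fst_le {i k : II} (h : i < k) : (((ofLex i).1 : ℚ) : ℝ) ≤ (((ofLex k).1 : ℚ) : ℝ) := by
  rcases Prod.Lex.lt_iff.1 h with h1 | ⟨h1, -⟩
  · exact_mod_cast h1.le
  · exact_mod_cast h1.le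

/-- the block move -/
theorem exists_move {col : ℚ → Finset La} (hcol : Dn col) (b : Bool) (G : Finset II) :
    ∃ σ : II → II, StrictMonoOn σ G ∧ (∀ i ∈ sd (some b), σ i = i) ∧
      ∀ i ∈ G, i ∉ sd (some b) →
        σ i ∈ sd (some b) ∧ ¬ Act (σ i) ∧ col (ofLex (σ i)).2 = col (ofLex i).2 := by
  classical
  obtain ⟨τ, h1, h2⟩ := exists_block hcol G 0 1 one_pos
  have key : ∀ q : ℚ, act q ∈ sd (some b) →
      (∀ i ∈ G, ∀ k ∈ G, i < k → i ∈ sd (some b) → k ∉ sd (some b) → (ofLex i).1 < q) →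
      (∀ i ∈ G, ∀ k ∈ G, i < k → i ∉ sd (some b) → k ∈ sd (some b) → q < (ofLex k).1) →
      ∃ σ : II → II, StrictMonoOn σ G ∧ (∀ i ∈ sd (some b), σ i = i) ∧
      ∀ i ∈ G, i ∉ sd (some b) →
        σ i ∈ sd (some b) ∧ ¬ Act (σ i) ∧ col (ofLex (σ i)).2 = col (ofLex i).2 := by
    intro q hq c1 c2
    refine ⟨fun i => if i ∈ sd (some b) then i else toLex (q, τ i), fun i hi k hk hik => ?_,
      fun i hi => if_pos hi, fun i hi hi' => ?_⟩
    · by_cases a1 : i ∈ sd (some b) <;> by_cases a2 : k ∈ sd (some b)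
      · simp only [if_pos a1, if_pos a2]; exact hik
      · simp only [if_pos a1, if_neg a2]
        exact Prod.Lex.lt_iff.2 (Or.inl (c1 i hi k hk hik a1 a2))
      · simp only [if_neg a1, if_pos a2]
        exact Prod.Lex.lt_iff.2 (Or.inl (c2 i hi k hk hik a1 a2))
      · simp only [if_neg a1, if_neg a2]
        exact Prod.Lex.lt_iff.2 (Or.inr ⟨rfl, h1 hi hk hik⟩)
    · simp only [if_neg hi']
      exact ⟨mem_sd_of_fst_eq (i := act q) rfl hq, (h2 i hi).2.2.1, (h2 i hi).2.2.2⟩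
  cases b
  · obtain ⟨q, e1, e2⟩ := exists_q_false G
    refine key q e1 (fun i hi k _ _ a1 _ => e2 i hi a1) fun i _ k _ hik a1 a2 => ?_
    have a3 : √2 < (((ofLex i).1 : ℚ) : ℝ) := (mem_sd_or i).resolve_left a1
    have a4 : (((ofLex k).1 : ℚ) : ℝ) < √2 := a2
    linarith [fst_le hik]
  · obtain ⟨q, e1, e2⟩ := exists_q_true G
    refine key q e1 (fun i _ k _ hik a1 a2 => ?_) fun i _ k hk _ _ a2 => e2 k hk a2
    have a3 : (((ofLex k).1 : ℚ) : ℝ) < √2 := (mem_sd_or k).resolve_right a2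
    have a4 : √2 < (((ofLex i).1 : ℚ) : ℝ) := a1
    linarith [fst_le hik]

theorem ne_zero_of_hat {Inf : La → Prop} (hI : InfOK Inf) {col : ℚ → Finset La} {s : ℕ} {i : II}
    {d : La} (h : d ∈ hat Inf col s i) : d ≠ 0 := fun e =>
  (hat_ok Inf col s i).1.zero_notMem hI (e ▸ h)

theorem hat_subset {Inf : La → Prop} {col : ℚ → Finset La} {s : ℕ} {i k : II} (hk : ¬ Act k)
    (h : col (ofLex k).2 = col (ofLex i).2) : hat Inf col s i ⊆ hat Inf col s k := by
  intro d hd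
  by_cases c : ¬ Act i ∧ Adm Inf (col (ofLex i).2) ∧ (col (ofLex i).2).card ≤ s
  · rw [hat_eq c.1 c.2.1 c.2.2] at hd
    rw [hat_eq hk (h ▸ c.2.1) (h ▸ c.2.2), h]
    exact hd
  · have : hat Inf col s i = ∅ := if_neg c
    rw [this] at hd
    exact absurd hd (Finset.notMem_empty _)

variable {M : ℕ} {ν : Measure (Sq M)} {P : Measure (Om M)} {Inf : La → Prop}
  {col : ℚ → Finset La}

theorem move (hA : Arr ν P) (hI : InfOK Inf) (hcol : Dn col) (s : ℕ) (b : Bool)
    (W₀ W₁ : Finset Pos) :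
    ∃ ρ : Pos → Pos, Pres P (↑W₀ ∪ ↑W₁) ρ ∧ (∀ x ∈ GG (some b), ρ x = x) ∧
      ∀ x ∈ W₁, ρ x ∈ GG (some b) ∧ (x ∈ Wb (hat Inf col s) → ρ x ∈ Wb (hat Inf col s)) ∧
        (∀ z, Act z → z ∈ sd (some b) → (ρ x).2 z = x.2 z) ∧
        ∀ z, Act z → x.2 z = 0 → (ρ x).2 z = 0 := by
  classical
  obtain ⟨σ, h1, h2, h3⟩ := exists_move hcol b (finite_idx (W₀ ∪ W₁)).toFinset
  rw [Finite.coe_toFinset] at h1
  simp only [Finite.mem_toFinset] at h3
  refine ⟨mv σ, ?_, fun x hx => mv_eq_self fun i hi => h2 i (hx i hi), fun x hx => ?_⟩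
  · have := hA.con (W₀ ∪ W₁) σ h1
    rwa [Finset.coe_union] at this
  have hxW : x ∈ ((W₀ ∪ W₁ : Finset Pos) : Set Pos) :=
    Finset.mem_coe.2 (Finset.mem_union_right _ hx)
  have hs := support_subset_idx hxW
  have hm : ∀ i, x.2 i ≠ 0 → i ∈ idx ((W₀ ∪ W₁ : Finset Pos) : Set Pos) :=
    fun i hi => ⟨x, hxW, hi⟩
  have hz : ∀ z, Act z → x.2 z = 0 → (mv σ x).2 z = 0 := by
    intro z hz h0
    by_contra hne
    obtain ⟨i, hi, rfl⟩ := exists_of_mv_ne_zero hne
    by_cases c : i ∈ sd (some b)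
    · rw [h2 i c] at h0; exact hi h0
    · exact (h3 i (hm i hi) c).2.1 hz
  refine ⟨fun z hz => ?_, ?_, fun z ha hb => ?_, hz⟩
  · obtain ⟨i, hi, rfl⟩ := exists_of_mv_ne_zero hz
    by_cases c : i ∈ sd (some b)
    · rw [h2 i c]; exact c
    · exact (h3 i (hm i hi) c).1
  · rintro ⟨i, hi⟩
    have hi0 := hm i (ne_zero_of_hat hI hi)
    refine ⟨σ i, ?_⟩
    rw [mv_apply h1.injOn hs hi0]
    by_cases c : i ∈ sd (some b)
    · rw [h2 i c]; exact hi
    · exact hat_subset (h3 i hi0 c).2.1 (h3 i hi0 c).2.2 hi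
  · by_cases c : x.2 z = 0
    · rw [hz z ha c, c]
    · have := mv_apply h1.injOn hs (hm z c)
      rwa [h2 z hb] at this

end Hyp2Aux
open Hyp2Aux

theorem hyp2Stmt (h1 : LEStmt) (h2 : FubStmt) : Hyp2Stmt := by
  intro M ν P Inf col s Lab hA hI hcol
  have := hA.prob
  refine ⟨fun b j hj => ⟨?_, ?_⟩, fun b => ?_, fun hL => ?_⟩
  · refine h1 M P _ _ _ (union_subset_union_right _ (oth_subset_none _ _ _)) fun W₀ W₁ a0 a1 => ?_
    obtain ⟨ρ, e1, e2, e3⟩ := move hA hI hcol s b W₀ W₁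
    refine ⟨ρ, e1, fun x hx => e2 x (cell0_subset_GG _ (a0 hx)), fun x hx => ?_⟩
    obtain ⟨f1, f2, f3, f4⟩ := e3 x hx
    have hc : ∀ A, x ∈ cell1 none j A → ρ x ∈ cell1 (some b) j A := fun A hx' =>
      ⟨f1, by rw [f3 _ (Act_act j) hj]; exact hx'.2.1, fun i hi hi' => f4 i hi (hx'.2.2 i hi hi')⟩
    rcases a1 hx with h | h | h
    · exact Or.inl (f2 h)
    · exact Or.inr (Or.inl (hc _ h))
    · exact Or.inr (Or.inr (hc _ h))
  · refine h1 M P _ _ _ (union_subset_union_right _ (cell0_subset_none _)) fun W₀ W₁ a0 a1 => ?_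
    obtain ⟨ρ, e1, e2, e3⟩ := move hA hI hcol s b W₀ W₁
    refine ⟨ρ, e1, fun x hx => e2 x ?_, fun x hx => ?_⟩
    · rcases a0 hx with h | h <;> exact h.1
    obtain ⟨f1, f2, -, f4⟩ := e3 x hx
    rcases a1 hx with h | h
    · exact Or.inl (f2 h)
    · exact Or.inr ⟨f1, fun i hi => f4 i hi (h.2 i hi)⟩
  · refine h1 M P _ _ _ inter_subset_left fun W₀ W₁ a0 a1 => ?_
    obtain ⟨ρ, e1, e2, e3⟩ := move hA hI hcol s b W₀ W₁
    exact ⟨ρ, e1, fun x hx => e2 x (a0 hx), fun x hx => ⟨(e3 x hx).2.1 (a1 hx), (e3 x hx).1⟩⟩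
  · refine h2 M ν P hA _ _ X0 (Wb (hat Inf col s)) (hL _ (hat_ok Inf col s))
      fun W₀ W₁ a0 a1 => ?_
    obtain ⟨q, e1, e2⟩ := exists_q_false (finite_idx W₀).toFinset
    simp only [Finite.mem_toFinset] at e2
    refine ⟨act q, fun h => ⟨fun x hx => ?_, fun x hx => ?_⟩⟩
    · refine Finsupp.ext fun i => ?_
      rw [clp_snd_apply]
      split_ifs with c
      · by_contra hne
        have hi : x.2 i ≠ 0 := hne
        have := e2 i ⟨x, hx, hi⟩ ((a0 hx).2 i hi)
        exact absurd c (not_le.2 (Prod.Lex.lt_iff.2 (Or.inl this)))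
      · rfl
    · obtain ⟨⟨i, hi⟩, hG⟩ := a1 hx
      have hs : √2 < (((ofLex i).1 : ℚ) : ℝ) := hG i (ne_zero_of_hat hI hi)
      have hq : q < (ofLex i).1 := by exact_mod_cast e1.trans hs
      refine ⟨i, ?_⟩
      rw [clp_snd_apply, if_pos (Prod.Lex.lt_iff.2 (Or.inl hq)).le]
      exact hi

end Crest.Agent.R69
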