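import Crest.Agent.R69.Mon

/-! # `L²` toolkit: `tl`, `Mop`, `Pr`, density, `CI` -/

set_option autoImplicit false
open MeasureTheory ProbabilityTheory Filter Set Topology
open scoped ENNReal InnerProductSpace ComplexConjugate

noncomputable section
namespace Crest.Agent.R69

variable {Ω : Type} {m m' a b c : MeasurableSpace Ω} {m0 : MeasurableSpace Ω} {Q : Measure Ω}

/-! ### bounded functions -/

theorem Bdd.mono {u : Ω → ℂ} (hu : Bdd m u) (h : m ≤ m') : Bdd m' u := ⟨hu.1.mono h le_rfl, hu.2⟩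

theorem Bdd.mul {u v : Ω → ℂ} (hu : Bdd m u) (hv : Bdd m v) : Bdd m fun ω => u ω * v ω := by
  obtain ⟨h1, C, hC⟩ := hu; obtain ⟨h2, D, hD⟩ := hv
  refine ⟨h1.mul h2, C * D, fun ω => ?_⟩
  rw [norm_mul]
  exact mul_le_mul (hC ω) (hD ω) (norm_nonneg _) ((norm_nonneg _).trans (hC ω))

theorem Bdd.add {u v : Ω → ℂ} (hu : Bdd m u) (hv : Bdd m v) : Bdd m fun ω => u ω + v ω := by
  obtain ⟨h1, C, hC⟩ := hu; obtain ⟨h2, D, hD⟩ := hv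
  exact ⟨h1.add h2, C + D, fun ω => (norm_add_le _ _).trans (add_le_add (hC ω) (hD ω))⟩

theorem Bdd.sub {u v : Ω → ℂ} (hu : Bdd m u) (hv : Bdd m v) : Bdd m fun ω => u ω - v ω := by
  obtain ⟨h1, C, hC⟩ := hu; obtain ⟨h2, D, hD⟩ := hv
  exact ⟨h1.sub h2, C + D, fun ω => (norm_sub_le _ _).trans (add_le_add (hC ω) (hD ω))⟩

theorem Bdd.const (z : ℂ) : Bdd m fun _ : Ω => z := ⟨measurable_const, ‖z‖, fun _ => le_rfl⟩

theorem Bdd.conj {u : Ω → ℂ} (hu : Bdd m u) : Bdd m fun ω => conj (u ω) := by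
  obtain ⟨h1, C, hC⟩ := hu
  exact ⟨Complex.continuous_conj.measurable.comp h1, C, fun ω => by simpa using hC ω⟩

theorem Bdd.indicator {A : Set Ω} (hA : MeasurableSet[m] A) :
    Bdd m (A.indicator fun _ => (1 : ℂ)) :=
  ⟨measurable_const.indicator hA, 1, fun ω => by by_cases h : ω ∈ A <;> simp [h]⟩

theorem Bdd.prod {ι : Type*} (s : Finset ι) {u : ι → Ω → ℂ} (hu : ∀ i ∈ s, Bdd m (u i)) :
    Bdd m fun ω => ∏ i ∈ s, u i ω := by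
  classical
  induction s using Finset.induction_on with
  | empty => simpa using Bdd.const 1
  | insert i s hi ih =>
    simp only [Finset.prod_insert hi]
    exact (hu i (Finset.mem_insert_self _ _)).mul (ih fun j hj => hu j (Finset.mem_insert_of_mem hj))

theorem Uni.bdd {u : Ω → ℂ} (hu : Uni m u) : Bdd m u := ⟨hu.1, 1, fun ω => (hu.2 ω).le⟩

theorem Uni.mono {u : Ω → ℂ} (hu : Uni m u) (h : m ≤ m') : Uni m' u := ⟨hu.1.mono h le_rfl, hu.2⟩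

theorem Uni.mul {u v : Ω → ℂ} (hu : Uni m u) (hv : Uni m v) : Uni m fun ω => u ω * v ω :=
  ⟨hu.1.mul hv.1, fun ω => by rw [norm_mul, hu.2, hv.2, one_mul]⟩

theorem Uni.conj {u : Ω → ℂ} (hu : Uni m u) : Uni m fun ω => conj (u ω) :=
  ⟨hu.bdd.conj.1, fun ω => by simpa using hu.2 ω⟩

theorem Uni.const {z : ℂ} (hz : ‖z‖ = 1) : Uni m fun _ : Ω => z := ⟨measurable_const, fun _ => hz⟩

theorem Bdd.memLp_top {u : Ω → ℂ} (hu : Bdd m0 u) : MemLp u ∞ Q := by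
  obtain ⟨h1, C, hC⟩ := hu
  exact memLp_top_of_bound h1.aestronglyMeasurable C (.of_forall hC)

theorem Bdd.memLp [IsFiniteMeasure Q] {u : Ω → ℂ} (hu : Bdd m0 u) (p : ℝ≥0∞) : MemLp u p Q :=
  hu.memLp_top.mono_exponent le_top

theorem Bdd.integrable [IsFiniteMeasure Q] {u : Ω → ℂ} (hu : Bdd m0 u) : Integrable u Q :=
  memLp_one_iff_integrable.1 (hu.memLp 1)

/-! ### `tl` -/

theorem coe_tl {u : Ω → ℂ} (hu : MemLp u 2 Q) : tl Q u =ᵐ[Q] u := by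
  unfold tl; rw [dif_pos hu]; exact hu.coeFn_toLp

theorem Bdd.coe_tl [IsFiniteMeasure Q] {u : Ω → ℂ} (hu : Bdd m0 u) : tl Q u =ᵐ[Q] u :=
  R69.coe_tl (hu.memLp 2)

theorem tl_eq_of_ae_eq {u : Ω → ℂ} {v : Lp ℂ 2 Q} (h : u =ᵐ[Q] v) : tl Q u = v :=
  Lp.ext ((coe_tl ((Lp.memLp v).ae_eq h.symm)).trans h)

theorem tl_coe (v : Lp ℂ 2 Q) : tl Q v = v := tl_eq_of_ae_eq EventuallyEq.rfl

theorem tl_congr {u v : Ω → ℂ} (h : u =ᵐ[Q] v) : tl Q u = tl Q v := by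
  by_cases hu : MemLp u 2 Q
  · exact (tl_eq_of_ae_eq (h.symm.trans (coe_tl hu).symm)).symm
  · have hv : ¬ MemLp v 2 Q := fun hv => hu (hv.ae_eq h.symm)
    unfold tl; rw [dif_neg hu, dif_neg hv]

theorem ae_eq_of_tl_eq {u v : Ω → ℂ} (hu : MemLp u 2 Q) (hv : MemLp v 2 Q) (h : tl Q u = tl Q v) :
    u =ᵐ[Q] v := (coe_tl hu).symm.trans (h ▸ coe_tl hv)

theorem tl_add {u v : Ω → ℂ} (hu : MemLp u 2 Q) (hv : MemLp v 2 Q) :
    tl Q (fun ω => u ω + v ω) = tl Q u + tl Q v := by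
  refine tl_eq_of_ae_eq ?_
  filter_upwards [Lp.coeFn_add (tl Q u) (tl Q v), coe_tl hu, coe_tl hv] with ω h1 h2 h3
  rw [h1, Pi.add_apply, h2, h3]

theorem tl_sub {u v : Ω → ℂ} (hu : MemLp u 2 Q) (hv : MemLp v 2 Q) :
    tl Q (fun ω => u ω - v ω) = tl Q u - tl Q v := by
  refine tl_eq_of_ae_eq ?_
  filter_upwards [Lp.coeFn_sub (tl Q u) (tl Q v), coe_tl hu, coe_tl hv] with ω h1 h2 h3
  rw [h1, Pi.sub_apply, h2, h3]

theorem tl_smul {u : Ω → ℂ} (hu : MemLp u 2 Q) (z : ℂ) :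
    tl Q (fun ω => z * u ω) = z • tl Q u := by
  refine tl_eq_of_ae_eq ?_
  filter_upwards [Lp.coeFn_smul z (tl Q u), coe_tl hu] with ω h1 h2
  rw [h1, Pi.smul_apply, h2, smul_eq_mul]

theorem tl_zero : tl Q (fun _ => (0 : ℂ)) = 0 := tl_eq_of_ae_eq (Lp.coeFn_zero _ _ _).symm

theorem inner_eq_integral (v w : Lp ℂ 2 Q) : ⟪v, w⟫_ℂ = ∫ ω, conj (v ω) * w ω ∂Q := by
  rw [L2.inner_def]
  exact integral_congr_ae (.of_forall fun ω => by simp [mul_comm])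

theorem inner_tl_left {u : Ω → ℂ} (hu : MemLp u 2 Q) (w : Lp ℂ 2 Q) :
    ⟪tl Q u, w⟫_ℂ = ∫ ω, conj (u ω) * w ω ∂Q := by
  rw [inner_eq_integral]
  exact integral_congr_ae (by filter_upwards [coe_tl hu] with ω h; rw [h])

theorem inner_tl {u v : Ω → ℂ} (hu : MemLp u 2 Q) (hv : MemLp v 2 Q) :
    ⟪tl Q u, tl Q v⟫_ℂ = ∫ ω, conj (u ω) * v ω ∂Q := by
  rw [inner_tl_left hu]
  exact integral_congr_ae (by filter_upwards [coe_tl hv] with ω h; rw [h])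

theorem norm_tl_le [IsProbabilityMeasure Q] {u : Ω → ℂ} {C : ℝ} (hC : ∀ᵐ ω ∂Q, ‖u ω‖ ≤ C) :
    ‖tl Q u‖ ≤ C := by
  have h0 : 0 ≤ C := by
    obtain ⟨ω, hω⟩ := hC.exists
    exact (norm_nonneg _).trans hω
  by_cases hu : MemLp u 2 Q
  · have := Lp.norm_le_of_ae_bound (f := tl Q u) h0
      (by filter_upwards [coe_tl hu, hC] with ω h1 h2; rwa [h1])
    simpa [measureUnivNNReal] using this
  · unfold tl; rw [dif_neg hu, norm_zero]; exact h0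

theorem Uni.norm_tl [IsProbabilityMeasure Q] {u : Ω → ℂ} (hu : Uni m0 u) : ‖tl Q u‖ = 1 := by
  have h : ⟪tl Q u, tl Q u⟫_ℂ = 1 := by
    rw [inner_tl (hu.bdd.memLp 2) (hu.bdd.memLp 2)]
    simp [mul_comm (conj (u _)), mul_conj_of_norm_one (hu.2 _)]
  rw [inner_self_eq_norm_sq_to_K] at h
  have h2 : ‖tl Q u‖ ^ 2 = 1 := by
    have h3 : ((‖tl Q u‖ ^ 2 : ℝ) : ℂ) = ((1 : ℝ) : ℂ) := by simpa using h
    exact Complex.ofReal_injective h3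
  exact (pow_eq_one_iff_of_nonneg (norm_nonneg _) two_ne_zero).1 h2

/-! ### `L2` -/

theorem mem_L2_iff {v : Lp ℂ 2 Q} : v ∈ L2 Q m ↔ AEStronglyMeasurable[m] v Q :=
  mem_lpMeas_iff_aestronglyMeasurable

theorem L2_mono (h : m ≤ m') : L2 Q m ≤ L2 Q m' := fun _ hv =>
  mem_L2_iff.2 ((mem_L2_iff.1 hv).mono h)

theorem tl_mem_L2 {u : Ω → ℂ} (hu : AEStronglyMeasurable[m] u Q) : tl Q u ∈ L2 Q m := by
  by_cases h : MemLp u 2 Q
  · exact mem_L2_iff.2 (hu.congr (coe_tl h).symm)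
  · unfold tl; rw [dif_neg h]; exact Submodule.zero_mem _

theorem Bdd.tl_mem {u : Ω → ℂ} (hu : Bdd m u) : tl Q u ∈ L2 Q m :=
  tl_mem_L2 hu.1.stronglyMeasurable.aestronglyMeasurable

theorem isClosed_L2 (hm : m ≤ m0) : IsClosed (L2 Q m : Set (Lp ℂ 2 Q)) :=
  isClosed_aestronglyMeasurable (p := 2) hm

theorem mem_L2_top (v : Lp ℂ 2 Q) : v ∈ L2 Q m0 := mem_L2_iff.2 (Lp.aestronglyMeasurable v)

/-- an element of `L2 Q m` has an `m`-measurable representative -/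
theorem exists_rep {v : Lp ℂ 2 Q} (hv : v ∈ L2 Q m) :
    ∃ u : Ω → ℂ, Measurable[m] u ∧ MemLp u 2 Q ∧ v =ᵐ[Q] u ∧ v = tl Q u := by
  have h := mem_L2_iff.1 hv
  exact ⟨h.mk _, h.stronglyMeasurable_mk.measurable, (Lp.memLp v).ae_eq h.ae_eq_mk, h.ae_eq_mk,
    (tl_eq_of_ae_eq h.ae_eq_mk.symm).symm⟩

/-- an a.e. bounded element of `L2 Q m` has a bounded `m`-measurable representative -/
theorem exists_bdd_rep {v : Lp ℂ 2 Q} (hv : v ∈ L2 Q m) {C : ℝ} (h0 : 0 ≤ C)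
    (hC : ∀ᵐ ω ∂Q, ‖v ω‖ ≤ C) :
    ∃ u : Ω → ℂ, Bdd m u ∧ (∀ ω, ‖u ω‖ ≤ C) ∧ v =ᵐ[Q] u ∧ v = tl Q u := by
  obtain ⟨u, h1, -, h3, -⟩ := exists_rep hv
  have hS : MeasurableSet[m] {ω | ‖u ω‖ ≤ C} := 
    (continuous_norm.measurable.comp h1 : Measurable[m] fun ω => ‖u ω‖) measurableSet_Iic
  have hb : ∀ ω, ‖{ω | ‖u ω‖ ≤ C}.indicator u ω‖ ≤ C := fun ω => by
    by_cases h : ‖u ω‖ ≤ C
    · rw [indicator_of_mem (show ω ∈ {ω | ‖u ω‖ ≤ C} from h)]; exact h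
    · rw [indicator_of_notMem (show ω ∉ {ω | ‖u ω‖ ≤ C} from h), norm_zero]; exact h0
  have he : v =ᵐ[Q] {ω | ‖u ω‖ ≤ C}.indicator u := by
    filter_upwards [h3, hC] with ω e1 e2
    rw [indicator_of_mem (show ω ∈ {ω | ‖u ω‖ ≤ C} from by rw [e1] at e2; exact e2), e1]
  exact ⟨_, ⟨h1.indicator hS, C, hb⟩, hb, he, (tl_eq_of_ae_eq he.symm).symm⟩

/-! ### `Mop` -/

theorem coe_Mop {u : Ω → ℂ} (hu : Bdd m0 u) (v : Lp ℂ 2 Q) :
    Mop Q u v =ᵐ[Q] fun ω => u ω * v ω := by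
  unfold Mop; rw [dif_pos hu.memLp_top]
  filter_upwards [(ContinuousLinearMap.mul ℂ ℂ).coeFn_holder (r := 2)
    (hu.memLp_top (Q := Q)).toLp v, (hu.memLp_top (Q := Q)).coeFn_toLp] with ω h1 h2
  simp only [ContinuousLinearMap.holderL_apply_apply]
  rw [h1, h2, ContinuousLinearMap.mul_apply']

theorem Mop_tl {u v : Ω → ℂ} (hu : Bdd m0 u) (hv : MemLp v 2 Q) :
    Mop Q u (tl Q v) = tl Q fun ω => u ω * v ω := by
  refine (tl_eq_of_ae_eq ?_).symm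
  filter_upwards [coe_Mop hu (tl Q v), coe_tl hv] with ω h1 h2
  rw [h1, h2]

theorem Mop_Mop {u u' : Ω → ℂ} (hu : Bdd m0 u) (hu' : Bdd m0 u') (v : Lp ℂ 2 Q) :
    Mop Q u (Mop Q u' v) = Mop Q (fun ω => u ω * u' ω) v := by
  refine Lp.ext ?_
  filter_upwards [coe_Mop hu (Mop Q u' v), coe_Mop hu' v, coe_Mop (hu.mul hu') v] with ω h1 h2 h3
  rw [h1, h2, h3, mul_assoc]

theorem Mop_comm {u u' : Ω → ℂ} (hu : Bdd m0 u) (hu' : Bdd m0 u') (v : Lp ℂ 2 Q) :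
    Mop Q u (Mop Q u' v) = Mop Q u' (Mop Q u v) := by
  rw [Mop_Mop hu hu', Mop_Mop hu' hu]; simp only [mul_comm]

theorem Mop_congr {u u' : Ω → ℂ} (hu : Bdd m0 u) (hu' : Bdd m0 u') (h : u =ᵐ[Q] u') :
    Mop Q u = Mop Q u' := by
  ext1 v
  refine Lp.ext ?_
  filter_upwards [coe_Mop hu v, coe_Mop hu' v, h] with ω h1 h2 h3
  rw [h1, h2, h3]

theorem Mop_tl_comm [IsFiniteMeasure Q] {u v : Ω → ℂ} (hu : Bdd m0 u) (hv : Bdd m0 v) :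
    Mop Q u (tl Q v) = Mop Q v (tl Q u) := by
  rw [Mop_tl hu (hv.memLp 2), Mop_tl hv (hu.memLp 2)]; simp only [mul_comm]

theorem inner_Mop_left {u : Ω → ℂ} (hu : Bdd m0 u) (v w : Lp ℂ 2 Q) :
    ⟪Mop Q u v, w⟫_ℂ = ⟪v, Mop Q (fun ω => conj (u ω)) w⟫_ℂ := by
  rw [inner_eq_integral, inner_eq_integral]
  refine integral_congr_ae ?_
  filter_upwards [coe_Mop hu v, coe_Mop hu.conj w] with ω h1 h2
  rw [h1, h2, map_mul]; ring

theorem inner_Mop_right {u : Ω → ℂ} (hu : Bdd m0 u) (v w : Lp ℂ 2 Q) :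
    ⟪v, Mop Q u w⟫_ℂ = ⟪Mop Q (fun ω => conj (u ω)) v, w⟫_ℂ := by
  rw [inner_Mop_left hu.conj]; simp

theorem Mop_adjoint {u : Ω → ℂ} (hu : Bdd m0 u) :
    ContinuousLinearMap.adjoint (Mop Q u) = Mop Q fun ω => conj (u ω) :=
  ((ContinuousLinearMap.eq_adjoint_iff _ _).2 fun v w => (inner_Mop_right hu v w).symm).symm

theorem norm_Mop_le {u : Ω → ℂ} (hu : Bdd m0 u) {C : ℝ} (hC : ∀ᵐ ω ∂Q, ‖u ω‖ ≤ C)
    (v : Lp ℂ 2 Q) : ‖Mop Q u v‖ ≤ C * ‖v‖ := by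
  refine Lp.norm_le_mul_norm_of_ae_le_mul ?_
  filter_upwards [coe_Mop hu v, hC] with ω h1 h2
  rw [h1, norm_mul]
  exact mul_le_mul_of_nonneg_right h2 (norm_nonneg _)

/-- multiplication by a bounded function that is a.e. `m`-measurable preserves `L2 Q m` -/
theorem Mop_mem [IsFiniteMeasure Q] {u : Ω → ℂ} (hu : Bdd m0 u) (hum : tl Q u ∈ L2 Q m)
    {v : Lp ℂ 2 Q} (hv : v ∈ L2 Q m) : Mop Q u v ∈ L2 Q m :=
  mem_L2_iff.2 ((((mem_L2_iff.1 hum).congr hu.coe_tl).mul (mem_L2_iff.1 hv)).congr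
    (coe_Mop hu v).symm)

theorem tl_conj_mem [IsFiniteMeasure Q] {u : Ω → ℂ} (hu : Bdd m0 u) (hum : tl Q u ∈ L2 Q m) :
    tl Q (fun ω => conj (u ω)) ∈ L2 Q m :=
  tl_mem_L2 (Complex.continuous_conj.comp_aestronglyMeasurable
    ((mem_L2_iff.1 hum).congr hu.coe_tl))

theorem tl_mul_mem [IsFiniteMeasure Q] {u v : Ω → ℂ} (hu : Bdd m0 u) (hv : Bdd m0 v)
    (hum : tl Q u ∈ L2 Q m) (hvm : tl Q v ∈ L2 Q m) : tl Q (fun ω => u ω * v ω) ∈ L2 Q m := by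
  rw [← Mop_tl hu (hv.memLp 2)]; exact Mop_mem hu hum hvm

/-! ### `Pr` -/

theorem Pr_apply (hm : m ≤ m0) (v : Lp ℂ 2 Q) : Pr Q m v = (condExpL2 ℂ ℂ hm v : Lp ℂ 2 Q) := by
  unfold Pr; rw [dif_pos hm]; rfl

theorem Pr_mem (v : Lp ℂ 2 Q) : Pr Q m v ∈ L2 Q m := by
  by_cases hm : m ≤ m0
  · rw [Pr_apply hm]; exact (condExpL2 ℂ ℂ hm v).2
  · unfold Pr; rw [dif_neg hm]; exact Submodule.zero_mem _

theorem inner_Pr_left (v w : Lp ℂ 2 Q) : ⟪Pr Q m v, w⟫_ℂ = ⟪v, Pr Q m w⟫_ℂ := by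
  by_cases hm : m ≤ m0
  · rw [Pr_apply hm, Pr_apply hm]; exact inner_condExpL2_left_eq_right hm
  · unfold Pr; rw [dif_neg hm]; simp

theorem Pr_adjoint : ContinuousLinearMap.adjoint (Pr Q m) = Pr Q m :=
  ((ContinuousLinearMap.eq_adjoint_iff _ _).2 fun v w => inner_Pr_left v w).symm

theorem Pr_eq_self (hm : m ≤ m0) {v : Lp ℂ 2 Q} (hv : v ∈ L2 Q m) : Pr Q m v = v := by
  rw [Pr_apply hm]
  have : Fact (m ≤ m0) := ⟨hm⟩
  exact congrArg Subtype.val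
    (Submodule.orthogonalProjectionOnto_mem_subspace_eq_self (K := L2 Q m) ⟨v, hv⟩)

theorem Pr_Pr (v : Lp ℂ 2 Q) : Pr Q m (Pr Q m v) = Pr Q m v := by
  by_cases hm : m ≤ m0
  · exact Pr_eq_self hm (Pr_mem v)
  · unfold Pr; rw [dif_neg hm]; simp

theorem inner_Pr_of_mem (hm : m ≤ m0) {w : Lp ℂ 2 Q} (hw : w ∈ L2 Q m) (v : Lp ℂ 2 Q) :
    ⟪w, Pr Q m v⟫_ℂ = ⟪w, v⟫_ℂ := by rw [← inner_Pr_left, Pr_eq_self hm hw]

theorem inner_Pr_of_mem' (hm : m ≤ m0) {w : Lp ℂ 2 Q} (hw : w ∈ L2 Q m) (v : Lp ℂ 2 Q) :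
    ⟪Pr Q m v, w⟫_ℂ = ⟪v, w⟫_ℂ := by rw [inner_Pr_left, Pr_eq_self hm hw]

theorem Pr_eq_of (hm : m ≤ m0) {v w : Lp ℂ 2 Q} (hw : w ∈ L2 Q m)
    (h : ∀ z ∈ L2 Q m, ⟪z, v⟫_ℂ = ⟪z, w⟫_ℂ) : Pr Q m v = w := by
  have hd : Pr Q m v - w ∈ L2 Q m := Submodule.sub_mem _ (Pr_mem v) hw
  have : ⟪Pr Q m v - w, Pr Q m v - w⟫_ℂ = 0 := by
    rw [inner_sub_right, inner_Pr_of_mem hm hd, h _ hd, sub_self]
  exact sub_eq_zero.1 (inner_self_eq_zero.1 this)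

theorem Pr_eq_zero_iff (hm : m ≤ m0) {v : Lp ℂ 2 Q} :
    Pr Q m v = 0 ↔ ∀ z ∈ L2 Q m, ⟪z, v⟫_ℂ = 0 :=
  ⟨fun h z hz => by rw [← inner_Pr_of_mem hm hz, h, inner_zero_right],
    fun h => Pr_eq_of hm (Submodule.zero_mem _) fun z hz => by rw [h z hz, inner_zero_right]⟩

theorem inner_self_Pr (v : Lp ℂ 2 Q) : ⟪v, Pr Q m v⟫_ℂ = ((‖Pr Q m v‖ ^ 2 : ℝ) : ℂ) := by
  rw [← Pr_Pr v, ← inner_Pr_left, Pr_Pr, inner_self_eq_norm_sq_to_K]; simp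

theorem norm_Pr_le (v : Lp ℂ 2 Q) : ‖Pr Q m v‖ ≤ ‖v‖ := by
  by_cases hm : m ≤ m0
  · rw [Pr_apply hm]; exact norm_condExpL2_coe_le hm v
  · unfold Pr; rw [dif_neg hm]; simp

/-- tower property, inner algebra smaller (mod null sets) -/
theorem Pr_Pr_of_le (hm' : m' ≤ m0) (h : L2 Q m ≤ L2 Q m') (v : Lp ℂ 2 Q) :
    Pr Q m' (Pr Q m v) = Pr Q m v := Pr_eq_self hm' (h (Pr_mem v))

/-- tower property, outer algebra smaller (mod null sets) -/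
theorem Pr_Pr_of_ge (hm : m ≤ m0) (hm' : m' ≤ m0) (h : L2 Q m ≤ L2 Q m') (v : Lp ℂ 2 Q) :
    Pr Q m (Pr Q m' v) = Pr Q m v :=
  Pr_eq_of hm (Pr_mem v) fun z hz => by rw [inner_Pr_of_mem hm' (h hz), inner_Pr_of_mem hm hz]

theorem Pr_congr (hm : m ≤ m0) (hm' : m' ≤ m0) (h : L2 Q m = L2 Q m') : Pr Q m = Pr Q m' := by
  ext1 v
  rw [← Pr_Pr_of_ge hm hm' h.le v, Pr_Pr_of_le hm h.ge]

theorem mem_L2_of_norm_Pr (hm : m ≤ m0) {v : Lp ℂ 2 Q} (h : ‖v‖ ≤ ‖Pr Q m v‖) : v ∈ L2 Q m := by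
  have h1 : ⟪v - Pr Q m v, Pr Q m v⟫_ℂ = 0 := by
    rw [inner_sub_left, inner_Pr_of_mem' hm (Pr_mem v), sub_self]
  have h2 := norm_add_sq_eq_norm_sq_add_norm_sq_of_inner_eq_zero _ _ h1
  rw [sub_add_cancel] at h2
  have h3 : ‖v - Pr Q m v‖ * ‖v - Pr Q m v‖ ≤ 0 := by nlinarith [norm_nonneg v]
  have h4 : ‖v - Pr Q m v‖ = 0 := by nlinarith [norm_nonneg (v - Pr Q m v)]
  rw [sub_eq_zero.1 (norm_eq_zero.1 h4)]; exact Pr_mem v

/-- pull-out property -/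
theorem Pr_Mop [IsFiniteMeasure Q] (hm : m ≤ m0) {u : Ω → ℂ} (hu : Bdd m0 u)
    (hum : tl Q u ∈ L2 Q m) (v : Lp ℂ 2 Q) : Pr Q m (Mop Q u v) = Mop Q u (Pr Q m v) :=
  Pr_eq_of hm (Mop_mem hu hum (Pr_mem v)) fun z hz => by
    rw [inner_Mop_right hu, inner_Mop_right hu,
      inner_Pr_of_mem hm (Mop_mem hu.conj (tl_conj_mem hu hum) hz)]

theorem coe_Pr [IsFiniteMeasure Q] (hm : m ≤ m0) (v : Lp ℂ 2 Q) : Pr Q m v =ᵐ[Q] Q[v | m] := by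
  have := (Lp.memLp v).condExpL2_ae_eq_condExp (𝕜 := ℂ) hm
  rw [Lp.toLp_coeFn] at this
  rw [Pr_apply hm]; exact this

theorem coe_Pr_tl [IsFiniteMeasure Q] (hm : m ≤ m0) {u : Ω → ℂ} (hu : MemLp u 2 Q) :
    Pr Q m (tl Q u) =ᵐ[Q] Q[u | m] := (coe_Pr hm _).trans (condExp_congr_ae (coe_tl hu))

/-- the conditional expectation of a bounded function has a bounded version, same bound -/
theorem exists_bdd_Pr' [IsFiniteMeasure Q] (hm : m ≤ m0) {u : Ω → ℂ} (hu : Bdd m0 u) {C : ℝ}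
    (h0 : 0 ≤ C) (hC : ∀ ω, ‖u ω‖ ≤ C) :
    ∃ u', Bdd m u' ∧ (∀ ω, ‖u' ω‖ ≤ C) ∧ Pr Q m (tl Q u) = tl Q u' := by
  have h1 : ∀ᵐ ω ∂Q, ‖Pr Q m (tl Q u) ω‖ ≤ C := by
    filter_upwards [coe_Pr_tl hm (hu.memLp 2),
      ae_bdd_norm_condExp_of_ae_bdd_norm (m := m) (μ := Q) (f := u) (.of_forall hC)] with ω e1 e2
    rwa [e1]
  obtain ⟨u', a1, a2, -, a4⟩ := exists_bdd_rep (Pr_mem (tl Q u)) h0 h1
  exact ⟨u', a1, a2, a4⟩

theorem exists_bdd_Pr [IsFiniteMeasure Q] (hm : m ≤ m0) {u : Ω → ℂ} (hu : Bdd m0 u) :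
    ∃ u', Bdd m u' ∧ Pr Q m (tl Q u) = tl Q u' := by
  obtain ⟨C, hC⟩ := hu.2
  obtain ⟨u', a1, -, a3⟩ := exists_bdd_Pr' (Q := Q) hm hu (le_max_right C 0)
    (fun ω => (hC ω).trans (le_max_left _ _))
  exact ⟨u', a1, a3⟩

theorem integral_Pr [IsFiniteMeasure Q] (hm : m ≤ m0) (v : Lp ℂ 2 Q) :
    ∫ ω, Pr Q m v ω ∂Q = ∫ ω, v ω ∂Q := by
  rw [integral_congr_ae (coe_Pr hm v), integral_condExp hm]

theorem Pr_bot [IsProbabilityMeasure Q] (v : Lp ℂ 2 Q) :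
    Pr Q ⊥ v = tl Q fun _ => ∫ ω, v ω ∂Q := by
  refine (tl_eq_of_ae_eq ?_).symm
  have := coe_Pr (Q := Q) (m := ⊥) bot_le v
  rw [condExp_bot] at this
  exact this.symm

/-! ### density -/

/-- `π`-system density, orthogonality form -/
theorem eq_zero_of_piSystem [IsFiniteMeasure Q] (hm : m ≤ m0) {𝒮 : Set (Set Ω)}
    (hpi : IsPiSystem 𝒮) (hgen : m = MeasurableSpace.generateFrom 𝒮) (huniv : univ ∈ 𝒮)
    {v : Lp ℂ 2 Q} (hv : v ∈ L2 Q m) (h : ∀ A ∈ 𝒮, ∫ ω in A, v ω ∂Q = 0) : v = 0 := by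
  have hint : Integrable v Q := (Lp.memLp v).integrable one_le_two
  have hall : ∀ A, MeasurableSet[m] A → ∫ ω in A, v ω ∂Q = 0 := by
    intro A hA
    induction A, hA using MeasurableSpace.induction_on_inter hgen hpi with
    | empty => simp
    | basic A hA => exact h A hA
    | compl A hA ih =>
      have := integral_add_compl (hm _ hA) hint
      have h2 := h _ huniv
      rw [Measure.restrict_univ] at h2
      rw [ih, h2, zero_add] at this; exact this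
    | iUnion f hd hf ih =>
      rw [integral_iUnion (fun i => hm _ (hf i)) hd hint.integrableOn]; simp [ih]
  refine Lp.ext ?_
  refine (ae_eq_of_forall_setIntegral_eq_of_sigmaFinite' hm (fun _ _ _ => hint.integrableOn)
    (fun _ _ _ => (integrable_zero _ _ _).integrableOn) (fun A hA _ => ?_) (mem_L2_iff.1 hv)
    stronglyMeasurable_zero.aestronglyMeasurable).trans (Lp.coeFn_zero _ _ _).symm
  rw [hall A hA]; simp

theorem inner_tl_indicator [IsFiniteMeasure Q] {A : Set Ω} (hA : MeasurableSet[m0] A)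
    (v : Lp ℂ 2 Q) : ⟪tl Q (A.indicator fun _ => (1 : ℂ)), v⟫_ℂ = ∫ ω in A, v ω ∂Q := by
  rw [inner_tl_left ((Bdd.indicator hA).memLp 2), ← integral_indicator hA]
  refine integral_congr_ae (.of_forall fun ω => ?_)
  by_cases h : ω ∈ A <;> simp [h]

/-- `π`-system density: a closed subspace containing the indicators contains `L2 Q m` -/
theorem L2_le_of_piSystem [IsFiniteMeasure Q] (hm : m ≤ m0) {𝒮 : Set (Set Ω)}
    (hpi : IsPiSystem 𝒮) (hgen : m = MeasurableSpace.generateFrom 𝒮) (huniv : univ ∈ 𝒮)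
    {K : Submodule ℂ (Lp ℂ 2 Q)} (hK : IsClosed (K : Set (Lp ℂ 2 Q)))
    (h : ∀ A ∈ 𝒮, tl Q (A.indicator fun _ => (1 : ℂ)) ∈ K) : L2 Q m ≤ K := by
  intro v hv
  have hmeas : ∀ A ∈ 𝒮, MeasurableSet[m] A := fun A hA =>
    hgen ▸ MeasurableSpace.measurableSet_generateFrom hA
  set K' : Submodule ℂ (Lp ℂ 2 Q) := K ⊓ L2 Q m with hK'
  have hc : IsClosed (K' : Set (Lp ℂ 2 Q)) := hK.inter (isClosed_L2 hm)
  have : CompleteSpace K' := hc.completeSpace_coe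
  have hw : v - K'.starProjection v = 0 := by
    refine eq_zero_of_piSystem hm hpi hgen huniv
      (Submodule.sub_mem _ hv (K'.starProjection_apply_mem v).2) fun A hA => ?_
    rw [← inner_tl_indicator (hm _ (hmeas A hA))]
    exact Submodule.inner_right_of_mem_orthogonal (K := K')
      ⟨h A hA, (Bdd.indicator (hmeas A hA)).tl_mem⟩ (K'.sub_starProjection_mem_orthogonal v)
  rw [sub_eq_zero.1 hw]
  exact (K'.starProjection_apply_mem v).1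

theorem L2_le_of_indicator [IsFiniteMeasure Q] (hm : m ≤ m0)
    {K : Submodule ℂ (Lp ℂ 2 Q)} (hK : IsClosed (K : Set (Lp ℂ 2 Q)))
    (h : ∀ A, MeasurableSet[m] A → tl Q (A.indicator fun _ => (1 : ℂ)) ∈ K) : L2 Q m ≤ K :=
  L2_le_of_piSystem hm (𝒮 := {A | MeasurableSet[m] A}) (@MeasurableSpace.isPiSystem_measurableSet Ω m)
    (@MeasurableSpace.generateFrom_measurableSet Ω m).symm MeasurableSet.univ hK h

theorem L2_le_of_bdd [IsFiniteMeasure Q] (hm : m ≤ m0)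
    {K : Submodule ℂ (Lp ℂ 2 Q)} (hK : IsClosed (K : Set (Lp ℂ 2 Q)))
    (h : ∀ u, Bdd m u → tl Q u ∈ K) : L2 Q m ≤ K :=
  L2_le_of_indicator hm hK fun _ hA => h _ (Bdd.indicator hA)

/-- rectangles -/
def rect (a b : MeasurableSpace Ω) : Set (Set Ω) :=
  {C | ∃ A B, MeasurableSet[a] A ∧ MeasurableSet[b] B ∧ C = A ∩ B}

theorem isPiSystem_rect : IsPiSystem (rect a b) := by
  rintro _ ⟨A, B, hA, hB, rfl⟩ _ ⟨A', B', hA', hB', rfl⟩ -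
  exact ⟨A ∩ A', B ∩ B', hA.inter hA', hB.inter hB', by ext; simp; tauto⟩

theorem sup_eq_generateFrom_rect : a ⊔ b = MeasurableSpace.generateFrom (rect a b) := by
  refine le_antisymm (sup_le (fun A hA => ?_) fun B hB => ?_)
    (MeasurableSpace.generateFrom_le ?_)
  · exact MeasurableSpace.measurableSet_generateFrom ⟨A, univ, hA, .univ, by simp⟩
  · exact MeasurableSpace.measurableSet_generateFrom ⟨univ, B, .univ, hB, by simp⟩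
  · rintro _ ⟨A, B, hA, hB, rfl⟩
    exact ((le_sup_left : a ≤ a ⊔ b) _ hA).inter ((le_sup_right : b ≤ a ⊔ b) _ hB)

theorem univ_mem_rect : (univ : Set Ω) ∈ rect a b := ⟨univ, univ, .univ, .univ, by simp⟩

/-- products of bounded functions are total in `L2 Q (a ⊔ b)` -/
theorem L2_sup_le [IsFiniteMeasure Q] (ha : a ≤ m0) (hb : b ≤ m0)
    {K : Submodule ℂ (Lp ℂ 2 Q)} (hK : IsClosed (K : Set (Lp ℂ 2 Q)))
    (h : ∀ u v, Bdd a u → Bdd b v → tl Q (fun ω => u ω * v ω) ∈ K) : L2 Q (a ⊔ b) ≤ K := by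
  refine L2_le_of_piSystem (sup_le ha hb) isPiSystem_rect sup_eq_generateFrom_rect univ_mem_rect hK ?_
  rintro _ ⟨A, B, hA, hB, rfl⟩
  convert h _ _ (Bdd.indicator hA) (Bdd.indicator hB) using 2
  ext ω
  by_cases h1 : ω ∈ A <;> by_cases h2 : ω ∈ B <;> simp [h1, h2]

theorem isClosed_eqLocus (S T : Lp ℂ 2 Q →L[ℂ] Lp ℂ 2 Q) :
    IsClosed ((LinearMap.eqLocus S.toLinearMap T.toLinearMap : Submodule ℂ (Lp ℂ 2 Q)) : Set (Lp ℂ 2 Q)) :=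
  isClosed_eq S.continuous T.continuous

/-- two operators agreeing on bounded `m`-measurable functions agree on `L2 Q m` -/
theorem eq_on_L2_of_bdd [IsFiniteMeasure Q] (hm : m ≤ m0) {S T : Lp ℂ 2 Q →L[ℂ] Lp ℂ 2 Q}
    (h : ∀ u, Bdd m u → S (tl Q u) = T (tl Q u)) {v : Lp ℂ 2 Q} (hv : v ∈ L2 Q m) : S v = T v :=
  L2_le_of_bdd hm (isClosed_eqLocus S T) h hv

theorem eq_on_L2_sup [IsFiniteMeasure Q] (ha : a ≤ m0) (hb : b ≤ m0)
    {S T : Lp ℂ 2 Q →L[ℂ] Lp ℂ 2 Q}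
    (h : ∀ u v, Bdd a u → Bdd b v → S (tl Q fun ω => u ω * v ω) = T (tl Q fun ω => u ω * v ω))
    {v : Lp ℂ 2 Q} (hv : v ∈ L2 Q (a ⊔ b)) : S v = T v :=
  L2_sup_le ha hb (isClosed_eqLocus S T) h hv

/-- a vector orthogonal to a total family is orthogonal to `L2 Q m` -/
theorem Pr_eq_zero_of_bdd [IsFiniteMeasure Q] (hm : m ≤ m0) {w : Lp ℂ 2 Q}
    (h : ∀ u, Bdd m u → ⟪tl Q u, w⟫_ℂ = 0) : Pr Q m w = 0 :=
  (Pr_eq_zero_iff hm).2 fun _ hz => (Submodule.mem_orthogonal_singleton_iff_inner_left).1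
    (L2_le_of_bdd hm (K := (ℂ ∙ w)ᗮ) (Submodule.isClosed_orthogonal _)
      (fun u hu => Submodule.mem_orthogonal_singleton_iff_inner_left.2 (h u hu)) hz)

theorem Pr_sup_eq_zero [IsFiniteMeasure Q] (ha : a ≤ m0) (hb : b ≤ m0) {w : Lp ℂ 2 Q}
    (h : ∀ u v, Bdd a u → Bdd b v → ⟪tl Q fun ω => u ω * v ω, w⟫_ℂ = 0) : Pr Q (a ⊔ b) w = 0 :=
  (Pr_eq_zero_iff (sup_le ha hb)).2 fun _ hz => (Submodule.mem_orthogonal_singleton_iff_inner_left).1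
    (L2_sup_le ha hb (K := (ℂ ∙ w)ᗮ) (Submodule.isClosed_orthogonal _)
      (fun u v hu hv => Submodule.mem_orthogonal_singleton_iff_inner_left.2 (h u v hu hv)) hz)

/-- `Pr (a ⊔ b) w = 0` iff `w` times any bounded `a`-measurable function is orthogonal to `b` -/
theorem Pr_sup_eq_zero_iff [IsFiniteMeasure Q] (ha : a ≤ m0) (hb : b ≤ m0) {w : Lp ℂ 2 Q} :
    Pr Q (a ⊔ b) w = 0 ↔ ∀ u, Bdd a u → Pr Q b (Mop Q u w) = 0 := by
  constructor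
  · intro h u hu
    rw [← Pr_Pr_of_ge hb (sup_le ha hb) (L2_mono le_sup_right),
      Pr_Mop (sup_le ha hb) (hu.mono ha) (hu.mono le_sup_left).tl_mem, h, map_zero, map_zero]
  · intro h
    refine Pr_sup_eq_zero ha hb fun u v hu hv => ?_
    rw [← Mop_tl (hu.mono ha) ((hv.mono hb).memLp 2), inner_Mop_left (hu.mono ha),
      ← inner_Pr_of_mem hb hv.tl_mem, h _ hu.conj, inner_zero_right]

/-- inclusion mod null sets is compatible with `⊔` -/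
theorem L2_sup_le_L2 [IsFiniteMeasure Q] (ha : a ≤ m0) (hb : b ≤ m0) (hc : c ≤ m0)
    (h1 : L2 Q a ≤ L2 Q c) (h2 : L2 Q b ≤ L2 Q c) : L2 Q (a ⊔ b) ≤ L2 Q c :=
  L2_sup_le ha hb (isClosed_L2 hc) fun _ _ hu hv =>
    tl_mul_mem (hu.mono ha) (hv.mono hb) (h1 hu.tl_mem) (h2 hv.tl_mem)

end Crest.Agent.R69
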