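import Crest.Agent.R69.CI

/-! # Row 69: Lemma E, the basic move, and the Fubini property -/

set_option autoImplicit false
open MeasureTheory ProbabilityTheory Filter Set Topology
open scoped ENNReal InnerProductSpace ComplexConjugate

noncomputable section
namespace Crest.Agent.R69
namespace LEaux

variable {M : ℕ}

theorem sg_le (S : Set Pos) : sg M S ≤ MeasurableSpace.pi := cylinderEvents_le_pi

theorem sg_mono {S T : Set Pos} (h : S ⊆ T) : sg M S ≤ sg M T := cylinderEvents_mono h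

/-- events depending on finitely many coordinates in `S` -/
def fe (M : ℕ) (S : Set Pos) : Set (Set (Om M)) :=
  {A | ∃ W : Finset Pos, ↑W ⊆ S ∧ MeasurableSet[sg M W] A}

theorem isPiSystem_fe (S : Set Pos) : IsPiSystem (fe M S) := by
  classical
  rintro A ⟨W, hW, hA⟩ B ⟨W', hW', hB⟩ -
  refine ⟨W ∪ W', by rw [Finset.coe_union]; exact union_subset hW hW', ?_⟩
  exact (sg_mono (by simp) _ hA).inter (sg_mono (by simp) _ hB)

theorem univ_mem_fe (S : Set Pos) : univ ∈ fe M S := ⟨∅, by simp, MeasurableSet.univ⟩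

theorem sg_eq (S : Set Pos) : sg M S = MeasurableSpace.generateFrom (fe M S) := by
  refine le_antisymm (iSup₂_le fun x hx A hA => ?_) (MeasurableSpace.generateFrom_le ?_)
  · refine MeasurableSpace.measurableSet_generateFrom ⟨{x}, by simpa using hx, ?_⟩
    exact (measurable_cylinderEvent_apply (X := fun _ : Pos => Al M)
      (Δ := (({x} : Finset Pos) : Set Pos)) (i := x) (by simp)).comap_le _ hA
  · rintro A ⟨W, hW, hA⟩
    exact sg_mono hW _ hA

theorem mem_iff_of_agree {W : Set Pos} {A : Set (Om M)} (hA : MeasurableSet[sg M W] A)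
    {ω ω' : Om M} (h : ∀ x ∈ W, ω x = ω' x) : ω ∈ A ↔ ω' ∈ A := by
  have hle : sg M W ≤ MeasurableSpace.comap (fun (σ : Om M) (x : W) => σ x) ⊤ := by
    refine iSup₂_le fun x hx => ?_
    rintro _ ⟨B, -, rfl⟩
    exact ⟨{f | f ⟨x, hx⟩ ∈ B}, trivial, rfl⟩
  obtain ⟨B, -, rfl⟩ := hle _ hA
  have : (fun x : W => ω x) = fun x : W => ω' x := funext fun x => h x x.2
  simp only [mem_preimage, this]

theorem measurable_pull {W S : Set Pos} {ρ : Pos → Pos} (h : ∀ x ∈ W, ρ x ∈ S) :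
    Measurable[sg M S, sg M W] (pull ρ) :=
  (measurable_cylinderEvents_iff (mα := sg M S)).2 fun x hx =>
    measurable_cylinderEvent_apply (X := fun _ : Pos => Al M) (h x hx)

theorem measurable_pull' (ρ : Pos → Pos) : Measurable (pull (M := M) ρ) :=
  measurable_pi_lambda _ fun x => measurable_pi_apply (ρ x)

theorem integral_pull {P : Measure (Om M)} {W : Set Pos} {ρ : Pos → Pos} (h : Pres P W ρ)
    {ψ : Om M → ℂ} (hψ : Measurable[sg M W] ψ) : ∫ ω, ψ (pull ρ ω) ∂P = ∫ ω, ψ ω ∂P := by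
  have hm : Measurable[MeasurableSpace.pi, sg M W] (pull (M := M) ρ) :=
    (measurable_pull' ρ).mono le_rfl (sg_le W)
  have h1 : @Measure.map _ _ _ (sg M W) (pull ρ) P = P.trim (sg_le W) := by
    refine @Measure.ext _ (sg M W) _ _ fun A hA => ?_
    rw [@Measure.map_apply _ _ _ (sg M W) _ _ hm _ hA, trim_measurableSet_eq _ hA, h A hA]
  rw [integral_trim (sg_le W) hψ.stronglyMeasurable, ← h1]
  exact (@integral_map _ _ _ _ _ P _ (sg M W) _ (@Measurable.aemeasurable _ _ _ (sg M W) _ _ hm) _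
    (@StronglyMeasurable.aestronglyMeasurable _ _ _ (sg M W) (sg M W) _ _
      hψ.stronglyMeasurable)).symm

theorem bdd_pull {W S : Set Pos} {ρ : Pos → Pos} (h : ∀ x ∈ W, ρ x ∈ S) {ψ : Om M → ℂ}
    (hψ : Bdd (sg M W) ψ) : Bdd (sg M S) fun ω => ψ (pull ρ ω) := by
  obtain ⟨h1, C, hC⟩ := hψ
  exact ⟨h1.comp (measurable_pull h), C, fun ω => hC _⟩

/-- bounded functions of finitely many coordinates in `S` -/
def fsub (P : Measure (Om M)) [IsFiniteMeasure P] (S : Set Pos) : Submodule ℂ (Lp ℂ 2 P) where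
  carrier := {z | ∃ W : Finset Pos, ↑W ⊆ S ∧ ∃ ψ, Bdd (sg M W) ψ ∧ z = tl P ψ}
  zero_mem' := ⟨∅, by simp, fun _ => 0, Bdd.const 0, tl_zero.symm⟩
  add_mem' := by
    classical
    rintro _ _ ⟨W, hW, ψ, hψ, rfl⟩ ⟨W', hW', ψ', hψ', rfl⟩
    refine ⟨W ∪ W', by rw [Finset.coe_union]; exact union_subset hW hW', _,
      (hψ.mono (sg_mono (by simp))).add (hψ'.mono (sg_mono (by simp))), ?_⟩
    rw [tl_add ((hψ.mono (sg_le _)).memLp 2) ((hψ'.mono (sg_le _)).memLp 2)]
  smul_mem' := by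
    rintro c _ ⟨W, hW, ψ, hψ, rfl⟩
    exact ⟨W, hW, _, (Bdd.const c).mul hψ, (tl_smul ((hψ.mono (sg_le _)).memLp 2) c).symm⟩

theorem L2_le_fsub (P : Measure (Om M)) [IsFiniteMeasure P] (S : Set Pos) :
    L2 P (sg M S) ≤ (fsub P S).topologicalClosure :=
  L2_le_of_piSystem (sg_le S) (isPiSystem_fe S) (sg_eq S) (univ_mem_fe S)
    (Submodule.isClosed_topologicalClosure _) fun _ ⟨W, hW, hA⟩ =>
      Submodule.le_topologicalClosure _ ⟨W, hW, _, Bdd.indicator hA, rfl⟩

theorem mapDomain_update (i z : II) (g : II →₀ La) :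
    g.mapDomain (Function.update id i z) = g.erase i + Finsupp.single z (g i) := by
  conv_lhs => rw [← Finsupp.erase_add_single i g]
  rw [Finsupp.mapDomain_add, Finsupp.mapDomain_single, Function.update_self]
  congr 1
  rw [Finsupp.mapDomain_congr (g := id), Finsupp.mapDomain_id]
  intro b hb
  have : b ≠ i := by
    rintro rfl
    simp at hb
  rw [Function.update_of_ne this]

theorem exists_below (i : II) (F : Finset II) : ∃ a < i, ∀ b ∈ F, b < i → b ≤ a := by
  classical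
  induction F using Finset.induction_on with
  | empty => obtain ⟨a, ha⟩ := exists_lt i; exact ⟨a, ha, by simp⟩
  | insert c F _ ih =>
    obtain ⟨a, ha, h⟩ := ih
    by_cases hc : c < i
    · refine ⟨max a c, max_lt ha hc, fun b hb hbi => ?_⟩
      rcases Finset.mem_insert.1 hb with rfl | hb
      · exact le_max_right _ _
      · exact (h b hb hbi).trans (le_max_left _ _)
    · refine ⟨a, ha, fun b hb hbi => ?_⟩
      rcases Finset.mem_insert.1 hb with rfl | hb
      · exact absurd hbi hc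
      · exact h b hb hbi

end LEaux

open LEaux

theorem leStmt : LEStmt := by
  intro M P _ U S S' hSS h
  refine CI.of_piSystem (sg_le U) (isPiSystem_fe U) (sg_eq U) (univ_mem_fe U) ?_
  rintro A ⟨W₀, hW₀, hA⟩
  have hφ : Bdd (sg M W₀) (A.indicator fun _ => (1 : ℂ)) := Bdd.indicator hA
  have hφ0 := hφ.mono (sg_le _)
  obtain ⟨v, hv⟩ : ∃ v, v = tl P (A.indicator fun _ => (1 : ℂ)) := ⟨_, rfl⟩
  rw [← hv]
  have key : ∀ z ∈ fsub P S', ‖⟪z, v⟫_ℂ‖ ≤ ‖z‖ * ‖Pr P (sg M S) v‖ := by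
    rintro _ ⟨W₁, hW₁, ψ, hψ, rfl⟩
    obtain ⟨ρ, hρ, h0, h1⟩ := h W₀ W₁ hW₀ hW₁
    have hψ0 := hψ.mono (sg_le _)
    have hψ' : Bdd (sg M S) fun ω => ψ (pull ρ ω) := bdd_pull h1 hψ
    have hψ'0 := hψ'.mono (sg_le _)
    have hψW := hψ.mono (sg_mono (M := M) (subset_union_right (s := (W₀ : Set Pos))))
    have hφW := hφ.mono (sg_mono (M := M) (subset_union_left (t := (W₁ : Set Pos))))
    have e1 : ⟪tl P ψ, v⟫_ℂ = ⟪tl P fun ω => ψ (pull ρ ω), v⟫_ℂ := by
      rw [hv, inner_tl (hψ0.memLp 2) (hφ0.memLp 2), inner_tl (hψ'0.memLp 2) (hφ0.memLp 2),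
        ← integral_pull hρ (hψW.conj.mul hφW).1]
      refine integral_congr_ae (.of_forall fun ω => ?_)
      have : pull ρ ω ∈ A ↔ ω ∈ A := mem_iff_of_agree hA fun x hx => by rw [pull, h0 x hx]
      by_cases hω : ω ∈ A
      · simp [hω, this.2 hω]
      · simp [hω, mt this.1 hω]
    have e2 : ‖tl P fun ω => ψ (pull ρ ω)‖ = ‖tl P ψ‖ := by
      have : ⟪tl P fun ω => ψ (pull ρ ω), tl P fun ω => ψ (pull ρ ω)⟫_ℂ = ⟪tl P ψ, tl P ψ⟫_ℂ := by
        rw [inner_tl (hψ0.memLp 2) (hψ0.memLp 2), inner_tl (hψ'0.memLp 2) (hψ'0.memLp 2),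
          ← integral_pull hρ (hψW.conj.mul hψW).1]
      rw [norm_eq_sqrt_re_inner (𝕜 := ℂ), this, ← norm_eq_sqrt_re_inner (𝕜 := ℂ)]
    rw [e1, ← inner_Pr_of_mem (sg_le S) hψ'.tl_mem, ← e2]
    exact norm_inner_le_norm _ _
  have hcl : IsClosed {z : Lp ℂ 2 P | ‖⟪z, v⟫_ℂ‖ ≤ ‖z‖ * ‖Pr P (sg M S) v‖} :=
    isClosed_le (by fun_prop) (by fun_prop)
  have key2 : ‖⟪Pr P (sg M S') v, v⟫_ℂ‖ ≤ ‖Pr P (sg M S') v‖ * ‖Pr P (sg M S) v‖ :=
    closure_minimal key hcl (L2_le_fsub P S' (Pr_mem v))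
  rw [inner_Pr_left, inner_self_Pr, Complex.norm_real, Real.norm_of_nonneg (sq_nonneg _)] at key2
  have hle : L2 P (sg M S) ≤ L2 P (sg M S') := L2_mono (sg_mono hSS)
  have e3 := Pr_Pr_of_ge (sg_le S) (sg_le S') hle v
  have hmem : Pr P (sg M S') v ∈ L2 P (sg M S) := by
    refine mem_L2_of_norm_Pr (sg_le S) ?_
    rw [e3]
    by_contra hlt
    have h1 := norm_nonneg (Pr P (sg M S) v)
    nlinarith [not_le.1 hlt]
  rw [← e3, Pr_eq_self (sg_le S) hmem]

theorem mv1Stmt : MV1Stmt := by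
  classical
  intro M ν P hP i d T hT U S S' hSS hU hS
  have := hP.prob
  refine leStmt M P U S S' hSS fun W₀ W₁ hW₀ hW₁ => ?_
  obtain ⟨a, hai, ha⟩ := exists_below i ((W₀ ∪ W₁).biUnion fun x => x.2.support)
  obtain ⟨z, hzT, haz, hzi⟩ := hT a hai
  obtain ⟨e, he⟩ : ∃ e : Pos, e = (0, Finsupp.single i d) := ⟨_, rfl⟩
  have hρ : ∀ x : Pos, mv (Function.update id i z) (x + -e) + e =
      (x.1, (x.2.erase i + Finsupp.single z (x.2 i - d)) + Finsupp.single i d) := by
    intro x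
    subst he
    refine Prod.ext (by simp [mv]) ?_
    simp only [mv, Prod.snd_add, Prod.snd_neg, mapDomain_update, Finsupp.erase_add,
      Finsupp.erase_neg, Finsupp.erase_single, neg_zero, add_zero, Finsupp.add_apply,
      Finsupp.neg_apply, Finsupp.single_eq_same, sub_eq_add_neg]
  refine ⟨fun x => mv (Function.update id i z) (x + -e) + e, ?_, ?_, ?_⟩
  · intro A hA
    have hmono : StrictMonoOn (Function.update id i z)
        (idx (((W₀ ∪ W₁).image (· + -e) : Finset Pos) : Set Pos)) := by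
      have hF : ∀ b ∈ idx (((W₀ ∪ W₁).image (· + -e) : Finset Pos) : Set Pos), b < i → b ≤ a := by
        rintro b ⟨x, hx, hb⟩ hbi
        obtain ⟨y, hy, rfl⟩ := Finset.mem_image.1 (Finset.mem_coe.1 hx)
        refine ha b (Finset.mem_biUnion.2 ⟨y, hy, Finsupp.mem_support_iff.2 ?_⟩) hbi
        subst he
        simpa [Finsupp.single_eq_of_ne hbi.ne] using hb
      intro b hb c hc hbc
      by_cases hbi : b = i
      · subst hbi
        rw [Function.update_self, Function.update_of_ne hbc.ne']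
        exact hzi.trans hbc
      · rw [Function.update_of_ne hbi]
        by_cases hci : c = i
        · subst hci
          rw [Function.update_self]
          exact (hF b hb hbc).trans_lt haz
        · rw [Function.update_of_ne hci]; exact hbc
    have hA1 : MeasurableSet[sg M (((W₀ ∪ W₁).image (· + -e) : Finset Pos) : Set Pos)]
        (pull (· + -e) ⁻¹' A) :=
      measurable_pull (W := (W₀ : Set Pos) ∪ W₁) (fun x hx => Finset.mem_coe.2
        (Finset.mem_image_of_mem _ (by simpa using hx))) hA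
    have h1 := hP.con _ _ hmono _ hA1
    have h2 := (hP.inv (-e)).measure_preimage (sg_le _ _ hA).nullMeasurableSet
    have h3 := (hP.inv e).measure_preimage
      (measurable_pull' (mv (Function.update id i z)) (sg_le _ _ hA1)).nullMeasurableSet
    rw [← h2, ← h1, ← h3]
    rfl
  · intro x hx
    have hx' := hU x (hW₀ hx)
    simp only [hρ]
    refine Prod.ext rfl ?_
    simp only [hx', sub_self, Finsupp.single_zero, add_zero]
    rw [← hx', Finsupp.erase_add_single]
  · intro y hy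
    have hyz : y.2 z = 0 := by
      by_contra h0
      exact absurd (ha z (Finset.mem_biUnion.2 ⟨y, Finset.mem_union_right _ hy,
        Finsupp.mem_support_iff.2 h0⟩) hzi) (not_le.2 haz)
    simp only [hρ]
    refine hS z hzT hzi y (hW₁ hy) hyz _ rfl ?_ ?_ ?_
    · simp [Finsupp.single_eq_of_ne hzi.ne']
    · simp [Finsupp.single_eq_of_ne hzi.ne, Finsupp.erase_ne hzi.ne, hyz]
    · intro b hbi hbz
      simp [Finsupp.single_eq_of_ne hbi, Finsupp.single_eq_of_ne hbz, Finsupp.erase_ne hbi]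

theorem fubStmt : FubStmt := by
  classical
  intro M ν P hP U V U' V' hind h
  have := hP.prob
  refine IndepSets.indep (sg_le U) (sg_le V) (isPiSystem_fe U) (isPiSystem_fe V) (sg_eq U)
    (sg_eq V) ?_
  rw [IndepSets_iff]
  rintro A B ⟨W₀, hW₀, hA⟩ ⟨W₁, hW₁, hB⟩
  obtain ⟨p, hp⟩ := h W₀ W₁ hW₀ hW₁
  have hreal : P.real (A ∩ B) = P.real A * P.real B := by
    refine eq_of_forall_dist_le fun ε hε => ?_
    obtain ⟨g, hg⟩ := hP.fub (W₀ ∪ W₁) p (ε / 3) (by positivity)
    have hA' : MeasurableSet[sg M ((W₀ ∪ W₁ : Finset Pos) : Set Pos)] A := sg_mono (by simp) _ hA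
    have hB' : MeasurableSet[sg M ((W₀ ∪ W₁ : Finset Pos) : Set Pos)] B := sg_mono (by simp) _ hB
    have h1 := hg _ hA'
    have h2 := hg _ hB'
    have h3 := hg _ (hA'.inter hB')
    have h4 := (Indep_iff _ _ _).1 hind _ _ (measurable_pull (hp g).1 hA)
      (measurable_pull (hp g).2 hB)
    have h5 : P.real (pull (clp p g) ⁻¹' (A ∩ B)) =
        P.real (pull (clp p g) ⁻¹' A) * P.real (pull (clp p g) ⁻¹' B) := by
      rw [preimage_inter, Measure.real, h4, ENNReal.toReal_mul]; rfl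
    rw [h5] at h3
    have b1 := measureReal_le_one (μ := P) (s := pull (clp p g) ⁻¹' A)
    have b2 := measureReal_le_one (μ := P) (s := B)
    have b3 := measureReal_nonneg (μ := P) (s := pull (clp p g) ⁻¹' A)
    have b4 := measureReal_nonneg (μ := P) (s := B)
    rw [Real.dist_eq]
    rw [abs_le] at h1 h2 h3 ⊢
    constructor <;> nlinarith
  rw [← ENNReal.toReal_eq_toReal_iff' (measure_ne_top _ _)
    (ENNReal.mul_ne_top (measure_ne_top _ _) (measure_ne_top _ _)), ENNReal.toReal_mul]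
  exact hreal

end Crest.Agent.R69
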