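import Crest.Agent.R69.Cyl

/-! # Row 69: the law of large numbers for the averaging operators -/

set_option autoImplicit false
open MeasureTheory ProbabilityTheory Filter Set Topology
open scoped ENNReal InnerProductSpace ComplexConjugate

noncomputable section
namespace Crest.Agent.R69
namespace LLN

/-! ### generalities -/

lemma ae_summable {Ω : Type} [MeasurableSpace Ω] {P : Measure Ω} {f : ℕ → Ω → ℝ}
    (hi : ∀ n, Integrable (f n) P) (h0 : ∀ n ω, 0 ≤ f n ω)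
    (hs : Summable fun n => ∫ ω, f n ω ∂P) : ∀ᵐ ω ∂P, Summable fun n => f n ω := by
  have hm : ∀ n, AEMeasurable (fun ω => ENNReal.ofReal (f n ω)) P := fun n =>
    (hi n).1.aemeasurable.ennreal_ofReal
  have h1 : ∫⁻ ω, ∑' n, ENNReal.ofReal (f n ω) ∂P ≠ ∞ := by
    rw [lintegral_tsum hm]
    simp_rw [← fun n => ofReal_integral_eq_lintegral_ofReal (hi n) (.of_forall (h0 n))]
    rw [← ENNReal.ofReal_tsum_of_nonneg (fun n => integral_nonneg (h0 n)) hs]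
    exact ENNReal.ofReal_ne_top
  filter_upwards [ae_lt_top' (AEMeasurable.tsum hm) h1] with ω hω
  simpa only [ENNReal.toReal_ofReal (h0 _ ω)] using ENNReal.summable_toReal hω.ne

lemma summable_of_sq {x : ℕ → ℝ} (h0 : ∀ n, 0 ≤ x n)
    (h : Summable fun n => (4 / 3 : ℝ) ^ n * x n ^ 2) : Summable x := by
  refine Summable.of_nonneg_of_le h0 (fun n => ?_)
    ((summable_geometric_of_lt_one (r := 3 / 4) (by norm_num) (by norm_num)).add h)
  have h1 : (3 / 4 : ℝ) ^ n * (4 / 3) ^ n = 1 := by rw [← mul_pow]; norm_num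
  have h2 : (0 : ℝ) < (4 / 3) ^ n := by positivity
  have h3 : (0 : ℝ) < (3 / 4) ^ n := by positivity
  refine le_of_mul_le_mul_left ?_ h2
  nlinarith [sq_nonneg ((4 / 3 : ℝ) ^ n * x n - 1), mul_nonneg h2.le (h0 n)]

/-- vectors killed in the limit -/
def Kz {H ι : Type} [NormedAddCommGroup H] [NormedSpace ℂ H] (T : ι → H →L[ℂ] H) (l : Filter ι) :
    Submodule ℂ H where
  carrier := {u | Tendsto (fun p => T p u) l (𝓝 0)}
  zero_mem' := by simpa using tendsto_const_nhds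
  add_mem' := fun hu hv => by simpa using Tendsto.add hu hv
  smul_mem' := fun c u hu => by simpa using Tendsto.const_smul hu c

lemma isClosed_Kz {H ι : Type} [NormedAddCommGroup H] [NormedSpace ℂ H] (T : ι → H →L[ℂ] H)
    (l : Filter ι) (h : ∀ p u, ‖T p u‖ ≤ 2 * ‖u‖) : IsClosed (Kz T l : Set H) := by
  refine isClosed_of_closure_subset fun u hu => ?_
  change Tendsto (fun p => T p u) l (𝓝 0)
  rw [NormedAddGroup.tendsto_nhds_zero]
  intro ε hε
  obtain ⟨v, hv, huv⟩ := Metric.mem_closure_iff.1 hu (ε / 3) (by positivity)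
  filter_upwards [NormedAddGroup.tendsto_nhds_zero.1 hv (ε / 3) (by positivity)] with p hp
  have h1 : T p u = T p v + T p (u - v) := by simp
  have h2 := h p (u - v)
  rw [dist_eq_norm] at huv
  rw [h1]
  linarith [norm_add_le (T p v) (T p (u - v))]

section L2
variable {Ω : Type} {m0 : MeasurableSpace Ω} {Q : Measure Ω} [IsProbabilityMeasure Q]

lemma norm_sq_tl {Z : Ω → ℂ} (hZ : Bdd m0 Z) : ‖tl Q Z‖ ^ 2 = ∫ ω, ‖Z ω‖ ^ 2 ∂Q := by
  have h := inner_tl (Q := Q) (hZ.memLp 2) (hZ.memLp 2)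
  rw [inner_self_eq_norm_sq_to_K] at h
  simp_rw [Complex.conj_mul', ← Complex.ofReal_pow] at h
  rw [integral_complex_ofReal] at h
  apply Complex.ofReal_injective
  simpa using h

lemma bdd_sum {ι : Type} (s : Finset ι) {V : ι → Ω → ℂ} (hV : ∀ i, Bdd m0 (V i)) :
    Bdd m0 (fun ω => ∑ i ∈ s, V i ω) := by
  classical
  induction s using Finset.induction_on with
  | empty => exact Bdd.const 0
  | insert i s hi ih =>
    simp only [Finset.sum_insert hi]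
    exact (hV i).add ih

lemma tl_sum {ι : Type} (s : Finset ι) {V : ι → Ω → ℂ} (hV : ∀ i, Bdd m0 (V i)) :
    tl Q (fun ω => ∑ i ∈ s, V i ω) = ∑ i ∈ s, tl Q (V i) := by
  classical
  induction s using Finset.induction_on with
  | empty => exact tl_zero
  | insert i s hi ih =>
    simp only [Finset.sum_insert hi]
    rw [tl_add ((hV i).memLp 2) ((bdd_sum s hV).memLp 2), ih]

/-- block averages of functions -/
def Zf (V : ℚ → Ω → ℂ) (sq : Bool → ℕ → ℚ) (b : Bool) (n : ℕ) (ω : Ω) : ℂ :=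
  ((2 : ℂ) ^ n)⁻¹ * ∑ i ∈ Finset.range (2 ^ n), V (sq b (2 ^ n + i)) ω

lemma bdd_Zf {V : ℚ → Ω → ℂ} (hV : ∀ j, Bdd m0 (V j)) (sq : Bool → ℕ → ℚ) (b : Bool) (n : ℕ) :
    Bdd m0 (Zf V sq b n) :=
  (Bdd.const _).mul (bdd_sum _ fun _ => hV _)

lemma tl_Zf {V : ℚ → Ω → ℂ} (hV : ∀ j, Bdd m0 (V j)) (sq : Bool → ℕ → ℚ) (b : Bool) (n : ℕ) :
    tl Q (Zf V sq b n) =
      ((2 : ℂ) ^ n)⁻¹ • ∑ i ∈ Finset.range (2 ^ n), tl Q (V (sq b (2 ^ n + i))) := by
  rw [← tl_sum _ fun i => hV (sq b (2 ^ n + i)), ← tl_smul ((bdd_sum _ fun _ => hV _).memLp 2)]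
  rfl

end L2

variable {M : ℕ}

lemma norm_AA_le (Q : Measure (Om M)) (Lab : Fin 3 → Finset La) (sq : Bool → ℕ → ℚ) (b : Bool)
    (n : ℕ) (u : Lp ℂ 2 Q) : ‖AA Q Lab sq b n u‖ ≤ ‖u‖ := by
  have h : ‖∑ i ∈ Finset.range (2 ^ n), Rj Q Lab none (sq b (2 ^ n + i)) u‖ ≤ 2 ^ n * ‖u‖ := by
    refine (norm_sum_le _ _).trans ((Finset.sum_le_card_nsmul _ _ ‖u‖ fun i _ =>
      norm_RR_le u).trans (le_of_eq ?_))
    simp
  simp only [AA, _root_.smul_apply, _root_.sum_apply, norm_smul,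
    norm_inv, norm_pow, Complex.norm_ofNat]
  rwa [inv_mul_le_iff₀ (by positivity)]

lemma AA_tl {Q : Measure (Om M)} [IsProbabilityMeasure Q] {Lab : Fin 3 → Finset La}
    {u : Om M → ℂ} {V : ℚ → Om M → ℂ} (hV : ∀ j, Bdd inferInstance (V j))
    (h : ∀ j, Rj Q Lab none j (tl Q u) = tl Q (V j)) (sq : Bool → ℕ → ℚ) (b : Bool) (n : ℕ) :
    AA Q Lab sq b n (tl Q u) = tl Q (Zf V sq b n) := by
  simp only [tl_Zf hV, AA, _root_.smul_apply, _root_.sum_apply, h]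

/-! ### symmetries -/

/-- the automorphism of the index set induced by an automorphism of `ℚ` -/
def gt (g : ℚ ≃o ℚ) (i : II) : II := toLex (g (ofLex i).1, (ofLex i).2)

lemma gt_mono (g : ℚ ≃o ℚ) : StrictMono (gt g) := fun _ _ h =>
  Prod.Lex.lt_iff.2 ((Prod.Lex.lt_iff.1 h).imp (fun h => g.strictMono h)
    fun h => ⟨congrArg g h.1, h.2⟩)

lemma gt_symm (g : ℚ ≃o ℚ) (i : II) : gt g (gt g.symm i) = i := by simp [gt]

lemma mv_gt (g : ℚ ≃o ℚ) (x : Pos) (i : II) : (mv (gt g) x).2 (gt g i) = x.2 i :=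
  mv_apply_of_injective (gt_mono g).injective x i

lemma image_eq {S : ℚ → Set Pos} (h : ∀ (g : ℚ ≃o ℚ) j, ∀ x ∈ S j, mv (gt g) x ∈ S (g j))
    (g : ℚ ≃o ℚ) (j : ℚ) : mv (gt g) '' S j = S (g j) := by
  refine Subset.antisymm (image_subset_iff.2 (h g j)) fun x hx => ⟨mv (gt g.symm) x, ?_, ?_⟩
  · simpa using h g.symm _ x hx
  · rw [mv_mv]; exact mv_eq_self fun i _ => gt_symm g i

lemma mv_cell1 (A : Finset La) (g : ℚ ≃o ℚ) (j : ℚ) (x : Pos) (hx : x ∈ cell1 none j A) :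
    mv (gt g) x ∈ cell1 none (g j) A := by
  refine ⟨fun _ _ => trivial, (mv_gt g x (act j)).symm ▸ hx.2.1, fun i hi hj => ?_⟩
  rw [← gt_symm g i, mv_gt]
  refine hx.2.2 _ hi fun e => hj ?_
  rw [← gt_symm g i, e]; rfl

variable {Inf : La → Prop} {col : ℚ → Finset La} {s : ℕ}

lemma mv_Wb (g : ℚ ≃o ℚ) (x : Pos) (hx : x ∈ Wb (hat Inf col s)) :
    mv (gt g) x ∈ Wb (hat Inf col s) := by
  obtain ⟨i, hi⟩ := hx
  exact ⟨gt g i, (mv_gt g x i).symm ▸ hi⟩

lemma image_cell0 (g : ℚ ≃o ℚ) :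
    mv (gt g) '' (Wb (hat Inf col s) ∪ cell0 none) = Wb (hat Inf col s) ∪ cell0 none :=
  image_eq (S := fun _ => Wb (hat Inf col s) ∪ cell0 none) (fun g j x hx =>
    hx.imp (mv_Wb g x) fun h => cell1_zero none (g j) ▸ mv_cell1 _ g j x (cell1_zero none j ▸ h))
    g 0

lemma image_oth (Lab : Fin 3 → Finset La) (g : ℚ ≃o ℚ) (j : ℚ) :
    mv (gt g) '' (Wb (hat Inf col s) ∪ oth Lab none j) = Wb (hat Inf col s) ∪ oth Lab none (g j) :=
  image_eq (S := fun j => Wb (hat Inf col s) ∪ oth Lab none j) (fun g j x hx =>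
    hx.imp (mv_Wb g x) fun h => h.imp (mv_cell1 _ g j x) (mv_cell1 _ g j x)) g j

variable {ν : Measure (Sq M)} {P : Measure (Om M)} [IsProbabilityMeasure P]
  {Lab : Fin 3 → Finset La} {sq : Bool → ℕ → ℚ}

/-- the global version of `Rj` -/
def TT (P : Measure (Om M)) (W : Set Pos) (Lab : Fin 3 → Finset La) (j : ℚ) (v : Lp ℂ 2 P) :
    Lp ℂ 2 P := Pr P (sg M (W ∪ cell0 none)) (Pr P (sg M (W ∪ oth Lab none j)) v)

lemma cmp_oth (hA : Arr ν P) (g : ℚ ≃o ℚ) (j : ℚ) (v : Lp ℂ 2 P) :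
    cmp (hA.mp_mv (gt_mono g)) (Pr P (sg M (Wb (hat Inf col s) ∪ oth Lab none j)) v) =
      Pr P (sg M (Wb (hat Inf col s) ∪ oth Lab none (g j))) (cmp (hA.mp_mv (gt_mono g)) v) := by
  rw [← Pr_cmp _ (sg_le _), comap_pull_sg, image_oth]

lemma cmp_TT (hA : Arr ν P) (g : ℚ ≃o ℚ) (j : ℚ) (v : Lp ℂ 2 P) :
    cmp (hA.mp_mv (gt_mono g)) (TT P (Wb (hat Inf col s)) Lab j v) =
      TT P (Wb (hat Inf col s)) Lab (g j) (cmp (hA.mp_mv (gt_mono g)) v) := by
  rw [TT, ← Pr_cmp _ (sg_le _), comap_pull_sg, image_cell0, cmp_oth hA, TT]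

lemma cmp_fix (hA : Arr ν P) {S : Set Pos} {u : Om M → ℂ} (hu : Bdd (sg M S) u) (g : ℚ ≃o ℚ)
    (h : ∀ x ∈ S, ∀ i, x.2 i ≠ 0 → g (ofLex i).1 = (ofLex i).1) :
    cmp (hA.mp_mv (gt_mono g)) (tl P u) = tl P u := by
  rw [cmp_tl _ ((hu.mono (sg_le _)).memLp 2)]
  congr 1
  funext ω
  refine dependsOn_of_sg hu.1 fun x hx => congrArg ω (mv_eq_self fun i hi => ?_)
  rw [gt, h x hx i hi]; rfl

lemma exists_V (hT : TLStmt) (W : Set Pos) {u : Om M → ℂ} (hu : Bdd inferInstance u) :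
    ∃ V : ℚ → Om M → ℂ, (∀ j, Bdd inferInstance (V j)) ∧
      (∀ j, tl P (V j) = TT P W Lab j (tl P u)) ∧
      ∀ᵐ ω ∂P, ∀ j, Rj (fib P W ω) Lab none j (tl _ u) = tl _ (V j) := by
  have h : ∀ j, ∃ V : Om M → ℂ, Bdd inferInstance V ∧ tl P V = TT P W Lab j (tl P u) ∧
      ∀ᵐ ω ∂P, Rj (fib P W ω) Lab none j (tl _ u) = tl _ V := fun j => by
    obtain ⟨h, h1, h2, h3⟩ := (hT M P W).1 u (oth Lab none j) hu
    obtain ⟨V, k1, k2, k3⟩ := (hT M P W).1 h (cell0 none) (h1.mono (sg_le _))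
    refine ⟨V, k1.mono (sg_le _), by rw [TT, h2, k2], ?_⟩
    filter_upwards [h3, k3] with ω e1 e2
    rw [Rj, RR_apply, ← sg_union, ← e2, ← e1, oth]
  choose V h1 h2 h3 using h
  exact ⟨V, h1, h2, ae_all_iff.2 h3⟩

lemma exists_iso {F : Finset ℚ} {G : Set ℚ} (hF : ∀ q ∈ F, (∀ r ∈ G, q < r) ∨ ∀ r ∈ G, r < q)
    {j j' i i' : ℚ} (hj : j ∈ G) (hj' : j' ∈ G) (hi : i ∈ G) (hi' : i' ∈ G) (h : j < j')
    (h' : i < i') : ∃ g : ℚ ≃o ℚ, (∀ q ∈ F, g q = q) ∧ g j = i ∧ g j' = i' := by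
  have hn : ∀ q ∈ F, ∀ r ∈ G, q ≠ r := fun q hq r hr =>
    (hF q hq).elim (fun h => (h r hr).ne) fun h => (h r hr).ne'
  set g0 : ℚ → ℚ := fun q => if q = j then i else if q = j' then i' else q with hg0
  have e1 : g0 j = i := by simp [hg0]
  have e2 : g0 j' = i' := by simp [hg0, h.ne']
  have e3 : ∀ q ∈ F, g0 q = q := fun q hq => by simp [hg0, hn q hq j hj, hn q hq j' hj']
  have l1 : ∀ q ∈ F, ∀ r ∈ G, ∀ r' ∈ G, q < r → q < r' := fun q hq r hr r' hr' hh =>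
    (hF q hq).elim (fun h => h r' hr') fun h => absurd hh (h r hr).not_gt
  have l2 : ∀ q ∈ F, ∀ r ∈ G, ∀ r' ∈ G, r < q → r' < q := fun q hq r hr r' hr' hh =>
    (hF q hq).elim (fun h => absurd hh (h r hr).not_gt) fun h => h r' hr'
  obtain ⟨g, hg⟩ := exists_orderIso_extend (insert j (insert j' F)) g0 (by
    intro a ha b hb hab
    simp only [Finset.coe_insert, mem_insert_iff, Finset.mem_coe] at ha hb
    rcases ha with rfl | rfl | ha <;> rcases hb with rfl | rfl | hb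
    · exact absurd hab (lt_irrefl _)
    · rwa [e1, e2]
    · rw [e1, e3 b hb]; exact l2 b hb _ hj _ hi hab
    · exact absurd hab h.not_gt
    · exact absurd hab (lt_irrefl _)
    · rw [e2, e3 b hb]; exact l2 b hb _ hj' _ hi' hab
    · rw [e1, e3 a ha]; exact l1 a ha _ hj _ hi hab
    · rw [e2, e3 a ha]; exact l1 a ha _ hj' _ hi' hab
    · rwa [e3 a ha, e3 b hb])
  exact ⟨g, fun q hq => (hg q (by simp [hq])).trans (e3 q hq), (hg j (by simp)).trans e1,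
    (hg j' (by simp)).trans e2⟩

lemma exists_gap (hs : Sqs sq) (F : Finset ℚ) : ∃ (G : Set ℚ) (n0 : ℕ),
    (∀ q ∈ F, (∀ r ∈ G, q < r) ∨ ∀ r ∈ G, r < q) ∧ ∀ b, ∀ i ≥ n0, sq b i ∈ G := by
  have h : ∀ᶠ x : ℝ in 𝓝 √2, ∀ q ∈ F, ((q : ℝ) < √2 → q < x) ∧ (√2 < q → x < q) := by
    rw [eventually_all_finset]
    intro q _
    refine Eventually.and ?_ ?_
    · by_cases h : (q : ℝ) < √2
      · exact (eventually_gt_nhds h).mono fun _ h _ => h
      · exact .of_forall fun _ h' => absurd h' h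
    · by_cases h : √2 < (q : ℝ)
      · exact (eventually_lt_nhds h).mono fun _ h _ => h
      · exact .of_forall fun _ h' => absurd h' h
  obtain ⟨n0, hn0⟩ := eventually_atTop.1 (eventually_all.2 fun b => (hs.lim b).eventually h)
  refine ⟨{r | ∀ q ∈ F, ((q : ℝ) < √2 → (q : ℝ) < r) ∧ (√2 < q → (r : ℝ) < q)}, n0,
    fun q hq => ?_, fun b i hi => hn0 i hi b⟩
  exact (lt_or_gt_of_ne (irrational_sqrt_two.ne_rat q).symm).imp
    (fun h r hr => by exact_mod_cast (hr q hq).1 h) fun h r hr => by exact_mod_cast (hr q hq).2 h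

lemma block_le {H : Type} [NormedAddCommGroup H] [InnerProductSpace ℂ H] (v : ℚ → H) {G : Set ℚ}
    {γ : ℝ} (hv : ∀ j, ‖v j‖ ≤ 1) (hγ : |γ| ≤ 1)
    (hg : ∀ j ∈ G, ∀ j' ∈ G, j ≠ j' → (⟪v j, v j'⟫_ℂ).re = γ) {n n' : ℕ} (hn : n ≤ n')
    {a a' : ℕ → ℚ} (ha : Function.Injective a) (ha' : Function.Injective a') (hG : ∀ i, a i ∈ G)
    (hG' : ∀ i, a' i ∈ G) (hne : ∀ i < 2 ^ n, ∀ i', a i ≠ a' i') :
    ‖((2 : ℂ) ^ n)⁻¹ • ∑ i ∈ Finset.range (2 ^ n), v (a i) -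
      ((2 : ℂ) ^ n')⁻¹ • ∑ i ∈ Finset.range (2 ^ n'), v (a' i)‖ ^ 2 ≤ 4 * (1 / 2) ^ n := by
  have h := norm_sum_smul_sq_le ((Finset.range (2 ^ n)).disjSum (Finset.range (2 ^ n')))
    (fun i => v (i.elim a a')) (Sum.elim (fun _ => ((2 : ℝ) ^ n)⁻¹) fun _ => -((2 : ℝ) ^ n')⁻¹)
    (γ := γ) (C := 1) (by simp [Finset.sum_disjSum]) (fun _ _ => hv _) (by simpa using hγ) (by
      rintro (i | i) hi (j | j) hj hij
      · exact hg _ (hG _) _ (hG _) fun e => hij (congrArg _ (ha e))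
      · exact hg _ (hG _) _ (hG' _) (hne i (by simpa using hi) j)
      · exact hg _ (hG' _) _ (hG _) (hne j (by simpa using hj) i).symm
      · exact hg _ (hG' _) _ (hG' _) fun e => hij (congrArg _ (ha' e)))
  simp only [Finset.sum_disjSum, Sum.elim_inl, Sum.elim_inr, Finset.sum_const, Finset.card_range,
    nsmul_eq_mul] at h
  push_cast at h
  simp only [neg_smul, Finset.sum_neg_distrib, ← Finset.smul_sum, ← sub_eq_add_neg] at h
  refine h.trans ?_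
  have e : ∀ k : ℕ, (2 : ℝ) ^ k * ((2 ^ k)⁻¹) ^ 2 = (1 / 2) ^ k := fun k => by
    rw [one_div, inv_pow (2 : ℝ) k]; field_simp
  have := pow_le_pow_of_le_one (a := (1 / 2 : ℝ)) (by norm_num) (by norm_num) hn
  rw [neg_sq, e, e]
  linarith

lemma ae_fib_summable (W : Set Pos) {Z : ℕ → Om M → ℂ} (hZ : ∀ n, Bdd inferInstance (Z n))
    (h : ∀ᶠ n in atTop, ‖tl P (Z n)‖ ^ 2 ≤ 4 * (1 / 2) ^ n) :
    ∀ᵐ ω ∂P, Summable fun n => ‖tl (fib P W ω) (Z n)‖ := by
  have hi : ∀ n, Integrable (fun ω => ‖Z n ω‖ ^ 2) P := fun n =>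
    (memLp_two_iff_integrable_sq_norm ((hZ n).memLp 2).1).1 ((hZ n).memLp 2)
  have h1 : ∀ n, ∫ ω, (4 / 3 : ℝ) ^ n * ‖tl (fib P W ω) (Z n)‖ ^ 2 ∂P =
      (4 / 3 : ℝ) ^ n * ‖tl P (Z n)‖ ^ 2 := fun n => by
    simp only [norm_sq_tl (hZ n)]
    rw [integral_const_mul, ← integral_condExp (sg_le W) (f := fun ω => ‖Z n ω‖ ^ 2),
      integral_congr_ae (condExp_ae_eq_integral_condExpKernel (sg_le W) (hi n))]
    rfl
  have h2 := ae_summable (P := P)
    (f := fun n ω => (4 / 3 : ℝ) ^ n * ‖tl (fib P W ω) (Z n)‖ ^ 2) (fun n => by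
      simp only [norm_sq_tl (hZ n)]
      exact (hi n).integral_condExpKernel.const_mul _) (fun n ω => by positivity) (by
      simp only [h1]
      refine ((summable_geometric_of_lt_one (r := 2 / 3) (by norm_num)
        (by norm_num)).mul_left 4).of_norm_bounded_eventually_nat ?_
      filter_upwards [h] with n hn
      rw [Real.norm_of_nonneg (by positivity)]
      calc _ ≤ (4 / 3 : ℝ) ^ n * (4 * (1 / 2) ^ n) := by gcongr
        _ = _ := by rw [mul_left_comm, ← mul_pow]; norm_num)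
  filter_upwards [h2] with ω hω using summable_of_sq (fun n => norm_nonneg _) hω

lemma ae_cyl (hT : TLStmt) (hA : Arr ν P) (hs : Sqs sq) (W0 : Finset Pos) (a : Om M) :
    ∀ᵐ ω ∂P, tl (fib P (Wb (hat Inf col s)) ω) ((cyl W0 a).indicator fun _ => (1 : ℂ)) ∈
      Kz (fun p : ℕ × ℕ => AA _ Lab sq false p.1 - AA _ Lab sq false p.2) atTop ⊓
        Kz (fun n : ℕ => AA _ Lab sq false n - AA _ Lab sq true n) atTop := by
  set W := Wb (hat Inf col s)
  set u : Om M → ℂ := (cyl W0 a).indicator fun _ => (1 : ℂ)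
  have hu : Bdd (sg M W0) u := Bdd.indicator (measurableSet_cyl subset_rfl a)
  have hu1 : ‖tl P u‖ ≤ 1 := norm_tl_le (.of_forall fun ω => by
    by_cases h : ω ∈ cyl W0 a <;> simp [u, h])
  obtain ⟨V, hV, hVP, hVω⟩ := exists_V (P := P) (Lab := Lab) hT W (hu.mono (sg_le _))
  obtain ⟨G, n0, hF, hG⟩ := exists_gap hs ((finite_idx W0).toFinset.image fun i => (ofLex i).1)
  have hv : ∀ j, ‖tl P (V j)‖ ≤ 1 := fun j => by
    rw [hVP]; exact (norm_Pr_le _).trans ((norm_Pr_le _).trans hu1)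
  have hlt : ∀ j ∈ G, ∀ j' ∈ G, ∀ i ∈ G, ∀ i' ∈ G, j < j' → i < i' →
      ⟪tl P (V j), tl P (V j')⟫_ℂ = ⟪tl P (V i), tl P (V i')⟫_ℂ := by
    intro j hj j' hj' i hi i' hi' h h'
    obtain ⟨g, g1, g2, g3⟩ := exists_iso hF hj hj' hi hi' h h'
    have hfix := cmp_fix hA hu g fun x hx i hi => g1 _
      (Finset.mem_image_of_mem _ ((finite_idx W0).mem_toFinset.2 ⟨x, hx, hi⟩))
    simp only [hVP]
    rw [← (cmp (hA.mp_mv (gt_mono g))).inner_map_map, cmp_TT hA, cmp_TT hA, hfix, g2, g3]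
  obtain ⟨γ, hγ, hg⟩ : ∃ γ : ℝ, |γ| ≤ 1 ∧
      ∀ j ∈ G, ∀ j' ∈ G, j ≠ j' → (⟪tl P (V j), tl P (V j')⟫_ℂ).re = γ := by
    have h0 := hG false n0 le_rfl
    have h1 := hG true n0 le_rfl
    have h01 : sq false n0 < sq true n0 := by
      have := (show ((sq false n0 : ℚ) : ℝ) < √2 from hs.side false n0).trans
        (show √2 < ((sq true n0 : ℚ) : ℝ) from hs.side true n0)
      exact_mod_cast this
    refine ⟨(⟪tl P (V (sq false n0)), tl P (V (sq true n0))⟫_ℂ).re, ?_, fun j hj j' hj' h => ?_⟩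
    · exact (Complex.abs_re_le_norm _).trans ((norm_inner_le_norm _ _).trans
        (mul_le_one₀ (hv _) (norm_nonneg _) (hv _)))
    · rcases lt_or_gt_of_ne h with h | h
      · rw [hlt j hj j' hj' _ h0 _ h1 h h01]
      · rw [← hlt j' hj' j hj _ h0 _ h1 h h01, ← inner_conj_symm, Complex.conj_re]
  have key : ∀ (b : Bool) (k : ℕ → ℕ), (∀ n, n ≤ k n) →
      (∀ n, ∀ i < 2 ^ n, ∀ i', sq false (2 ^ n + i) ≠ sq b (2 ^ k n + i')) →
      ∀ᵐ ω ∂P, Summable fun n =>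
        ‖tl (fib P W ω) fun ω' => Zf V sq false n ω' - Zf V sq b (k n) ω'‖ := by
    intro b k hk hne
    refine ae_fib_summable W (fun n => (bdd_Zf hV _ _ _).sub (bdd_Zf hV _ _ _)) ?_
    filter_upwards [eventually_ge_atTop n0] with n hn
    rw [tl_sub ((bdd_Zf hV _ _ _).memLp 2) ((bdd_Zf hV _ _ _).memLp 2), tl_Zf hV, tl_Zf hV]
    have e1 := Nat.lt_two_pow_self (n := n)
    have e2 := Nat.lt_two_pow_self (n := k n)
    have e3 := hk n
    exact block_le (fun j => tl P (V j)) hv hγ hg (hk n)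
      (fun _ _ h => Nat.add_left_cancel (hs.inj _ h)) (fun _ _ h => Nat.add_left_cancel (hs.inj _ h))
      (fun i => hG _ _ (by omega)) (fun i => hG _ _ (by omega)) (hne n)
  filter_upwards [hVω, key false (· + 1) Nat.le_succ fun n i hi i' h => by
      have := hs.inj _ h
      rw [pow_succ] at this
      omega,
    key true id (fun _ => le_rfl) fun n i _ i' h =>
      not_mem_sd_both (hs.side false _) (h ▸ hs.side true _)] with ω e1 e2 e3
  simp only [tl_sub ((bdd_Zf hV _ _ _).memLp 2) ((bdd_Zf hV _ _ _).memLp 2),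
    ← AA_tl hV e1] at e2 e3
  refine ⟨?_, tendsto_zero_iff_norm_tendsto_zero.2 e3.tendsto_atTop_zero⟩
  have hc : CauchySeq fun n => AA (fib P W ω) Lab sq false n (tl _ u) :=
    cauchySeq_of_summable_dist (by simpa only [dist_eq_norm] using e2)
  have := cauchySeq_iff_tendsto_dist_atTop_0.1 hc
  simp only [dist_eq_norm] at this
  exact tendsto_zero_iff_norm_tendsto_zero.2 this

lemma part1 (hT : TLStmt) (hA : Arr ν P) (hs : Sqs sq) :
    ∀ᵐ ω ∂P, LLNp (fib P (Wb (hat Inf col s)) ω) Lab sq := by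
  have h1 : ∀ A ∈ cyls M (cell0 none), ∀ᵐ ω ∂P,
      tl (fib P (Wb (hat Inf col s)) ω) (A.indicator fun _ => (1 : ℂ)) ∈
      Kz (fun p : ℕ × ℕ => AA _ Lab sq false p.1 - AA _ Lab sq false p.2) atTop ⊓
        Kz (fun n : ℕ => AA _ Lab sq false n - AA _ Lab sq true n) atTop := by
    rintro _ ⟨W0, a, -, rfl⟩
    exact ae_cyl hT hA hs W0 a
  filter_upwards [(ae_ball_iff countable_cyls).2 h1] with ω e
  set Q := fib P (Wb (hat Inf col s)) ω
  intro u hu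
  have hb : ∀ b n b' n' (v : Lp ℂ 2 Q),
      ‖(AA Q Lab sq b n - AA Q Lab sq b' n') v‖ ≤ 2 * ‖v‖ := fun b n b' n' v =>
    (norm_sub_le (AA Q Lab sq b n v) (AA Q Lab sq b' n' v)).trans
      (by linarith [norm_AA_le Q Lab sq b n v, norm_AA_le Q Lab sq b' n' v])
  obtain ⟨k1, k2⟩ := L2_le_of_piSystem (sg_le _) isPiSystem_cyls sg_eq_generateFrom univ_mem_cyls
    ((isClosed_Kz _ _ fun p => hb _ _ _ _).inter (isClosed_Kz _ _ fun p => hb _ _ _ _)) e hu
  have hc : CauchySeq fun n => AA _ Lab sq false n u := by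
    rw [cauchySeq_iff_tendsto_dist_atTop_0]
    simp only [dist_eq_norm]
    exact tendsto_zero_iff_norm_tendsto_zero.1 k1
  obtain ⟨v, hv⟩ := cauchySeq_tendsto_of_complete hc
  refine ⟨v, fun b => ?_⟩
  cases b
  · exact hv
  · simpa using hv.sub k2

lemma part2 (hT : TLStmt) (hA : Arr ν P) {f : Om M → ℂ} (hf : Bdd (sg M X0) f)
    (h : ∀ᵐ ω ∂P, ¬ NN (fib P (Wb (hat Inf col s)) ω) Lab sq f) (j : ℚ) :
    Pr P (sg M (Wb (hat Inf col s) ∪ oth Lab none j)) (tl P f) = 0 := by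
  set W := Wb (hat Inf col s)
  have hf0 := hf.mono (sg_le _)
  obtain ⟨V, hV, hVP, hVω⟩ := exists_V (P := P) (Lab := Lab) hT W hf0
  have hconst : ∀ j', ‖Pr P (sg M (W ∪ oth Lab none j')) (tl P f)‖ =
      ‖Pr P (sg M (W ∪ oth Lab none j)) (tl P f)‖ := fun j' => by
    have := cmp_oth (Inf := Inf) (col := col) (s := s) (Lab := Lab) hA
      (OrderIso.addRight (j' - j)) j (tl P f)
    rw [cmp_fix hA hf _ fun x hx i hi => absurd (by rw [show x.2 = 0 from hx]; rfl) hi] at this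
    rw [eq_comm, ← (cmp (hA.mp_mv (gt_mono (OrderIso.addRight (j' - j))))).norm_map, this]
    simp [W]
  have hin : ∀ n, ⟪tl P f, tl P (Zf V sq false n)⟫_ℂ =
      ((‖Pr P (sg M (W ∪ oth Lab none j)) (tl P f)‖ ^ 2 : ℝ) : ℂ) := fun n => by
    have : ∀ j', ⟪tl P f, tl P (V j')⟫_ℂ =
        ((‖Pr P (sg M (W ∪ oth Lab none j)) (tl P f)‖ ^ 2 : ℝ) : ℂ) := fun j' => by
      rw [hVP, TT, inner_Pr_of_mem (sg_le _)
        (hf.mono (sg_mono ((X0_subset_cell0 _).trans subset_union_right))).tl_mem, inner_self_Pr,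
        hconst]
    rw [tl_Zf hV, inner_smul_right, inner_sum]
    simp only [this, Finset.sum_const, Finset.card_range, nsmul_eq_mul]
    push_cast
    field_simp
  have hi : ∀ n, Integrable (fun ω => conj (f ω) * Zf V sq false n ω) P := fun n =>
    (hf0.conj.mul (bdd_Zf hV _ _ _)).integrable
  obtain ⟨C, hC⟩ := hf.2
  have hlim := tendsto_integral_filter_of_norm_le_const (μ := P) (l := atTop)
    (F := fun n ω => ∫ ω', conj (f ω') * Zf V sq false n ω' ∂fib P W ω) (f := fun _ => 0)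
    (.of_forall fun n => (hi n).1.integral_condExpKernel) ⟨C * C, .of_forall fun n => by
      filter_upwards [hVω] with ω e
      have h1 : ‖tl (fib P W ω) f‖ ≤ C := norm_tl_le (.of_forall hC)
      rw [← inner_tl (hf0.memLp 2) ((bdd_Zf hV _ _ _).memLp 2), ← AA_tl hV e]
      exact (norm_inner_le_norm _ _).trans (mul_le_mul h1 ((norm_AA_le _ _ _ _ _ _).trans h1)
        (norm_nonneg _) ((norm_nonneg _).trans h1))⟩ (by
      filter_upwards [hVω, h] with ω e1 e2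
      simpa only [NN, not_not, AA_tl hV e1, inner_tl (hf0.memLp 2) ((bdd_Zf hV _ _ _).memLp 2)]
        using e2)
  have h2 : ∀ n, ∫ ω, ∫ ω', conj (f ω') * Zf V sq false n ω' ∂fib P W ω ∂P =
      ((‖Pr P (sg M (W ∪ oth Lab none j)) (tl P f)‖ ^ 2 : ℝ) : ℂ) := fun n => by
    rw [← hin n, inner_tl (hf0.memLp 2) ((bdd_Zf hV _ _ _).memLp 2),
      ← integral_condExp (sg_le W) (f := fun ω => conj (f ω) * Zf V sq false n ω),
      integral_congr_ae (condExp_ae_eq_integral_condExpKernel (sg_le W) (hi n))]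
    rfl
  simp only [h2, integral_zero, tendsto_const_nhds_iff] at hlim
  simpa using hlim

end LLN

theorem llnStmt (hT : TLStmt) : LLNStmt := fun _ _ _ _ _ _ _ _ _ hA hs =>
  ⟨LLN.part1 hT hA hs, fun _ hF h j => LLN.part2 hT hA hF.comp_xs h j⟩

end Crest.Agent.R69
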