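import Crest.Agent.R69.Cyl

/-! # Row 69: the origin process is independent of the base (`LinkStmt`) -/

set_option autoImplicit false
open MeasureTheory ProbabilityTheory Filter Set Topology Function
open scoped ENNReal InnerProductSpace ComplexConjugate

noncomputable section
namespace Crest.Agent.R69

namespace Link

variable {M : ℕ} {P : Measure (Om M)} {Inf : La → Prop}

/-- orthogonality to the coordinates in `T` -/
def Orth (P : Measure (Om M)) (v : Lp ℂ 2 P) (T : Set Pos) : Prop := Pr P (sg M T) v = 0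

theorem Orth.mono {v : Lp ℂ 2 P} {T T' : Set Pos} (h : Orth P v T) (hT : T' ⊆ T) :
    Orth P v T' := by
  unfold Orth at *
  rw [← Pr_Pr_of_ge (sg_le T') (sg_le T) (L2_sg_mono hT), h, map_zero]

theorem orth_union [IsProbabilityMeasure P] {v : Lp ℂ 2 P} {A B : Set Pos} :
    Orth P v (A ∪ B) ↔ ∀ e, Bdd (sg M A) e → Orth P (Mop P e v) B := by
  unfold Orth
  rw [sg_union, Pr_sup_eq_zero_iff (sg_le A) (sg_le B)]

theorem Orth.mop [IsProbabilityMeasure P] {v : Lp ℂ 2 P} {A T : Set Pos} (h : Orth P v T)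
    {e : Om M → ℂ} (he : Bdd (sg M A) e) (hA : A ⊆ T) : Orth P (Mop P e v) T :=
  orth_union.1 (h.mono (union_subset hA subset_rfl)) e he

theorem mop_mem [IsProbabilityMeasure P] {v : Lp ℂ 2 P} {A B T : Set Pos} {e : Om M → ℂ}
    (he : Bdd (sg M A) e) (hv : v ∈ L2 P (sg M B)) (hA : A ⊆ T) (hB : B ⊆ T) :
    Mop P e v ∈ L2 P (sg M T) :=
  Mop_mem (he.mono (sg_le _)) (he.mono (sg_mono hA)).tl_mem (L2_sg_mono hB hv)

/-- admissible assignments -/
structure Cls0 (Inf : La → Prop) (s : ℕ) (Z : Set II) (η ζ : II → Finset La) : Prop where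
  adm : ∀ x, Adm Inf (ζ x)
  sub : ∀ x ∈ Z, ζ x ⊆ η x
  card : ∀ x ∉ Z, (ζ x).card ≤ s

/-- finitely supported admissible assignments -/
structure Cls (Inf : La → Prop) (s : ℕ) (Z : Set II) (η ζ : II → Finset La) : Prop
    extends Cls0 Inf s Z η ζ where
  fin : {x | ζ x ≠ ∅}.Finite

def Null (P : Measure (Om M)) (Inf : La → Prop) (s : ℕ) (v : Lp ℂ 2 P) (Z : Set II)
    (η : II → Finset La) (E : Set Pos) : Prop :=
  ∀ ζ, Cls Inf s Z η ζ → Orth P v (Wb ζ ∪ E)

theorem Null.inf [IsProbabilityMeasure P] (hI : InfOK Inf) {s : ℕ} {v : Lp ℂ 2 P} {Z : Set II}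
    {η ζ : II → Finset La} {E : Set Pos} (h : Null P Inf s v Z η E) (hζ : Cls0 Inf s Z η ζ) :
    Orth P v (Wb ζ ∪ E) := by
  classical
  refine Pr_sg_eq_zero_of_finite fun W hW => ?_
  refine (h (fun x => if x ∈ idx (W : Set Pos) then ζ x else ∅) ⟨⟨fun x => ?_, fun x hx => ?_,
    fun x hx => ?_⟩, (finite_idx W).subset fun x hx => ?_⟩).mono fun y hy => ?_
  · split_ifs
    · exact hζ.adm x
    · exact adm_empty _
  · split_ifs
    · exact hζ.sub x hx
    · exact Finset.empty_subset _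
  · split_ifs
    · exact hζ.card x hx
    · simp
  · by_contra h'
    exact hx (if_neg h')
  · rcases hW hy with ⟨x, hx⟩ | h'
    · refine Or.inl ⟨x, ?_⟩
      have : x ∈ idx (W : Set Pos) := ⟨y, hy, fun h0 => (hζ.adm x).zero_notMem hI (h0 ▸ hx)⟩
      simpa only [if_pos this] using hx
    · exact Or.inr h'

theorem null_mop [IsProbabilityMeasure P] {s : ℕ} {v : Lp ℂ 2 P} {Z : Set II}
    {η : II → Finset La} {E : Set Pos}
    (h : ∀ e, Bdd (sg M E) e → Null P Inf s (Mop P e v) Z η ∅) : Null P Inf s v Z η E :=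
  fun ζ hζ => by
    rw [union_comm]
    exact orth_union.2 fun e he => (h e he ζ hζ).mono subset_union_left

theorem exists_gap {F : Set II} (hF : F.Finite) {a i : II} (ha : a < i) :
    ∃ a', a ≤ a' ∧ a' < i ∧ ∀ x ∈ F, x < i → x ≤ a' := by
  obtain ⟨a', h1, h2⟩ := exists_max_image (insert a {x ∈ F | x < i}) id
    ((hF.subset (sep_subset _ _)).insert a) (insert_nonempty _ _)
  refine ⟨a', h2 a (mem_insert _ _), ?_, fun x hx hxi => h2 x (mem_insert_of_mem _ ⟨hx, hxi⟩)⟩
  rcases h1 with rfl | h1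
  · exact ha
  · exact h1.2

theorem Adm.shift {D : Finset La} (h : Adm Inf D) {d0 : La} (hd : d0 ∈ D) :
    Adm Inf ((D.erase d0).image (· - d0)) := by
  constructor
  · intro x hx
    obtain ⟨d, hd', rfl⟩ := Finset.mem_image.1 hx
    exact h.2 d (Finset.mem_of_mem_erase hd') d0 hd (Finset.ne_of_mem_erase hd')
  · intro x hx x' hx' hne
    obtain ⟨d, hd1, rfl⟩ := Finset.mem_image.1 hx
    obtain ⟨d', hd2, rfl⟩ := Finset.mem_image.1 hx'
    rw [sub_sub_sub_cancel_right]
    exact h.2 d (Finset.mem_of_mem_erase hd1) d' (Finset.mem_of_mem_erase hd2)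
      fun e => hne (by rw [e])

variable {ν : Measure (Sq M)} [IsProbabilityMeasure P]

theorem red (h1 : MV1Stmt) (hA : Arr ν P) (hI : InfOK Inf) {s : ℕ} {v : Lp ℂ 2 P} {Z : Set II}
    (hZ : Z.Finite) {η : II → Finset La} {i : II} {Pat : Set Pos}
    (hPat : ∀ y y' : Pos, (∀ a, i < a → y'.2 a = y.2 a) → y ∈ Pat → y' ∈ Pat)
    (hv : v ∈ L2 P (sg M Pat)) (hi : i ∈ Z) (hD : Adm Inf (η i)) (hc : (η i).card ≤ s + 1)
    (h : Null P Inf s v Z (update η i ∅) (Pat ∩ {y | y.2 i ∈ η i})) : Null P Inf s v Z η ∅ := by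
  classical
  obtain ⟨col, hcol⟩ := exists_Dn
  intro ζ hζ
  let ζ' : II → Finset La := fun x => if x = i then ∅ else if x ∈ Z ∨ ζ x ≠ ∅ then ζ x else
    if Adm Inf (col (ofLex x).2) ∧ (col (ofLex x).2).card ≤ s then col (ofLex x).2 else ∅
  have hζ' : Cls0 Inf s Z (update η i ∅) ζ' := by
    refine ⟨fun x => ?_, fun x hx => ?_, fun x hx => ?_⟩
    · simp only [ζ']
      split_ifs with a b c
      exacts [adm_empty _, hζ.adm x, c.1, adm_empty _]
    · simp only [ζ']
      by_cases a : x = i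
      · rw [if_pos a]; exact Finset.empty_subset _
      · rw [if_neg a, if_pos (Or.inl hx), update_of_ne a]; exact hζ.sub x hx
    · simp only [ζ']
      split_ifs with a b c
      exacts [by simp, hζ.card x hx, c.2, by simp]
  let T : Finset La → Set Pos := fun D1 =>
    Wb ζ' ∪ {y | y.2 i ∈ η i ∧ (y.2 i ∈ D1 → y ∈ Pat)}
  have step : ∀ (D1 : Finset La) (d0 : La), d0 ∈ η i → Orth P v (T (insert d0 D1)) →
      Orth P v (T D1) := by
    intro D1 d0 hd0 ho
    have ci := h1 M ν P hA i d0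
      {z | ¬ (z ∈ Z ∨ ζ z ≠ ∅) ∧ col (ofLex z).2 = ((η i).erase d0).image (· - d0)}
      (fun a ha => by
        obtain ⟨a', b1, b2, b3⟩ := exists_gap (hZ.union hζ.fin) ha
        obtain ⟨z, c1, c2, -, -, c5⟩ := hcol.exists_below (((η i).erase d0).image (· - d0)) b2
        exact ⟨z, ⟨fun hz => absurd (b3 z hz c2) (not_le.2 c1), c5⟩, b1.trans_lt c1, c2⟩)
      {y | y.2 i = d0} ((Pat ∩ {y | y.2 i = d0}) ∪ Wb ζ')
      (Pat ∪ Wb ζ' ∪ {y | y.2 i ∈ (η i).erase d0})
      (union_subset (fun y hy => Or.inl (Or.inl hy.1)) fun y hy => Or.inl (Or.inr hy))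
      (fun x hx => hx) (by
        rintro z ⟨hz1, hz2⟩ hzi y ((hy | ⟨x, hx⟩) | hy) hyz y' - e1 e2 e3
        · exact Or.inl ⟨hPat y y' (fun a ha => e3 a ha.ne' (hzi.trans ha).ne') hy, e1⟩
        · refine Or.inr ⟨x, ?_⟩
          rw [e3 x]
          · exact hx
          · rintro rfl; simp [ζ'] at hx
          · rintro rfl; exact (hζ'.adm x).zero_notMem hI (hyz ▸ hx)
        · refine Or.inr ⟨z, ?_⟩
          have : ζ' z = ((η i).erase d0).image (· - d0) := by
            simp only [ζ']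
            rw [if_neg hzi.ne, if_neg hz1, hz2, if_pos]
            refine ⟨Adm.shift hD hd0, Finset.card_image_le.trans ?_⟩
            rw [Finset.card_erase_of_mem hd0]; omega
          rw [this, e2]
          exact Finset.mem_image_of_mem _ hy)
    have g := ci.graphoid (T := sg M (T (insert d0 D1))) (sg_le _) (sg_le _) (sg_le _)
      (L2_sg_mono (union_subset (fun y hy => Or.inr ⟨by rw [hy.2]; exact hd0, fun _ => hy.1⟩)
        subset_union_left))
      (L2_sg_mono (union_subset (fun y hy => Or.inl (Or.inr hy)) fun y hy => by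
        by_cases e : y.2 i = d0
        · exact Or.inl (Or.inl (hy.2 (by rw [e]; exact Finset.mem_insert_self _ _)))
        · exact Or.inr (Finset.mem_erase.2 ⟨e, hy.1⟩)))
      v (L2_sg_mono (fun y hy => Or.inl (Or.inl hy)) hv)
    rw [← sg_union, ho] at g
    refine Orth.mono g ?_
    rintro y (hy | hy)
    · exact Or.inl (Or.inl hy)
    · by_cases e : y.2 i = d0
      · exact Or.inr e
      · exact Or.inl (Or.inr ⟨hy.1, fun h' => hy.2 ((Finset.mem_insert.1 h').resolve_left e)⟩)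
  have all : ∀ D1 : Finset La, D1 ⊆ η i → Orth P v (T D1) → Orth P v (T ∅) := by
    intro D1
    induction D1 using Finset.induction_on with
    | empty => exact fun _ h => h
    | insert d0 D1 _ ih =>
      exact fun hs ho => ih ((Finset.subset_insert _ _).trans hs)
        (step D1 d0 (hs (Finset.mem_insert_self _ _)) ho)
  refine (all (η i) subset_rfl ((h.inf hI hζ').mono
    (union_subset_union_right _ fun y hy => ⟨hy.2 hy.1, hy.1⟩))).mono ?_
  rintro y (⟨x, hx⟩ | hy)
  · by_cases e : x = i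
    · subst e
      exact Or.inr ⟨hζ.sub x hi hx, by simp⟩
    · refine Or.inl ⟨x, ?_⟩
      simp only [ζ']
      rwa [if_neg e, if_pos (Or.inr (Finset.ne_empty_of_mem hx))]
  · exact hy.elim

def P0 (p : II) : Set Pos := {y | ∀ x, p ≤ x → y.2 x = 0}
def Pp (p : II) (D : Finset La) : Set Pos := {y | y.2 p ∈ D ∧ ∀ x, p < x → y.2 x = 0}

/-- the inductive statement; `t` bounds the sizes on `Z` -/
def IS (P : Measure (Om M)) (Inf : La → Prop) (s0 s t : ℕ) : Prop :=
  ∀ (p : II) (D : Finset La) (Z : Set II) (η : II → Finset La) (v : Lp ℂ 2 P), Adm Inf D →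
    D.card ≤ s0 → Z.Finite → (∀ x ∈ Z, x < p ∧ Adm Inf (η x) ∧ (η x).card ≤ t) →
    v ∈ L2 P (sg M (P0 p)) → Null P Inf s v Z η ∅ →
    Null P Inf s v (insert p Z) (update η p ∅) (Pp p D)

theorem cls_empty (s : ℕ) (Z : Set II) (η : II → Finset La) : Cls Inf s Z η fun _ => ∅ :=
  ⟨⟨fun _ => adm_empty _, fun _ _ => Finset.empty_subset _, fun _ _ => by simp⟩, by simp⟩

theorem Wb_empty {ζ : II → Finset La} (h : ∀ x, ζ x = ∅) : Wb ζ = ∅ :=
  eq_empty_of_forall_notMem fun y ⟨x, hx⟩ => by simp [h] at hx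

theorem is_zero (h2 : FubStmt) (hA : Arr ν P) {s0 : ℕ} (hS : SI P Inf s0) : IS P Inf s0 0 0 := by
  intro p D Z η v hD hc _ hZ hv h ζ hζ
  have e : ∀ x, ζ x = ∅ := fun x => by
    by_cases a : x = p
    · have := hζ.sub x (Or.inl a)
      rw [a, update_self] at this
      rw [a]; exact Finset.subset_empty.1 this
    by_cases b : x ∈ Z
    · have := hζ.sub x (Or.inr b)
      rw [update_of_ne a, Finset.card_eq_zero.1 (Nat.le_zero.1 (hZ x b).2.2)] at this
      exact Finset.subset_empty.1 this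
    · exact Finset.card_eq_zero.1 (Nat.le_zero.1 (hζ.card x fun h => h.elim a b))
  have h0 := h _ (cls_empty 0 Z η)
  unfold Orth at h0 ⊢
  rw [Wb_empty fun _ => rfl, union_empty, sg_empty] at h0
  have ti : Indep (sg M (P0 p)) (sg M (Pp p D)) P := by
    refine h2 M ν P hA _ _ X0 (One p D) (hS p D hD hc) fun W₀ W₁ a b => ⟨p, fun h =>
      ⟨fun x hx => ?_, fun x hx => ⟨x.2 p, (b hx).1, ?_⟩⟩⟩
    · ext1 i
      rw [clp_snd_apply]
      split_ifs with c
      · exact a hx i c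
      · rfl
    · ext1 i
      rw [clp_snd_apply]
      rcases lt_trichotomy i p with c | rfl | c
      · rw [if_neg (not_le.2 c), Finsupp.single_eq_of_ne c.ne]
      · rw [if_pos le_rfl, Finsupp.single_eq_same]
      · rw [if_pos c.le, Finsupp.single_eq_of_ne c.ne', (b hx).2 i c]
  rw [Wb_empty e, empty_union, CI.of_indep ti (sg_le _) (sg_le _) v hv, h0]

theorem low (h1 : MV1Stmt) (hA : Arr ν P) (hI : InfOK Inf) {s0 s : ℕ} (h : IS P Inf s0 s s) :
    IS P Inf s0 s (s + 1) := by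
  intro p D Z η v hD hc hZf hZ hv hn
  induction hr : {x ∈ Z | (η x).card = s + 1}.ncard using Nat.strong_induction_on
    generalizing η v with
  | _ r ih =>
  rcases {x ∈ Z | (η x).card = s + 1}.eq_empty_or_nonempty with h0 | ⟨i, hiZ, hi⟩
  · refine h p D Z η v hD hc hZf (fun x hx => ⟨(hZ x hx).1, (hZ x hx).2.1, ?_⟩) hv hn
    have h1 := (hZ x hx).2.2
    have h2 : (η x).card ≠ s + 1 := fun e => (eq_empty_iff_forall_notMem.1 h0) x ⟨hx, e⟩
    omega
  have hip := (hZ i hiZ).1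
  have eη : update η p ∅ i = η i := update_of_ne hip.ne _ _
  refine null_mop fun e he => ?_
  refine red h1 hA hI (hZf.insert p) (i := i) (Pat := P0 p ∪ Pp p D) ?_
    (mop_mem he hv subset_union_right subset_union_left) (Or.inr hiZ)
    (by rw [eη]; exact (hZ i hiZ).2.1) (by rw [eη]; exact hi.le) ?_
  · rintro y y' hy (a | a)
    · exact Or.inl fun x hx => by rw [hy x (hip.trans_le hx), a x hx]
    · exact Or.inr ⟨by rw [hy p hip]; exact a.1, fun x hx => by rw [hy x (hip.trans hx), a.2 x hx]⟩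
  intro ζ hζ
  rw [eη]
  refine Orth.mono (T := (P0 p ∩ {y | y.2 i ∈ η i}) ∪ (Wb ζ ∪ Pp p D)) ?_ ?_
  swap
  · rintro y (hy | ⟨hy | hy, hy'⟩)
    exacts [Or.inr (Or.inl hy), Or.inl ⟨hy, hy'⟩, Or.inr (Or.inr hy)]
  refine orth_union.2 fun γ hγ => ?_
  rw [Mop_comm (hγ.mono (sg_le _)) (he.mono (sg_le _))]
  refine Orth.mop ?_ he subset_union_right
  rw [update_comm hip.ne'] at hζ
  refine ih _ ?_ (update η i ∅) _ (fun x hx => ?_)
    (mop_mem hγ hv inter_subset_left subset_rfl) (fun ζ' hζ' => ?_) rfl ζ hζ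
  · rw [← hr]
    refine ncard_lt_ncard ⟨fun x hx => ⟨hx.1, ?_⟩, fun hs => ?_⟩ (hZf.subset (sep_subset _ _))
    · have h3 := hx.2
      by_cases a : x = i
      · rw [a]; exact hi
      · rwa [update_of_ne a] at h3
    · have := (hs ⟨hiZ, hi⟩).2
      simp at this
  · by_cases a : x = i
    · rw [a, update_self]; exact ⟨hip, adm_empty _, by simp⟩
    · rw [update_of_ne a]; exact hZ x hx
  · have hi0 : ζ' i = ∅ := by
      have := hζ'.sub i hiZ
      rw [update_self] at this
      exact Finset.subset_empty.1 this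
    have := hn (update ζ' i (η i)) ⟨⟨fun x => ?_, fun x hx => ?_, fun x hx => ?_⟩,
      (hζ'.fin.insert i).subset fun x hx => ?_⟩
    · refine orth_union.1 (this.mono ?_) γ hγ
      rintro y (hy | ⟨x, hx⟩ | hy)
      · exact Or.inl ⟨i, by rw [update_self]; exact hy.2⟩
      · refine Or.inl ⟨x, ?_⟩
        rwa [update_of_ne]
        rintro rfl
        simp [hi0] at hx
      · exact hy.elim
    · by_cases a : x = i
      · rw [a, update_self]; exact (hZ i hiZ).2.1
      · rw [update_of_ne a]; exact hζ'.adm x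
    · by_cases a : x = i
      · rw [a, update_self]
      · have := hζ'.sub x hx
        rw [update_of_ne a] at this ⊢
        exact this
    · rw [update_of_ne (fun a => hx (by rw [a]; exact hiZ))]; exact hζ'.card x hx
    · by_cases a : x = i
      · exact Or.inl a
      · exact Or.inr (by simpa only [mem_ofPred_eq, update_of_ne a] using hx)

theorem up (h1 : MV1Stmt) (hA : Arr ν P) (hI : InfOK Inf) {s0 s : ℕ} (hs : s + 1 ≤ s0)
    (h : IS P Inf s0 s (s + 1)) {U : Set II} (hU : IsUpperSet U) {v : Lp ℂ 2 P}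
    (hv : v ∈ L2 P (sg M {y | ∀ x ∈ U, y.2 x = 0})) {Z : Set II} (hZf : Z.Finite)
    {η : II → Finset La} (hZ : ∀ x ∈ Z, x ∉ U ∧ (η x).card ≤ s + 1)
    (hb : ∀ ζ, Cls Inf (s + 1) Z η ζ → (∀ x ∈ U, (ζ x).card ≠ s + 1) → Orth P v (Wb ζ)) :
    Null P Inf (s + 1) v Z η ∅ := by
  intro ζ hζ
  induction hr : {x ∈ U | (ζ x).card = s + 1}.ncard using Nat.strong_induction_on
    generalizing ζ with
  | _ r ih =>
  have hfin : {x ∈ U | (ζ x).card = s + 1}.Finite := hζ.fin.subset fun x hx e => by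
    have := hx.2
    simp [e] at this
  have hle : ∀ x, (ζ x).card ≤ s + 1 := fun x => by
    by_cases a : x ∈ Z
    · exact (Finset.card_le_card (hζ.sub x a)).trans (hZ x a).2
    · exact hζ.card x a
  rcases {x ∈ U | (ζ x).card = s + 1}.eq_empty_or_nonempty with h0 | hne
  · rw [union_empty]
    exact hb ζ hζ fun x hx e => (eq_empty_iff_forall_notMem.1 h0) x ⟨hx, e⟩
  obtain ⟨i, ⟨hiU, hi⟩, hmax⟩ := exists_max_image _ id hfin hne
  have hZi : ∀ x ∈ Z ∪ {x | ζ x ≠ ∅ ∧ x < i}, x < i := by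
    rintro x (hx | hx)
    · exact not_le.1 fun a => (hZ x hx).1 (hU a hiU)
    · exact hx.2
  have hZ'f : (Z ∪ {x | ζ x ≠ ∅ ∧ x < i}).Finite := hZf.union (hζ.fin.subset fun x hx => hx.1)
  have l := h i (ζ i) _ ζ v (hζ.adm i) (hi.le.trans hs) hZ'f
    (fun x hx => ⟨hZi x hx, hζ.adm x, hle x⟩)
    (L2_sg_mono (S := {y | ∀ x ∈ U, y.2 x = 0}) (T := P0 i)
      (fun y hy x hx => hy x (hU hx hiU)) hv) (fun ζ3 h3 => by
      refine ih _ ?_ ζ3 ⟨⟨h3.adm, fun x hx => (h3.sub x (Or.inl hx)).trans (hζ.sub x hx),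
        fun x _ => ?_⟩, h3.fin⟩ rfl
      · rw [← hr]
        have key : ∀ x, (ζ3 x).card = s + 1 → x ∈ Z ∪ {x | ζ x ≠ ∅ ∧ x < i} := fun x hx => by
          by_contra a
          have := h3.card x a
          omega
        refine ncard_lt_ncard ⟨fun x hx => ⟨hx.1, le_antisymm (hle x) ?_⟩, fun hs => ?_⟩ hfin
        · exact hx.2.ge.trans (Finset.card_le_card (h3.sub x (key x hx.2)))
        · exact lt_irrefl _ (hZi i (key i (hs ⟨hiU, hi⟩).2))
      · by_cases a : x ∈ Z ∪ {x | ζ x ≠ ∅ ∧ x < i}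
        · exact (Finset.card_le_card (h3.sub x a)).trans (hle x)
        · exact (h3.card x a).trans (Nat.le_succ s))
  refine red h1 hA hI (hZ'f.insert i) (i := i) (η := ζ) (Pat := {y | ∀ x, i < x → y.2 x = 0})
    (fun y y' e hy x hx => by rw [e x hx, hy x hx])
    (L2_sg_mono (S := {y | ∀ x ∈ U, y.2 x = 0}) (T := {y | ∀ x, i < x → y.2 x = 0})
      (fun y hy x hx => hy x (hU hx.le hiU)) hv) (Or.inl rfl) (hζ.adm i) hi.le
    (fun ζ2 h2 => (l ζ2 h2).mono (union_subset_union_right _ fun y hy => ⟨hy.2, hy.1⟩)) ζ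
    ⟨⟨hζ.adm, fun _ _ => subset_rfl, fun x hx => ?_⟩, hζ.fin⟩
  rcases lt_trichotomy x i with a | a | a
  · have : ζ x = ∅ := by
      by_contra b
      exact hx (Or.inr (Or.inr ⟨b, a⟩))
    simp [this]
  · exact absurd (Or.inl a) hx
  · have h3 := hle x
    have h4 : (ζ x).card ≠ s + 1 := fun e => absurd (hmax x ⟨hU a.le hiU, e⟩) (not_le.2 a)
    omega

theorem is_succ (h1 : MV1Stmt) (hA : Arr ν P) (hI : InfOK Inf) {s0 s : ℕ} (hs : s + 1 ≤ s0)
    (h : IS P Inf s0 s (s + 1)) : IS P Inf s0 (s + 1) (s + 1) := by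
  intro p D Z η v hD hc hZf hZ hv hn
  refine null_mop fun e he => ?_
  have hcard : ∀ x ∈ insert p Z, x ∉ Ioi p ∧ (update η p ∅ x).card ≤ s + 1 := by
    rintro x (rfl | hx)
    · simp
    · rw [update_of_ne (hZ x hx).1.ne]
      exact ⟨not_lt.2 (hZ x hx).1.le, (hZ x hx).2.2⟩
  refine up h1 hA hI hs h (isUpperSet_Ioi p)
    (mop_mem he hv (fun y hy => hy.2) fun y hy x hx => hy x (le_of_lt hx)) (hZf.insert p) hcard
    fun ζ hζ hb => ?_
  have hle : ∀ x, (ζ x).card ≤ s + 1 := fun x => by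
    by_cases a : x ∈ insert p Z
    · exact (Finset.card_le_card (hζ.sub x a)).trans (hcard x a).2
    · exact hζ.card x a
  have hp0 : ζ p = ∅ := by
    have := hζ.sub p (Or.inl rfl)
    rw [update_self] at this
    exact Finset.subset_empty.1 this
  have hfin : {x | (ζ x).card = s + 1}.Finite := hζ.fin.subset fun x hx e => by
    simp [e] at hx
  have l := h p D (Z ∪ {x | (ζ x).card = s + 1}) ζ v hD hc (hZf.union hfin)
    (fun x hx => ⟨?_, hζ.adm x, hle x⟩) hv (fun ζ3 h3 => hn ζ3 ⟨⟨h3.adm, fun x hx => ?_,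
      fun x _ => ?_⟩, h3.fin⟩) ζ ⟨⟨hζ.adm, fun x hx => ?_, fun x hx => ?_⟩, hζ.fin⟩
  · rw [union_comm] at l
    exact orth_union.1 l e he
  · rcases hx with hx | hx
    · exact (hZ x hx).1
    · rcases lt_trichotomy x p with a | a | a
      · exact a
      · rw [a] at hx; simp [hp0] at hx
      · exact absurd hx (hb x a)
  · have := hζ.sub x (Or.inr hx)
    rw [update_of_ne (hZ x hx).1.ne] at this
    exact (h3.sub x (Or.inl hx)).trans this
  · by_cases a : x ∈ Z ∪ {x | (ζ x).card = s + 1}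
    · exact (Finset.card_le_card (h3.sub x a)).trans (hle x)
    · exact (h3.card x a).trans (Nat.le_succ s)
  · by_cases a : x = p
    · rw [a, hp0]; exact Finset.empty_subset _
    · rw [update_of_ne a]
  · have h3 := hle x
    have h4 : (ζ x).card ≠ s + 1 := fun e => hx (Or.inr (Or.inr e))
    omega

end Link

open Link

theorem linkStmt (h1 : MV1Stmt) (h2 : FubStmt) : LinkStmt := by
  intro M ν P Inf hA hI s0 hS η hη
  have := hA.prob
  have hIS : ∀ s, s ≤ s0 → IS P Inf s0 s s := by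
    intro s
    induction s with
    | zero => exact fun _ => is_zero h2 hA hS
    | succ s ih => exact fun hs => is_succ h1 hA hI hs (low h1 hA hI (ih (by omega)))
  refine indep_of_Pr_eq_zero (sg_le _) (sg_le _) fun u hu h0 => ?_
  have hN : ∀ s, s ≤ s0 → Null P Inf s (tl P u) ∅ η ∅ := by
    intro s
    induction s with
    | zero =>
      intro _ ζ hζ
      unfold Orth
      rw [Wb_empty fun x => Finset.card_eq_zero.1 (Nat.le_zero.1 (hζ.card x (notMem_empty x))),
        union_empty, sg_empty, Pr_bot, integral_congr_ae (hu.mono (sg_le _)).coe_tl, h0, tl_zero]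
    | succ s ih =>
      intro hs
      refine up h1 hA hI hs (low h1 hA hI (hIS s (by omega))) isUpperSet_univ
        (L2_sg_mono (S := X0) (T := {y | ∀ x ∈ (univ : Set II), y.2 x = 0})
          (fun y hy x _ => by rw [show y.2 = 0 from hy]; rfl) hu.tl_mem) finite_empty
        (fun x hx => hx.elim) fun ζ hζ hb => ?_
      refine (ih (by omega) ζ ⟨⟨hζ.adm, hζ.sub, fun x hx => ?_⟩, hζ.fin⟩).mono subset_union_left
      have h3 := hζ.card x hx
      have h4 := hb x trivial
      omega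
  exact ((hN s0 le_rfl).inf hI ⟨fun x => (hη x).1, fun x hx => hx.elim,
    fun x _ => (hη x).2⟩).mono subset_union_left

end Crest.Agent.R69
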