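import Crest.Agent.R69.CI

/-! # Row 69: `PairStmt` from `GridStmt` -/

set_option autoImplicit false
open MeasureTheory ProbabilityTheory Filter Set Topology
open scoped ENNReal InnerProductSpace ComplexConjugate

noncomputable section
namespace Crest.Agent.R69

namespace Pair

variable {Ω : Type} {a b : MeasurableSpace Ω} {m0 : MeasurableSpace Ω} {Q : Measure Ω}
  {n d : Fin 3 → Fin 3 → MeasurableSpace Ω}

/-- three distinct indices -/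
structure Tr (a0 a1 a2 : Fin 3) : Prop where
  h01 : a0 ≠ a1
  h02 : a0 ≠ a2
  h12 : a1 ≠ a2

theorem Tr.swap12 {a0 a1 a2 : Fin 3} (h : Tr a0 a1 a2) : Tr a0 a2 a1 := ⟨h.h02, h.h01, h.h12.symm⟩
theorem Tr.swap01 {a0 a1 a2 : Fin 3} (h : Tr a0 a1 a2) : Tr a1 a0 a2 := ⟨h.h01.symm, h.h12, h.h02⟩

theorem exists_tr (a0 : Fin 3) : ∃ a1 a2, Tr a0 a1 a2 := by
  have : ∀ a0 : Fin 3, ∃ a1 a2 : Fin 3, a0 ≠ a1 ∧ a0 ≠ a2 ∧ a1 ≠ a2 := by decide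
  obtain ⟨a1, a2, h1, h2, h3⟩ := this a0
  exact ⟨a1, a2, h1, h2, h3⟩

theorem Tr.iSup_ne {a0 a1 a2 : Fin 3} (h : Tr a0 a1 a2) (f : Fin 3 → MeasurableSpace Ω) :
    ⨆ (x : Fin 3) (_ : x ≠ a0), f x = f a1 ⊔ f a2 := by
  refine le_antisymm (iSup₂_le fun x hx => ?_)
    (sup_le (le_iSup₂_of_le a1 h.h01.symm le_rfl) (le_iSup₂_of_le a2 h.h02.symm le_rfl))
  have : x = a1 ∨ x = a2 := by
    obtain ⟨h1, h2, h3⟩ := h
    omega
  rcases this with rfl | rfl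
  · exact le_sup_left
  · exact le_sup_right

abbrev col (n : Fin 3 → Fin 3 → MeasurableSpace Ω) (α : Fin 3) : MeasurableSpace Ω := ⨆ β, n α β
abbrev rows (n : Fin 3 → Fin 3 → MeasurableSpace Ω) (B : Finset (Fin 3)) : MeasurableSpace Ω :=
  ⨆ β ∈ B, ⨆ α, n α β
abbrev FF (n : Fin 3 → Fin 3 → MeasurableSpace Ω) (α : Fin 3) (B : Finset (Fin 3)) :
    MeasurableSpace Ω := ⨆ β ∈ B, n α β

theorem col_le (h : Grid Q n) (α : Fin 3) : col n α ≤ m0 := iSup_le fun _ => h.le _ _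
theorem rows_le (h : Grid Q n) (B : Finset (Fin 3)) : rows n B ≤ m0 :=
  iSup₂_le fun _ _ => iSup_le fun _ => h.le _ _
theorem FF_le_col (α : Fin 3) (B : Finset (Fin 3)) : FF n α B ≤ col n α :=
  iSup₂_le fun β _ => le_iSup (n α) β
theorem FF_le_rows (α : Fin 3) (B : Finset (Fin 3)) : FF n α B ≤ rows n B :=
  iSup₂_mono fun β _ => le_iSup (fun α => n α β) α
theorem FF_le (h : Grid Q n) (α : Fin 3) (B : Finset (Fin 3)) : FF n α B ≤ m0 :=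
  (FF_le_col α B).trans (col_le h α)
theorem cell_le_col (α β : Fin 3) : n α β ≤ col n α := le_iSup (n α) β

theorem Pr_rows (h : Grid Q n) {α : Fin 3} (B : Finset (Fin 3)) {x : Lp ℂ 2 Q}
    (hx : x ∈ L2 Q (col n α)) : Pr Q (rows n B) x = Pr Q (FF n α B) x := by
  obtain ⟨α', -, h', -, -⟩ := exists_tr α
  exact (h.h1 α α' h' B).mono_right (sup_le (rows_le h B) (col_le h α')) (rows_le h B)
    (L2_mono (FF_le_rows α B)) (L2_mono le_sup_left) x hx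

theorem Pr_rows_mem (h : Grid Q n) {α : Fin 3} (B : Finset (Fin 3)) {x : Lp ℂ 2 Q}
    (hx : x ∈ L2 Q (col n α)) : Pr Q (rows n B) x ∈ L2 Q (col n α) := by
  rw [Pr_rows h B hx]; exact L2_mono (FF_le_col α B) (Pr_mem x)

theorem FF_one (α β : Fin 3) : FF n α {β} = n α β := by simp [FF]
theorem FF_two (α β β' : Fin 3) : FF n α {β, β'} = n α β ⊔ n α β' := by
  simp only [FF, Finset.iSup_insert, Finset.iSup_singleton]

variable [IsProbabilityMeasure Q]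

/-- pair-centrality -/
theorem pc (h : Grid Q n) {a0 a1 a2 : Fin 3} (t : Tr a0 a1 a2) (B : Finset (Fin 3))
    {x Y : Lp ℂ 2 Q} {z : Ω → ℂ} (hx : x ∈ L2 Q (col n a0)) (hY : Y ∈ L2 Q (col n a1))
    (hz : Bdd (col n a2) z) :
    ⟪Mop Q z Y, Pr Q (rows n B) x⟫_ℂ = ⟪Mop Q z (Pr Q (rows n B) Y), x⟫_ℂ := by
  have hS : rows n B ⊔ col n a2 ≤ m0 := sup_le (rows_le h B) (col_le h a2)
  have hz0 := hz.mono (col_le h a2)
  have e1 : Pr Q (rows n B ⊔ col n a2) x = Pr Q (rows n B) x :=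
    (h.h1 a0 a2 t.h02 B x hx).trans (Pr_rows h B hx).symm
  have e2 : Pr Q (rows n B ⊔ col n a2) Y = Pr Q (rows n B) Y :=
    (h.h1 a1 a2 t.h12 B Y hY).trans (Pr_rows h B hY).symm
  have m1 : Mop Q (fun ω => conj (z ω)) (Pr Q (rows n B) x) ∈ L2 Q (rows n B ⊔ col n a2) :=
    Mop_mem hz0.conj (hz.conj.mono le_sup_right).tl_mem (L2_mono le_sup_left (Pr_mem x))
  have m2 : Mop Q z (Pr Q (rows n B) Y) ∈ L2 Q (rows n B ⊔ col n a2) :=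
    Mop_mem hz0 (hz.mono le_sup_right).tl_mem (L2_mono le_sup_left (Pr_mem Y))
  rw [inner_Mop_left hz0, ← inner_Pr_of_mem' hS m1, e2, ← inner_Pr_of_mem hS m2, e1,
    inner_Mop_left hz0]

theorem move (h : Grid Q n) {a1 : Fin 3} (B : Finset (Fin 3)) {y : Ω → ℂ}
    (hy : Bdd (col n a1) y) : ∃ y', Bdd (col n a1) y' ∧ ∀ a0 a2, Tr a0 a1 a2 →
      ∀ x ∈ L2 Q (col n a0), ∀ z, Bdd (col n a2) z →
        ⟪tl Q fun ω => y ω * z ω, Pr Q (rows n B) x⟫_ℂ = ⟪tl Q fun ω => y' ω * z ω, x⟫_ℂ ∧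
        ⟪tl Q fun ω => z ω * y ω, Pr Q (rows n B) x⟫_ℂ = ⟪tl Q fun ω => z ω * y' ω, x⟫_ℂ := by
  have hy0 := hy.mono (col_le h a1)
  obtain ⟨y', h1, h2⟩ := exists_bdd_Pr (Q := Q) (FF_le h a1 B) hy0
  refine ⟨y', h1.mono (FF_le_col a1 B), fun a0 a2 t x hx z hz => ?_⟩
  have hz0 := hz.mono (col_le h a2)
  have := pc h t B hx hy.tl_mem hz
  rw [Pr_rows h B hy.tl_mem, h2, Mop_tl hz0 (hy0.memLp 2),
    Mop_tl hz0 ((h1.mono (FF_le h a1 B)).memLp 2)] at this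
  exact ⟨by simpa only [mul_comm] using this, this⟩

theorem PP_comm (h : Grid Q n) {a0 a1 a2 : Fin 3} (t : Tr a0 a1 a2) (B B' : Finset (Fin 3))
    {x : Lp ℂ 2 Q} (hx : x ∈ L2 Q (col n a0)) :
    Pr Q (col n a1 ⊔ col n a2) (Pr Q (rows n B) (Pr Q (rows n B') x)) =
      Pr Q (col n a1 ⊔ col n a2) (Pr Q (rows n B') (Pr Q (rows n B) x)) := by
  rw [← sub_eq_zero, ← map_sub]
  refine Pr_sup_eq_zero (col_le h a1) (col_le h a2) fun y z hy hz => ?_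
  obtain ⟨y', hy', e1⟩ := move h B hy
  obtain ⟨z', hz', e2⟩ := move h B' hz
  rw [inner_sub_right, (e1 a0 a2 t _ (Pr_rows_mem h B' hx) z hz).1,
    (e2 a0 a1 t.swap12 _ hx y' hy').2, (e2 a0 a1 t.swap12 _ (Pr_rows_mem h B hx) y hy).2,
    (e1 a0 a2 t _ hx z' hz').1, sub_self]

theorem PP_zero (h : Grid Q n) {a0 a1 a2 : Fin 3} (t : Tr a0 a1 a2) (B : Finset (Fin 3))
    {x : Lp ℂ 2 Q} (hx : x ∈ L2 Q (col n a0)) (h0 : Pr Q (col n a1 ⊔ col n a2) x = 0) :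
    Pr Q (col n a1 ⊔ col n a2) (Pr Q (rows n B) x) = 0 := by
  refine Pr_sup_eq_zero (col_le h a1) (col_le h a2) fun y z hy hz => ?_
  obtain ⟨y', hy', e1⟩ := move h B hy
  rw [(e1 a0 a2 t _ hx z hz).1]
  exact (Pr_eq_zero_iff (sup_le (col_le h a1) (col_le h a2))).1 h0 _
    ((hy'.mono le_sup_left).mul (hz.mono le_sup_right)).tl_mem

omit [IsProbabilityMeasure Q] in
theorem Bo_eq (h : Grid Q n) {α : Fin 3} (b0 b1 b2 : Fin 3) {x : Lp ℂ 2 Q}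
    (hx : x ∈ L2 Q (col n α)) :
    RR Q (n α b0) (n α b1) (n α b2) x = Pr Q (rows n {b0}) (Pr Q (rows n {b1, b2}) x) := by
  rw [Pr_rows h _ (Pr_rows_mem h _ hx), Pr_rows h _ hx, FF_one, FF_two, RR_apply]

omit [IsProbabilityMeasure Q] in
theorem PP_eq (h : Grid Q n) (a0 a1 a2 β : Fin 3) {x : Lp ℂ 2 Q} (hx : x ∈ L2 Q (n a0 β)) :
    Pr Q (n a1 β ⊔ n a2 β) x = Pr Q (col n a1 ⊔ col n a2) x := by
  have := Pr_rows h.transpose (α := β) {a1, a2} (L2_mono (le_iSup (fun α => n α β) a0) hx)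
  rw [FF_two] at this
  rw [← this]
  congr 2
  simp only [rows, col, Finset.iSup_insert, Finset.iSup_singleton]

omit [IsProbabilityMeasure Q] in
theorem Pr_rows_cell (h : Grid Q n) {α β : Fin 3} {x : Lp ℂ 2 Q} (hx : x ∈ L2 Q (n α β)) :
    Pr Q (rows n {β}) x = x :=
  Pr_eq_self (rows_le h _) (L2_mono ((FF_one α β).ge.trans (FF_le_rows α _)) hx)

theorem ABB (h : Grid Q n) {a0 a1 a2 : Fin 3} (t : Tr a0 a1 a2) (b0 b1 b2 : Fin 3)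
    {x : Lp ℂ 2 Q} (hx : x ∈ L2 Q (n a0 b0)) :
    RR Q (n a0 b0) (n a1 b0) (n a2 b0) (RR Q (n a0 b0) (n a0 b1) (n a0 b2)
      (RR Q (n a0 b0) (n a0 b1) (n a0 b2) x)) =
    RR Q (n a0 b0) (n a1 b0) (n a2 b0) (RR Q (n a0 b0) (n a0 b1) (n a0 b2) x) := by
  have hw : RR Q (n a0 b0) (n a0 b1) (n a0 b2) x ∈ L2 Q (n a0 b0) := RR_mem x
  have hxc := L2_mono (cell_le_col a0 b0) hx
  have hwc := L2_mono (cell_le_col a0 b0) hw
  rw [RR_apply (a := n a0 b0) (b := n a1 b0), RR_apply (a := n a0 b0) (b := n a1 b0),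
    PP_eq h a0 a1 a2 b0 (RR_mem _), PP_eq h a0 a1 a2 b0 hw, Bo_eq h b0 b1 b2 hwc,
    PP_comm h t _ _ hwc, Pr_rows_cell h hw, Bo_eq h b0 b1 b2 hxc,
    PP_comm h t _ _ (Pr_rows_mem h _ hxc), Pr_Pr]

theorem AB_zero (h : Grid Q n) {a0 a1 a2 : Fin 3} (t : Tr a0 a1 a2) (b0 b1 b2 : Fin 3)
    {x : Lp ℂ 2 Q} (hx : x ∈ L2 Q (n a0 b0)) (h0 : RR Q (n a0 b0) (n a1 b0) (n a2 b0) x = 0) :
    RR Q (n a0 b0) (n a1 b0) (n a2 b0) (RR Q (n a0 b0) (n a0 b1) (n a0 b2) x) = 0 := by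
  have hxc := L2_mono (cell_le_col a0 b0) hx
  rw [RR_eq_zero_iff (h.le _ _) hx, PP_eq h a0 a1 a2 b0 hx] at h0
  rw [RR_eq_zero_iff (h.le _ _) (RR_mem _), PP_eq h a0 a1 a2 b0 (RR_mem _), Bo_eq h b0 b1 b2 hxc]
  exact PP_zero h t _ (Pr_rows_mem h _ hxc) (PP_zero h t _ hxc h0)

omit [IsProbabilityMeasure Q] in
theorem eq_of_inner {v w : Lp ℂ 2 Q} (hv : v ∈ L2 Q a) (hw : w ∈ L2 Q a)
    (h : ∀ z ∈ L2 Q a, ⟪z, v⟫_ℂ = ⟪z, w⟫_ℂ) : v = w := by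
  have : ⟪v - w, v - w⟫_ℂ = 0 := by
    rw [inner_sub_right, h _ (Submodule.sub_mem _ hv hw), sub_self]
  exact sub_eq_zero.1 (inner_self_eq_zero.1 this)

theorem BBA (h : Grid Q n) {a0 a1 a2 : Fin 3} (t : Tr a0 a1 a2) (b0 b1 b2 : Fin 3)
    {x : Lp ℂ 2 Q} (hx : x ∈ L2 Q (n a0 b0)) :
    RR Q (n a0 b0) (n a0 b1) (n a0 b2) (RR Q (n a0 b0) (n a0 b1) (n a0 b2)
      (RR Q (n a0 b0) (n a1 b0) (n a2 b0) x)) =
    RR Q (n a0 b0) (n a0 b1) (n a0 b2) (RR Q (n a0 b0) (n a1 b0) (n a2 b0) x) := by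
  refine eq_of_inner (RR_mem _) (RR_mem _) fun z hz => ?_
  have l := h.le a0 b0
  rw [← inner_RR_left l hz (RR_mem _), ← inner_RR_left l (RR_mem _) (RR_mem _),
    ← inner_RR_left l (RR_mem _) hx, ABB h t b0 b1 b2 hz, ← inner_RR_left l hz (RR_mem _),
    ← inner_RR_left l (RR_mem _) hx]

theorem fix (h : Grid Q n) {a0 a1 a2 b0 b1 b2 : Fin 3} (t : Tr b0 b1 b2)
    {x : Lp ℂ 2 Q} (hx : x ∈ L2 Q (n a0 b0))
    (h1 : ∀ k ∈ L2 Q (n a0 b0), RR Q (n a0 b0) (n a1 b0) (n a2 b0) k = 0 → ⟪k, x⟫_ℂ = 0)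
    (h2 : RR Q (n a0 b0) (n a0 b1) (n a0 b2) x = x) :
    RR Q (n a0 b0) (n a1 b0) (n a2 b0) x = x := by
  have e := BBA h.transpose t a0 a1 a2 hx
  simp only [h2] at e
  have hv : x - RR Q (n a0 b0) (n a1 b0) (n a2 b0) x ∈ L2 Q (n a0 b0) :=
    Submodule.sub_mem _ hx (RR_mem _)
  have h3 : RR Q (n a0 b0) (n a1 b0) (n a2 b0) (x - RR Q (n a0 b0) (n a1 b0) (n a2 b0) x) = 0 := by
    rw [map_sub, e, sub_self]
  have : ⟪x - RR Q (n a0 b0) (n a1 b0) (n a2 b0) x,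
      x - RR Q (n a0 b0) (n a1 b0) (n a2 b0) x⟫_ℂ = 0 := by
    rw [inner_sub_right, h1 _ hv h3, ← inner_RR_left (h.le _ _) hv hx, h3, inner_zero_left,
      sub_self]
  exact (sub_eq_zero.1 (inner_self_eq_zero.1 this)).symm

/-- sets of `a` that are a.e. equal to a set of `b` -/
@[reducible] def cap (Q : Measure Ω) (a b : MeasurableSpace Ω) : MeasurableSpace Ω :=
  a ⊓ eventuallyMeasurableSpace b (ae Q)

theorem mem_cap (ha : a ≤ m0) (hb : b ≤ m0) {v : Lp ℂ 2 Q} :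
    v ∈ L2 Q (cap Q a b) ↔ v ∈ L2 Q a ∧ v ∈ L2 Q b := by
  refine ⟨fun hv => ⟨L2_mono inf_le_left hv, ?_⟩, fun ⟨h1, h2⟩ => ?_⟩
  · refine L2_le_of_indicator (inf_le_left.trans ha) (isClosed_L2 hb) (fun A hA => ?_) hv
    obtain ⟨t, ht, e⟩ := (MeasurableSpace.measurableSet_inf.1 hA).2
    rw [tl_congr (indicator_ae_eq_of_ae_eq_set e)]
    exact (Bdd.indicator ht).tl_mem
  · obtain ⟨u, a1, -, a3, a4⟩ := exists_rep h1
    obtain ⟨u', b1, -, b3, -⟩ := exists_rep h2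
    have : Measurable[cap Q a b] u := fun s hs =>
      MeasurableSpace.measurableSet_inf.2 ⟨a1 hs, _, b1 hs, (a3.symm.trans b3).preimage s⟩
    rw [a4]
    exact tl_mem_L2 this.stronglyMeasurable.aestronglyMeasurable

/-- `d` consists of the deterministic parts of the cells -/
structure IsD (Q : Measure Ω) (n d : Fin 3 → Fin 3 → MeasurableSpace Ω) : Prop where
  le : ∀ α β, d α β ≤ n α β
  mem : ∀ α β v, v ∈ L2 Q (d α β) ↔ v ∈ L2 Q (n α β) ∧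
    v ∈ L2 Q (⨆ (x : Fin 3) (_ : x ≠ α), n x β) ∧ v ∈ L2 Q (⨆ (x : Fin 3) (_ : x ≠ β), n α x)

omit [IsProbabilityMeasure Q] in
theorem IsD.transpose (h : IsD Q n d) : IsD Q (fun α β => n β α) fun α β => d β α :=
  ⟨fun α β => h.le β α, fun α β v => (h.mem β α v).trans (and_congr_right fun _ => and_comm)⟩

theorem exists_isD (h : Grid Q n) : ∃ d, IsD Q n d := by
  refine ⟨fun α β => cap Q (cap Q (n α β) (⨆ (x : Fin 3) (_ : x ≠ α), n x β))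
    (⨆ (x : Fin 3) (_ : x ≠ β), n α x), fun α β => inf_le_left.trans inf_le_left, fun α β v => ?_⟩
  exact (mem_cap (inf_le_left.trans (h.le α β)) (iSup₂_le fun _ _ => h.le _ _)).trans
    ((and_congr_left' (mem_cap (h.le α β) (iSup₂_le fun _ _ => h.le _ _))).trans and_assoc)

omit [IsProbabilityMeasure Q] in
theorem IsD.mem' (h : IsD Q n d) {a0 a1 a2 b0 b1 b2 : Fin 3} (ta : Tr a0 a1 a2) (tb : Tr b0 b1 b2)
    {v : Lp ℂ 2 Q} : v ∈ L2 Q (d a0 b0) ↔ v ∈ L2 Q (n a0 b0) ∧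
      v ∈ L2 Q (n a1 b0 ⊔ n a2 b0) ∧ v ∈ L2 Q (n a0 b1 ⊔ n a0 b2) := by
  rw [h.mem, ta.iSup_ne (fun x => n x b0), tb.iSup_ne (n a0)]

theorem slot (h : Grid Q n) (hd : IsD Q n d) {a0 a1 a2 b0 : Fin 3} (ta : Tr a0 a1 a2)
    {U Y : Lp ℂ 2 Q} (hU : U ∈ L2 Q (d a0 b0)) (hY : Y ∈ L2 Q (n a1 b0)) {z : Ω → ℂ}
    (hz : Bdd (n a2 b0) z) : ⟪Mop Q z Y, U⟫_ℂ = ⟪Mop Q z (Pr Q (d a1 b0) Y), U⟫_ℂ := by
  obtain ⟨b1, b2, tb⟩ := exists_tr b0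
  obtain ⟨u1, -, u3⟩ := (hd.mem' ta tb).1 hU
  have hz0 := hz.mono (h.le _ _)
  have hzc := hz.mono (cell_le_col a2 b0)
  have hUc := L2_mono (cell_le_col a0 b0) u1
  set k := Pr Q (n a1 b0) (Mop Q (fun ω => conj (z ω)) U) with hk
  have hkm : k ∈ L2 Q (n a1 b0) := Pr_mem _
  have e : ∀ W ∈ L2 Q (n a1 b0), ⟪W, k⟫_ℂ = ⟪Mop Q z W, U⟫_ℂ := fun W hW => by
    rw [hk, inner_Pr_of_mem (h.le _ _) hW, inner_Mop_left hz0]
  have f1 : RR Q (n a1 b0) (n a1 b1) (n a1 b2) k = k := by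
    refine eq_of_inner (RR_mem _) hkm fun W hW => ?_
    have hWc := L2_mono (cell_le_col a1 b0) hW
    rw [← inner_RR_left (h.le _ _) hW hkm, e _ (RR_mem _), e _ hW, Bo_eq h b0 b1 b2 hWc,
      ← pc h ta _ hUc (Pr_rows_mem h _ hWc) hzc, Pr_rows_cell h u1, ← pc h ta _ hUc hWc hzc,
      Pr_eq_self (rows_le h _) (L2_mono ((FF_two a0 b1 b2).ge.trans (FF_le_rows a0 _)) u3)]
  have f2 : RR Q (n a1 b0) (n a0 b0) (n a2 b0) k = k := by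
    refine fix h tb hkm (fun W hW h0 => ?_) f1
    rw [RR_eq_zero_iff (h.le _ _) hW] at h0
    rw [hk, inner_Pr_of_mem (h.le _ _) hW, inner_eq_zero_symm]
    exact (Pr_eq_zero_iff (sup_le (h.le _ _) (h.le _ _))).1 h0 _
      (Mop_mem hz0.conj (hz.conj.mono le_sup_right).tl_mem (L2_mono le_sup_left u1))
  have f3 : k ∈ L2 Q (d a1 b0) := (hd.mem' ta.swap01 tb).2 ⟨hkm,
    (RR_eq_self_iff (h.le _ _) (h.le _ _) (h.le _ _) hkm).1 f2,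
    (RR_eq_self_iff (h.le _ _) (h.le _ _) (h.le _ _) hkm).1 f1⟩
  rw [← e _ hY, ← e _ (L2_mono (hd.le _ _) (Pr_mem Y)),
    inner_Pr_of_mem' ((hd.le _ _).trans (h.le _ _)) f3]

theorem det (h : Grid Q n) (hd : IsD Q n d) {a0 a1 a2 : Fin 3} (ta : Tr a0 a1 a2) (b0 : Fin 3) :
    L2 Q (d a0 b0) ≤ L2 Q (d a1 b0 ⊔ d a2 b0) := by
  intro U hU
  obtain ⟨b1, b2, tb⟩ := exists_tr b0
  obtain ⟨-, u2, -⟩ := (hd.mem' ta tb).1 hU
  have l1 := h.le a1 b0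
  have l2 := h.le a2 b0
  have d1 := (hd.le a1 b0).trans l1
  have d2 := (hd.le a2 b0).trans l2
  have hW : U - Pr Q (d a1 b0 ⊔ d a2 b0) U ∈ L2 Q (n a1 b0 ⊔ n a2 b0) :=
    Submodule.sub_mem _ u2 (L2_mono (sup_le_sup (hd.le _ _) (hd.le _ _)) (Pr_mem U))
  have h0 : Pr Q (n a1 b0 ⊔ n a2 b0) (U - Pr Q (d a1 b0 ⊔ d a2 b0) U) = 0 := by
    refine Pr_sup_eq_zero l1 l2 fun y z hy hz => ?_
    have hy0 := hy.mono l1
    have hz0 := hz.mono l2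
    obtain ⟨y', hy', ey⟩ := exists_bdd_Pr (Q := Q) d1 hy0
    have hy'0 := hy'.mono d1
    have ind : Indep (n a1 b0) (n a2 b0) Q := h.indep_cells1 ta.h12 b0 b0
    have c1 := CI.of_indep_sup ind.symm d1 l1 l2 (L2_mono (hd.le _ _)) _ hy.tl_mem
    have c2 := CI.of_indep_sup (indep_of_indep_of_le_left ind (hd.le a1 b0)) d2 l2 d1
      (L2_mono (hd.le _ _)) _ hz.tl_mem
    have e0 : (tl Q fun ω => y ω * z ω) = Mop Q z (tl Q y) := by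
      rw [Mop_tl hz0 (hy0.memLp 2)]; simp only [mul_comm]
    have e1 : Pr Q (d a1 b0 ⊔ d a2 b0) (Mop Q z (tl Q y)) = Mop Q y' (Pr Q (d a2 b0) (tl Q z)) := by
      rw [← Pr_Pr_of_ge (sup_le d1 d2) (sup_le d1 l2) (L2_mono (sup_le_sup_left (hd.le _ _) _)),
        Pr_Mop (sup_le d1 l2) hz0 (hz.mono le_sup_right).tl_mem, c1, ey, Mop_tl_comm hz0 hy'0,
        Pr_Mop (sup_le d1 d2) hy'0 (hy'.mono le_sup_left).tl_mem, sup_comm, c2]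
    rw [e0, inner_sub_right, ← inner_Pr_left, e1, slot h hd ta hU hy.tl_mem hz, ey,
      Mop_tl_comm hz0 hy'0, slot h hd ta.swap12 hU hz.tl_mem (hy'.mono (hd.le _ _)), sub_self]
  rw [Pr_eq_self (sup_le l1 l2) hW, sub_eq_zero] at h0
  rw [h0]
  exact Pr_mem U

theorem dgrid (h : Grid Q n) (hd : IsD Q n d) : DGrid Q d where
  le := fun α β => (hd.le α β).trans (h.le α β)
  det1 := fun β _ _ _ h1 h2 h3 => det h hd ⟨h1, h2, h3⟩ β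
  det2 := fun α _ _ _ h1 h2 h3 => det h.transpose hd.transpose ⟨h1, h2, h3⟩ α
  ind1 := fun _ _ hα => indep_of_indep_of_le (h.indep1 hα) (iSup_mono fun _ => hd.le _ _)
    (iSup_mono fun _ => hd.le _ _)
  ind2 := fun _ _ hβ => indep_of_indep_of_le (h.transpose.indep1 hβ) (iSup_mono fun _ => hd.le _ _)
    (iSup_mono fun _ => hd.le _ _)

end Pair

open Pair

theorem pairStmt (hG : GridStmt) : PairStmt := by
  intro Ω m0 Q _ n h f hf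
  obtain ⟨d, hd⟩ := exists_isD h
  have t : Tr 0 1 2 := ⟨by decide, by decide, by decide⟩
  have l := h.le 0 0
  have f1 := BBA h t 0 1 2 hf
  have f2 := fix h (a1 := 1) (a2 := 2) t (RR_mem _) (fun k hk h0 => by
    rw [← inner_RR_left l hk (RR_mem _), ← inner_RR_left l (RR_mem _) hf, AB_zero h t 0 1 2 hk h0,
      inner_zero_left]) f1
  exact GamSpan_mono hd.le (hG Ω m0 Q d (dgrid h hd) ((hd.mem' t t).2 ⟨RR_mem _,
    (RR_eq_self_iff l (h.le _ _) (h.le _ _) (RR_mem _)).1 f2,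
    (RR_eq_self_iff l (h.le _ _) (h.le _ _) (RR_mem _)).1 f1⟩))

end Crest.Agent.R69
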