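import Crest.Agent.R69.Defs

/-! # Row 69: reduction to processes of zero entropy -/

set_option autoImplicit false
open MeasureTheory Filter Topology Set
open scoped InnerProductSpace

noncomputable section
namespace Crest.Agent.R69

namespace Pinsk

section gen
variable {Ω : Type} {m0 : MeasurableSpace Ω} {ν : Measure Ω} [IsProbabilityMeasure ν]

theorem intB {f : Ω → ℝ} {B : ℝ} (hf : Measurable f) (hb : ∀ x, |f x| ≤ B) : Integrable f ν :=
  Integrable.of_bound hf.aestronglyMeasurable B (Eventually.of_forall hb)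

theorem abs_int_sub {f g : Ω → ℝ} {c : ℝ} (hf : Integrable f ν) (hg : Integrable g ν)
    (h : ∀ x, |f x - g x| ≤ c) : |∫ x, f x ∂ν - ∫ x, g x ∂ν| ≤ c := by
  rw [← integral_sub hf hg]
  simpa using norm_integral_le_of_norm_le_const (μ := ν) (f := fun x => f x - g x)
    (Eventually.of_forall h)

theorem abs_int_le {f : Ω → ℝ} {c : ℝ} (h : ∀ x, |f x| ≤ c) : |∫ x, f x ∂ν| ≤ c := by
  simpa using norm_integral_le_of_norm_le_const (μ := ν) (f := f) (Eventually.of_forall h)

omit [IsProbabilityMeasure ν] in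
theorem aesm_prod {m : MeasurableSpace Ω} {ι : Type} (s : Finset ι) {f : ι → Ω → ℝ}
    (hf : ∀ i ∈ s, AEStronglyMeasurable[m] (f i) ν) :
    AEStronglyMeasurable[m] (fun x => ∏ i ∈ s, f i x) ν := by
  classical
  induction s using Finset.induction_on with
  | empty => simpa using aestronglyMeasurable_const
  | insert i s hi ih =>
    simp only [Finset.prod_insert hi]
    exact (hf i (Finset.mem_insert_self _ _)).mul
      (ih fun j hj => hf j (Finset.mem_insert_of_mem hj))

/-- The projection on the tail of a decreasing sequence of σ-algebras. -/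
theorem tail_exists (F : ℕ → MeasurableSpace Ω) (hF : ∀ n, F n ≤ m0) (anti : Antitone F)
    {φ : Ω → ℝ} {C : ℝ} (hφ : Measurable φ) (hb : ∀ x, |φ x| ≤ C) :
    ∃ f : Ω → ℝ, Measurable f ∧ (∀ x, |f x| ≤ C) ∧ (∀ n, AEStronglyMeasurable[F n] f ν) ∧
      ∃ δ : ℕ → ℝ, Tendsto δ atTop (𝓝 0) ∧ ∀ (n : ℕ) (Ψ : Ω → ℝ) (B : ℝ),
        AEStronglyMeasurable[F n] Ψ ν → (∀ x, |Ψ x| ≤ B) →
        |∫ x, Ψ x * (φ x - f x) ∂ν| ≤ B * δ n := by
  have hne : Nonempty Ω := nonempty_of_isProbabilityMeasure ν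
  have hC : 0 ≤ C := (abs_nonneg _).trans (hb hne.some)
  have h2 : MemLp φ 2 ν := MemLp.of_bound hφ.aestronglyMeasurable C (Eventually.of_forall hb)
  have : ∀ n, Fact (F n ≤ m0) := fun n => ⟨hF n⟩
  set v : Lp ℝ 2 ν := h2.toLp φ with hv
  let K : ℕ → Submodule ℝ (Lp ℝ 2 ν) := fun n => lpMeas ℝ ℝ (F n) 2 ν
  set c : ℕ → Lp ℝ 2 ν := fun n => (condExpL2 ℝ ℝ (hF n) v : Lp ℝ 2 ν) with hc
  have hK : Monotone fun n => (K n)ᗮ := fun n n' h => Submodule.orthogonal_le fun u hu =>
    mem_lpMeas_iff_aestronglyMeasurable.2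
      ((mem_lpMeas_iff_aestronglyMeasurable.1 hu).mono (anti h))
  obtain ⟨w, hw⟩ : ∃ w, Tendsto c atTop (𝓝 w) := by
    have h1 := Submodule.starProjection_tendsto_closure_iSup (fun n => (K n)ᗮ) hK v
    refine ⟨_, (h1.const_sub v).congr fun n => ?_⟩
    rw [Submodule.starProjection_orthogonal_val, sub_sub_cancel]
    rfl
  have hwm : ∀ n, AEStronglyMeasurable[F n] w ν := fun n =>
    (isClosed_aestronglyMeasurable (hF n)).mem_of_tendsto hw
      ((eventually_ge_atTop n).mono fun n' h =>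
        (aestronglyMeasurable_condExpL2 (hF n') v).mono (anti h))
  have hcb : ∀ᵐ x ∂ν, ∀ n, |c n x| ≤ C := by
    rw [ae_all_iff]
    intro n
    filter_upwards [h2.condExpL2_ae_eq_condExp (𝕜 := ℝ) (hF n),
      ae_bdd_abs_condExp_of_ae_bdd_abs (μ := ν) (m := F n) (Eventually.of_forall hb)] with x h1 h3
    exact h1 ▸ h3
  have hwb : ∀ᵐ x ∂ν, |w x| ≤ C := by
    obtain ⟨ns, -, hns⟩ := (tendstoInMeasure_of_tendsto_Lp hw).exists_seq_tendsto_ae
    filter_upwards [hns, hcb] with x h1 h3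
    exact le_of_tendsto' h1.abs fun i => h3 _
  have hw0 := Lp.aestronglyMeasurable w
  set f : Ω → ℝ := fun x => max (-C) (min C (hw0.mk w x)) with hf
  have hfw : f =ᵐ[ν] w := by
    filter_upwards [hwb, hw0.ae_eq_mk] with x h1 h3
    rw [hf]
    simp only [← h3]
    rw [min_eq_right (abs_le.1 h1).2, max_eq_right (abs_le.1 h1).1]
  refine ⟨f, measurable_const.max (measurable_const.min hw0.measurable_mk), fun x => ?_,
    fun n => (hwm n).congr hfw.symm, fun n => ‖c n - w‖, ?_, fun n Ψ B hΨ hB => ?_⟩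
  · rw [abs_le]
    exact ⟨le_max_left _ _, max_le (by linarith) (min_le_left _ _)⟩
  · exact tendsto_iff_norm_sub_tendsto_zero.1 hw
  · have hB0 : 0 ≤ B := (abs_nonneg _).trans (hB hne.some)
    have h3 : MemLp Ψ 2 ν := MemLp.of_bound (hΨ.mono (hF n)) B (Eventually.of_forall hB)
    have h4 : ∫ x, Ψ x * (φ x - f x) ∂ν = ⟪v - w, h3.toLp Ψ⟫_ℝ := by
      rw [L2.inner_def]
      refine integral_congr_ae ?_
      filter_upwards [Lp.coeFn_sub v w, h2.coeFn_toLp, h3.coeFn_toLp, hfw] with x e1 e2 e3 e4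
      rw [e1, Pi.sub_apply, hv, e2, e3, e4]
      simp
    have h5 : ⟪v - w, h3.toLp Ψ⟫_ℝ = ⟪c n - w, h3.toLp Ψ⟫_ℝ := by
      rw [inner_sub_left, inner_sub_left, hc,
        inner_condExpL2_eq_inner_fun (hF n) v _ (hΨ.congr h3.coeFn_toLp.symm)]
    have h6 : ‖h3.toLp Ψ‖ ≤ B := by
      have := Lp.norm_le_of_ae_bound (f := h3.toLp Ψ) hB0
        (h3.coeFn_toLp.mono fun x hx => by rw [hx]; exact hB x)
      simpa [measureUnivNNReal] using this
    rw [h4, h5, mul_comm]
    exact (abs_real_inner_le_norm _ _).trans (mul_le_mul_of_nonneg_left h6 (norm_nonneg _))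

end gen

theorem abs_prod_le {ι : Type} (s : Finset ι) {x : ι → ℝ} {D : ℝ} (h : ∀ i, |x i| ≤ D) :
    |∏ i ∈ s, x i| ≤ D ^ s.card := by
  rw [Finset.abs_prod, ← Finset.prod_const]
  exact Finset.prod_le_prod (fun _ _ => abs_nonneg _) fun i _ => h i

theorem abs_prod_sub {ι : Type} (s : Finset ι) {x y : ι → ℝ} {D δ : ℝ} (hD : 1 ≤ D) (hδ : 0 ≤ δ)
    (hx : ∀ i, |x i| ≤ D) (hy : ∀ i, |y i| ≤ D) (h : ∀ i, |x i - y i| ≤ δ) :
    |∏ i ∈ s, x i - ∏ i ∈ s, y i| ≤ s.card * D ^ s.card * δ := by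
  classical
  induction s using Finset.induction_on with
  | empty => simp
  | insert i s hi ih =>
    rw [Finset.prod_insert hi, Finset.prod_insert hi, Finset.card_insert_of_notMem hi]
    have e : x i * ∏ i ∈ s, x i - y i * ∏ i ∈ s, y i =
        x i * (∏ i ∈ s, x i - ∏ i ∈ s, y i) + (x i - y i) * ∏ i ∈ s, y i := by ring
    have h1 : |x i * (∏ i ∈ s, x i - ∏ i ∈ s, y i)| ≤ D * (s.card * D ^ s.card * δ) := by
      rw [abs_mul]
      exact mul_le_mul (hx i) ih (abs_nonneg _) (by linarith)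
    have h2 : |(x i - y i) * ∏ i ∈ s, y i| ≤ δ * D ^ (s.card + 1) := by
      rw [abs_mul]
      exact mul_le_mul (h i) ((abs_prod_le s hy).trans (pow_le_pow_right₀ hD (Nat.le_succ _)))
        (abs_nonneg _) hδ
    rw [e]
    refine (abs_add_le _ _).trans ((add_le_add h1 h2).trans (le_of_eq ?_))
    push_cast
    ring

/-- Quantisation of a cube. -/
theorem quant (k : ℕ) (C δ : ℝ) (hδ : 0 < δ) : ∃ (M' : ℕ) (κ : (Fin k → ℝ) → Al M')
    (γ : Fin k → Al M' → ℝ), Measurable κ ∧
      ∀ r : Fin k → ℝ, (∀ a, |r a| ≤ C) → ∀ a, |γ a (κ r) - r a| ≤ δ := by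
  classical
  set S : Finset (Fin k → ℕ) := Fintype.piFinset fun _ => Finset.range (⌊2 * C / δ⌋₊ + 1) with hS
  let ι : (Fin k → ℕ) → Al S.card := fun v =>
    if h : v ∈ S then (S.equivFin ⟨v, h⟩).castSucc else 0
  have hι : InjOn ι S := by
    intro v hv v' hv' e
    have hv1 : v ∈ S := hv
    have hv2 : v' ∈ S := hv'
    simp only [ι, hv1, hv2, dif_pos, Fin.castSucc_inj, EmbeddingLike.apply_eq_iff_eq,
      Subtype.mk.injEq] at e
    exact e
  refine ⟨S.card, fun r => ι fun a => ⌊(r a + C) / δ⌋₊,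
    fun a b => (Function.invFunOn ι S b a : ℝ) * δ - C, ?_, fun r hr a => ?_⟩
  · refine (Measurable.of_discrete (f := ι)).comp (measurable_pi_lambda _ fun a => ?_)
    have : Measurable fun r : Fin k → ℝ => (r a + C) / δ := by fun_prop
    exact this.nat_floor
  · have hm : (fun a => ⌊(r a + C) / δ⌋₊) ∈ (S : Set (Fin k → ℕ)) := by
      simp only [hS, Finset.mem_coe, Fintype.mem_piFinset, Finset.mem_range, Nat.lt_succ_iff]
      intro a
      refine Nat.floor_le_floor (div_le_div_of_nonneg_right ?_ hδ.le)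
      linarith [(abs_le.1 (hr a)).2]
    have e := hι.leftInvOn_invFunOn hm
    simp only at e ⊢
    rw [e]
    have h0 : 0 ≤ (r a + C) / δ := div_nonneg (by linarith [(abs_le.1 (hr a)).1]) hδ.le
    have h1 := Nat.floor_le h0
    have h2 := Nat.lt_floor_add_one ((r a + C) / δ)
    rw [le_div_iff₀ hδ] at h1
    rw [div_lt_iff₀ hδ] at h2
    rw [abs_le]
    constructor <;> linarith

variable {M : ℕ}

/-- the past -/
abbrev FF (M : ℕ) (m : ℤ) : MeasurableSpace (Sq M) :=
  cylinderEvents (X := fun _ : ℤ => Al M) (Iic m)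

theorem sh_sh (a b : ℤ) (x : Sq M) : sh a (sh b x) = sh (a + b) x := by
  funext t
  simp [sh, add_assoc]

theorem sh_zero (x : Sq M) : sh 0 x = x := by
  funext t
  simp [sh]

theorem meas_sh (h : ℤ) : Measurable (sh h : Sq M → Sq M) :=
  measurable_pi_lambda _ fun _ => measurable_pi_apply _

theorem meas_sh_FF {m m' h : ℤ} (hm : m + h ≤ m') : Measurable[FF M m', FF M m] (sh h) := by
  refine (@measurable_cylinderEvents_iff (Sq M) ℤ (fun _ => Al M) (FF M m') _ (Iic m) (sh h)).2 ?_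
  intro i hi
  exact measurable_cylinderEvent_apply (X := fun _ : ℤ => Al M) (Δ := Iic m') (i := i + h)
    (by simp only [mem_Iic] at hi ⊢; omega)

variable {ν : Measure (Sq M)}

theorem aesm_sh (hν : Proc ν) {m m' h : ℤ} (hm : m + h ≤ m') {f : Sq M → ℝ}
    (hf : AEStronglyMeasurable[FF M m] f ν) :
    AEStronglyMeasurable[FF M m'] (fun x => f (sh h x)) ν := by
  obtain ⟨g, hg, e⟩ := hf
  exact ⟨g ∘ sh h, hg.comp_measurable (meas_sh_FF hm),
    (hν.inv h).quasiMeasurePreserving.ae_eq_comp e⟩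

theorem int_sh (hν : Proc ν) (h : ℤ) {f : Sq M → ℝ} (hf : Measurable f) :
    ∫ x, f (sh h x) ∂ν = ∫ x, f x ∂ν := by
  conv_rhs => rw [← (hν.inv h).map_eq]
  rw [integral_map (meas_sh h).aemeasurable hf.aestronglyMeasurable]

/-- Replace the observables by their projections on the remote past. -/
theorem replace (hν : Proc ν) {k : ℕ} {φ f : Fin k → Sq M → ℝ} {C : ℝ} (hC : 1 ≤ C)
    (hφ : ∀ a, Measurable[FF M 0] (φ a)) (hφb : ∀ a x, |φ a x| ≤ C)
    (hf : ∀ a, Measurable (f a)) (hfb : ∀ a x, |f a x| ≤ C)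
    (hft : ∀ a m, AEStronglyMeasurable[FF M m] (f a) ν)
    (hδ : ∀ a, ∃ δ : ℕ → ℝ, Tendsto δ atTop (𝓝 0) ∧ ∀ (n : ℕ) (Ψ : Sq M → ℝ) (B : ℝ),
      AEStronglyMeasurable[FF M (-(n : ℤ))] Ψ ν → (∀ x, |Ψ x| ≤ B) →
      |∫ x, Ψ x * (φ a x - f a x) ∂ν| ≤ B * δ n)
    {N : Type} (𝒰 : Filter N) (s : Fin k → N → ℤ)
    (hs : ∀ a b, a < b → Tendsto (fun n => s b n - s a n) 𝒰 atTop) :
    Tendsto (fun n => ∫ x, ∏ a, φ a (sh (s a n) x) ∂ν - ∫ x, ∏ a, f a (sh (s a n) x) ∂ν) 𝒰
      (𝓝 0) := by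
  have := hν.prob
  have hφ' : ∀ a, Measurable (φ a) := fun a => (hφ a).mono cylinderEvents_le_pi le_rfl
  set ψ : ℕ → Fin k → Sq M → ℝ := fun j a => if (a : ℕ) < j then φ a else f a with hψ
  have hψm : ∀ j a, Measurable (ψ j a) := fun j a => by
    simp only [hψ]; split_ifs; exacts [hφ' a, hf a]
  have hψb : ∀ j a x, |ψ j a x| ≤ C := fun j a x => by
    simp only [hψ]; split_ifs; exacts [hφb a x, hfb a x]
  set I : ℕ → N → ℝ := fun j n => ∫ x, ∏ a, ψ j a (sh (s a n) x) ∂ν with hI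
  have hZm : ∀ j n, Measurable fun x => ∏ a, ψ j a (sh (s a n) x) := fun j n =>
    Finset.measurable_prod _ fun a _ => (hψm j a).comp (meas_sh _)
  have hZi : ∀ j n, Integrable (fun x => ∏ a, ψ j a (sh (s a n) x)) ν := fun j n =>
    intB (hZm j n) fun x => abs_prod_le _ fun a => hψb j a _
  have step : ∀ j : Fin k, Tendsto (fun n => I (j + 1) n - I j n) 𝒰 (𝓝 0) := by
    intro j
    obtain ⟨δ, hδ0, hδ⟩ := hδ j
    have e : ∀ n, I (j + 1) n - I j n = ∫ y, (∏ a ∈ Finset.univ.erase j,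
        ψ j a (sh (s a n - s j n) y)) * (φ j y - f j y) ∂ν := by
      intro n
      have hm : Measurable fun y => (∏ a ∈ Finset.univ.erase j,
          ψ j a (sh (s a n - s j n) y)) * (φ j y - f j y) :=
        (Finset.measurable_prod _ fun a _ => (hψm j a).comp (meas_sh _)).mul ((hφ' j).sub (hf j))
      rw [← int_sh hν (s j n) hm, hI]
      simp only
      rw [← integral_sub (hZi _ n) (hZi _ n)]
      refine integral_congr_ae (Eventually.of_forall fun x => ?_)
      simp only [sh_sh, sub_add_cancel]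
      rw [← Finset.mul_prod_erase _ _ (Finset.mem_univ j),
        ← Finset.mul_prod_erase _ _ (Finset.mem_univ j)]
      have e1 : ∏ a ∈ Finset.univ.erase j, ψ (j + 1) a (sh (s a n) x) =
          ∏ a ∈ Finset.univ.erase j, ψ j a (sh (s a n) x) := by
        refine Finset.prod_congr rfl fun a ha => ?_
        have : (a : ℕ) ≠ j := fun h => (Finset.mem_erase.1 ha).1 (Fin.ext h)
        have e2 : ((a : ℕ) < j + 1) ↔ ((a : ℕ) < j) := by omega
        simp only [hψ, e2]
      rw [e1]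
      simp only [hψ, Nat.lt_succ_self, if_true, lt_self_iff_false, if_false]
      ring
    rw [Metric.tendsto_nhds]
    intro ε hε
    have h1 : Tendsto (fun n => C ^ k * δ n) atTop (𝓝 0) := by simpa using hδ0.const_mul (C ^ k)
    obtain ⟨G, hG⟩ := (h1.eventually (gt_mem_nhds hε)).exists
    have h2 : ∀ᶠ n in 𝒰, ∀ a, a < j → (G : ℤ) ≤ s j n - s a n :=
      eventually_all.2 fun a => by
        by_cases ha : a < j
        · exact ((hs a j ha).eventually_ge_atTop G).mono fun n hn _ => hn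
        · exact Eventually.of_forall fun n h => absurd h ha
    filter_upwards [h2] with n hn
    rw [Real.dist_eq, sub_zero, e]
    refine lt_of_le_of_lt (hδ G _ (C ^ k) (aesm_prod _ fun a _ => ?_) fun y => ?_) hG
    · by_cases ha : (a : ℕ) < j
      · simp only [hψ, ha, if_true]
        refine aesm_sh hν (m := 0) ?_ (hφ a).stronglyMeasurable.aestronglyMeasurable
        have := hn a ha
        omega
      · simp only [hψ, ha, if_false]
        exact aesm_sh hν (m := -(G : ℤ) - (s a n - s j n)) (by omega) (hft a _)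
    · refine (abs_prod_le _ fun a => hψb j a _).trans (pow_le_pow_right₀ hC ?_)
      simp
  have all : ∀ j, j ≤ k → Tendsto (fun n => I j n - I 0 n) 𝒰 (𝓝 0) := by
    intro j
    induction j with
    | zero => intro _; simpa using tendsto_const_nhds
    | succ j ih =>
      intro hj
      have := (step ⟨j, hj⟩).add (ih (by omega))
      simpa using this
  have := all k le_rfl
  simpa [hI, hψ] using this

theorem proc_map (hν : Proc ν) {M' : ℕ} {q : Sq M → Al M'} (hq : Measurable q) :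
    Proc (ν.map fun x t => q (sh t x)) := by
  have := hν.prob
  have hQ : Measurable fun (x : Sq M) (t : ℤ) => q (sh t x) :=
    measurable_pi_lambda _ fun t => hq.comp (meas_sh t)
  have hc : ∀ h, (sh h ∘ fun (x : Sq M) (t : ℤ) => q (sh t x)) =
      (fun (x : Sq M) (t : ℤ) => q (sh t x)) ∘ sh h := fun h => by
    funext x t
    simp only [Function.comp, sh_sh]
    rfl
  refine ⟨Measure.isProbabilityMeasure_map hQ.aemeasurable, fun h => ⟨meas_sh h, ?_⟩,
    fun A B hA hB => ?_⟩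
  · rw [Measure.map_map (meas_sh h) hQ, hc, ← Measure.map_map hQ (meas_sh h), (hν.inv h).map_eq]
  · have := hν.mix _ _ (hQ hA) (hQ hB)
    rw [map_measureReal_apply hQ hA, map_measureReal_apply hQ hB]
    refine this.congr fun h => ?_
    rw [map_measureReal_apply hQ (hA.inter (meas_sh h hB)), preimage_inter, ← preimage_comp,
      ← preimage_comp, hc]

end Pinsk

open Pinsk in
theorem pinsk (hE : EntStmt) (h0 : Main0) : Main1 := by
  intro M ν hν k g N 𝒰 s hs
  have := hν.prob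
  obtain ⟨C, hC, hg⟩ : ∃ C : ℝ, 1 ≤ C ∧ ∀ a b, |g a b| ≤ C := by
    obtain ⟨C, hC⟩ := (Set.finite_range fun p : Fin k × Al M => |g p.1 p.2|).bddAbove
    exact ⟨max 1 C, le_max_left _ _, fun a b => (hC ⟨(a, b), rfl⟩).trans (le_max_right _ _)⟩
  set φ : Fin k → Sq M → ℝ := fun a x => g a (x 0) with hφ
  have hφm : ∀ a, Measurable[FF M 0] (φ a) := fun a =>
    (Measurable.of_discrete (f := g a)).comp
      (measurable_cylinderEvent_apply (X := fun _ : ℤ => Al M) (Δ := Iic 0) (i := 0) self_mem_Iic)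
  have hφm' : ∀ a, Measurable (φ a) := fun a => (hφm a).mono cylinderEvents_le_pi le_rfl
  have hφb : ∀ a x, |φ a x| ≤ C := fun a x => hg a _
  choose f hfm hfb hft hδ using fun a => tail_exists (ν := ν) (fun n : ℕ => FF M (-(n : ℤ)))
    (fun _ => cylinderEvents_le_pi)
    (fun n n' h => cylinderEvents_mono (Iic_subset_Iic.2 (by omega))) (hφm' a) (hφb a)
  have hft' : ∀ a m, AEStronglyMeasurable[FF M m] (f a) ν := fun a m =>
    (hft a (-m).toNat).mono (cylinderEvents_mono (Iic_subset_Iic.2 (by omega)))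
  have hrep := replace hν hC hφm hφb hfm hfb hft' hδ (𝒰 : Filter N) s hs
  have hint : ∀ a, ∫ x, φ a x ∂ν = ∫ x, f a x ∂ν := by
    intro a
    obtain ⟨δ, hδ0, hδ⟩ := hδ a
    have h1 : |∫ x, (φ a x - f a x) ∂ν| ≤ 0 := ge_of_tendsto' hδ0 fun n => by
      simpa using hδ n (fun _ => 1) 1 aestronglyMeasurable_const (by simp)
    rw [integral_sub (intB (hφm' a) (hφb a)) (intB (hfm a) (hfb a))] at h1
    exact sub_eq_zero.1 (abs_nonpos_iff.1 h1)
  have main : Tendsto (fun n => ∫ x, ∏ a, f a (sh (s a n) x) ∂ν) 𝒰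
      (𝓝 (∏ a, ∫ x, f a x ∂ν)) := by
    rw [Metric.tendsto_nhds]
    intro ε hε
    set D : ℝ := k * (C + 1) ^ k with hD
    have hD0 : 0 ≤ D := by positivity
    set δ : ℝ := min 1 (ε / (3 * (D + 1))) with hδ'
    have hδ0 : 0 < δ := lt_min one_pos (by positivity)
    have hδ1 : δ ≤ 1 := min_le_left _ _
    have hδ2 : D * δ ≤ ε / 3 := by
      have h1 : δ ≤ ε / (3 * (D + 1)) := min_le_right _ _
      rw [le_div_iff₀ (by positivity)] at h1
      nlinarith
    obtain ⟨M', κ, γ, hκ, hγ⟩ := quant k C δ hδ0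
    set q : Sq M → Al M' := fun x => κ fun a => f a x with hq
    have hqm : Measurable q := hκ.comp (measurable_pi_lambda _ hfm)
    have hQ : Measurable fun (x : Sq M) (t : ℤ) => q (sh t x) :=
      measurable_pi_lambda _ fun t => hqm.comp (meas_sh t)
    have hZ : ZE (ν.map fun x t => q (sh t x)) := by
      refine hE M M' ν hν.inv q hqm fun n => ?_
      choose f' hf' he using fun a => hft a n
      refine ⟨fun x => κ fun a => f' a x, hκ.comp ?_, ?_⟩
      · exact @measurable_pi_lambda _ _ _ (FF M (-(n : ℤ))) _ _ fun a => (hf' a).measurable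
      · filter_upwards [ae_all_iff.2 he] with x hx
        simp only [hq, hx]
    have h1 := h0 M' _ (proc_map hν hqm) hZ k γ N 𝒰 s hs
    have hγm : ∀ a, Measurable (γ a) := fun a => Measurable.of_discrete
    have hγd : ∀ a x, |γ a (q x) - f a x| ≤ δ := fun a x => hγ _ (fun a => hfb a x) a
    have hγb : ∀ a x, |γ a (q x)| ≤ C + 1 := fun a x => by
      have := abs_sub_abs_le_abs_sub (γ a (q x)) (f a x)
      linarith [hγd a x, hfb a x]
    have hfb' : ∀ a x, |f a x| ≤ C + 1 := fun a x => by linarith [hfb a x]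
    rw [Metric.tendsto_nhds] at h1
    filter_upwards [h1 (ε / 3) (by positivity)] with n hn
    have hγe : ∀ a (t : ℤ), Measurable fun x : Sq M' => γ a (x t) := fun a t =>
      (hγm a).comp (measurable_pi_apply t)
    rw [integral_map hQ.aemeasurable
      (Finset.measurable_prod _ fun a _ => hγe a (s a n)).aestronglyMeasurable] at hn
    have e : ∀ a, ∫ x, γ a (x 0) ∂(ν.map fun x t => q (sh t x)) = ∫ x, γ a (q x) ∂ν := fun a => by
      rw [integral_map hQ.aemeasurable (hγe a 0).aestronglyMeasurable]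
      simp only [sh_zero]
    simp only [e, Real.dist_eq] at hn
    have h2 : |∫ x, ∏ a, γ a (q (sh (s a n) x)) ∂ν - ∫ x, ∏ a, f a (sh (s a n) x) ∂ν| ≤ D * δ := by
      refine abs_int_sub (intB (Finset.measurable_prod _ fun a _ =>
        (hγm a).comp (hqm.comp (meas_sh _))) fun x => abs_prod_le _ fun a => hγb a _)
        (intB (Finset.measurable_prod _ fun a _ => (hfm a).comp (meas_sh _))
          fun x => abs_prod_le _ fun a => hfb a _) fun x => ?_
      simpa using abs_prod_sub Finset.univ (by linarith) hδ0.le (fun a => hγb a (sh (s a n) x))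
        (fun a => hfb' a (sh (s a n) x)) fun a => hγd a _
    have h3 : |∏ a, ∫ x, γ a (q x) ∂ν - ∏ a, ∫ x, f a x ∂ν| ≤ D * δ := by
      simpa using abs_prod_sub Finset.univ (by linarith) hδ0.le
        (fun a => abs_int_le (ν := ν) (hγb a)) (fun a => abs_int_le (ν := ν) (hfb' a))
        fun a => abs_int_sub (intB ((hγm a).comp hqm) (hγb a)) (intB (hfm a) (hfb a)) (hγd a)
    rw [Real.dist_eq]
    rw [abs_lt] at hn ⊢
    rw [abs_le] at h2 h3
    constructor <;> linarith
  have := hrep.add main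
  simp only [sub_add_cancel, zero_add, ← hint] at this
  simpa [hφ, sh] using this

end Crest.Agent.R69
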