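import Crest.Agent.R69.Defs

/-! # Row 69: the final reduction from symbolic processes to general transformations -/

set_option autoImplicit false
open MeasureTheory Filter Topology Set

noncomputable section
namespace Crest.Agent.R69

namespace Red0

variable {Ω : Type*} [MeasurableSpace Ω]

/-- Integer powers of `T`. -/
def Tz (T : Ω ≃ᵐ Ω) (t : ℤ) : Ω → Ω := ⇑((T.toEquiv : Equiv.Perm Ω) ^ t)

theorem Tz_nat (T : Ω ≃ᵐ Ω) (n : ℕ) : Tz T n = T^[n] := by
  unfold Tz; rw [zpow_natCast, Equiv.Perm.coe_pow]; rfl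

theorem Tz_add (T : Ω ≃ᵐ Ω) (t h : ℤ) (ω : Ω) : Tz T (t + h) ω = Tz T t (Tz T h ω) := by
  unfold Tz; rw [zpow_add]; rfl

theorem Tz_zero (T : Ω ≃ᵐ Ω) (ω : Ω) : Tz T 0 ω = ω := rfl

theorem Tz_mp {μ : Measure Ω} {T : Ω ≃ᵐ Ω} (hT : MeasurePreserving T μ μ) (t : ℤ) :
    MeasurePreserving (Tz T t) μ μ := by
  cases t with
  | ofNat n => rw [Int.ofNat_eq_natCast, Tz_nat]; exact hT.iterate n
  | negSucc n =>
    have : Tz T (Int.negSucc n) = T.symm^[n + 1] := by
      unfold Tz; rw [zpow_negSucc, ← inv_pow, Equiv.Perm.coe_pow]; rfl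
    rw [this]; exact (hT.symm T).iterate _

theorem mixZ {μ : Measure Ω} [IsProbabilityMeasure μ] {T : Ω ≃ᵐ Ω} (hT : MeasurePreserving T μ μ)
    (hmix : ∀ A B : Set Ω, MeasurableSet A → MeasurableSet B →
      Tendsto (fun n : ℕ => μ (A ∩ (T^[n]) ⁻¹' B)) atTop (nhds (μ A * μ B)))
    {A B : Set Ω} (hA : MeasurableSet A) (hB : MeasurableSet B) :
    Tendsto (fun h : ℤ => μ.real (A ∩ Tz T h ⁻¹' B)) cofinite (𝓝 (μ.real A * μ.real B)) := by
  have top : ∀ A B : Set Ω, MeasurableSet A → MeasurableSet B →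
      Tendsto (fun h : ℤ => μ.real (A ∩ Tz T h ⁻¹' B)) atTop (𝓝 (μ.real A * μ.real B)) := by
    intro A B hA hB
    rw [← Nat.map_cast_int_atTop, tendsto_map'_iff]
    have := (ENNReal.tendsto_toReal (ENNReal.mul_ne_top (measure_ne_top μ A)
      (measure_ne_top μ B))).comp (hmix A B hA hB)
    rw [ENNReal.toReal_mul] at this
    refine this.congr fun n => ?_
    simp only [Function.comp, Tz_nat, Measure.real]
  rw [Int.cofinite_eq, tendsto_sup]
  refine ⟨?_, top A B hA hB⟩
  have := (top B A hB hA).comp tendsto_neg_atBot_atTop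
  rw [mul_comm] at this
  refine this.congr fun h => ?_
  simp only [Function.comp, Measure.real]
  rw [← (Tz_mp hT (-h)).measure_preimage
    (hA.inter ((Tz_mp hT h).measurable hB)).nullMeasurableSet]
  congr 2
  ext ω
  simp only [mem_inter_iff, mem_preimage, ← Tz_add, add_neg_cancel, Tz_zero, and_comm]

end Red0

open Red0

theorem red0 (h : Main1)
    {Ω : Type*} [MeasurableSpace Ω] (μ : Measure Ω) [IsProbabilityMeasure μ]
    (T : Ω ≃ᵐ Ω) (hT : MeasurePreserving T μ μ)
    (hmix : ∀ A B : Set Ω, MeasurableSet A → MeasurableSet B →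
      Tendsto (fun n : ℕ => μ (A ∩ (T^[n]) ⁻¹' B)) atTop (nhds (μ A * μ B)))
    (k : ℕ) (A : Fin (k + 1) → Set Ω) (hA : ∀ i, MeasurableSet (A i)) :
    Tendsto (fun n : Fin k → ℕ =>
        μ (⋂ i : Fin (k + 1), (T^[∑ j : Fin k, if (j : ℕ) < (i : ℕ) then n j else 0]) ⁻¹' A i))
      atTop (nhds (∏ i, μ (A i))) := by
  classical
  obtain ⟨M, enc, dec, hdec⟩ : ∃ (M : ℕ) (enc : (Fin (k + 1) → Bool) → Al M)
      (dec : Al M → Fin (k + 1) → Bool), ∀ b, dec (enc b) = b := by
    refine ⟨_, fun b => (Fintype.equivFin _ b).castSucc, _, Function.leftInverse_invFun ?_⟩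
    exact (Fin.castSucc_injective _).comp (Fintype.equivFin _).injective
  let c : Ω → Al M := fun ω => enc fun i => if ω ∈ A i then true else false
  have hc : Measurable c := (measurable_of_finite enc).comp (measurable_pi_lambda _ fun i =>
    Measurable.ite (hA i) measurable_const measurable_const)
  let ξ : Ω → Sq M := fun ω t => c (Tz T t ω)
  have hξ : Measurable ξ := measurable_pi_lambda _ fun t => hc.comp (Tz_mp hT t).measurable
  have hsh : ∀ t, Measurable (sh (M := M) t) := fun t =>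
    measurable_pi_lambda _ fun s => measurable_pi_apply _
  have hcomm : ∀ t, sh t ∘ ξ = ξ ∘ Tz T t := fun t => by
    funext ω s
    simp only [Function.comp, sh, ξ, Tz_add]
  have hP : Proc (μ.map ξ) := by
    refine ⟨Measure.isProbabilityMeasure_map hξ.aemeasurable, fun t => ⟨hsh t, ?_⟩,
      fun A' B' hA' hB' => ?_⟩
    · rw [Measure.map_map (hsh t) hξ, hcomm, ← Measure.map_map hξ (Tz_mp hT t).measurable,
        (Tz_mp hT t).map_eq]
    · rw [map_measureReal_apply hξ hA', map_measureReal_apply hξ hB']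
      refine (mixZ hT hmix (hξ hA') (hξ hB')).congr fun t => ?_
      rw [map_measureReal_apply hξ (hA'.inter (hsh t hB')), preimage_inter, ← preimage_comp,
        ← preimage_comp, hcomm]
  let g : Fin (k + 1) → Al M → ℝ := fun i y => if dec y i = true then 1 else 0
  have hg : ∀ i ω, g i (c ω) = (A i).indicator 1 ω := fun i ω => by
    by_cases hω : ω ∈ A i <;> simp [g, c, hdec, hω]
  have hgm : ∀ a (t : ℤ), Measurable fun x : Sq M => g a (x t) := fun a t =>
    (measurable_of_finite (g a)).comp (measurable_pi_apply _)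
  let s : Fin (k + 1) → (Fin k → ℕ) → ℕ := fun i n =>
    ∑ j : Fin k, if (j : ℕ) < (i : ℕ) then n j else 0
  have e1 : ∀ n : Fin k → ℕ, ∫ x, ∏ a, g a (x (s a n : ℤ)) ∂(μ.map ξ) =
      μ.real (⋂ i, (T^[s i n]) ⁻¹' A i) := fun n => by
    rw [integral_map hξ.aemeasurable (Measurable.aestronglyMeasurable (Finset.measurable_prod _
      fun a _ => hgm a _)),
      ← integral_indicator_one (MeasurableSet.iInter fun i => (hT.iterate _).measurable (hA i))]
    congr 1
    funext ω
    simp only [ξ, hg, Tz_nat]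
    by_cases hω : ω ∈ ⋂ i, (T^[s i n]) ⁻¹' A i
    · rw [indicator_of_mem hω]
      exact Finset.prod_eq_one fun i _ =>
        indicator_of_mem (s := A i) (a := T^[s i n] ω) (mem_iInter.1 hω i) _
    · rw [indicator_of_notMem hω]
      obtain ⟨i, hi⟩ := not_forall.1 (mt mem_iInter.2 hω)
      exact Finset.prod_eq_zero (Finset.mem_univ i)
        (indicator_of_notMem (s := A i) (a := T^[s i n] ω) hi _)
  have e2 : ∀ a, ∫ x, g a (x 0) ∂(μ.map ξ) = μ.real (A a) := fun a => by
    rw [integral_map hξ.aemeasurable (hgm a 0).aestronglyMeasurable,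
      ← integral_indicator_one (hA a)]
    congr 1
    funext ω
    simp only [ξ, hg, Tz_zero]
  have main : Tendsto (fun n : Fin k → ℕ => μ.real (⋂ i, (T^[s i n]) ⁻¹' A i)) atTop
      (𝓝 (∏ a, μ.real (A a))) := by
    rw [tendsto_iff_ultrafilter]
    intro 𝒰 h𝒰
    have := h M _ hP (k + 1) g (Fin k → ℕ) 𝒰 (fun a n => (s a n : ℤ)) (fun a b hab => by
      have hab' : (a : ℕ) < b := hab
      have hak : (a : ℕ) < k := by omega
      have t1 : Tendsto (fun n : Fin k → ℕ => ((n ⟨a, hak⟩ : ℕ) : ℤ)) atTop atTop :=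
        tendsto_natCast_atTop_atTop.comp (tendsto_atTop.2 fun K =>
          (eventually_ge_atTop fun _ => K).mono fun n hn => hn _)
      refine tendsto_atTop_mono (fun n => ?_) (t1.mono_left h𝒰)
      have : s a n + n ⟨a, hak⟩ ≤ s b n := by
        have e : n ⟨a, hak⟩ = ∑ j : Fin k, if j = ⟨a, hak⟩ then n j else 0 := by simp
        rw [e, ← Finset.sum_add_distrib]
        refine Finset.sum_le_sum fun j _ => ?_
        by_cases h1 : j = ⟨a, hak⟩
        · subst h1; simp [hab']
        · rw [if_neg h1]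
          split_ifs <;> omega
      omega)
    simpa only [e1, e2] using this
  have := (ENNReal.tendsto_ofReal main)
  simpa only [ofReal_measureReal (measure_ne_top _ _), ENNReal.ofReal_prod_of_nonneg
    (fun i _ => measureReal_nonneg)] using this

end Crest.Agent.R69
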