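import Crest.Agent.R69.Defs

/-! # Row 69: Riesz products against zero entropy -/

set_option autoImplicit false
open MeasureTheory ProbabilityTheory Filter Topology Set Polynomial
open scoped ComplexConjugate

noncomputable section
namespace Crest.Agent.R69
namespace Riesz

/-- `∏ y_s ^ p_s` -/
def pw (y : ℕ → ℂ) (p : ℤ[X]) : ℂ := ∏ s ∈ p.support, y s ^ p.coeff s

lemma pw_eq (y : ℕ → ℂ) (p : ℤ[X]) {S : Finset ℕ} (h : p.support ⊆ S) :
    pw y p = ∏ s ∈ S, y s ^ p.coeff s :=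
  Finset.prod_subset h fun s _ hs => by rw [notMem_support_iff.1 hs, zpow_zero]

lemma pw_add_monomial {y : ℕ → ℂ} (hy : ∀ s, y s ≠ 0) (p : ℤ[X]) (t : ℕ) (k : ℤ) :
    pw y (p + monomial t k) = pw y p * y t ^ k := by
  have h1 : (p + monomial t k).support ⊆ insert t p.support := fun s hs => by
    rcases Finset.mem_union.1 (support_add hs) with h | h
    · exact Finset.mem_insert_of_mem h
    · rw [Finset.mem_singleton.1 (support_monomial_subset t k h)]; exact Finset.mem_insert_self _ _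
  rw [pw_eq y _ h1, pw_eq y p (Finset.subset_insert t _)]
  simp only [coeff_add, zpow_add₀ (hy _), Finset.prod_mul_distrib]
  congr 1
  rw [Finset.prod_eq_single_of_mem t (Finset.mem_insert_self _ _) fun s _ hs => by
    rw [coeff_monomial, if_neg hs.symm, zpow_zero], coeff_monomial, if_pos rfl]

lemma pw_pow (y : ℕ → ℂ) (p : ℤ[X]) (l : ℕ) : pw (fun s => y s ^ l) p = pw y p ^ l := by
  rw [pw, pw, ← Finset.prod_pow]
  exact Finset.prod_congr rfl fun s _ => by rw [← zpow_natCast, ← zpow_natCast, ← zpow_mul,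
    ← zpow_mul, mul_comm]

lemma norm_pw {y : ℕ → ℂ} (hy : ∀ s, ‖y s‖ = 1) (p : ℤ[X]) : ‖pw y p‖ = 1 := by
  simp [pw, norm_prod, norm_zpow, hy]

lemma norm_one_sub_pow {y : ℂ} (hy : ‖y‖ = 1) (l : ℕ) : ‖1 - y ^ l‖ ≤ l * ‖1 - y‖ := by
  induction l with
  | zero => simp
  | succ l ih =>
    rw [show 1 - y ^ (l + 1) = (1 - y ^ l) + y ^ l * (1 - y) by ring]
    refine (norm_add_le _ _).trans ?_
    rw [norm_mul, norm_pow, hy, one_pow, one_mul]
    push_cast
    linarith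

lemma norm_geom {y : ℂ} (hy : ‖y‖ = 1) (h1 : 1 ≤ ‖1 - y‖) (K : ℕ) :
    ‖∑ l ∈ Finset.range K, y ^ l‖ ≤ 2 := by
  have h := geom_sum_mul_neg y K
  have h2 : ‖1 - y ^ K‖ ≤ 2 := (norm_sub_le _ _).trans (by rw [norm_pow, hy]; norm_num)
  rw [← h, norm_mul] at h2
  nlinarith [norm_nonneg (∑ l ∈ Finset.range K, y ^ l)]

lemma sum_geom {r : ℝ} (h0 : 0 ≤ r) (h1 : r < 1) {B : Finset ℕ} {t L : ℕ}
    (h : ∀ s ∈ B, s + L ≤ t) : ∑ s ∈ B, r ^ (t - s) ≤ r ^ L * (1 - r)⁻¹ := by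
  have e : ∑ s ∈ B, r ^ (t - s) = r ^ L * ∑ j ∈ B.image (fun s => t - s - L), r ^ j := by
    rw [Finset.sum_image fun s hs s' hs' e => by
      have := h s hs; have := h s' hs'; omega, Finset.mul_sum]
    exact Finset.sum_congr rfl fun s hs => by
      rw [← pow_add]; congr 1; have := h s hs; omega
  rw [e, ← tsum_geometric_of_lt_one h0 h1]
  exact mul_le_mul_of_nonneg_left
    ((summable_geometric_of_lt_one h0 h1).sum_le_tsum _ fun j _ => by positivity) (by positivity)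

lemma exp_le {x : ℝ} (hx : |x| ≤ 1 / 8) : Real.exp (x - 2 * x ^ 2) ≤ 1 + x := by
  obtain ⟨h1, h2⟩ := abs_le.1 hx
  have h := Real.abs_exp_sub_one_sub_id_le (x := x - 2 * x ^ 2) (abs_le.2 ⟨by nlinarith, by nlinarith⟩)
  have h3 := (abs_le.1 h).2
  have h4 : (1 - 2 * x) ^ 2 ≤ 2 := by nlinarith
  nlinarith [mul_le_mul_of_nonneg_left h4 (sq_nonneg x)]

variable {Ω : Type} {m0 : MeasurableSpace Ω} {Q : Measure Ω} [IsProbabilityMeasure Q]
  {χ : ℕ → Ω → ℂ} {θ : ℝ}

/-- the Riesz product -/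
def Fp (θ : ℝ) (χ : ℕ → Ω → ℂ) (B : Finset ℕ) (a : ℕ → ℂ) (ω : Ω) : ℝ :=
  ∏ t ∈ B, (1 + θ * (a t * χ t ω).re)

lemma abs_re_le (hχ : ∀ t, Uni m0 (χ t)) {z : ℂ} (hz : ‖z‖ ≤ 1) (t : ℕ) (ω : Ω) :
    |(z * χ t ω).re| ≤ 1 :=
  (Complex.abs_re_le_norm _).trans (by rw [norm_mul, (hχ t).2, mul_one]; exact hz)

lemma fac_ge (hχ : ∀ t, Uni m0 (χ t)) (h0 : 0 ≤ θ) (h1 : θ ≤ 1 / 8) {z : ℂ} (hz : ‖z‖ ≤ 1)
    (t : ℕ) (ω : Ω) : 1 / 2 ≤ 1 + θ * (z * χ t ω).re := by
  nlinarith [(abs_le.1 (abs_re_le hχ hz t ω)).1]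

lemma Fp_nonneg (hχ : ∀ t, Uni m0 (χ t)) (h0 : 0 ≤ θ) (h1 : θ ≤ 1 / 8) (B : Finset ℕ) {a : ℕ → ℂ}
    (ha : ∀ t, ‖a t‖ ≤ 1) (ω : Ω) : 0 ≤ Fp θ χ B a ω :=
  Finset.prod_nonneg fun t _ => by linarith [fac_ge hχ h0 h1 (ha t) t ω]

lemma measurable_Fp (hχ : ∀ t, Uni m0 (χ t)) (B : Finset ℕ) (a : ℕ → ℂ) :
    Measurable (Fp θ χ B a) :=
  Finset.measurable_prod _ fun t _ => by have := (hχ t).1; fun_prop

lemma abs_Fp (hχ : ∀ t, Uni m0 (χ t)) (B : Finset ℕ) (a : ℕ → ℂ) (ω : Ω) :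
    |Fp θ χ B a ω| ≤ ∏ t ∈ B, (1 + |θ| * ‖a t‖) := by
  rw [Fp, Finset.abs_prod]
  refine Finset.prod_le_prod (fun _ _ => abs_nonneg _) fun t _ => (abs_add_le _ _).trans ?_
  rw [abs_one, abs_mul]
  gcongr
  exact (Complex.abs_re_le_norm _).trans (by rw [norm_mul, (hχ t).2, mul_one])

lemma integrable_Fp (hχ : ∀ t, Uni m0 (χ t)) (B : Finset ℕ) (a : ℕ → ℂ) :
    Integrable (Fp θ χ B a) Q :=
  Integrable.of_bound (measurable_Fp hχ B a).aestronglyMeasurable _
    (Eventually.of_forall (abs_Fp hχ B a))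

lemma integrable_mon_Fp (hχ : ∀ t, Uni m0 (χ t)) (p : ℤ[X]) (B : Finset ℕ) (a : ℕ → ℂ) :
    Integrable (fun ω => mon χ p ω * (Fp θ χ B a ω : ℂ)) Q := by
  have h1 : Measurable (mon χ p) :=
    Finset.measurable_prod _ fun t _ => by have := (hχ t).1; fun_prop
  have h2 := measurable_Fp (θ := θ) hχ B a
  refine Integrable.of_bound (by fun_prop) (∏ t ∈ B, (1 + |θ| * ‖a t‖))
    (Eventually.of_forall fun ω => ?_)
  rw [norm_mul, show ‖mon χ p ω‖ = 1 from norm_pw (fun s => (hχ s).2 ω) p, one_mul,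
    Complex.norm_real]
  exact abs_Fp hχ B a ω

lemma int_insert (hχ : ∀ t, Uni m0 (χ t)) (p : ℤ[X]) {B : Finset ℕ} {t : ℕ} (ht : t ∉ B)
    (a : ℕ → ℂ) :
    ∫ ω, mon χ p ω * (Fp θ χ (insert t B) a ω : ℂ) ∂Q =
      ∫ ω, mon χ p ω * (Fp θ χ B a ω : ℂ) ∂Q +
        θ / 2 * a t * ∫ ω, mon χ (p + monomial t 1) ω * (Fp θ χ B a ω : ℂ) ∂Q +
        θ / 2 * conj (a t) * ∫ ω, mon χ (p + monomial t (-1)) ω * (Fp θ χ B a ω : ℂ) ∂Q := by
  rw [← integral_const_mul, ← integral_const_mul, ← integral_add (integrable_mon_Fp hχ _ _ _)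
    ((integrable_mon_Fp hχ _ _ _).const_mul _), ← integral_add
    (by exact (integrable_mon_Fp hχ _ _ _).add ((integrable_mon_Fp hχ _ _ _).const_mul _))
    ((integrable_mon_Fp hχ _ _ _).const_mul _)]
  refine integral_congr_ae (Eventually.of_forall fun ω => ?_)
  have hy : ∀ s, χ s ω ≠ 0 := fun s => norm_ne_zero_iff.1 (by rw [(hχ s).2]; exact one_ne_zero)
  have e1 : mon χ (p + monomial t 1) ω = mon χ p ω * χ t ω ^ (1 : ℤ) := pw_add_monomial hy p t 1
  have e2 : mon χ (p + monomial t (-1)) ω = mon χ p ω * χ t ω ^ (-1 : ℤ) :=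
    pw_add_monomial hy p t (-1)
  simp only [e1, e2, Fp, Finset.prod_insert ht, zpow_one, zpow_neg_one,
    Complex.inv_eq_conj ((hχ t).2 ω)]
  rw [Complex.ofReal_mul, Complex.ofReal_add, Complex.ofReal_mul, Complex.re_eq_add_conj, map_mul]
  push_cast
  ring

lemma invariance (hχ : ∀ t, Uni m0 (χ t)) {A : Finset ℕ}
    (hA : ∀ p : ℤ[X], p.support ⊆ A → IsC Q (mon χ p) ∨ ∫ ω, mon χ p ω ∂Q = 0) {y : ℕ → ℂ}
    (hy : ∀ s, ‖y s‖ = 1) (hk : ∀ p, IsC Q (mon χ p) → pw y p = 1) (a : ℕ → ℂ) (B : Finset ℕ)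
    (hB : B ⊆ A) : ∀ p : ℤ[X], p.support ⊆ A →
      pw y p * ∫ ω, mon χ p ω * (Fp θ χ B (fun s => a s * y s) ω : ℂ) ∂Q =
        ∫ ω, mon χ p ω * (Fp θ χ B a ω : ℂ) ∂Q := by
  induction B using Finset.induction_on with
  | empty =>
    intro p hp
    simp only [Fp, Finset.prod_empty, Complex.ofReal_one, mul_one]
    rcases hA p hp with h | h
    · rw [hk p h, one_mul]
    · rw [h, mul_zero]
  | insert t B ht ih =>
    intro p hp
    have hy0 : ∀ s, y s ≠ 0 := fun s => norm_ne_zero_iff.1 (by rw [hy]; exact one_ne_zero)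
    have hs : ∀ k : ℤ, (p + monomial t k).support ⊆ A := fun k s hs => by
      rcases Finset.mem_union.1 (support_add hs) with h | h
      · exact hp h
      · rw [Finset.mem_singleton.1 (support_monomial_subset t k h)]
        exact hB (Finset.mem_insert_self _ _)
    have ih' := ih ((Finset.subset_insert _ _).trans hB)
    rw [int_insert hχ p ht, int_insert hχ p ht, ← ih' p hp, ← ih' _ (hs 1), ← ih' _ (hs (-1)),
      pw_add_monomial hy0, pw_add_monomial hy0, zpow_one, zpow_neg_one, Complex.inv_eq_conj (hy t),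
      map_mul]
    ring

lemma invariance' (hχ : ∀ t, Uni m0 (χ t)) {A : Finset ℕ}
    (hA : ∀ p : ℤ[X], p.support ⊆ A → IsC Q (mon χ p) ∨ ∫ ω, mon χ p ω ∂Q = 0) {y : ℕ → ℂ}
    (hy : ∀ s, ‖y s‖ = 1) (hk : ∀ p, IsC Q (mon χ p) → pw y p = 1) (a : ℕ → ℂ) {B : Finset ℕ}
    (hB : B ⊆ A) : ∫ ω, Fp θ χ B (fun s => a s * y s) ω ∂Q = ∫ ω, Fp θ χ B a ω ∂Q := by
  have := invariance (θ := θ) hχ hA hy hk a B hB 0 (by simp)
  simp only [pw, mon, support_zero, Finset.prod_empty, one_mul, integral_complex_ofReal] at this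
  exact_mod_cast this

lemma step_pt (hχ : ∀ t, Uni m0 (χ t)) (h0 : 0 ≤ θ) (h1 : θ ≤ 1 / 8) {a y : ℕ → ℂ}
    (ha : ∀ t, ‖a t‖ ≤ 1) (hy : ∀ s, ‖y s‖ = 1) {B : Finset ℕ} {K l : ℕ} (hl : l ≤ K) {δ : ℝ}
    (hδ : K * ∑ s ∈ B, ‖1 - y s‖ ≤ δ) (ω : Ω) :
    Fp θ χ B (fun s => a s * y s ^ l) ω ≤ Real.exp (2 * θ * δ) * Fp θ χ B a ω := by
  have hal : ∀ s, ‖a s * y s ^ l‖ ≤ 1 := fun s => by
    rw [norm_mul, norm_pow, hy, one_pow, mul_one]; exact ha s
  calc Fp θ χ B (fun s => a s * y s ^ l) ω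
      ≤ ∏ s ∈ B, (Real.exp (2 * θ * (K * ‖1 - y s‖)) * (1 + θ * (a s * χ s ω).re)) := by
        refine Finset.prod_le_prod (fun s _ => by linarith [fac_ge hχ h0 h1 (hal s) s ω])
          fun s _ => ?_
        have k1 : (a s * y s ^ l * χ s ω).re ≤ (a s * χ s ω).re + K * ‖1 - y s‖ := by
          have e : a s * y s ^ l * χ s ω = a s * χ s ω - a s * χ s ω * (1 - y s ^ l) := by ring
          have k2 := (abs_le.1 (Complex.abs_re_le_norm (a s * χ s ω * (1 - y s ^ l)))).1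
          rw [norm_mul, norm_mul, (hχ s).2, mul_one] at k2
          have k3 := norm_one_sub_pow (hy s) l
          have k4 : (l : ℝ) * ‖1 - y s‖ ≤ K * ‖1 - y s‖ := by gcongr
          have k5 := mul_le_of_le_one_left (norm_nonneg (1 - y s ^ l)) (ha s)
          rw [e, Complex.sub_re]
          linarith
        have k2 := fac_ge hχ h0 h1 (ha s) s ω
        have k3 := Real.add_one_le_exp (2 * θ * (K * ‖1 - y s‖))
        have k4 : 0 ≤ θ * (K * ‖1 - y s‖) := by positivity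
        have k5 := mul_le_mul_of_nonneg_left k1 h0
        nlinarith
    _ = Real.exp (2 * θ * (K * ∑ s ∈ B, ‖1 - y s‖)) * Fp θ χ B a ω := by
        rw [Finset.prod_mul_distrib, ← Real.exp_sum, Finset.mul_sum, Finset.mul_sum, Fp]
    _ ≤ _ := mul_le_mul_of_nonneg_right (Real.exp_le_exp.2 (by gcongr)) (Fp_nonneg hχ h0 h1 B ha ω)

lemma bound (hχ : ∀ t, Uni m0 (χ t)) (h0 : 0 ≤ θ) (h1 : θ ≤ 1 / 8) {A : Finset ℕ}
    (hA : ∀ p : ℤ[X], p.support ⊆ A → IsC Q (mon χ p) ∨ ∫ ω, mon χ p ω ∂Q = 0) {K L : ℕ}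
    (hK : 0 < K) {δ : ℝ}
    (hH : ∀ t : ℕ, ∃ y : ℕ → ℂ, (∀ s, ‖y s‖ = 1) ∧ (∀ p, IsC Q (mon χ p) → pw y p = 1) ∧
      1 ≤ ‖1 - y t‖ ∧ ∀ B : Finset ℕ, (∀ s ∈ B, s + L ≤ t) → K * ∑ s ∈ B, ‖1 - y s‖ ≤ δ)
    {a : ℕ → ℂ} (ha : ∀ t, ‖a t‖ ≤ 1) (B : Finset ℕ) (hB : B ⊆ A)
    (hs : ∀ s ∈ B, ∀ t ∈ B, s < t → s + L ≤ t) :
    ∫ ω, Fp θ χ B a ω ∂Q ≤ Real.exp ((2 * θ / K + 2 * θ * δ) * B.card) := by
  induction B using Finset.induction_on_max with
  | empty => simp [Fp]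
  | insert t B hlt ih =>
    have ht : t ∉ B := fun h => lt_irrefl _ (hlt t h)
    have ih' := ih ((Finset.subset_insert _ _).trans hB) fun s h1 t h2 =>
      hs s (Finset.mem_insert_of_mem h1) t (Finset.mem_insert_of_mem h2)
    obtain ⟨y, hy, hk, hy1, hy2⟩ := hH t
    have hδ := hy2 B fun s h =>
      hs s (Finset.mem_insert_of_mem h) t (Finset.mem_insert_self _ _) (hlt s h)
    have hK' : (0 : ℝ) < K := by exact_mod_cast hK
    have e1 : (K : ℝ) * ∫ ω, Fp θ χ (insert t B) a ω ∂Q =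
        ∫ ω, ∑ l ∈ Finset.range K, Fp θ χ (insert t B) (fun s => a s * y s ^ l) ω ∂Q := by
      rw [integral_finsetSum _ fun l _ => integrable_Fp hχ _ _,
        Finset.sum_congr rfl fun l _ => invariance' hχ hA (y := fun s => y s ^ l)
          (fun s => by rw [norm_pow, hy, one_pow]) (fun p hp => by rw [pw_pow, hk p hp, one_pow]) a hB]
      simp
    have e2 : ∀ ω, ∑ l ∈ Finset.range K, Fp θ χ (insert t B) (fun s => a s * y s ^ l) ω ≤
        (K + 2 * θ) * Real.exp (2 * θ * δ) * Fp θ χ B a ω := fun ω => by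
      have k0 := mul_nonneg (Real.exp_pos (2 * θ * δ)).le (Fp_nonneg hχ h0 h1 B ha ω)
      calc _ ≤ ∑ l ∈ Finset.range K, (1 + θ * (a t * y t ^ l * χ t ω).re) *
            (Real.exp (2 * θ * δ) * Fp θ χ B a ω) := by
            refine Finset.sum_le_sum fun l hl => ?_
            rw [Fp, Finset.prod_insert ht]
            refine mul_le_mul_of_nonneg_left
              (step_pt hχ h0 h1 ha hy (Finset.mem_range.1 hl).le hδ ω) ?_
            linarith [fac_ge hχ h0 h1 (z := a t * y t ^ l)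
              (by rw [norm_mul, norm_pow, hy, one_pow, mul_one]; exact ha t) t ω]
        _ ≤ _ := by
            rw [← Finset.sum_mul, mul_assoc (K + 2 * θ : ℝ)]
            refine mul_le_mul_of_nonneg_right ?_ k0
            rw [Finset.sum_add_distrib, ← Finset.mul_sum, ← Complex.re_sum, ← Finset.sum_mul,
              ← Finset.mul_sum]
            have k1 := Complex.re_le_norm (a t * (∑ l ∈ Finset.range K, y t ^ l) * χ t ω)
            rw [norm_mul, norm_mul, (hχ t).2, mul_one] at k1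
            have k2 := norm_geom (hy t) hy1 K
            have k3 := mul_le_of_le_one_left (norm_nonneg (∑ l ∈ Finset.range K, y t ^ l)) (ha t)
            have k4 := mul_le_mul_of_nonneg_left (k1.trans (k3.trans k2)) h0
            simp only [Finset.sum_const, Finset.card_range, nsmul_eq_mul, mul_one]
            linarith
    have e3 := integral_mono (integrable_finsetSum _ fun l _ => integrable_Fp (Q := Q) hχ _ _)
      ((integrable_Fp hχ B a).const_mul _) e2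
    rw [← e1, integral_const_mul] at e3
    have e4 : (K : ℝ) + 2 * θ ≤ K * Real.exp (2 * θ / K) := by
      have := mul_le_mul_of_nonneg_left (Real.add_one_le_exp (2 * θ / K)) hK'.le
      rw [mul_add, mul_div_cancel₀ _ hK'.ne'] at this
      linarith
    refine le_of_mul_le_mul_left (e3.trans ?_) hK'
    rw [Finset.card_insert_of_notMem ht, Nat.cast_succ, mul_add, mul_one, Real.exp_add,
      Real.exp_add]
    have e5 : 0 ≤ ∫ ω, Fp θ χ B a ω ∂Q := integral_nonneg (Fp_nonneg hχ h0 h1 B ha)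
    calc _ ≤ (K * Real.exp (2 * θ / K)) * Real.exp (2 * θ * δ) *
          Real.exp ((2 * θ / K + 2 * θ * δ) * B.card) := by gcongr
      _ = _ := by ring

omit [IsProbabilityMeasure Q] in
lemma integral_mono_of_nonneg' {f g : Ω → ℝ} (h : ∀ ω, f ω ≤ g ω) (hf : Integrable f Q)
    (hg : Integrable g Q) : ∫ ω, f ω ∂Q ≤ ∫ ω, g ω ∂Q := integral_mono hf hg h

/-- the lower bound on a set of large measure -/
lemma lower (hχ : ∀ t, Uni m0 (χ t)) {η : ℝ} (h0 : 0 < η) (h1 : η ≤ 1) (B : Finset ℕ)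
    {a : Ω → ℕ → ℂ} (ha : ∀ ω t, ‖a ω t‖ ≤ 1) (hm : ∀ t, Measurable fun ω => a ω t)
    (hc : ∀ t, η ≤ ∫ ω, (a ω t * χ t ω).re ∂Q) {D : Set Ω} (hD : MeasurableSet D)
    (hD1 : 1 - η / 4 ≤ Q.real D) {g : Ω → ℝ} (hg : Integrable g Q) (hg0 : ∀ ω, 0 ≤ g ω)
    (hg1 : ∀ ω ∈ D, Fp (η / 8) χ B (a ω) ω ≤ g ω) :
    Real.exp (η / 8 * η * B.card / 2) / 2 ≤ ∫ ω, g ω ∂Q := by
  set θ := η / 8 with hθ
  set n : ℝ := (B.card : ℝ) with hn
  set c := θ * η * n / 2 with hc'
  have hn0 : 0 ≤ n := by positivity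
  have hθ0 : 0 ≤ θ := by positivity
  have hi : ∀ t, Integrable (fun ω => (a ω t * χ t ω).re) Q := fun t =>
    Integrable.of_bound (by have := (hχ t).1; have := hm t; fun_prop) 1
      (Eventually.of_forall fun ω => abs_re_le hχ (ha ω t) t ω)
  have hS := integrable_finsetSum B fun t _ => hi t
  have hI : Integrable (D.indicator fun _ => (1 : ℝ)) Q := (integrable_const _).indicator hD
  have k1 : ∀ ω, Real.exp c * (θ * ∑ t ∈ B, (a ω t * χ t ω).re +
      (1 + θ * n) * D.indicator (fun _ => (1 : ℝ)) ω - (2 * θ ^ 2 * n + c + θ * n)) ≤ g ω := by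
    intro ω
    have j1 : ∑ t ∈ B, (a ω t * χ t ω).re ≤ n := by
      simpa using Finset.sum_le_card_nsmul B _ 1 fun t _ =>
        (abs_le.1 (abs_re_le hχ (ha ω t) t ω)).2
    by_cases hω : ω ∈ D
    · refine le_trans ?_ (hg1 ω hω)
      have j2 : Real.exp (θ * ∑ t ∈ B, (a ω t * χ t ω).re - 2 * θ ^ 2 * n) ≤
          Fp θ χ B (a ω) ω := by
        have : θ * ∑ t ∈ B, (a ω t * χ t ω).re - 2 * θ ^ 2 * n =
            ∑ t ∈ B, (θ * (a ω t * χ t ω).re - 2 * θ ^ 2) := by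
          rw [Finset.sum_sub_distrib, Finset.mul_sum, Finset.sum_const, nsmul_eq_mul, mul_comm n]
        rw [this, Real.exp_sum]
        refine Finset.prod_le_prod (fun _ _ => (Real.exp_pos _).le) fun t _ => ?_
        have j3 := abs_re_le hχ (ha ω t) t ω
        refine le_trans (Real.exp_le_exp.2 ?_) (exp_le ?_)
        · have := mul_le_mul_of_nonneg_left ((sq_le_one_iff_abs_le_one _).2 j3) (sq_nonneg θ)
          rw [mul_pow]
          linarith
        · rw [abs_mul, abs_of_nonneg hθ0]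
          nlinarith
      refine le_trans ?_ j2
      rw [indicator_of_mem hω, show θ * ∑ t ∈ B, (a ω t * χ t ω).re - 2 * θ ^ 2 * n =
        c + (θ * ∑ t ∈ B, (a ω t * χ t ω).re - 2 * θ ^ 2 * n - c) by ring, Real.exp_add]
      refine mul_le_mul_of_nonneg_left (le_trans (le_of_eq ?_) (Real.add_one_le_exp _))
        (Real.exp_pos _).le
      ring
    · refine le_trans (mul_nonpos_of_nonneg_of_nonpos (Real.exp_pos _).le ?_) (hg0 ω)
      rw [indicator_of_notMem hω]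
      have := mul_le_mul_of_nonneg_left j1 hθ0
      have : 0 ≤ 2 * θ ^ 2 * n := by positivity
      have : 0 ≤ c := by positivity
      linarith
  have k2 := integral_mono_of_nonneg' k1
    (by exact (((hS.const_mul θ).add (hI.const_mul (1 + θ * n))).sub
      (integrable_const _)).const_mul _) hg
  rw [integral_const_mul, integral_sub (by exact (hS.const_mul θ).add (hI.const_mul _))
    (integrable_const _), integral_add (hS.const_mul θ) (hI.const_mul _), integral_const_mul,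
    integral_const_mul, integral_finsetSum _ fun t _ => hi t, integral_indicator_const _ hD] at k2
  have k3 : η * n ≤ ∑ t ∈ B, ∫ ω, (a ω t * χ t ω).re ∂Q := by
    simpa [mul_comm] using Finset.card_nsmul_le_sum B _ η fun t _ => hc t
  refine le_trans ?_ k2
  rw [div_eq_mul_inv]
  refine mul_le_mul_of_nonneg_left ?_ (Real.exp_pos _).le
  have k4 := mul_le_mul_of_nonneg_left k3 hθ0
  have k5 := mul_le_mul_of_nonneg_left hD1 (by positivity : 0 ≤ 1 + θ * n)
  simp only [integral_const, probReal_univ, smul_eq_mul, one_mul, mul_one]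
  have k6 : 2 * θ ^ 2 * n = θ * n * η / 4 := by rw [hθ]; ring
  nlinarith

end Riesz

open Riesz in
theorem rieszStmt : RieszStmt := by
  intro Ω m0 Q _ M ν ξ F η χ hν hZ hξ hlaw ⟨hF, ⟨w, hw⟩, hF1⟩ hη hC ⟨C, r, hC0, hr0, hr1, hH⟩
  have hχ := hC.uni
  have hsh : ∀ h : ℤ, Measurable (sh (M := M) h) := fun h => (hν.inv h).measurable
  have hz : ∀ t : ℕ, ‖∫ ω, F (sh t (ξ ω)) * conj (χ t ω) ∂Q‖ ≤ 1 := fun t => by
    simpa using norm_integral_le_of_norm_le_const (μ := Q) (C := 1)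
      (f := fun ω => F (sh t (ξ ω)) * conj (χ t ω)) (Eventually.of_forall fun ω => by
        rw [norm_mul, Complex.norm_conj, (hχ t).2, mul_one]; exact hF1 _)
  have hη1 : η ≤ 1 := (hC.corr 0).trans (hz 0)
  obtain ⟨K, hK⟩ := exists_nat_ge (32 / η)
  have hK0 : (0 : ℝ) < K := lt_of_lt_of_le (by positivity) hK
  obtain ⟨L, hL, hL1⟩ : ∃ L : ℕ, K * (C * (r ^ L * (1 - r)⁻¹)) ≤ η / 32 ∧ 1 ≤ L := by
    have := (((tendsto_pow_atTop_nhds_zero_of_lt_one hr0 hr1).mul_const (1 - r)⁻¹).const_mul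
      C).const_mul (K : ℝ)
    rw [zero_mul, mul_zero, mul_zero] at this
    exact ((this.eventually_le_const (by positivity : (0 : ℝ) < η / 32)).and
      (eventually_ge_atTop 1)).exists
  have hL0 : (1 : ℝ) ≤ L := by exact_mod_cast hL1
  set ε := η / 8 * η ^ 2 / (16 * L) with hε
  have hε0 : 0 < ε := by positivity
  have hε1 : ε ≤ η / 4 := by
    rw [hε, div_le_iff₀ (by positivity)]
    nlinarith [mul_pos hη hη]
  obtain ⟨N₀, hN₀⟩ := eventually_atTop.1 (hZ ε hε0)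
  obtain ⟨N₁, hN₁⟩ := exists_nat_gt (1 / ε + w)
  set N := max N₀ N₁ with hN
  obtain ⟨𝒜, h𝒜, h𝒜'⟩ := hN₀ (N + 2 * w) (by omega)
  obtain ⟨A, hA1, hA2, hA3⟩ := hC.dens N
  obtain ⟨b, -, hb⟩ := Finset.exists_le_card_fiber_of_nsmul_le_card_of_maps_to (s := A)
    (t := Finset.range L) (f := fun s => s % L) (b := η * N / 2 / L)
    (fun s _ => Finset.mem_range.2 (Nat.mod_lt _ hL1)) ⟨0, Finset.mem_range.2 hL1⟩
    (by rw [Finset.card_range, nsmul_eq_mul, mul_div_cancel₀ _ (by positivity)]; exact hA2)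
  set B := A.filter fun s => s % L = b with hB
  let c : ℕ → ℂ := fun t => (∫ ω, F (sh t (ξ ω)) * conj (χ t ω) ∂Q) /
    (‖∫ ω, F (sh t (ξ ω)) * conj (χ t ω) ∂Q‖ : ℝ)
  have hc : ∀ t, ‖c t‖ = 1 := fun t => by
    simp only [c, norm_div, Complex.norm_real, norm_norm]
    exact div_self (hη.trans_le (hC.corr t)).ne'
  let a : Sq M → ℕ → ℂ := fun x t => c t * conj (F (sh t x))
  have ha : ∀ x t, ‖a x t‖ ≤ 1 := fun x t => by
    simp only [a, norm_mul, hc, one_mul, Complex.norm_conj, hF1]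
  have ham : ∀ t, Measurable fun ω => a (ξ ω) t := fun t =>
    (Complex.continuous_conj.measurable.comp (hF.comp ((hsh t).comp hξ))).const_mul _
  let wd : Sq M → Fin (N + 2 * w) → Al M := fun x i => sh (-(w : ℤ)) x ((i : ℕ) : ℤ)
  have hwd : ∀ x x', wd x = wd x' → Fp (η / 8) χ B (a x) = Fp (η / 8) χ B (a x') := by
    intro x x' h
    funext ω
    refine Finset.prod_congr rfl fun t ht => ?_
    have htN := Finset.mem_range.1 (hA1 (Finset.mem_filter.1 ht).1)
    have : F (sh t x) = F (sh t x') := hw fun j hj => by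
      have := congrFun h ⟨(j + t + w).toNat, by have := hj.2; omega⟩
      simp only [wd, sh] at this ⊢
      rwa [show (((j + t + w).toNat : ℕ) : ℤ) + -(w : ℤ) = j + t by have := hj.1; omega] at this
    simp only [a, this]
  have hE : MeasurableSet {x : Sq M | (fun i : Fin (N + 2 * w) => x ((i : ℕ) : ℤ)) ∈ 𝒜} :=
    (measurable_pi_lambda _ fun i => measurable_pi_apply _) (𝒜.measurableSet)
  have hlow := lower (Q := Q) hχ hη hη1 B (a := fun ω => a (ξ ω)) (fun ω => ha _) ham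
    (fun t => by
      have hi : Integrable (fun ω => a (ξ ω) t * χ t ω) Q :=
        Integrable.of_bound ((ham t).mul (hχ t).1).aestronglyMeasurable 1
          (Eventually.of_forall fun ω => by rw [norm_mul, (hχ t).2, mul_one]; exact ha _ _)
      have e : ∫ ω, a (ξ ω) t * χ t ω ∂Q =
          c t * conj (∫ ω, F (sh t (ξ ω)) * conj (χ t ω) ∂Q) := by
        rw [← integral_conj, ← integral_const_mul]
        simp only [a, map_mul, Complex.conj_conj, mul_assoc]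
      have h0 := (hη.trans_le (hC.corr t)).ne'
      rw [show ∫ ω, (a (ξ ω) t * χ t ω).re ∂Q = (∫ ω, a (ξ ω) t * χ t ω ∂Q).re from
        integral_re hi, e, div_mul_eq_mul_div, Complex.mul_conj,
        Complex.normSq_eq_norm_sq, ← Complex.ofReal_div, Complex.ofReal_re,
        sq, mul_div_cancel_right₀ _ h0]
      exact hC.corr t)
    (D := ξ ⁻¹' (sh (-(w : ℤ)) ⁻¹' _)) (hξ (hsh _ hE))
    (by
      rw [← map_measureReal_apply hξ (hsh _ hE), hlaw, (hν.inv _).measureReal_preimage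
        hE.nullMeasurableSet]
      linarith)
    (g := fun ω => ∑ v ∈ 𝒜, Fp (η / 8) χ B (a (Function.invFun wd v)) ω)
    (integrable_finsetSum _ fun v _ => integrable_Fp hχ _ _)
    (fun ω => Finset.sum_nonneg fun v _ =>
      Fp_nonneg hχ (by positivity) (by linarith) B (ha _) ω)
    (fun ω hω => by
      rw [hwd (ξ ω) (Function.invFun wd (wd (ξ ω))) (Function.invFun_eq ⟨_, rfl⟩).symm]
      exact Finset.single_le_sum (f := fun v => Fp (η / 8) χ B (a (Function.invFun wd v)) ω)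
        (fun v _ => Fp_nonneg hχ (by positivity) (by linarith) B (ha _) ω) hω)
  have hup : ∀ x, ∫ ω, Fp (η / 8) χ B (a x) ω ∂Q ≤
      Real.exp ((2 * (η / 8) / K + 2 * (η / 8) * (η / 32)) * B.card) := fun x =>
    bound hχ (by positivity) (by linarith) hA3 (L := L) (by exact_mod_cast hK0)
      (fun t => by
        obtain ⟨y, h1, h2, h3, h4⟩ := hH t
        refine ⟨y, h1, h2, h3, fun B hB => le_trans ?_ hL⟩
        refine mul_le_mul_of_nonneg_left ((Finset.sum_le_sum fun s hs =>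
          h4 s (by have := hB s hs; omega)).trans ?_) hK0.le
        rw [← Finset.mul_sum]
        exact mul_le_mul_of_nonneg_left (sum_geom hr0 hr1 hB) hC0)
      (ha x) B (Finset.filter_subset _ _) fun s hs t ht hst => by
        have h1 : s ≡ t [MOD L] :=
          ((Finset.mem_filter.1 hs).2).trans ((Finset.mem_filter.1 ht).2).symm
        have := Nat.le_of_dvd (by omega) ((Nat.modEq_iff_dvd' hst.le).1 h1)
        omega
  rw [integral_finsetSum _ fun v _ => integrable_Fp hχ _ _] at hlow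
  have k1 := hlow.trans (Finset.sum_le_card_nsmul 𝒜 _ _ fun v _ => hup _)
  rw [nsmul_eq_mul] at k1
  have k2 := k1.trans (mul_le_mul_of_nonneg_right h𝒜 (Real.exp_pos _).le)
  rw [← Real.exp_add, div_le_iff₀ two_pos] at k2
  have k3 := k2.trans (mul_le_mul_of_nonneg_left
    (show (2 : ℝ) ≤ Real.exp 1 by linarith [Real.add_one_le_exp (1 : ℝ)]) (Real.exp_pos _).le)
  rw [← Real.exp_add, Real.exp_le_exp] at k3
  set n : ℝ := (B.card : ℝ) with hn
  have hn0 : 0 ≤ n := by positivity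
  have k4 : 2 * (η / 8) / K ≤ η / 8 * η / 16 := by
    rw [div_le_iff₀ hK0]
    rw [div_le_iff₀ hη] at hK
    nlinarith
  have k5 := mul_le_mul_of_nonneg_right k4 hn0
  have k6 : 3 * ε * N ≤ 3 / 8 * (η / 8 * η) * n := by
    have := mul_le_mul_of_nonneg_left hb (by positivity : 0 ≤ 3 / 8 * (η / 8 * η))
    refine le_trans (le_of_eq ?_) this
    rw [hε]; field_simp; ring
  have k7 : (N₁ : ℝ) ≤ N := by exact_mod_cast le_max_right _ _
  have k8 : 1 + ε * w < ε * N := by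
    have := mul_lt_mul_of_pos_left (hN₁.trans_le k7) hε0
    rwa [mul_add, mul_one_div_cancel hε0.ne'] at this
  push_cast at k3
  nlinarith

end Crest.Agent.R69
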