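import Crest.Agent.R69.Cyl

/-! # The inductive step `SI s → SI (s+1)` -/

set_option autoImplicit false
open MeasureTheory ProbabilityTheory Filter Set Topology
open scoped ENNReal InnerProductSpace ComplexConjugate

noncomputable section
namespace Crest.Agent.R69

variable {M : ℕ}

theorem ae_good (h1 : Hyp1Stmt) (h2 : Hyp2Stmt) (hT : TLStmt) (hN : LLNStmt)
    {ν : Measure (Sq M)} {P : Measure (Om M)} [IsProbabilityMeasure P] {Inf : La → Prop}
    {col : ℚ → Finset La} {s : ℕ} {Lab : Fin 3 → Finset La} {sq : Bool → ℕ → ℚ}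
    (hA : Arr ν P) (hI : InfOK Inf) (hc : Dn col) (hs : 1 ≤ s) (hL : LabOK Inf s Lab)
    (hq : Sqs sq) (hl : Link P Inf s) :
    ∀ᵐ ω ∂P, Good ν Lab sq (fib P (Wb (hat Inf col s)) ω) := by
  obtain ⟨-, t2, t3⟩ := hT M P (Wb (hat Inf col s))
  obtain ⟨g1, -, -⟩ := h2 M ν P Inf col s Lab hA hI hc
  have a1 := t3 (hl _ (hat_ok Inf col s))
  have a2 : ∀ᵐ ω ∂P, ∀ (C : Option Bool) (j m : ℚ), j ≠ m → act j ∈ sd C → act m ∈ sd C →
      H1 (fib P (Wb (hat Inf col s)) ω) fun α β => sg M (cell2 C j m (Lab α) (Lab β)) := by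
    simp only [H1, ae_all_iff]
    intro C j m hjm hj hm α α' hα B
    have := t2 _ _ _ (h1 M ν P Inf col s Lab hA hI hc hs hL C j m hjm hj hm α α' hα B)
    simpa only [sg_union, sg_iUnion] using this
  have a3 : ∀ᵐ ω ∂P, ∀ (b : Bool) (j : ℚ), act j ∈ sd (some b) →
      CI (fib P (Wb (hat Inf col s)) ω) (sg M (cell0 (some b))) (sg M (oth Lab (some b) j))
        (sg M (oth Lab none j)) := by
    simp only [ae_all_iff]
    exact fun b j hj => t2 _ _ _ (g1 b j hj).1
  have a4 : ∀ᵐ ω ∂P, ∀ (b : Bool) (j : ℚ), act j ∈ sd (some b) →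
      CI (fib P (Wb (hat Inf col s)) ω) (sg M (oth Lab (some b) j)) (sg M (cell0 (some b)))
        (sg M (cell0 none)) := by
    simp only [ae_all_iff]
    exact fun b j hj => t2 _ _ _ (g1 b j hj).2
  filter_upwards [a1, a2, a3, a4, (hN M ν P Inf col s Lab sq hA hq).1] with ω b1 b2 b3 b4 b5
  refine ⟨inferInstance, b1.trans hA.law, fun C j m hjm hj hm => ⟨fun _ _ => sg_le _,
    b2 C j m hjm hj hm, ?_⟩, b3, b4, b5⟩
  have := b2 C m j hjm.symm hm hj
  simpa only [cell2_comm C m j] using this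

/-- the centred indicator of a cylinder of the process -/
def cf (ν : Measure (Sq M)) (W : Finset Pos) (a : Om M) (x : Sq M) : ℂ :=
  ({x : Sq M | ∀ y ∈ W, x y.1 = a y}.indicator (fun _ => (1 : ℂ)) x) -
    (ν.real {x : Sq M | ∀ y ∈ W, x y.1 = a y} : ℝ)

theorem measurableSet_cf (W : Finset Pos) (a : Om M) :
    MeasurableSet {x : Sq M | ∀ y ∈ W, x y.1 = a y} := by
  have : {x : Sq M | ∀ y ∈ W, x y.1 = a y} = ⋂ y ∈ W, (fun x : Sq M => x y.1) ⁻¹' {a y} := by
    ext; simp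
  rw [this]
  exact Finset.measurableSet_biInter _ fun y _ => measurable_pi_apply _ (measurableSet_singleton _)

theorem win_cf (ν : Measure (Sq M)) [IsProbabilityMeasure ν] (W : Finset Pos) (a : Om M) :
    Win (cf ν W a) := by
  refine ⟨(measurable_const.indicator (measurableSet_cf W a)).sub measurable_const,
    ⟨W.sup fun y => y.1.natAbs, fun x x' h => ?_⟩, fun x => ?_⟩
  · have : ∀ y ∈ W, x y.1 = x' y.1 := fun y hy => h _ (by
      have := Finset.le_sup (f := fun y : Pos => y.1.natAbs) hy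
      constructor <;> omega)
    have e : x ∈ {x : Sq M | ∀ y ∈ W, x y.1 = a y} ↔ x' ∈ {x : Sq M | ∀ y ∈ W, x y.1 = a y} :=
      forall₂_congr fun y hy => by rw [this y hy]
    unfold cf
    by_cases hx : x ∈ {x : Sq M | ∀ y ∈ W, x y.1 = a y}
    · rw [indicator_of_mem hx, indicator_of_mem (e.1 hx)]
    · rw [indicator_of_notMem hx, indicator_of_notMem (fun h' => hx (e.2 h'))]
  · have h0 : 0 ≤ ν.real {x : Sq M | ∀ y ∈ W, x y.1 = a y} := measureReal_nonneg
    have h1 : ν.real {x : Sq M | ∀ y ∈ W, x y.1 = a y} ≤ 1 := measureReal_le_one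
    unfold cf
    by_cases hx : x ∈ {x : Sq M | ∀ y ∈ W, x y.1 = a y}
    · rw [indicator_of_mem hx, ← Complex.ofReal_one, ← Complex.ofReal_sub, Complex.norm_real,
        Real.norm_eq_abs, abs_le]
      constructor <;> linarith
    · rw [indicator_of_notMem hx, zero_sub, norm_neg, Complex.norm_real, Real.norm_eq_abs, abs_le]
      constructor <;> linarith

theorem integral_cf (ν : Measure (Sq M)) [IsProbabilityMeasure ν] (W : Finset Pos) (a : Om M) :
    ∫ x, cf ν W a x ∂ν = 0 := by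
  unfold cf
  rw [integral_sub ((integrable_const _).indicator (measurableSet_cf W a)) (integrable_const _),
    integral_indicator (measurableSet_cf W a)]
  simp

theorem cf_xs (ν : Measure (Sq M)) {W : Finset Pos} (hW : ↑W ⊆ X0) (a : Om M) (ω : Om M) :
    cf ν W a (xs ω) = (cyl W a).indicator (fun _ => (1 : ℂ)) ω -
      (ν.real {x : Sq M | ∀ y ∈ W, x y.1 = a y} : ℝ) := by
  have e : xs ω ∈ {x : Sq M | ∀ y ∈ W, x y.1 = a y} ↔ ω ∈ cyl W a :=
    forall₂_congr fun y hy => by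
      have : y = (y.1, 0) := Prod.ext rfl (hW hy)
      change ω (y.1, 0) = a y ↔ ω y = a y
      rw [← this]
  unfold cf
  by_cases hx : ω ∈ cyl W a
  · rw [indicator_of_mem hx, indicator_of_mem (e.2 hx)]
  · rw [indicator_of_notMem hx, indicator_of_notMem (fun h' => hx (e.1 h'))]

theorem One_subset_oth {Lab : Fin 3 → Finset La} {D : Finset La} (hD : D ⊆ Lab 1 ∪ Lab 2) (j : ℚ) :
    One (act j) D ⊆ oth Lab none j := by
  rintro x ⟨d, hd, hx⟩
  have h1 : x.2 (act j) = d := by rw [hx, Finsupp.single_eq_same]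
  have h2 : ∀ i, Act i → i ≠ act j → x.2 i = 0 := fun i _ hi => by
    rw [hx, Finsupp.single_eq_of_ne hi]
  rcases Finset.mem_union.1 (hD hd) with h | h
  · exact Or.inl ⟨fun _ _ => trivial, h1 ▸ h, h2⟩
  · exact Or.inr ⟨fun _ _ => trivial, h1 ▸ h, h2⟩

theorem indep_One_of_act {ν : Measure (Sq M)} {P : Measure (Om M)} (hA : Arr ν P)
    {D : Finset La} (h : Indep (sg M X0) (sg M (One (act 0) D)) P) (p : II) :
    Indep (sg M X0) (sg M (One p D)) P := by
  let σ : II → II := fun i => toLex ((ofLex i).1 - (ofLex p).1, (ofLex i).2 - (ofLex p).2)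
  have hσ : StrictMono σ := fun i i' h => by
    rcases Prod.Lex.lt_iff.1 h with h1 | ⟨h1, h2⟩
    · exact Prod.Lex.lt_iff.2 (Or.inl (sub_lt_sub_right h1 _))
    · exact Prod.Lex.lt_iff.2 (Or.inr ⟨congrArg (· - (ofLex p).1) h1, sub_lt_sub_right h2 _⟩)
  have hp : σ p = act 0 := by simp [σ, act]
  refine indep_of_comap (hA.mp_mv hσ) (sg_le _) (sg_le _) ?_
  rw [comap_pull_sg, comap_pull_sg]
  refine indep_of_indep_of_le h (sg_mono ?_) (sg_mono ?_)
  · rintro _ ⟨x, hx, rfl⟩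
    change x.2.mapDomain σ = 0
    rw [show x.2 = 0 from hx, Finsupp.mapDomain_zero]
  · rintro _ ⟨x, ⟨d, hd, hx⟩, rfl⟩
    refine ⟨d, hd, ?_⟩
    change x.2.mapDomain σ = _
    rw [hx, Finsupp.mapDomain_single, hp]

theorem stepStmt (hK : LinkStmt) (h1 : Hyp1Stmt) (h2 : Hyp2Stmt) (hT : TLStmt) (hN : LLNStmt)
    (hD : DescStmt) (hC : ChainStmt) (hF : FinalStmt) : StepStmt := by
  classical
  intro M ν P Inf hν hZ hA hI s hs hSI p D hD1 hD2
  have := hA.prob
  have := hν.prob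
  rcases D.eq_empty_or_nonempty with rfl | ⟨d, hd⟩
  · exact hSI p ∅ hD1 (by simp)
  obtain ⟨col, hc⟩ := exists_Dn
  obtain ⟨sq, hq⟩ := exists_Sqs
  let Lab : Fin 3 → Finset La := ![{0}, {d}, D.erase d]
  have hDL : Lab 1 ∪ Lab 2 = D := by
    change {d} ∪ D.erase d = D
    rw [← Finset.insert_eq, Finset.insert_erase hd]
  have hL : LabOK Inf s Lab := ⟨rfl, Finset.card_singleton d, by
      change (D.erase d).card ≤ s
      rw [Finset.card_erase_of_mem hd]; omega, by
      change Disjoint {d} (D.erase d)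
      simp, hDL.symm ▸ hD1⟩
  have hl := hK M ν P Inf hA hI s hSI
  have hG := ae_good h1 h2 hT hN hA hI hc hs hL hq hl
  obtain ⟨-, g2, g3⟩ := h2 M ν P Inf col s Lab hA hI hc
  refine indep_One_of_act hA ?_ p
  refine CI.indep (CI.of_piSystem (sg_le _) isPiSystem_cyls sg_eq_generateFrom univ_mem_cyls ?_)
    (sg_le _) (sg_le _)
  rintro _ ⟨W, a, hW, rfl⟩
  have hw := win_cf ν W a
  have hb : Bdd inferInstance (cf ν W a) := ⟨hw.1, 1, hw.2.2⟩
  have hnn : ∀ᵐ ω ∂P, ¬ NN (fib P (Wb (hat Inf col s)) ω) Lab sq fun ω' => cf ν W a (xs ω') := by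
    by_contra hne
    obtain ⟨Q, Q', q1, q2, q3, q4, q5⟩ := hD M ν P (hat Inf col s) hA g2 (g3 hl)
      (Good ν Lab sq) (fun Q => NN Q Lab sq fun ω' => cf ν W a (xs ω')) hG hne
    obtain ⟨η, hη, χ, hχ⟩ := hC M ν Lab sq Q Q' _ rfl hq q1 q2 hb q3 q4 q5
    have := q1.prob
    exact hF _ _ Q M ν xs _ η χ hν hZ measurable_xs' q1.law hw (integral_cf ν W a) hη hχ
  have h0 := (hN M ν P Inf col s Lab sq hA hq).2 _ hb hnn 0
  have h3 : Pr P (sg M (One (act 0) D)) (tl P fun ω' => cf ν W a (xs ω')) = 0 := by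
    rw [← Pr_Pr_of_ge (sg_le _) (sg_le _) (L2_sg_mono ((One_subset_oth hDL.ge 0).trans
      subset_union_right)), h0, map_zero]
  have hind := Bdd.indicator (sg_le _ _ (measurableSet_cyl hW a))
  simp only [cf_xs ν hW] at h3
  rw [tl_sub (hind.memLp 2) (memLp_const _), map_sub, sub_eq_zero,
    Pr_eq_self (sg_le _) (Bdd.const _).tl_mem] at h3
  have h4 : Pr P (sg M (One (act 0) D)) (tl P ((cyl W a).indicator fun _ => (1 : ℂ))) ∈
      L2 P ⊥ := by
    have h5 : tl P (fun ω => (cyl W a).indicator (fun _ => (1 : ℂ)) ω) =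
      tl P ((cyl W a).indicator fun _ => (1 : ℂ)) := rfl
    rw [← h5, h3]; exact (Bdd.const _).tl_mem
  rw [← Pr_Pr_of_ge bot_le (sg_le (One (act 0) D)) (L2_mono bot_le), Pr_eq_self bot_le h4]

end Crest.Agent.R69
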