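import Crest.Agent.R69.CI

/-! # Row 69: structure of a good fibre -/

set_option autoImplicit false
open MeasureTheory ProbabilityTheory Filter Set Topology
open scoped ENNReal InnerProductSpace ComplexConjugate

noncomputable section
namespace Crest.Agent.R69

namespace StrAux

variable {M : ℕ}

/-! ### cells -/

theorem sgle (S : Set Pos) : sg M S ≤ MeasurableSpace.pi := cylinderEvents_le_pi

theorem sgmono {S S' : Set Pos} (h : S ⊆ S') : sg M S ≤ sg M S' := cylinderEvents_mono h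

theorem sgunion (S S' : Set Pos) : sg M (S ∪ S') = sg M S ⊔ sg M S' := by
  simp only [sg, cylinderEvents]
  exact iSup_union

theorem act_act (j : ℚ) : Act (act j) := rfl

theorem act_inj {j m : ℚ} (h : act j = act m) : j = m :=
  congrArg (fun i : II => (ofLex i).1) h

theorem cell2_right {C : Option Bool} {j m : ℚ} (h : j ≠ m) (A : Finset La) :
    cell2 C j m A {0} = cell1 C j A := by
  ext x
  simp only [cell2, cell1, mem_setOf_eq, Finset.mem_singleton]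
  constructor
  · rintro ⟨h1, h2, h3, h4⟩
    refine ⟨h1, h2, fun i hi hij => ?_⟩
    by_cases him : i = act m
    · rw [him]; exact h3
    · exact h4 i hi hij him
  · rintro ⟨h1, h2, h3⟩
    exact ⟨h1, h2, h3 _ (act_act m) fun e => h (act_inj e).symm, fun i hi hij _ => h3 i hi hij⟩

theorem cell2_left {C : Option Bool} {j m : ℚ} (h : j ≠ m) (A : Finset La) :
    cell2 C j m {0} A = cell1 C m A := by
  rw [← cell2_right h.symm]
  ext x
  simp only [cell2, mem_setOf_eq]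
  exact ⟨fun ⟨h1, h2, h3, h4⟩ => ⟨h1, h3, h2, fun i a b c => h4 i a c b⟩,
    fun ⟨h1, h2, h3, h4⟩ => ⟨h1, h3, h2, fun i a b c => h4 i a c b⟩⟩

theorem cell1_zero' (C : Option Bool) (j : ℚ) : cell1 C j {0} = cell0 C := by
  ext x
  simp only [cell0, cell1, mem_setOf_eq, Finset.mem_singleton]
  constructor
  · rintro ⟨h1, h2, h3⟩
    refine ⟨h1, fun i hi => ?_⟩
    by_cases hij : i = act j
    · rw [hij]; exact h2
    · exact h3 i hi hij
  · rintro ⟨h1, h2⟩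
    exact ⟨h1, h2 _ (act_act j), fun i hi _ => h2 i hi⟩

theorem GG_sub (C : Option Bool) : GG C ⊆ GG none := fun _ _ _ _ => mem_univ _

theorem cell0_sub (C : Option Bool) : cell0 C ⊆ cell0 none := fun _ h => ⟨GG_sub C h.1, h.2⟩

theorem cell1_sub (C : Option Bool) (j : ℚ) (A : Finset La) : cell1 C j A ⊆ cell1 none j A :=
  fun _ h => ⟨GG_sub C h.1, h.2⟩

theorem X0_sub (C : Option Bool) : X0 ⊆ cell0 C := fun x h => by
  have h' : x.2 = 0 := h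
  exact ⟨fun i hi => absurd (by rw [h']; rfl) hi, fun i _ => by rw [h']; rfl⟩

theorem exists_ne {C : Option Bool} {j : ℚ} (h : act j ∈ sd C) : ∃ m, j ≠ m ∧ act m ∈ sd C := by
  rcases C with _ | _ | _
  · exact ⟨j + 1, by simp, mem_univ _⟩
  · refine ⟨j - 1, by linarith, ?_⟩
    have h' : (j : ℝ) < √2 := h
    change ((j - 1 : ℚ) : ℝ) < √2
    push_cast; linarith
  · refine ⟨j + 1, by simp, ?_⟩
    have h' : √2 < (j : ℝ) := h
    change √2 < ((j + 1 : ℚ) : ℝ)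
    push_cast; linarith

variable {ν : Measure (Sq M)} {Lab : Fin 3 → Finset La} {s : Bool → ℕ → ℚ} {Q : Measure (Om M)}

theorem Gj_none {C : Option Bool} {j : ℚ} {χ : Om M → ℂ} (h : Gj Q Lab C j χ) :
    Gj Q Lab none j χ :=
  Gam.mono h (sgmono (cell0_sub C)) (sgmono (cell1_sub C j _)) (sgmono (cell1_sub C j _))

theorem pair (hP : PairStmt) (h0 : Lab 0 = {0}) (hG : Good ν Lab s Q) {C : Option Bool} {j m : ℚ}
    (hjm : j ≠ m) (hj : act j ∈ sd C) (hm : act m ∈ sd C) {f : Lp ℂ 2 Q}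
    (hf : f ∈ L2 Q (sg M (cell0 C))) (w : Lp ℂ 2 Q)
    (hw : ∀ χ, Gj Q Lab C j χ → Gj Q Lab C m χ → ⟪w, tl Q χ⟫_ℂ = 0) :
    ⟪w, Rj Q Lab C m (Rj Q Lab C j f)⟫_ℂ = 0 := by
  have := hG.prob
  have e0 : cell2 C j m (Lab 0) (Lab 0) = cell0 C := by rw [h0, cell2_right hjm, cell1_zero']
  have e1 : ∀ A, cell2 C j m A (Lab 0) = cell1 C j A := fun A => by rw [h0, cell2_right hjm]
  have e2 : ∀ A, cell2 C j m (Lab 0) A = cell1 C m A := fun A => by rw [h0, cell2_left hjm]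
  have h1 := hP _ _ Q _ (hG.grid C j m hjm hj hm) f (by simpa only [e0] using hf)
  have h2 := GamSpan_le (Q := Q) (n := fun α β => sg M (cell2 C j m (Lab α) (Lab β)))
    (K := LinearMap.ker (innerSL ℂ w).toLinearMap) (innerSL ℂ w).isClosed_ker fun χ a b => by
      simp only [e0, e1 (Lab 1), e1 (Lab 2), e2 (Lab 1), e2 (Lab 2)] at a b
      exact hw χ a b
  have h3 := h2 h1
  simp only [e0, e1 (Lab 1), e1 (Lab 2), e2 (Lab 1), e2 (Lab 2)] at h3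
  exact h3

theorem indep3 (h0 : Lab 0 = {0}) (hG : Good ν Lab s Q) {C : Option Bool} {j : ℚ}
    (hj : act j ∈ sd C) :
    Indep (sg M (cell0 C)) (sg M (cell1 C j (Lab 1))) Q ∧
    Indep (sg M (cell0 C)) (sg M (cell1 C j (Lab 2))) Q ∧
    Indep (sg M (cell1 C j (Lab 1))) (sg M (cell1 C j (Lab 2))) Q := by
  have := hG.prob
  obtain ⟨m, hjm, hm⟩ := exists_ne hj
  have e1 : ∀ A, cell2 C j m A (Lab 0) = cell1 C j A := fun A => by rw [h0, cell2_right hjm]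
  have key : ∀ α α' : Fin 3, α ≠ α' →
      Indep (sg M (cell1 C j (Lab α))) (sg M (cell1 C j (Lab α'))) Q := fun α α' h => by
    simpa only [e1] using (hG.grid C j m hjm hj hm).indep_cells1 h 0 0
  have e0 : cell1 C j (Lab 0) = cell0 C := by rw [h0, cell1_zero']
  exact ⟨e0 ▸ key 0 1 (by decide), e0 ▸ key 0 2 (by decide), key 1 2 (by decide)⟩

theorem prop (h0 : Lab 0 = {0}) (hG : Good ν Lab s Q) {C : Option Bool} {j : ℚ}
    (hj : act j ∈ sd C) {χ χ' : Om M → ℂ} (h : Gj Q Lab C j χ) (h' : Gj Q Lab C j χ')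
    (hne : ⟪tl Q χ, tl Q χ'⟫_ℂ ≠ 0) : ∃ z : ℂ, ‖z‖ = 1 ∧ χ' =ᵐ[Q] fun ω => z * χ ω := by
  have := hG.prob
  obtain ⟨a, b, c⟩ := indep3 h0 hG hj
  exact Gam.ae_eq_mul_of_ne_zero h h' (sgle _) (sgle _) (sgle _) a b c hne

theorem ae_inv {χ χ' : Om M → ℂ} {z : ℂ} (hz : ‖z‖ = 1) (h : χ' =ᵐ[Q] fun ω => z * χ ω) :
    χ =ᵐ[Q] fun ω => z⁻¹ * χ' ω := by
  have hz0 : z ≠ 0 := fun e => by simp [e] at hz
  filter_upwards [h] with ω hω
  rw [hω, ← mul_assoc, inv_mul_cancel₀ hz0, one_mul]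

theorem Rj_eq (hG : Good ν Lab s Q) {C : Option Bool} {j : ℚ} {χ : Om M → ℂ}
    (h : Gj Q Lab C j χ) : Rj Q Lab C j (tl Q χ) = tl Q χ := by
  have := hG.prob
  exact Gam.RR_eq h (sgle _) (sgle _) (sgle _)

theorem Rj_mem {C : Option Bool} {j : ℚ} (v : Lp ℂ 2 Q) :
    Rj Q Lab C j v ∈ L2 Q (sg M (cell0 C)) := RR_mem v

theorem inner_Rj {C : Option Bool} {j : ℚ} {v w : Lp ℂ 2 Q} (hv : v ∈ L2 Q (sg M (cell0 C)))
    (hw : w ∈ L2 Q (sg M (cell0 C))) : ⟪Rj Q Lab C j v, w⟫_ℂ = ⟪v, Rj Q Lab C j w⟫_ℂ :=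
  inner_RR_left (sgle _) hv hw

theorem dich (hP : PairStmt) (h0 : Lab 0 = {0}) (hG : Good ν Lab s Q) {l : ℚ} {χ : Om M → ℂ}
    (h : Gj Q Lab none l χ) (j : ℚ) (hj : ¬ Gj Q Lab none j χ) :
    Rj Q Lab none j (tl Q χ) = 0 := by
  have hlj : l ≠ j := fun e => hj (e ▸ h)
  have hm : tl Q χ ∈ L2 Q (sg M (cell0 none)) := h.1.bdd.tl_mem
  have h1 := pair hP h0 hG hlj (mem_univ _) (mem_univ _) hm (tl Q χ) fun χ' a b => by
    by_contra hne
    obtain ⟨z, hz, he⟩ := prop h0 hG (mem_univ _) h a hne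
    exact hj (Gam.of_ae_eq_mul b h.1 (by rw [norm_inv, hz, inv_one]) (ae_inv hz he))
  rw [Rj_eq hG h] at h1
  have h2 := norm_RR_sq_le (b := sg M (cell1 none j (Lab 1))) (c := sg M (cell1 none j (Lab 2)))
    (sgle _) hm
  have h3 : (⟪tl Q χ, Rj Q Lab none j (tl Q χ)⟫_ℂ).re = 0 := by rw [h1]; rfl
  exact norm_eq_zero.1 (pow_eq_zero_iff two_ne_zero |>.1 (le_antisymm (h2.trans_eq h3) (sq_nonneg _)))

/-- the number of indices in a block seeing `χ` -/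
def cnt (Q : Measure (Om M)) (Lab : Fin 3 → Finset La) (s : Bool → ℕ → ℚ) (C : Option Bool)
    (b : Bool) (χ : Om M → ℂ) (n : ℕ) : ℕ :=
  Set.ncard {i | i < 2 ^ n ∧ Gj Q Lab C (s b (2 ^ n + i)) χ}

theorem AA_apply (b : Bool) (n : ℕ) (v : Lp ℂ 2 Q) : AA Q Lab s b n v =
    ((2 : ℂ) ^ n)⁻¹ • ∑ i ∈ Finset.range (2 ^ n), Rj Q Lab none (s b (2 ^ n + i)) v := by
  simp [AA]

theorem AA_char (hP : PairStmt) (h0 : Lab 0 = {0}) (hG : Good ν Lab s Q) {l : ℚ} {χ : Om M → ℂ}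
    (h : Gj Q Lab none l χ) (b : Bool) (n : ℕ) :
    AA Q Lab s b n (tl Q χ) = (((cnt Q Lab s none b χ n : ℝ) / 2 ^ n : ℝ) : ℂ) • tl Q χ := by
  classical
  have e : cnt Q Lab s none b χ n =
      ((Finset.range (2 ^ n)).filter fun i => Gj Q Lab none (s b (2 ^ n + i)) χ).card := by
    rw [cnt, ← Set.ncard_coe_finset]
    congr 1
    ext i
    simp
  have e2 : ∀ i, Rj Q Lab none (s b (2 ^ n + i)) (tl Q χ) =
      if Gj Q Lab none (s b (2 ^ n + i)) χ then tl Q χ else 0 := fun i => by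
    split_ifs with hi
    exacts [Rj_eq hG hi, dich hP h0 hG h _ hi]
  rw [AA_apply, e]
  simp only [e2]
  rw [← Finset.sum_filter, Finset.sum_const, ← Nat.cast_smul_eq_nsmul ℂ, smul_smul]
  congr 1
  push_cast
  ring

theorem AA_mem (b : Bool) (n : ℕ) (v : Lp ℂ 2 Q) :
    AA Q Lab s b n v ∈ L2 Q (sg M (cell0 none)) := by
  rw [AA_apply]
  exact Submodule.smul_mem _ _ (Submodule.sum_mem _ fun i _ => Rj_mem v)

theorem inner_AA_right (b : Bool) (n : ℕ) (w v : Lp ℂ 2 Q) : ⟪w, AA Q Lab s b n v⟫_ℂ =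
    ((2 : ℂ) ^ n)⁻¹ * ∑ i ∈ Finset.range (2 ^ n), ⟪w, Rj Q Lab none (s b (2 ^ n + i)) v⟫_ℂ := by
  rw [AA_apply, inner_smul_right, inner_sum]

theorem inner_AA (b : Bool) (n : ℕ) {v w : Lp ℂ 2 Q} (hv : v ∈ L2 Q (sg M (cell0 none)))
    (hw : w ∈ L2 Q (sg M (cell0 none))) : ⟪AA Q Lab s b n v, w⟫_ℂ = ⟪v, AA Q Lab s b n w⟫_ℂ := by
  rw [inner_AA_right, AA_apply, inner_smul_left, sum_inner]
  simp only [inner_Rj hv hw]
  rw [map_inv₀, map_pow, map_ofNat]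

theorem norm_AA_sq_le (b : Bool) (n : ℕ) {v : Lp ℂ 2 Q} (hv : v ∈ L2 Q (sg M (cell0 none))) :
    ‖AA Q Lab s b n v‖ ^ 2 ≤ (⟪v, AA Q Lab s b n v⟫_ℂ).re := by
  have h2 : (0 : ℝ) < 2 ^ n := by positivity
  have e1 : ((2 : ℂ) ^ n)⁻¹ = ((((2 : ℝ) ^ n)⁻¹ : ℝ) : ℂ) := by push_cast; rfl
  rw [inner_AA_right, AA_apply, e1, Complex.re_ofReal_mul, Complex.re_sum, norm_smul,
    Complex.norm_real, Real.norm_of_nonneg (by positivity), mul_pow]
  have h3 := norm_sum_le (Finset.range (2 ^ n)) fun i => Rj Q Lab none (s b (2 ^ n + i)) v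
  have h4 := pow_le_pow_left₀ (norm_nonneg _) h3 2
  have h5 := sq_sum_le_card_mul_sum_sq (s := Finset.range (2 ^ n))
    (f := fun i => ‖Rj Q Lab none (s b (2 ^ n + i)) v‖)
  have h6 : ∑ i ∈ Finset.range (2 ^ n), ‖Rj Q Lab none (s b (2 ^ n + i)) v‖ ^ 2 ≤
      ∑ i ∈ Finset.range (2 ^ n), (⟪v, Rj Q Lab none (s b (2 ^ n + i)) v⟫_ℂ).re :=
    Finset.sum_le_sum fun i _ => norm_RR_sq_le (sgle _) hv
  rw [Finset.card_range] at h5
  push_cast at h5
  calc ((2 : ℝ) ^ n)⁻¹ ^ 2 * ‖∑ i ∈ Finset.range (2 ^ n), Rj Q Lab none (s b (2 ^ n + i)) v‖ ^ 2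
      ≤ ((2 : ℝ) ^ n)⁻¹ ^ 2 * (2 ^ n *
        ∑ i ∈ Finset.range (2 ^ n), (⟪v, Rj Q Lab none (s b (2 ^ n + i)) v⟫_ℂ).re) := by
        gcongr
        exact h4.trans (h5.trans (by gcongr))
    _ = _ := by field_simp

theorem exists_of_freq {C : Option Bool} {b : Bool} {χ : Om M → ℂ} {η : ℝ} (hη : 0 < η)
    (h : ∀ η' < η, ∀ᶠ n : ℕ in atTop, η' * 2 ^ n ≤ (cnt Q Lab s C b χ n : ℝ)) :
    ∀ᶠ n : ℕ in atTop, ∃ i < 2 ^ n, Gj Q Lab C (s b (2 ^ n + i)) χ := by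
  filter_upwards [h (η / 2) (by linarith)] with n hn
  have : 0 < cnt Q Lab s C b χ n := by
    have : (0 : ℝ) < cnt Q Lab s C b χ n := lt_of_lt_of_le (by positivity) hn
    exact_mod_cast this
  obtain ⟨i, hi⟩ := Set.nonempty_of_ncard_ne_zero this.ne'
  exact ⟨i, hi⟩

theorem cnt_mono {C C' : Option Bool} {b : Bool} {χ χ' : Om M → ℂ}
    (h : ∀ k, Gj Q Lab C (s b k) χ → Gj Q Lab C' (s b k) χ') (n : ℕ) :
    (cnt Q Lab s C b χ n : ℝ) ≤ cnt Q Lab s C' b χ' n := by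
  have : cnt Q Lab s C b χ n ≤ cnt Q Lab s C' b χ' n :=
    Set.ncard_le_ncard (fun i hi => ⟨hi.1, h _ hi.2⟩)
      ((Set.finite_lt_nat (2 ^ n)).subset fun i hi => hi.1)
  exact_mod_cast this

theorem S1 {C : Option Bool} {b : Bool} {f χ : Om M → ℂ} {η : ℝ} (h : SS Q Lab s C b f η χ) :
    SS Q Lab s none b f η χ :=
  ⟨h.1.mono (sgmono (cell0_sub C)), h.2.1, fun η' hη' => (h.2.2 η' hη').mono fun n hn =>
    hn.trans (cnt_mono (fun _ => Gj_none) n)⟩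

/-- the frequencies converge, to the same limit on both sides -/
theorem freq_lim (hP : PairStmt) (h0 : Lab 0 = {0}) (hG : Good ν Lab s Q) {l : ℚ} {χ : Om M → ℂ}
    (h : Gj Q Lab none l χ) : ∃ p : ℝ, ∀ b,
      Tendsto (fun n => (cnt Q Lab s none b χ n : ℝ) / 2 ^ n) atTop (𝓝 p) := by
  have := hG.prob
  obtain ⟨v, hv⟩ := hG.lln _ h.1.bdd.tl_mem
  refine ⟨(⟪tl Q χ, v⟫_ℂ).re, fun b => ?_⟩
  have h1 := (Complex.continuous_re.tendsto _).comp
    ((tendsto_const_nhds (x := tl Q χ)).inner (𝕜 := ℂ) (hv b))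
  refine h1.congr fun n => ?_
  have hn : ‖tl Q χ‖ = 1 := (h.1.mono (sgle _)).norm_tl
  simp only [Function.comp, AA_char hP h0 hG h, inner_smul_right, inner_self_eq_norm_sq_to_K, hn]
  simp only [RCLike.ofReal_one, one_pow, mul_one, Complex.ofReal_re]

theorem freq_iff {p η : ℝ} {c : ℕ → ℕ} (h : Tendsto (fun n => (c n : ℝ) / 2 ^ n) atTop (𝓝 p)) :
    (∀ η' < η, ∀ᶠ n : ℕ in atTop, η' * 2 ^ n ≤ (c n : ℝ)) ↔ η ≤ p := by
  constructor
  · intro h1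
    refine le_of_forall_lt_imp_le_of_dense fun η' hη' => ge_of_tendsto h ?_
    filter_upwards [h1 η' hη'] with n hn
    rwa [le_div_iff₀ (by positivity)]
  · intro h1 η' hη'
    filter_upwards [h.eventually (lt_mem_nhds (hη'.trans_le h1))] with n hn
    rw [lt_div_iff₀ (by positivity)] at hn
    exact hn.le

theorem S2 (hP : PairStmt) (h0 : Lab 0 = {0}) (hG : Good ν Lab s Q) {b : Bool} (b' : Bool)
    {f χ : Om M → ℂ} {η : ℝ} (hη : 0 < η) (h : SS Q Lab s none b f η χ) :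
    SS Q Lab s none b' f η χ := by
  obtain ⟨n, i, -, hi⟩ := (exists_of_freq hη h.2.2).exists
  obtain ⟨p, hp⟩ := freq_lim hP h0 hG hi
  exact ⟨h.1, h.2.1, (freq_iff (hp b')).2 ((freq_iff (hp b)).1 h.2.2)⟩

theorem agree (hG : Good ν Lab s Q) {b : Bool} {j : ℚ} (hj : act j ∈ sd (some b)) {v : Lp ℂ 2 Q}
    (hv : v ∈ L2 Q (sg M (cell0 (some b)))) : Rj Q Lab (some b) j v = Rj Q Lab none j v := by
  have h1 := hG.agree1 b j hj v hv
  have h2 := hG.agree2 b j hj _ (Pr_mem (m := sg M (oth Lab (some b) j)) v)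
  simp only [oth, sgunion] at h1 h2
  simp only [Rj, RR_apply]
  rw [h1, h2]

theorem norm_integral_eq [IsProbabilityMeasure Q] {f χ : Om M → ℂ}
    (hf : Bdd MeasurableSpace.pi f) (hχ : Bdd MeasurableSpace.pi χ) :
    ∫ ω, f ω * conj (χ ω) ∂Q = ⟪tl Q χ, tl Q f⟫_ℂ := by
  rw [inner_tl (hχ.memLp 2) (hf.memLp 2)]
  simp only [mul_comm]

theorem S3 (hP : PairStmt) (h0 : Lab 0 = {0}) (hs : Sqs s) (hG : Good ν Lab s Q) {b : Bool}
    {f χ : Om M → ℂ} {η : ℝ} (hf : Bdd (sg M X0) f) (hη : 0 < η) (h : SS Q Lab s none b f η χ) :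
    ∃ (χ' : Om M → ℂ) (c : ℂ), ‖c‖ = 1 ∧ SS Q Lab s (some b) b f η χ' ∧
      χ' =ᵐ[Q] fun ω => c * χ ω := by
  have := hG.prob
  have hfm : ∀ C, tl Q f ∈ L2 Q (sg M (cell0 C)) := fun C => (hf.mono (sgmono (X0_sub C))).tl_mem
  have hχm : tl Q χ ∈ L2 Q (sg M (cell0 none)) := h.1.bdd.tl_mem
  have hne : ⟪tl Q χ, tl Q f⟫_ℂ ≠ 0 := by
    rw [← norm_integral_eq (hf.mono (sgle _)) (h.1.bdd.mono (sgle _)), ← norm_pos_iff]
    exact hη.trans_le h.2.1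
  have step : ∀ k k', k ≠ k' → Gj Q Lab none (s b k) χ → Gj Q Lab none (s b k') χ →
      ∃ (χ' : Om M → ℂ) (z : ℂ), Gj Q Lab (some b) (s b k) χ' ∧ ‖z‖ = 1 ∧
        χ' =ᵐ[Q] fun ω => z * χ ω := by
    intro k k' hk a a'
    by_contra hcon
    have h1 := pair hP h0 hG (fun e => hk (hs.inj b e)) (hs.side b k) (hs.side b k') (hfm _)
      (tl Q χ) fun χ' c _ => by
        by_contra hne'
        obtain ⟨z, hz, he⟩ := prop h0 hG (mem_univ _) a (Gj_none c) hne'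
        exact hcon ⟨χ', z, c, hz, he⟩
    rw [agree hG (hs.side b k') (Rj_mem _), agree hG (hs.side b k) (hfm _),
      ← inner_Rj hχm (Rj_mem _), Rj_eq hG a', ← inner_Rj hχm (hfm _), Rj_eq hG a] at h1
    exact hne h1
  obtain ⟨n, hn⟩ := eventually_atTop.1 (exists_of_freq hη h.2.2)
  obtain ⟨i, hi, a⟩ := hn n le_rfl
  obtain ⟨i', -, a'⟩ := hn (n + 1) (Nat.le_succ n)
  have hii : 2 ^ n + i ≠ 2 ^ (n + 1) + i' := by rw [pow_succ]; omega
  have step' : ∀ k, Gj Q Lab none (s b k) χ →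
      ∃ (χ' : Om M → ℂ) (z : ℂ), Gj Q Lab (some b) (s b k) χ' ∧ ‖z‖ = 1 ∧
        χ' =ᵐ[Q] fun ω => z * χ ω := by
    intro k hk
    by_cases e : k = 2 ^ n + i
    · exact step k _ (e ▸ hii) hk a'
    · exact step k _ e hk a
  obtain ⟨χ', z, h1, hz, he⟩ := step' _ a
  refine ⟨χ', z, hz, ⟨h1.1, ?_, fun η' hη' => (h.2.2 η' hη').mono fun m hm =>
    hm.trans (cnt_mono (fun k hk => ?_) m)⟩, he⟩
  · have : ∫ ω, f ω * conj (χ' ω) ∂Q = conj z * ∫ ω, f ω * conj (χ ω) ∂Q := by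
      rw [← integral_const_mul]
      refine integral_congr_ae ?_
      filter_upwards [he] with ω hω
      rw [hω, map_mul]; ring
    rw [this, norm_mul, RCLike.norm_conj, hz, one_mul]
    exact h.2.1
  · obtain ⟨χ'', z', h2, hz', he'⟩ := step' k hk
    refine Gam.of_ae_eq_mul (z := z * z'⁻¹) h2 h1.1 (by rw [norm_mul, norm_inv, hz, hz']; simp) ?_
    filter_upwards [he, ae_inv hz' he'] with ω e1 e2
    rw [e1, e2, mul_assoc]

theorem S4 (hP : PairStmt) (h0 : Lab 0 = {0}) (hs : Sqs s) (hG : Good ν Lab s Q)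
    {f : Om M → ℂ} (hf : Bdd (sg M X0) f) (hN : NN Q Lab s f) :
    ∃ η, 0 < η ∧ ∃ χ, SS Q Lab s none false f η χ := by
  have := hG.prob
  by_contra hcon
  apply hN
  set u := tl Q f with hu
  have hum : u ∈ L2 Q (sg M (cell0 none)) := (hf.mono (sgmono (X0_sub none))).tl_mem
  have hcl := isClosed_L2 (Q := Q) (sgle (M := M) (cell0 none))
  obtain ⟨v₁, hv₁⟩ := hG.lln u hum
  have hv₁m : v₁ ∈ L2 Q (sg M (cell0 none)) :=
    hcl.mem_of_tendsto (hv₁ false) (Eventually.of_forall fun n => AA_mem false n u)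
  obtain ⟨v₂, hv₂⟩ := hG.lln v₁ hv₁m
  have hv₂m : v₂ ∈ L2 Q (sg M (cell0 none)) :=
    hcl.mem_of_tendsto (hv₂ false) (Eventually.of_forall fun n => AA_mem false n v₁)
  -- `v₁` is orthogonal to all characters
  have h1 : ∀ l χ, Gj Q Lab none l χ → ⟪v₁, tl Q χ⟫_ℂ = 0 := by
    intro l χ hχ
    obtain ⟨p, hp⟩ := freq_lim hP h0 hG hχ
    have t1 : Tendsto (fun n => ⟪AA Q Lab s false n u, tl Q χ⟫_ℂ) atTop (𝓝 ⟪v₁, tl Q χ⟫_ℂ) :=
      (hv₁ false).inner tendsto_const_nhds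
    have t2 : Tendsto (fun n => ⟪AA Q Lab s false n u, tl Q χ⟫_ℂ) atTop
        (𝓝 ((p : ℂ) * ⟪u, tl Q χ⟫_ℂ)) := by
      refine (((Complex.continuous_ofReal.tendsto _).comp (hp false)).mul_const _).congr
        fun n => ?_
      rw [inner_AA false n hum hχ.1.bdd.tl_mem, AA_char hP h0 hG hχ, inner_smul_right]
      rfl
    rw [tendsto_nhds_unique t1 t2]
    by_contra hne
    obtain ⟨hp0, hu0⟩ := mul_ne_zero_iff.1 hne
    have hp1 : 0 ≤ p := ge_of_tendsto' (hp false) fun n => by positivity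
    have hp2 : 0 < p := lt_of_le_of_ne hp1 fun e => hp0 (by rw [← e]; rfl)
    refine hcon ⟨min p ‖⟪u, tl Q χ⟫_ℂ‖, lt_min hp2 (norm_pos_iff.2 hu0), χ, hχ.1, ?_,
      (freq_iff (hp false)).2 (min_le_left _ _)⟩
    rw [norm_integral_eq (hf.mono (sgle _)) (hχ.1.bdd.mono (sgle _)), norm_inner_symm]
    exact min_le_right _ _
  have h2 : ∀ k, ⟪v₂, Rj Q Lab none (s false k) u⟫_ℂ = 0 := by
    intro k
    have t1 : Tendsto (fun n => ⟪AA Q Lab s false n v₁, Rj Q Lab none (s false k) u⟫_ℂ) atTop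
        (𝓝 ⟪v₂, Rj Q Lab none (s false k) u⟫_ℂ) := (hv₂ false).inner tendsto_const_nhds
    refine tendsto_nhds_unique t1 (tendsto_const_nhds.congr' ?_)
    filter_upwards [eventually_ge_atTop k] with n hn
    rw [inner_AA false n hv₁m (Rj_mem _), inner_AA_right, Finset.sum_eq_zero, mul_zero]
    intro i _
    have hk : k < 2 ^ n := lt_of_le_of_lt hn Nat.lt_two_pow_self
    exact pair hP h0 hG (fun e => by have := hs.inj false e; omega) (mem_univ _) (mem_univ _) hum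
      v₁ fun χ a _ => h1 _ χ a
  have h3 : ⟪v₂, v₁⟫_ℂ = 0 := by
    refine tendsto_nhds_unique ((tendsto_const_nhds (x := v₂)).inner (hv₁ false))
      (tendsto_const_nhds.congr fun n => ?_)
    rw [inner_AA_right, Finset.sum_eq_zero fun i _ => h2 _, mul_zero]
  have h4 : v₂ = 0 := by
    have t1 : Tendsto (fun n => ‖AA Q Lab s false n v₁‖ ^ 2) atTop (𝓝 (‖v₂‖ ^ 2)) :=
      (hv₂ false).norm.pow 2
    have t2 : Tendsto (fun n => (⟪v₁, AA Q Lab s false n v₁⟫_ℂ).re) atTop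
        (𝓝 (⟪v₁, v₂⟫_ℂ).re) := (Complex.continuous_re.tendsto _).comp
      ((tendsto_const_nhds (x := v₁)).inner (𝕜 := ℂ) (hv₂ false))
    have h5 := le_of_tendsto_of_tendsto' t1 t2 fun n => norm_AA_sq_le false n hv₁m
    rw [inner_eq_zero_symm.1 h3] at h5
    exact norm_eq_zero.1 (pow_eq_zero_iff two_ne_zero |>.1 (le_antisymm h5 (sq_nonneg _)))
  have h5 : v₁ = 0 := by
    have t1 : Tendsto (fun n => ⟪AA Q Lab s false n u, v₁⟫_ℂ) atTop (𝓝 ⟪v₁, v₁⟫_ℂ) :=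
      (hv₁ false).inner tendsto_const_nhds
    have t2 : Tendsto (fun n => ⟪AA Q Lab s false n u, v₁⟫_ℂ) atTop (𝓝 ⟪u, v₂⟫_ℂ) :=
      ((tendsto_const_nhds (x := u)).inner (hv₂ false)).congr fun n =>
        (inner_AA false n hum hv₁m).symm
    have := tendsto_nhds_unique t1 t2
    rw [h4, inner_zero_right] at this
    exact inner_self_eq_zero.1 this
  have t := (tendsto_const_nhds (x := u)).inner (𝕜 := ℂ) (hv₁ false)
  rwa [h5, inner_zero_right] at t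

end StrAux

open StrAux in
theorem strStmt (hP : PairStmt) : StrStmt := by
  intro M ν Lab s Q h0 hs hG
  refine ⟨fun f hf hN => ?_, fun f η b b' χ hf hη h => ?_, fun C j hj χ hχ => ?_⟩
  · obtain ⟨η, hη, χ, h⟩ := S4 hP h0 hs hG hf hN
    obtain ⟨χ', -, -, h', -⟩ := S3 hP h0 hs hG hf hη h
    exact ⟨η, hη, χ', h'⟩
  · exact S3 hP h0 hs hG hf hη (S2 hP h0 hG b' hη (S1 h))
  · have := hG.prob
    obtain ⟨a, b, c⟩ := indep3 h0 hG hj
    exact Gam.isC_or hχ (sgle _) (sgle _) (sgle _) a b c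

end Crest.Agent.R69
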