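import Crest.Agent.R69.CI

/-! # Row 69: three pairwise independent, mutually determined σ-algebras -/

set_option autoImplicit false
open MeasureTheory ProbabilityTheory Filter Set Topology
open scoped ENNReal InnerProductSpace ComplexConjugate

noncomputable section
namespace Crest.Agent.R69

namespace TriP

variable {Ω : Type} {m a b c : MeasurableSpace Ω} {m0 : MeasurableSpace Ω} {Q : Measure Ω}

theorem meas_conj {u : Ω → ℂ} (hu : Measurable[m] u) : Measurable[m] fun ω => conj (u ω) :=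
  Complex.continuous_conj.measurable.comp hu

theorem meas_sq {u : Ω → ℂ} (hu : Measurable[m] u) : Measurable[m] fun ω => ‖u ω‖ ^ 2 :=
  (continuous_norm.measurable.comp hu : Measurable[m] fun ω => ‖u ω‖).pow_const 2

theorem memLp_conj {u : Ω → ℂ} (hu : MemLp u 2 Q) : MemLp (fun ω => conj (u ω)) 2 Q :=
  hu.of_le (Complex.continuous_conj.comp_aestronglyMeasurable hu.1) (.of_forall fun ω => by simp)

theorem int_sq {u : Ω → ℂ} (hu : MemLp u 2 Q) : Integrable (fun ω => ‖u ω‖ ^ 2) Q :=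
  (memLp_two_iff_integrable_sq_norm hu.1).1 hu

theorem norm_tl_sq {u : Ω → ℂ} (hu : MemLp u 2 Q) : ‖tl Q u‖ ^ 2 = ∫ ω, ‖u ω‖ ^ 2 ∂Q := by
  have h := inner_tl hu hu
  rw [inner_self_eq_norm_sq_to_K] at h
  have h2 : ∫ ω, conj (u ω) * u ω ∂Q = ((∫ ω, ‖u ω‖ ^ 2 ∂Q : ℝ) : ℂ) := by
    rw [← integral_complex_ofReal]
    exact integral_congr_ae (.of_forall fun ω => by simp [Complex.conj_mul'])
  have h3 : ((‖tl Q u‖ ^ 2 : ℝ) : ℂ) = ((∫ ω, ‖u ω‖ ^ 2 ∂Q : ℝ) : ℂ) := by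
    rw [← h2, ← h]; simp
  exact Complex.ofReal_injective h3

theorem norm_tl_conj {u : Ω → ℂ} (hu : MemLp u 2 Q) : ‖tl Q fun ω => conj (u ω)‖ = ‖tl Q u‖ := by
  refine (pow_left_inj₀ (norm_nonneg _) (norm_nonneg _) two_ne_zero).1 ?_
  rw [norm_tl_sq hu, norm_tl_sq (memLp_conj hu)]; simp

theorem indep_sq {f g : Ω → ℂ} (h : Indep a b Q) (hf : Measurable[a] f) (hg : Measurable[b] g) :
    IndepFun (fun ω => ‖f ω‖ ^ 2) (fun ω => ‖g ω‖ ^ 2) Q :=
  (IndepFun_iff_Indep _ _ Q).2 (indep_of_indep_of_le h (meas_sq hf).comap_le (meas_sq hg).comap_le)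

theorem memLp_mul {f g : Ω → ℂ} (h : Indep a b Q) (hf : Measurable[a] f) (hg : Measurable[b] g)
    (hf2 : MemLp f 2 Q) (hg2 : MemLp g 2 Q) : MemLp (fun ω => f ω * g ω) 2 Q := by
  refine (memLp_two_iff_integrable_sq_norm (hf2.1.mul hg2.1)).2 ?_
  have := (indep_sq h hf hg).integrable_mul (int_sq hf2) (int_sq hg2)
  refine this.congr (.of_forall fun ω => ?_)
  simp [mul_pow]

theorem norm_tl_mul {f g : Ω → ℂ} (h : Indep a b Q) (hf : Measurable[a] f) (hg : Measurable[b] g)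
    (hf2 : MemLp f 2 Q) (hg2 : MemLp g 2 Q) :
    ‖tl Q fun ω => f ω * g ω‖ = ‖tl Q f‖ * ‖tl Q g‖ := by
  refine (pow_left_inj₀ (norm_nonneg _) (by positivity) two_ne_zero).1 ?_
  rw [norm_tl_sq (memLp_mul h hf hg hf2 hg2), mul_pow, norm_tl_sq hf2, norm_tl_sq hg2,
    ← (indep_sq h hf hg).integral_fun_mul_eq_mul_integral (int_sq hf2).1 (int_sq hg2).1]
  exact integral_congr_ae (.of_forall fun ω => by simp [mul_pow])

/-- the operator with kernel `w` -/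
def Phi (Q : Measure Ω) (a b : MeasurableSpace Ω) (w : Ω → ℂ) : Lp ℂ 2 Q →L[ℂ] Lp ℂ 2 Q :=
  Pr Q a ∘L Mop Q w ∘L Pr Q b

theorem norm_Phi_le [IsProbabilityMeasure Q] (h : Indep a b Q) (ha : a ≤ m0) {w : Ω → ℂ}
    (hw : Bdd m0 w) : ‖Phi Q a b w‖ ≤ ‖tl Q w‖ := by
  refine ContinuousLinearMap.opNorm_le_bound _ (norm_nonneg _) fun v => ?_
  set z := Phi Q a b w v with hz
  have hza : z ∈ L2 Q a := Pr_mem _
  obtain ⟨f, f1, f2, f3, f4⟩ := exists_rep hza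
  obtain ⟨g, g1, g2, g3, g4⟩ := exists_rep (Pr_mem (Q := Q) (m := b) v)
  have e1 : ⟪z, z⟫_ℂ = ⟪tl Q fun ω => f ω * conj (g ω), tl Q w⟫_ℂ := by
    have : ⟪z, z⟫_ℂ = ⟪z, Mop Q w (Pr Q b v)⟫_ℂ := inner_Pr_of_mem ha hza _
    rw [this, inner_eq_integral, inner_tl (memLp_mul h f1 (meas_conj g1) f2 (memLp_conj g2))
      (hw.memLp 2)]
    refine integral_congr_ae ?_
    filter_upwards [f3, g3, coe_Mop hw (Pr Q b v)] with ω k1 k2 k3
    rw [k1, k3, k2]; simp; ring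
  have e2 : ‖z‖ ^ 2 ≤ ‖z‖ * ‖Pr Q b v‖ * ‖tl Q w‖ := by
    have h1 : ‖z‖ ^ 2 = ‖⟪z, z⟫_ℂ‖ := by rw [inner_self_eq_norm_sq_to_K]; simp
    rw [h1, e1]
    refine (norm_inner_le_norm _ _).trans_eq ?_
    rw [norm_tl_mul h f1 (meas_conj g1) f2 (memLp_conj g2), norm_tl_conj g2, ← f4, ← g4]
  rcases (norm_nonneg z).eq_or_lt with h0 | h0
  · rw [← h0]; positivity
  · have e3 : ‖z‖ ≤ ‖Pr Q b v‖ * ‖tl Q w‖ := by
      rw [sq, mul_assoc] at e2
      exact le_of_mul_le_mul_left e2 h0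
    rw [mul_comm]
    exact e3.trans (mul_le_mul_of_nonneg_right (norm_Pr_le _) (norm_nonneg _))

theorem Mop_add {u u' : Ω → ℂ} (hu : Bdd m0 u) (hu' : Bdd m0 u') :
    Mop Q (fun ω => u ω + u' ω) = Mop Q u + Mop Q u' := by
  ext1 v
  refine Lp.ext ?_
  filter_upwards [coe_Mop hu v, coe_Mop hu' v, coe_Mop (hu.add hu') v,
    Lp.coeFn_add (Mop Q u v) (Mop Q u' v)] with ω h1 h2 h3 h4
  rw [add_apply, h3, h4, Pi.add_apply, h1, h2, add_mul]

theorem Mop_sub {u u' : Ω → ℂ} (hu : Bdd m0 u) (hu' : Bdd m0 u') :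
    Mop Q (fun ω => u ω - u' ω) = Mop Q u - Mop Q u' := by
  ext1 v
  refine Lp.ext ?_
  filter_upwards [coe_Mop hu v, coe_Mop hu' v, coe_Mop (hu.sub hu') v,
    Lp.coeFn_sub (Mop Q u v) (Mop Q u' v)] with ω h1 h2 h3 h4
  rw [sub_apply, h3, h4, Pi.sub_apply, h1, h2, sub_mul]

theorem Mop_smul {u : Ω → ℂ} (hu : Bdd m0 u) (z : ℂ) :
    Mop Q (fun ω => z * u ω) = z • Mop Q u := by
  ext1 v
  refine Lp.ext ?_
  filter_upwards [coe_Mop hu v, coe_Mop ((Bdd.const z).mul hu) v,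
    Lp.coeFn_smul z (Mop Q u v)] with ω h1 h3 h4
  rw [smul_apply, h3, h4, Pi.smul_apply, h1, smul_eq_mul, mul_assoc]

theorem compact_prod [IsProbabilityMeasure Q] (h : Indep a b Q) (ha : a ≤ m0) (hb : b ≤ m0)
    {f g : Ω → ℂ} (hf : Bdd a f) (hg : Bdd b g) :
    IsCompactOperator (Phi Q a b fun ω => f ω * g ω) := by
  have hf0 := hf.mono ha
  have hg0 := hg.mono hb
  have e : (Phi Q a b fun ω => f ω * g ω) =
      ContinuousLinearMap.toSpanSingleton ℂ (tl Q f) ∘L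
        (innerSL ℂ (tl Q fun ω => conj (g ω)) ∘L Pr Q b) := by
    ext1 v
    have h1 : Mop Q g (Pr Q b v) ∈ L2 Q b := Mop_mem hg0 hg.tl_mem (Pr_mem v)
    have h2 : ∫ ω, Mop Q g (Pr Q b v) ω ∂Q = ⟪tl Q fun ω => conj (g ω), Pr Q b v⟫_ℂ := by
      rw [inner_tl_left (hg0.conj.memLp 2)]
      refine integral_congr_ae ?_
      filter_upwards [coe_Mop hg0 (Pr Q b v)] with ω k
      rw [k]; simp
    change Pr Q a (Mop Q (fun ω => f ω * g ω) (Pr Q b v)) =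
      ⟪tl Q fun ω => conj (g ω), Pr Q b v⟫_ℂ • tl Q f
    rw [← Mop_Mop hf0 hg0, Pr_Mop ha hf0 hf.tl_mem, Pr_of_indep h.symm hb ha h1, h2,
      Mop_tl hf0 (memLp_const _), ← tl_smul (hf0.memLp 2)]
    simp only [mul_comm]
  rw [e]
  exact (isCompactOperator_of_locallyCompactSpace_dom
    (innerSL ℂ (tl Q fun ω => conj (g ω)) ∘L Pr Q b)).clm_comp
      (ContinuousLinearMap.toSpanSingleton ℂ (tl Q f))

theorem compact_Phi [IsProbabilityMeasure Q] (h : Indep a b Q) (ha : a ≤ m0) (hb : b ≤ m0)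
    {u : Ω → ℂ} (hu : Bdd m0 u) (hab : tl Q u ∈ L2 Q (a ⊔ b)) :
    IsCompactOperator (Phi Q a b u) := by
  let K : Submodule ℂ (Lp ℂ 2 Q) :=
    { carrier := {z | ∃ w, Bdd m0 w ∧ IsCompactOperator (Phi Q a b w) ∧ z = tl Q w}
      add_mem' := by
        rintro _ _ ⟨w, h1, h2, rfl⟩ ⟨w', h1', h2', rfl⟩
        refine ⟨_, h1.add h1', ?_, (tl_add (h1.memLp 2) (h1'.memLp 2)).symm⟩
        have : (Phi Q a b fun ω => w ω + w' ω) = Phi Q a b w + Phi Q a b w' := by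
          unfold Phi; rw [Mop_add h1 h1']; simp
        rw [this]; exact h2.add h2'
      zero_mem' := ⟨_, ((Bdd.const 0).mono ha).mul ((Bdd.const 0).mono hb),
        compact_prod h ha hb (Bdd.const 0) (Bdd.const 0), by simp [tl_zero]⟩
      smul_mem' := by
        rintro z _ ⟨w, h1, h2, rfl⟩
        refine ⟨_, (Bdd.const z).mul h1, ?_, (tl_smul (h1.memLp 2) z).symm⟩
        have : (Phi Q a b fun ω => z * w ω) = z • Phi Q a b w := by
          unfold Phi; rw [Mop_smul h1]; simp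
        rw [this]; exact h2.smul z }
  have hK : tl Q u ∈ K.topologicalClosure :=
    L2_sup_le ha hb K.isClosed_topologicalClosure (fun f g hf hg => K.le_topologicalClosure
      ⟨_, (hf.mono ha).mul (hg.mono hb), compact_prod h ha hb hf hg, rfl⟩) hab
  have hcl : Phi Q a b u ∈ closure {T : Lp ℂ 2 Q →L[ℂ] Lp ℂ 2 Q | IsCompactOperator T} := by
    rw [Metric.mem_closure_iff]
    intro ε hε
    obtain ⟨_, ⟨w, h1, h2, rfl⟩, h3⟩ := Metric.mem_closure_iff.1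
      (show tl Q u ∈ closure (K : Set (Lp ℂ 2 Q)) from hK) ε hε
    refine ⟨_, h2, lt_of_le_of_lt ?_ h3⟩
    have : Phi Q a b u - Phi Q a b w = Phi Q a b fun ω => u ω - w ω := by
      unfold Phi; rw [Mop_sub hu h1]; simp
    rw [dist_eq_norm, dist_eq_norm, this, ← tl_sub (hu.memLp 2) (h1.memLp 2)]
    exact norm_Phi_le h ha (hu.sub h1)
  rwa [isClosed_setOfPred_isCompactOperator.closure_eq] at hcl

theorem const_of [IsProbabilityMeasure Q] (ha : a ≤ m0) (hb : b ≤ m0) (hc : c ≤ m0)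
    (hab : Indep a b Q) (hac : Indep a c Q) {E V G : Ω → ℝ} (hE : Measurable[a] E)
    (hV : Measurable[b] V) (hG : Measurable[c] G) (iV : Integrable V Q) (iG : Integrable G Q)
    (h : V =ᵐ[Q] E * G) : ∀ᵐ ω ∂Q, E ω * ∫ x, G x ∂Q = ∫ x, V x ∂Q := by
  filter_upwards [condExp_indep_eq hb ha hV.stronglyMeasurable hab.symm,
    condExp_indep_eq hc ha hG.stronglyMeasurable hac.symm,
    condExp_mul_of_stronglyMeasurable_left hE.stronglyMeasurable (iV.congr h) iG,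
    condExp_congr_ae (m := a) h] with ω h1 h2 h3 h4
  rw [← h1, h4, h3, Pi.mul_apply, h2]

/-- the phase -/
def nz (f : Ω → ℂ) (ω : Ω) : ℂ := if f ω = 0 then 1 else f ω / (‖f ω‖ : ℂ)

theorem uni_nz {f : Ω → ℂ} (hf : Measurable[m] f) : Uni m (nz f) := by
  refine ⟨Measurable.ite (hf (measurableSet_singleton 0)) measurable_const
    (hf.div (Complex.measurable_ofReal.comp
      (continuous_norm.measurable.comp hf : Measurable[m] fun ω => ‖f ω‖))), fun ω => ?_⟩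
  unfold nz
  split_ifs with h
  · simp
  · simp [h]

theorem eig [IsProbabilityMeasure Q] (hT : Tri Q a b c) {e v : Lp ℂ 2 Q} (he : e ∈ L2 Q a)
    (he0 : e ≠ 0) (hv : v ∈ L2 Q b) (hv0 : v ≠ 0)
    (h : ∀ u, Bdd c u → ∃ z : ℂ, Pr Q a (Mop Q u v) = z • e) :
    ∃ (z : ℂ) (χ : Ω → ℂ), Gam Q a b c χ ∧ e = z • tl Q χ := by
  obtain ⟨ha, hb, hc, hab, hac, hbc, -, hdb, -⟩ := hT
  obtain ⟨f, f1, f2, f3, f4⟩ := exists_rep he
  obtain ⟨g, g1, g2, g3, g4⟩ := exists_rep hv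
  have p2 : MemLp (fun ω => conj (f ω) * g ω) 2 Q :=
    memLp_mul hab (meas_conj f1) g1 (memLp_conj f2) g2
  have hn : ((‖e‖ ^ 2 : ℝ) : ℂ) ≠ 0 := by
    exact_mod_cast pow_ne_zero 2 (norm_ne_zero_iff.2 he0)
  obtain ⟨γ, γ1, γ2, -, γ4⟩ := exists_rep (Submodule.smul_mem _ (((‖e‖ ^ 2 : ℝ) : ℂ))⁻¹
    (Pr_mem (Q := Q) (m := c) (tl Q fun ω => conj (f ω) * g ω)))
  have hz : ∀ u, Bdd c u → Pr Q a (Mop Q u v) = (∫ ω, u ω * γ ω ∂Q) • e := by
    intro u hu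
    obtain ⟨z, hz⟩ := h u hu
    have hu0 := hu.mono hc
    have e1 : ⟪e, Pr Q a (Mop Q u v)⟫_ℂ = z * ((‖e‖ ^ 2 : ℝ) : ℂ) := by
      rw [hz, inner_smul_right, inner_self_eq_norm_sq_to_K]; simp
    have e2 : ⟪e, Pr Q a (Mop Q u v)⟫_ℂ =
        ⟪tl Q fun ω => conj (u ω), tl Q fun ω => conj (f ω) * g ω⟫_ℂ := by
      rw [inner_Pr_of_mem ha he, inner_eq_integral, inner_tl (hu0.conj.memLp 2) p2]
      refine integral_congr_ae ?_
      filter_upwards [f3, g3, coe_Mop hu0 v] with ω k1 k2 k3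
      rw [k1, k3, k2]; simp; ring
    have e3 : ∫ ω, u ω * γ ω ∂Q = ⟪tl Q fun ω => conj (u ω), tl Q γ⟫_ℂ := by
      rw [inner_tl (hu0.conj.memLp 2) γ2]; simp
    rw [hz, e3, ← γ4, inner_smul_right, inner_Pr_of_mem hc hu.conj.tl_mem, ← e2, e1]
    congr 1
    field_simp
  have q2 : MemLp (fun ω => f ω * γ ω) 2 Q := memLp_mul hac f1 γ1 f2 γ2
  have hprod : v = tl Q fun ω => f ω * γ ω := by
    have m1 : v - (tl Q fun ω => f ω * γ ω) ∈ L2 Q (a ⊔ c) :=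
      Submodule.sub_mem _ (hdb hv) (tl_mem_L2 ((f1.mono le_sup_left le_rfl).mul
        (γ1.mono le_sup_right le_rfl)).stronglyMeasurable.aestronglyMeasurable)
    rw [← sub_eq_zero, ← Pr_eq_self (sup_le ha hc) m1]
    refine Pr_sup_eq_zero ha hc fun w u hw hu => ?_
    have hw0 := hw.mono ha
    have hu0 := hu.mono hc
    rw [inner_sub_right, sub_eq_zero, inner_tl ((hw0.mul hu0).memLp 2) q2]
    have e1 : (tl Q fun ω => w ω * u ω) = Mop Q u (tl Q w) := by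
      rw [Mop_tl hu0 (hw0.memLp 2)]; simp only [mul_comm]
    rw [e1, inner_Mop_left hu0, ← inner_Pr_of_mem ha hw.tl_mem, hz _ hu.conj, inner_smul_right,
      f4, inner_tl (hw0.memLp 2) f2, mul_comm,
      ← integral_mul_of_indep (f := fun ω => conj (w ω) * f ω) (g := fun ω => conj (u ω) * γ ω)
        hac ha hc (hw.conj.1.mul f1) (hu.conj.1.mul γ1)]
    refine integral_congr_ae (.of_forall fun ω => ?_)
    simp only [map_mul]; ring
  have hae : g =ᵐ[Q] fun ω => f ω * γ ω := ae_eq_of_tl_eq g2 q2 (g4.symm.trans hprod)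
  have hV : ∫ ω, ‖g ω‖ ^ 2 ∂Q ≠ 0 := by
    rw [← norm_tl_sq g2, ← g4]; exact pow_ne_zero 2 (norm_ne_zero_iff.2 hv0)
  have c1 := const_of ha hb hc hab hac (meas_sq f1) (meas_sq g1) (meas_sq γ1) (int_sq g2)
    (int_sq γ2) (by filter_upwards [hae] with ω k; simp [k, mul_pow])
  have c2 := const_of hc hb ha hbc.symm hac.symm (meas_sq γ1) (meas_sq g1) (meas_sq f1)
    (int_sq g2) (int_sq f2) (by filter_upwards [hae] with ω k; simp [k, mul_pow, mul_comm])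
  obtain ⟨ω₀, hω₀⟩ := c1.exists
  have hG : ∫ ω, ‖γ ω‖ ^ 2 ∂Q ≠ 0 := fun h0 => hV (by rw [← hω₀, h0, mul_zero])
  have hf0 : ‖f ω₀‖ ≠ 0 := fun h0 => hV (by rw [← hω₀, h0]; simp)
  have c3 : ∀ᵐ ω ∂Q, ‖f ω‖ = ‖f ω₀‖ := by
    filter_upwards [c1] with ω k
    exact (pow_left_inj₀ (norm_nonneg _) (norm_nonneg _) two_ne_zero).1
      (mul_right_cancel₀ hG (k.trans hω₀.symm))
  refine ⟨(‖f ω₀‖ : ℂ), nz f, ⟨uni_nz f1, nz g, fun ω => conj (nz γ ω), uni_nz g1,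
    (uni_nz γ1).conj, ?_⟩, ?_⟩
  · filter_upwards [hae, c2, c3] with ω k1 k2 k3
    have n1 : f ω ≠ 0 := fun h0 => hf0 (by rw [← k3, h0, norm_zero])
    have n2 : γ ω ≠ 0 := fun h0 => hV (by rw [← k2, h0]; simp)
    have n3 : nz g ω = nz f ω * nz γ ω := by
      unfold nz
      rw [k1, if_neg n1, if_neg n2, if_neg (mul_ne_zero n1 n2), norm_mul, div_mul_div_comm]
      simp
    rw [n3, mul_assoc, mul_conj_of_norm_one ((uni_nz γ1).2 ω), mul_one]
  · rw [f4, ← tl_smul (((uni_nz f1).mono ha).bdd.memLp 2)]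
    refine tl_congr ?_
    filter_upwards [c3] with ω k3
    have n1 : f ω ≠ 0 := fun h0 => hf0 (by rw [← k3, h0, norm_zero])
    have n2 : (‖f ω‖ : ℂ) ≠ 0 := by exact_mod_cast norm_ne_zero_iff.2 n1
    unfold nz
    rw [if_neg n1, ← k3]
    field_simp

end TriP

open TriP

theorem triStmt : TriStmt := by
  intro Ω m0 Q _ a b c hT
  refine ⟨fun u u' hu _ => ?_, fun e he h => ?_⟩
  · have h1 := compact_Phi hT.ab hT.le_a hT.le_b (hu.mono hT.le_c) (hT.det_c hu.tl_mem)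
    exact h1.comp_clm (Mop Q u' ∘L Pr Q a)
  · by_cases he0 : e = 0
    · exact Or.inl he0
    right
    have h1 : ¬ ∀ u', Bdd c u' → Pr Q b (Mop Q u' e) = 0 := by
      intro h0
      have h2 := (Pr_sup_eq_zero_iff hT.le_c hT.le_b).2 h0
      rw [sup_comm, Pr_eq_self (sup_le hT.le_b hT.le_c) (hT.det_a he)] at h2
      exact he0 h2
    simp only [not_forall] at h1
    obtain ⟨u', hu', hv0⟩ := h1
    refine eig hT he he0 (Pr_mem _) hv0 fun u hu => ?_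
    obtain ⟨z, hz⟩ := h u u' hu hu'
    refine ⟨z, ?_⟩
    rw [← hz]
    change _ = Pr Q a (Mop Q u (Pr Q b (Mop Q u' (Pr Q a e))))
    rw [Pr_eq_self hT.le_a he]

end Crest.Agent.R69
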