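import Crest.Agent.R69.Mon

/-! # Row 69: the unipotent case, by a van der Corput argument along an idempotent ultrafilter -/

set_option autoImplicit false
open MeasureTheory Filter Topology Set Polynomial
open scoped ComplexConjugate InnerProductSpace

noncomputable section
namespace Crest.Agent.R69
namespace Vdc

/-! ## A recurrent ultrafilter -/

theorem le_of_FS (c : ℕ) (a : Stream' ℕ) (x : ℕ) (hx : x ∈ Hindman.FS a) :
    (∀ i, c ≤ a.get i) → c ≤ x := by
  induction hx with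
  | head' a => exact fun h => h 0
  | tail' a m _ ih => exact fun h => ih fun i => h (i + 1)
  | cons' a m _ ih => exact fun h => le_add_left (ih fun i => h (i + 1))

theorem exists_rec : ∃ U : Ultrafilter ℕ, ∀ p : ℕ → Prop, (∀ᶠ t in U, p t) →
    ∃ᶠ h in atTop, ∀ᶠ t in U, p (h + t) := by
  obtain ⟨U, hU, hle⟩ := Hindman.exists_idempotent_ultrafilter_le_FS (fun _ : ℕ => 1 : Stream' ℕ)
  have hrec : ∀ p : ℕ → Prop, (∀ᶠ h in (U : Filter ℕ), ∀ᶠ t in (U : Filter ℕ), p (h + t)) ↔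
      ∀ᶠ t in (U : Filter ℕ), p t := by
    intro p
    rw [← Ultrafilter.eventually_add U U p, hU]
  have hone : ∀ᶠ t in (U : Filter ℕ), 1 ≤ t := by
    filter_upwards [hle] with x hx
    exact le_of_FS 1 _ x hx fun i => le_rfl
  have htop : (U : Filter ℕ) ≤ atTop := by
    refine atTop_basis.ge_iff.2 fun m _ => ?_
    change ∀ᶠ t in (U : Filter ℕ), m ≤ t
    induction m with
    | zero => exact .of_forall fun _ => Nat.zero_le _
    | succ m ih =>
      rw [← hrec]
      filter_upwards [ih] with a ha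
      filter_upwards [hone] with b hb
      omega
  exact ⟨U, fun p hp => ((hrec p).2 hp).frequently.filter_mono htop⟩

/-! ## Bessel -/

theorem bessel {H : Type} [NormedAddCommGroup H] [InnerProductSpace ℂ H] (u : H) (hu : ‖u‖ ≤ 1)
    (K : ℕ) (z : ℕ → H) (η C δ : ℝ) (hη : 0 ≤ η) (hδ : 0 ≤ δ)
    (h1 : ∀ j < K, η ≤ ‖⟪u, z j⟫_ℂ‖) (h2 : ∀ j < K, ‖⟪z j, z j⟫_ℂ‖ ≤ C)
    (h3 : ∀ i j, i < j → j < K → ‖⟪z i, z j⟫_ℂ‖ ≤ δ) :
    (K * η) ^ 2 ≤ K * C + K ^ 2 * δ := by
  classical
  choose e he1 he2 using fun j => Complex.exists_norm_eq_mul_self ⟪u, z j⟫_ℂ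
  have hA : K * η ≤ ‖∑ j ∈ Finset.range K, e j • z j‖ := by
    have h4 : ⟪u, ∑ j ∈ Finset.range K, e j • z j⟫_ℂ =
        ((∑ j ∈ Finset.range K, ‖⟪u, z j⟫_ℂ‖ : ℝ) : ℂ) := by
      rw [inner_sum, Complex.ofReal_sum]
      exact Finset.sum_congr rfl fun j _ => by rw [inner_smul_right, he2]
    have h5 : K * η ≤ ∑ j ∈ Finset.range K, ‖⟪u, z j⟫_ℂ‖ := by
      have := Finset.card_nsmul_le_sum (Finset.range K) (fun j => ‖⟪u, z j⟫_ℂ‖) η
        fun j hj => h1 j (Finset.mem_range.1 hj)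
      simpa using this
    have h6 := norm_inner_le_norm (𝕜 := ℂ) u (∑ j ∈ Finset.range K, e j • z j)
    rw [h4, Complex.norm_real] at h6
    calc K * η ≤ _ := h5
      _ ≤ _ := Real.le_norm_self _
      _ ≤ _ := h6
      _ ≤ _ := by
        have := norm_nonneg (∑ j ∈ Finset.range K, e j • z j)
        nlinarith
  have hB : ‖∑ j ∈ Finset.range K, e j • z j‖ ^ 2 ≤ K * C + K ^ 2 * δ := by
    have h4 : ‖∑ j ∈ Finset.range K, e j • z j‖ ^ 2 =
        ‖⟪∑ j ∈ Finset.range K, e j • z j, ∑ j ∈ Finset.range K, e j • z j⟫_ℂ‖ := by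
      rw [inner_self_eq_norm_sq_to_K]; simp
    rw [h4, sum_inner]
    have h5 : ∀ i ∈ Finset.range K,
        ‖⟪e i • z i, ∑ j ∈ Finset.range K, e j • z j⟫_ℂ‖ ≤ C + K * δ := by
      intro i hi
      rw [inner_sum]
      refine (norm_sum_le _ _).trans ?_
      have h6 : ∀ j ∈ Finset.range K,
          ‖⟪e i • z i, e j • z j⟫_ℂ‖ ≤ (if j = i then C else 0) + δ := by
        intro j hj
        rw [inner_smul_left, inner_smul_right, norm_mul, norm_mul, Complex.norm_conj, he1, he1,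
          one_mul, one_mul]
        rcases lt_trichotomy i j with h | h | h
        · rw [if_neg h.ne', zero_add]; exact h3 i j h (Finset.mem_range.1 hj)
        · subst h; rw [if_pos rfl]; linarith [h2 i (Finset.mem_range.1 hj)]
        · rw [if_neg h.ne, zero_add, norm_inner_symm]; exact h3 j i h (Finset.mem_range.1 hi)
      refine (Finset.sum_le_sum h6).trans ?_
      rw [Finset.sum_add_distrib, Finset.sum_ite_eq' , if_pos hi]
      simp
    refine (norm_sum_le _ _).trans ((Finset.sum_le_sum h5).trans ?_)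
    simp only [Finset.sum_const, Finset.card_range, nsmul_eq_mul]
    nlinarith
  have : 0 ≤ (K : ℝ) * η := by positivity
  nlinarith

theorem bessel_int {Ω : Type} {m0 : MeasurableSpace Ω} (Q : Measure Ω) [IsProbabilityMeasure Q]
    (K : ℕ) (w : ℕ → Ω → ℂ) (hw : ∀ j, MemLp (w j) 2 Q) (η C δ : ℝ) (hη : 0 ≤ η) (hδ : 0 ≤ δ)
    (h1 : ∀ j < K, η ≤ ‖∫ ω, w j ω ∂Q‖) (h2 : ∀ j < K, ‖∫ ω, w j ω * conj (w j ω) ∂Q‖ ≤ C)
    (h3 : ∀ i j, i < j → j < K → ‖∫ ω, w j ω * conj (w i ω) ∂Q‖ ≤ δ) :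
    (K * η) ^ 2 ≤ K * C + K ^ 2 * δ := by
  have key : ∀ (f g : Ω → ℂ) (hf : MemLp f 2 Q) (hg : MemLp g 2 Q),
      ⟪hf.toLp f, hg.toLp g⟫_ℂ = ∫ ω, g ω * conj (f ω) ∂Q := by
    intro f g hf hg
    rw [L2.inner_def]
    refine integral_congr_ae ?_
    filter_upwards [hf.coeFn_toLp, hg.coeFn_toLp] with ω h1 h2
    rw [h1, h2]; simp
  have h1' : MemLp (fun _ : Ω => (1 : ℂ)) 2 Q := memLp_const 1
  refine bessel (h1'.toLp _) ?_ K (fun j => (hw j).toLp _) η C δ hη hδ ?_ ?_ ?_
  · rw [Lp.norm_toLp, eLpNorm_const _ (by norm_num) (IsProbabilityMeasure.ne_zero Q)]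
    simp
  · intro j hj; rw [key]; simpa using h1 j hj
  · intro j hj; rw [key]; exact h2 j hj
  · intro i j hij hj; rw [key]; exact h3 i j hij hj

/-! ## Mixing for functions -/

theorem weak_star {α ι : Type} [MeasurableSpace α] (ν : Measure α) [IsFiniteMeasure ν]
    (l : Filter ι) (k : ι → α → ℂ) (hk : ∀ i, Measurable (k i)) (C : ℝ)
    (hC : ∀ i x, ‖k i x‖ ≤ C) (c : ℂ)
    (h : ∀ A, MeasurableSet A → Tendsto (fun i => ∫ x in A, k i x ∂ν) l (𝓝 (ν.real A * c)))
    (f : α → ℂ) (hf : Integrable f ν) :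
    Tendsto (fun i => ∫ x, f x * k i x ∂ν) l (𝓝 ((∫ x, f x ∂ν) * c)) := by
  have hint : ∀ (g : α → ℂ), Integrable g ν → ∀ i, Integrable (fun x => g x * k i x) ν :=
    fun g hg i => hg.mul_bdd (hk i).aestronglyMeasurable (.of_forall (hC i))
  revert f
  refine Integrable.induction
    (fun f => Tendsto (fun i => ∫ x, f x * k i x ∂ν) l (𝓝 ((∫ x, f x ∂ν) * c))) ?_ ?_ ?_ ?_
  · intro a s hs _
    have h1 : ∀ i, ∫ x, s.indicator (fun _ => a) x * k i x ∂ν = a * ∫ x in s, k i x ∂ν := by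
      intro i
      rw [← integral_indicator hs, ← integral_const_mul]
      refine integral_congr_ae (.of_forall fun x => ?_)
      by_cases hx : x ∈ s <;> simp [hx]
    simp only [h1]
    rw [integral_indicator_const _ hs]
    have := (h s hs).const_mul a
    convert this using 2
    simp only [Complex.real_smul]; ring
  · intro f g _ hf hg h1 h2
    have := h1.add h2
    simp only [Pi.add_apply, add_mul]
    rw [integral_add hf hg, add_mul]
    refine this.congr fun i => ?_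
    rw [integral_add (hint f hf i) (hint g hg i)]
  · refine isClosed_of_closure_subset fun f hf => ?_
    change Tendsto _ _ _
    rw [Metric.tendsto_nhds]
    intro ε hε
    have hpos : 0 < |C| + ‖c‖ + 1 := by positivity
    obtain ⟨g, hg, hfg⟩ := Metric.mem_closure_iff.1 hf (ε / 2 / (|C| + ‖c‖ + 1)) (by positivity)
    have hg' := Metric.tendsto_nhds.1 hg (ε / 2) (by positivity)
    filter_upwards [hg'] with i hi
    have hfi := L1.integrable_coeFn f
    have hgi := L1.integrable_coeFn g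
    have hd : ∫ x, ‖f x - g x‖ ∂ν = dist f g := by
      rw [L1.dist_eq_integral_dist]; simp [dist_eq_norm]
    have e1 : ‖∫ x, f x * k i x ∂ν - ∫ x, g x * k i x ∂ν‖ ≤ dist f g * |C| := by
      rw [← integral_sub (hint _ hfi i) (hint _ hgi i), ← hd, ← integral_mul_const]
      refine norm_integral_le_of_norm_le ((hfi.sub hgi).norm.mul_const _) (.of_forall fun x => ?_)
      rw [← sub_mul, norm_mul]
      exact mul_le_mul_of_nonneg_left ((hC i x).trans (le_abs_self C)) (norm_nonneg _)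
    have e2 : ‖(∫ x, g x ∂ν) * c - (∫ x, f x ∂ν) * c‖ ≤ dist f g * ‖c‖ := by
      rw [← sub_mul, norm_mul, norm_sub_rev, ← integral_sub hfi hgi, ← hd]
      exact mul_le_mul_of_nonneg_right (norm_integral_le_integral_norm _) (norm_nonneg _)
    rw [dist_eq_norm] at hi ⊢
    have e3 : dist f g * (|C| + ‖c‖ + 1) < ε / 2 := by rwa [lt_div_iff₀ hpos] at hfg
    have e4 : ∫ x, f x * k i x ∂ν - (∫ x, f x ∂ν) * c =
        (∫ x, f x * k i x ∂ν - ∫ x, g x * k i x ∂ν) + (∫ x, g x * k i x ∂ν - (∫ x, g x ∂ν) * c) +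
          ((∫ x, g x ∂ν) * c - (∫ x, f x ∂ν) * c) := by ring
    rw [e4]
    refine (norm_add₃_le).trans_lt ?_
    have := dist_nonneg (x := f) (y := g)
    nlinarith
  · intro f g hfg _ h1
    rw [← integral_congr_ae hfg]
    refine h1.congr fun i => integral_congr_ae ?_
    filter_upwards [hfg] with x hx
    rw [hx]

variable {M : ℕ}

theorem sh_sh (a b : ℤ) (x : Sq M) : sh a (sh b x) = sh (a + b) x := by
  funext t; simp [sh, add_assoc]

theorem sh_zero (x : Sq M) : sh 0 x = x := by funext t; simp [sh]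

theorem integral_sh {ν : Measure (Sq M)} (hν : Proc ν) (h : ℤ) (G : Sq M → ℂ)
    (hG : Measurable G) : ∫ x, G (sh h x) ∂ν = ∫ x, G x ∂ν := by
  have := integral_map (μ := ν) (hν.inv h).measurable.aemeasurable
    (f := G) hG.aestronglyMeasurable
  rw [(hν.inv h).map_eq] at this
  exact this.symm

/-- mixing for a bounded and an integrable function -/
theorem fun_mix {ν : Measure (Sq M)} (hν : Proc ν) (G : Sq M → ℂ) (hG : Measurable G) (C : ℝ)
    (hC : ∀ x, ‖G x‖ ≤ C) (f : Sq M → ℂ) (hf : Integrable f ν) :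
    Tendsto (fun h : ℤ => ∫ x, f x * G (sh h x) ∂ν) cofinite
      (𝓝 ((∫ x, f x ∂ν) * ∫ x, G x ∂ν)) := by
  have := hν.prob
  refine weak_star ν cofinite (fun h x => G (sh h x)) (fun h => hG.comp (hν.inv h).measurable) C
    (fun h x => hC _) _ (fun B hB => ?_) f hf
  have hGi : Integrable G ν := .of_bound hG.aestronglyMeasurable C (.of_forall hC)
  have h1 := weak_star ν cofinite (fun h x => B.indicator (fun _ => (1 : ℂ)) (sh h x))
    (fun h => (measurable_const.indicator hB).comp (hν.inv h).measurable) 1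
    (fun h x => by by_cases hx : sh h x ∈ B <;> simp [hx]) (ν.real B) (fun A hA => ?_) G hGi
  · have hneg : Tendsto (fun h : ℤ => -h) cofinite cofinite :=
      neg_injective.tendsto_cofinite
    rw [mul_comm]
    refine (h1.comp hneg).congr fun h => ?_
    simp only [Function.comp]
    rw [← integral_sh hν h (fun x => G x * B.indicator (fun _ => (1 : ℂ)) (sh (-h) x))
      (hG.mul ((measurable_const.indicator hB).comp (hν.inv (-h)).measurable)),
      ← integral_indicator hB]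
    refine integral_congr_ae (.of_forall fun x => ?_)
    simp only [sh_sh, neg_add_cancel, sh_zero]
    by_cases hx : x ∈ B <;> simp [hx]
  · have h2 := (Complex.continuous_ofReal.tendsto _).comp (hν.mix A B hA hB)
    rw [Complex.ofReal_mul] at h2
    refine h2.congr fun h => ?_
    simp only [Function.comp]
    have hB' : MeasurableSet (sh h ⁻¹' B) := (hν.inv h).measurable hB
    have : (fun x => B.indicator (fun _ => (1 : ℂ)) (sh h x)) =
        (sh h ⁻¹' B).indicator fun _ => (1 : ℂ) := by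
      funext x; by_cases hx : sh h x ∈ B <;> simp [hx]
    rw [this, setIntegral_indicator hB']
    simp

/-! ## The induction -/

section main
variable {Ω : Type} {m0 : MeasurableSpace Ω} {Q : Measure Ω} {ν : Measure (Sq M)}
  {ξ : Ω → Sq M} {χ : ℕ → Ω → ℂ}

theorem integral_xi (hν : Proc ν) (hξ : Measurable ξ) (hlaw : Q.map ξ = ν) (h : ℤ)
    (G : Sq M → ℂ) (hG : Measurable G) : ∫ ω, G (sh h (ξ ω)) ∂Q = ∫ x, G x ∂ν := by
  rw [← integral_sh hν h G hG, ← hlaw]
  exact (integral_map (f := fun x => G (sh h x)) hξ.aemeasurable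
    (hG.comp (hν.inv h).measurable).aestronglyMeasurable).symm

/-- the correlated functions -/
def ww (ξ : Ω → Sq M) (χ : ℕ → Ω → ℂ) (m : ℕ) (G : Sq M → ℂ) (q : ℤ[X]) (t : ℕ) (ω : Ω) : ℂ :=
  G (sh ((m * t : ℕ) : ℤ) (ξ ω)) * conj (mon χ (X ^ (m * t) * q) ω)

theorem measurable_ww (hν : Proc ν) (hξ : Measurable ξ) (hu : ∀ t, Uni m0 (χ t)) (m : ℕ)
    {G : Sq M → ℂ} (hG : Measurable G) (q : ℤ[X]) (t : ℕ) : Measurable (ww ξ χ m G q t) :=
  (hG.comp ((hν.inv _).measurable.comp hξ)).mul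
    (Complex.continuous_conj.measurable.comp (Uni.mon hu _).1)

theorem norm_ww (hu : ∀ t, Uni m0 (χ t)) (m : ℕ) (G : Sq M → ℂ) (q : ℤ[X]) (t : ℕ) (ω : Ω) :
    ‖ww ξ χ m G q t ω‖ = ‖G (sh ((m * t : ℕ) : ℤ) (ξ ω))‖ := by
  rw [ww, norm_mul, Complex.norm_conj, norm_mon (fun s => (hu s).2), mul_one]

theorem ww_mul (hu : ∀ t, Uni m0 (χ t)) (m : ℕ) (G : Sq M → ℂ) (q : ℤ[X]) (a k t : ℕ) (c : ℂ)
    (ω : Ω) : ww ξ χ m G q (a + k + t) ω * conj (ww ξ χ m G q (a + t) ω) =
      ww ξ χ m (fun x => G (sh ((m * (a + k) : ℕ) : ℤ) x) * conj (G (sh ((m * a : ℕ) : ℤ) x)) - c)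
        (X ^ (m * a) * (X ^ (m * k) - 1) * q) t ω +
      c * conj (mon χ (X ^ (m * t) * (X ^ (m * a) * (X ^ (m * k) - 1) * q)) ω) := by
  have h1 : (X : ℤ[X]) ^ (m * t) * (X ^ (m * a) * (X ^ (m * k) - 1) * q) =
      X ^ (m * (a + k + t)) * q - X ^ (m * (a + t)) * q := by ring
  have h2 : ((m * (a + k) : ℕ) : ℤ) + ((m * t : ℕ) : ℤ) = ((m * (a + k + t) : ℕ) : ℤ) := by
    push_cast; ring
  have h3 : ((m * a : ℕ) : ℤ) + ((m * t : ℕ) : ℤ) = ((m * (a + t) : ℕ) : ℤ) := by
    push_cast; ring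
  simp only [ww, h1, sh_sh, h2, h3, mon_sub (fun s => (hu s).2), map_mul]
  ring

theorem vdc_ind [IsProbabilityMeasure Q] (hν : Proc ν) (hξ : Measurable ξ) (hlaw : Q.map ξ = ν)
    (hu : ∀ t, Uni m0 (χ t)) (I : Ideal ℤ[X]) (hI : ∀ p ∈ I, IsC Q (mon χ p)) (m : ℕ) (hm : 0 < m)
    (U : Ultrafilter ℕ)
    (hU : ∀ p : ℕ → Prop, (∀ᶠ t in U, p t) → ∃ᶠ h in atTop, ∀ᶠ t in U, p (h + t)) (d : ℕ) :
    ∀ q : ℤ[X], (X ^ m - 1) ^ d * q ∈ I → ∀ G : Sq M → ℂ, Measurable G → (∃ C, ∀ x, ‖G x‖ ≤ C) →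
      ∫ x, G x ∂ν = 0 → Tendsto (fun t => ∫ ω, ww ξ χ m G q t ω ∂Q) U (𝓝 0) := by
  have := hν.prob
  induction d with
  | zero =>
    intro q hq G hG _ h0
    rw [pow_zero, one_mul] at hq
    have : ∀ t, ∫ ω, ww ξ χ m G q t ω ∂Q = 0 := by
      intro t
      obtain ⟨c, hc⟩ := hI _ (I.mul_mem_left (X ^ (m * t)) hq)
      have h1 : ww ξ χ m G q t =ᵐ[Q] fun ω => G (sh ((m * t : ℕ) : ℤ) (ξ ω)) * conj c := by
        filter_upwards [hc] with ω h
        rw [ww, h]
      rw [integral_congr_ae h1, integral_mul_const, integral_xi hν hξ hlaw _ G hG, h0, zero_mul]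
    simp only [this]
    exact tendsto_const_nhds
  | succ d ih =>
    intro q hq G hG ⟨C, hC⟩ h0
    rw [Metric.tendsto_nhds]
    intro η hη
    by_contra hcon
    have hlarge : ∀ᶠ t in (U : Filter ℕ), η ≤ ‖∫ ω, ww ξ χ m G q t ω ∂Q‖ := by
      rw [← Ultrafilter.eventually_not] at hcon
      filter_upwards [hcon] with t ht
      rwa [dist_zero_right, not_lt] at ht
    obtain ⟨φ, hφ, hφl⟩ := extraction_of_frequently_atTop (hU _ hlarge)
    have hGc : Measurable fun x => conj (G x) := Complex.continuous_conj.measurable.comp hG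
    have hGci : Integrable (fun x => conj (G x)) ν :=
      .of_bound hGc.aestronglyMeasurable C (.of_forall fun x => by simpa using hC x)
    have hmix := fun_mix hν G hG C hC _ hGci
    rw [h0, mul_zero] at hmix
    have hinj : Function.Injective fun k : ℕ => ((m * k : ℕ) : ℤ) := fun k l h =>
      Nat.eq_of_mul_eq_mul_left hm (Nat.cast_injective (R := ℤ) h)
    have hmix2 := hmix.comp hinj.tendsto_cofinite
    rw [Nat.cofinite_eq_atTop] at hmix2
    obtain ⟨L, hL⟩ := eventually_atTop.1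
      (Metric.tendsto_nhds.1 hmix2 (η ^ 2 / 4) (by positivity))
    simp only [Function.comp, dist_zero_right] at hL
    have hC0 : 0 ≤ C := (norm_nonneg _).trans (hC fun _ => 0)
    have hpair : ∀ a k : ℕ, L ≤ k → ∀ᶠ t in (U : Filter ℕ),
        ‖∫ ω, ww ξ χ m G q (a + k + t) ω * conj (ww ξ χ m G q (a + t) ω) ∂Q‖ ≤ η ^ 2 / 2 := by
      intro a k hk
      obtain ⟨c, hc⟩ : ∃ c, c = ∫ x, conj (G x) * G (sh ((m * k : ℕ) : ℤ) x) ∂ν := ⟨_, rfl⟩
      have hcn : ‖c‖ < η ^ 2 / 4 := hc ▸ hL k hk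
      have hP : Measurable fun x =>
          G (sh ((m * (a + k) : ℕ) : ℤ) x) * conj (G (sh ((m * a : ℕ) : ℤ) x)) :=
        (hG.comp (hν.inv _).measurable).mul (hGc.comp (hν.inv _).measurable)
      have hPb : ∀ x, ‖G (sh ((m * (a + k) : ℕ) : ℤ) x) * conj (G (sh ((m * a : ℕ) : ℤ) x))‖ ≤
          C * C := fun x => by
        rw [norm_mul, Complex.norm_conj]
        exact mul_le_mul (hC _) (hC _) (norm_nonneg _) hC0
      have hG' : Measurable fun x =>
          G (sh ((m * (a + k) : ℕ) : ℤ) x) * conj (G (sh ((m * a : ℕ) : ℤ) x)) - c :=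
        hP.sub_const c
      have hG'b : ∀ x, ‖G (sh ((m * (a + k) : ℕ) : ℤ) x) * conj (G (sh ((m * a : ℕ) : ℤ) x)) - c‖ ≤
          C * C + ‖c‖ := fun x => (norm_sub_le _ _).trans (add_le_add (hPb x) le_rfl)
      have hq' : (X ^ m - 1) ^ d * (X ^ (m * a) * (X ^ (m * k) - 1) * q) ∈ I := by
        obtain ⟨r, hr⟩ : (X ^ m - 1 : ℤ[X]) ∣ X ^ (m * k) - 1 := by
          rw [pow_mul]; exact sub_one_dvd_pow_sub_one _ _
        have : (X ^ m - 1) ^ d * (X ^ (m * a) * (X ^ (m * k) - 1) * q) =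
            (X ^ (m * a) * r) * ((X ^ m - 1) ^ (d + 1) * q) := by rw [hr]; ring
        rw [this]
        exact I.mul_mem_left _ hq
      have h0' : ∫ x, (G (sh ((m * (a + k) : ℕ) : ℤ) x) * conj (G (sh ((m * a : ℕ) : ℤ) x)) - c) ∂ν
          = 0 := by
        rw [integral_sub (.of_bound hP.aestronglyMeasurable _ (.of_forall hPb)) (integrable_const c),
          integral_const, probReal_univ, one_smul, hc, sub_eq_zero,
          ← integral_sh hν ((m * a : ℕ) : ℤ)
            (fun x => conj (G x) * G (sh ((m * k : ℕ) : ℤ) x))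
            (hGc.mul (hG.comp (hν.inv _).measurable))]
        refine integral_congr_ae (.of_forall fun x => ?_)
        have h2 : ((m * k : ℕ) : ℤ) + ((m * a : ℕ) : ℤ) = ((m * (a + k) : ℕ) : ℤ) := by
          push_cast; ring
        simp only [sh_sh, h2]
        ring
      have hlim := ih _ hq' _ hG' ⟨_, hG'b⟩ h0'
      filter_upwards [Metric.tendsto_nhds.1 hlim (η ^ 2 / 4) (by positivity)] with t ht
      rw [dist_zero_right] at ht
      have hm1 : Measurable fun ω =>
          c * conj (mon χ (X ^ (m * t) * (X ^ (m * a) * (X ^ (m * k) - 1) * q)) ω) :=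
        (Complex.continuous_conj.measurable.comp (Uni.mon hu _).1).const_mul c
      have hb1 : ∀ ω, ‖c * conj (mon χ (X ^ (m * t) * (X ^ (m * a) * (X ^ (m * k) - 1) * q)) ω)‖ ≤
          ‖c‖ := fun ω => by
        rw [norm_mul, Complex.norm_conj, norm_mon (fun s => (hu s).2), mul_one]
      simp only [ww_mul hu m G q a k t c]
      rw [integral_add
        (.of_bound (measurable_ww hν hξ hu m hG' _ t).aestronglyMeasurable (C * C + ‖c‖)
          (.of_forall fun ω => by rw [norm_ww hu]; exact hG'b _))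
        (.of_bound hm1.aestronglyMeasurable _ (.of_forall hb1))]
      have h5 := norm_integral_le_of_norm_le_const (μ := Q) (.of_forall hb1)
      rw [probReal_univ, mul_one] at h5
      refine (norm_add_le _ _).trans ?_
      linarith
    obtain ⟨K, hK⟩ := exists_nat_gt (2 * (C * C) / η ^ 2)
    have hall : ∀ᶠ t in (U : Filter ℕ),
        (∀ j ∈ Finset.range K, η ≤ ‖∫ ω, ww ξ χ m G q (φ (j * L) + t) ω ∂Q‖) ∧
        ∀ j ∈ Finset.range K, ∀ i ∈ Finset.range j,
          ‖∫ ω, ww ξ χ m G q (φ (j * L) + t) ω * conj (ww ξ χ m G q (φ (i * L) + t) ω) ∂Q‖ ≤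
            η ^ 2 / 2 := by
      refine ((Finset.eventually_all _).2 fun j _ => hφl _).and
        ((Finset.eventually_all _).2 fun j _ => (Finset.eventually_all _).2 fun i hi => ?_)
      have hij : i + 1 ≤ j := Finset.mem_range.1 hi
      have h1 : L + φ (i * L) ≤ φ (j * L) :=
        (hφ.add_le_nat L (i * L)).trans (hφ.monotone (by nlinarith))
      have h2 := hpair (φ (i * L)) (φ (j * L) - φ (i * L)) (by omega)
      rwa [show φ (i * L) + (φ (j * L) - φ (i * L)) = φ (j * L) by omega] at h2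
    obtain ⟨t, ht1, ht2⟩ := hall.exists
    have hb := bessel_int Q K (fun j => ww ξ χ m G q (φ (j * L) + t))
      (fun j => .of_bound (measurable_ww hν hξ hu m hG _ _).aestronglyMeasurable C
        (.of_forall fun ω => by rw [norm_ww hu]; exact hC _))
      η (C * C) (η ^ 2 / 2) hη.le (by positivity) (fun j hj => ht1 j (Finset.mem_range.2 hj))
      (fun j _ => by
        have := norm_integral_le_of_norm_le_const (μ := Q) (C := C * C)
          (f := fun ω => ww ξ χ m G q (φ (j * L) + t) ω * conj (ww ξ χ m G q (φ (j * L) + t) ω))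
          (.of_forall fun ω => by
            rw [norm_mul, Complex.norm_conj, norm_ww hu]
            exact mul_le_mul (hC _) (hC _) (norm_nonneg _) hC0)
        rwa [probReal_univ, mul_one] at this)
      (fun i j hij hj => ht2 j (Finset.mem_range.2 hj) i (Finset.mem_range.2 hij))
    have hη2 : 0 < η ^ 2 := by positivity
    rw [div_lt_iff₀ hη2] at hK
    have hK0 : (0 : ℝ) < K := by
      by_contra h
      have : (K : ℝ) = 0 := le_antisymm (not_lt.1 h) (Nat.cast_nonneg K)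
      rw [this] at hK
      nlinarith
    nlinarith

end main

end Vdc

open Vdc in
theorem vdcStmt : VdcStmt := by
  intro Ω m0 Q _ M ν ξ F η χ hν hξ hlaw hF h0 hη hch m d hm hc
  obtain ⟨U, hU⟩ := exists_rec
  have h := vdc_ind hν hξ hlaw hch.uni
    (relIdeal Q χ (fun s => (hch.uni s).2) fun p => (hch.shift p).1) (fun p hp => hp) m hm U hU d 1
    (by rw [mul_one]; exact hc) F hF.1 ⟨1, hF.2.2⟩ h0
  obtain ⟨t, ht⟩ := (Metric.tendsto_nhds.1 h η hη).exists
  rw [dist_zero_right] at ht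
  have h2 := hch.corr (m * t)
  simp only [ww, mul_one, mon_X_pow] at ht
  linarith

end Crest.Agent.R69
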