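import Crest.Agent.R69.Alg
import Crest.Agent.R69.Arr
import Crest.Agent.R69.Asm0
import Crest.Agent.R69.Chain
import Crest.Agent.R69.Comm
import Crest.Agent.R69.Desc
import Crest.Agent.R69.Ent
import Crest.Agent.R69.Grid
import Crest.Agent.R69.Hyp1
import Crest.Agent.R69.Hyp2
import Crest.Agent.R69.LE
import Crest.Agent.R69.Link
import Crest.Agent.R69.LLN
import Crest.Agent.R69.Pair
import Crest.Agent.R69.Pinsk
import Crest.Agent.R69.Red0
import Crest.Agent.R69.Riesz
import Crest.Agent.R69.Step
import Crest.Agent.R69.Str
import Crest.Agent.R69.TL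
import Crest.Agent.R69.Tri
import Crest.Agent.R69.Vdc

set_option autoImplicit false

namespace Crest.Agent.R69

theorem pair_all : PairStmt := pairStmt (gridStmt triStmt commStmt)

theorem final_all : FinalStmt := finalStmt rieszStmt vdcStmt

theorem step_all : StepStmt :=
  stepStmt (linkStmt mv1Stmt fubStmt) (hyp1Stmt mv1Stmt) (hyp2Stmt leStmt fubStmt) tlStmt
    (llnStmt tlStmt) descStmt (chainStmt (strStmt pair_all)) final_all

theorem main0 : Main0 := asm0 arrStmt step_all

theorem main1 : Main1 := pinsk entStmt main0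

end Crest.Agent.R69
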