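import Crest.Agent.R69.CI

/-! # Row 69: transfer to the fibres -/

set_option autoImplicit false
open MeasureTheory ProbabilityTheory Filter Set Topology
open scoped ENNReal InnerProductSpace ComplexConjugate

noncomputable section
namespace Crest.Agent.R69
namespace TL

/-- a countable `π`-system generating the cylinder events -/
lemma exists_pi {ι : Type} [Countable ι] (M : ℕ) (S : Set ι) : ∃ 𝒮 : Set (Set (ι → Al M)),
    𝒮.Countable ∧ IsPiSystem 𝒮 ∧
      cylinderEvents (X := fun _ : ι => Al M) S = MeasurableSpace.generateFrom 𝒮 ∧ univ ∈ 𝒮 := by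
  set 𝒜 : Set (Set (ι → Al M)) :=
    (fun p : ι × Al M => {ω : ι → Al M | ω p.1 = p.2}) '' {p | p.1 ∈ S} with h𝒜
  refine ⟨generateSetAlgebra 𝒜, countable_generateSetAlgebra ((Set.to_countable _).image _),
    isSetAlgebra_generateSetAlgebra.isSetRing.isSetSemiring.isPiSystem, ?_,
    isSetAlgebra_generateSetAlgebra.univ_mem⟩
  rw [generateFrom_generateSetAlgebra_eq]
  refine le_antisymm (iSup₂_le fun t ht => ?_) (MeasurableSpace.generateFrom_le ?_)
  · refine Measurable.comap_le (@measurable_to_countable' _ _ _ _ (_) _ fun a => ?_)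
    exact MeasurableSpace.measurableSet_generateFrom ⟨(t, a), ht, rfl⟩
  · rintro _ ⟨⟨t, a⟩, ht, rfl⟩
    exact measurable_cylinderEvent_apply (X := fun _ : ι => Al M) ht (measurableSet_singleton a)

variable {M : ℕ} {P : Measure (Om M)} [IsProbabilityMeasure P] {W : Set Pos}

lemma sg_le (S : Set Pos) : sg M S ≤ MeasurableSpace.pi := cylinderEvents_le_pi

lemma ae_ae {p : Om M → Prop} (h : ∀ᵐ ω ∂P, p ω) : ∀ᵐ ω ∂P, ∀ᵐ ω' ∂fib P W ω, p ω' := by
  refine ae_of_ae_trim (sg_le W) (Measure.ae_ae_of_ae_comp (κ := condExpKernel P (sg M W)) ?_)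
  rwa [condExpKernel_comp_trim (sg_le W)]

lemma ae_base : ∀ᵐ ω ∂P, ∀ᵐ ω' ∂fib P W ω, ∀ x ∈ W, ω' x = ω x := by
  have h : ∀ x ∈ W, ∀ a : Al M, ∀ᵐ ω ∂P, ω x = a → ∀ᵐ ω' ∂fib P W ω, ω' x = a := by
    intro x hx a
    have hm : MeasurableSet[sg M W] {ω : Om M | ω x = a} :=
      measurable_cylinderEvent_apply (X := fun _ : Pos => Al M) hx (measurableSet_singleton a)
    have h1 := condExpKernel_ae_eq_condExp (μ := P) (sg_le W) (sg_le W _ hm.compl)
    rw [condExp_of_stronglyMeasurable (sg_le W) (stronglyMeasurable_const.indicator hm.compl)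
      ((integrable_const _).indicator (sg_le W _ hm.compl))] at h1
    filter_upwards [h1] with ω e hω
    rw [indicator_of_notMem (by simpa using hω), measureReal_eq_zero_iff] at e
    exact e
  have h2 : ∀ᵐ ω ∂P, ∀ x ∈ W, ∀ᵐ ω' ∂fib P W ω, ω' x = ω x := by
    rw [ae_ball_iff (Set.to_countable W)]
    intro x hx
    filter_upwards [ae_all_iff.2 (h x hx)] with ω hω using hω _ rfl
  filter_upwards [h2] with ω hω using (ae_ball_iff (Set.to_countable W)).2 hω

lemma ae_mem {S : Set Pos} {h : Om M → ℂ} (hh : Measurable[sg M (W ∪ S)] h) :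
    ∀ᵐ ω ∂P, tl (fib P W ω) h ∈ L2 (fib P W ω) (sg M S) := by
  classical
  filter_upwards [ae_base (P := P) (W := W)] with ω hω
  have hg : @Measurable _ _ (sg M S) (sg M (W ∪ S))
      fun (ω' : Om M) (x : Pos) => if x ∈ W then ω x else ω' x := by
    refine (@measurable_cylinderEvents_iff _ _ _ (sg M S) ..).2 fun x hx => ?_
    by_cases hW : x ∈ W
    · simp only [hW, if_true]; exact measurable_const
    · simp only [hW, if_false]
      exact measurable_cylinderEvent_apply (X := fun _ : Pos => Al M) (hx.resolve_left hW)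
  refine tl_mem_L2 ((hh.comp hg).stronglyMeasurable.aestronglyMeasurable.congr ?_)
  filter_upwards [hω] with ω' e
  refine congrArg h (funext fun x => ?_)
  dsimp only
  split_ifs with hW
  · exact (e x hW).symm
  · rfl

lemma ae_integral {φ : Om M → ℂ} (hφ : Bdd inferInstance φ) {c : ℂ}
    (h : Pr P (sg M W) (tl P φ) = tl P fun _ => c) : ∀ᵐ ω ∂P, ∫ ω', φ ω' ∂fib P W ω = c := by
  have h1 := coe_Pr_tl (Q := P) (sg_le W) (hφ.memLp 2)
  rw [h] at h1
  filter_upwards [h1, (Bdd.const (m := inferInstance) c).coe_tl (Q := P),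
    condExp_ae_eq_integral_condExpKernel (μ := P) (sg_le W) hφ.integrable] with ω e1 e2 e3
  exact e3.symm.trans (e1.symm.trans e2)

lemma part1 (φ : Om M → ℂ) (S : Set Pos) (hφ : Bdd inferInstance φ) :
    ∃ h, Bdd (sg M (W ∪ S)) h ∧ Pr P (sg M (W ∪ S)) (tl P φ) = tl P h ∧
      ∀ᵐ ω ∂P, Pr (fib P W ω) (sg M S) (tl (fib P W ω) φ) = tl (fib P W ω) h := by
  obtain ⟨h, hh, hP⟩ := exists_bdd_Pr (Q := P) (sg_le (W ∪ S)) hφ
  refine ⟨h, hh, hP, ?_⟩
  have hh0 := hh.mono (sg_le _)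
  obtain ⟨𝒮, hc, hpi, hgen, huniv⟩ := exists_pi M S
  have hmeas : ∀ A ∈ 𝒮, MeasurableSet[sg M S] A := fun A hA =>
    hgen.ge _ (MeasurableSpace.measurableSet_generateFrom hA)
  have h1 : ∀ A ∈ 𝒮, ∀ᵐ ω ∂P,
      ∫ ω', A.indicator (fun _ => (1 : ℂ)) ω' * (φ ω' - h ω') ∂fib P W ω = 0 := by
    intro A hA
    have hi := Bdd.indicator (hmeas A hA)
    have hi0 := hi.mono (sg_le _)
    refine ae_integral (hi0.mul (hφ.sub hh0)) ?_
    rw [← Pr_Pr_of_ge (sg_le W) (sg_le (W ∪ S)) (L2_mono (cylinderEvents_mono subset_union_left)),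
      ← Mop_tl hi0 ((hφ.sub hh0).memLp 2), Pr_Mop (sg_le _) hi0
        (hi.mono (cylinderEvents_mono subset_union_right)).tl_mem,
      tl_sub (hφ.memLp 2) (hh0.memLp 2), map_sub, hP, Pr_eq_self (sg_le _) hh.tl_mem, sub_self,
      map_zero, map_zero, tl_zero]
  filter_upwards [(ae_ball_iff hc).2 h1, ae_mem (P := P) hh.1] with ω e1 e2
  have h2 : Pr (fib P W ω) (sg M S) (tl (fib P W ω) fun ω' => φ ω' - h ω') = 0 := by
    refine eq_zero_of_piSystem (sg_le S) hpi hgen huniv (Pr_mem _) fun A hA => ?_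
    have hi := Bdd.indicator (hmeas A hA)
    rw [← inner_tl_indicator (sg_le S _ (hmeas A hA)), inner_Pr_of_mem (sg_le S) hi.tl_mem,
      inner_tl ((hi.mono (sg_le _)).memLp 2) ((hφ.sub hh0).memLp 2), ← e1 A hA]
    refine integral_congr_ae (.of_forall fun ω' => ?_)
    by_cases h : ω' ∈ A <;> simp [h]
  rwa [tl_sub (hφ.memLp 2) (hh0.memLp 2), map_sub, Pr_eq_self (sg_le _) e2, sub_eq_zero] at h2

lemma part2 (U S S' : Set Pos) (hCI : CI P (sg M U) (sg M (W ∪ S)) (sg M (W ∪ S'))) :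
    ∀ᵐ ω ∂P, CI (fib P W ω) (sg M U) (sg M S) (sg M S') := by
  obtain ⟨𝒮, hc, hpi, hgen, huniv⟩ := exists_pi M U
  have h1 : ∀ A ∈ 𝒮, ∀ᵐ ω ∂P,
      Pr (fib P W ω) (sg M S') (tl (fib P W ω) (A.indicator fun _ => (1 : ℂ))) =
        Pr (fib P W ω) (sg M S) (tl (fib P W ω) (A.indicator fun _ => (1 : ℂ))) := by
    intro A hA
    have hi := Bdd.indicator (m := sg M U)
      (hgen.ge _ (MeasurableSpace.measurableSet_generateFrom hA))
    obtain ⟨h, hh, hP, he⟩ := part1 (P := P) (W := W) _ S (hi.mono (sg_le _))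
    obtain ⟨h', hh', hP', he'⟩ := part1 (P := P) (W := W) _ S' (hi.mono (sg_le _))
    have h2 : h' =ᵐ[P] h := ae_eq_of_tl_eq ((hh'.mono (sg_le _)).memLp 2)
      ((hh.mono (sg_le _)).memLp 2) (by rw [← hP, ← hP', hCI _ hi.tl_mem])
    filter_upwards [he, he', ae_ae (W := W) h2] with ω e1 e2 e3
    rw [e1, e2, tl_congr e3]
  filter_upwards [(ae_ball_iff hc).2 h1] with ω e
  exact CI.of_piSystem (sg_le U) hpi hgen huniv e

lemma part3 (hI : Indep (sg M X0) (sg M W) P) : ∀ᵐ ω ∂P, (fib P W ω).map xs = P.map xs := by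
  obtain ⟨𝒮, hc, hpi, hgen, huniv⟩ := exists_pi M (univ : Set ℤ)
  rw [cylinderEvents_univ] at hgen
  have hx : Measurable[sg M X0] (xs : Om M → Sq M) :=
    @measurable_pi_lambda _ _ _ (sg M X0) _ _ fun t =>
      measurable_cylinderEvent_apply (X := fun _ : Pos => Al M) (i := (t, 0)) rfl
  have hx0 : Measurable (xs : Om M → Sq M) := hx.mono (sg_le _) le_rfl
  have hmeas : ∀ A ∈ 𝒮, MeasurableSet A := fun A hA =>
    hgen ▸ MeasurableSpace.measurableSet_generateFrom hA
  have h1 : ∀ A ∈ 𝒮, ∀ᵐ ω ∂P, (fib P W ω).map xs A = P.map xs A := by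
    intro A hA
    have hm := hx (hmeas A hA)
    have h2 := condExp_indep_eq (μ := P) (sg_le X0) (sg_le W)
      ((stronglyMeasurable_const (b := (1 : ℝ))).indicator hm) hI
    filter_upwards [condExpKernel_ae_eq_condExp (μ := P) (sg_le W) (sg_le X0 _ hm), h2]
      with ω e1 e2
    rw [Measure.map_apply hx0 (hmeas A hA), Measure.map_apply hx0 (hmeas A hA),
      ← ENNReal.toReal_eq_toReal_iff' (measure_ne_top _ _) (measure_ne_top _ _)]
    refine (e1.trans e2).trans ?_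
    rw [integral_indicator_const _ (sg_le X0 _ hm), smul_eq_mul, mul_one, measureReal_def]
  filter_upwards [(ae_ball_iff hc).2 h1] with ω e
  exact ext_of_generate_finite 𝒮 hgen hpi e (e _ huniv)

end TL

theorem tlStmt : TLStmt := fun _ _ _ _ => ⟨TL.part1, TL.part2, TL.part3⟩

end Crest.Agent.R69
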